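import Crest.Agent.R217.A1Esc

/-! # Row 217, part A1: Gleason's convolution trick -/

set_option autoImplicit false
open Filter Topology Set MeasureTheory

namespace Crest.Agent.R217

lemma a1_int_bound {G : Type*} [MeasurableSpace G] {μ : Measure G} {K : Set G}
    (hK : MeasurableSet K) (hμ : μ K = 1) {F : G → ℝ} {c : ℝ} (h1 : ∀ y ∈ K, |F y| ≤ c)
    (h2 : ∀ y, y ∉ K → F y = 0) : (Measurable F → Integrable F μ) ∧ |∫ y, F y ∂μ| ≤ c := by
  have hi : Integrable (K.indicator fun _ => c) μ :=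
    (integrable_indicator_iff hK).2 (integrableOn_const (by simp [hμ]))
  have hb : ∀ᵐ y ∂μ, ‖F y‖ ≤ K.indicator (fun _ => c) y := Eventually.of_forall fun y => by
    by_cases hy : y ∈ K
    · rw [indicator_of_mem hy]; exact h1 y hy
    · rw [indicator_of_notMem hy, h2 y hy, norm_zero]
  refine ⟨fun hF => hi.mono' hF.aestronglyMeasurable hb, ?_⟩
  have := norm_integral_le_of_norm_le hi hb
  rwa [integral_indicator_const _ hK, measureReal_def, hμ, ENNReal.toReal_one, one_smul] at this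

theorem a1_conv {G : Type*} [Group G] [TopologicalSpace G] [IsTopologicalGroup G] [T2Space G]
    [LocallyCompactSpace G] {K U : Set G} (hK : IsCompact K) (hU : IsOpen U) (h1 : (1 : G) ∈ U)
    (hs : ∀ x ∈ U, x⁻¹ ∈ U) (h4 : ∀ a ∈ U, ∀ b ∈ U, ∀ c ∈ U, ∀ d ∈ U, a * b * c * d ∈ K) :
    ∃ κ : ℝ, 0 < κ ∧ ∀ N N' : G → ℝ, a1_SN N → a1_SN N' → (∀ g, N g < 1 → g ∈ U) →
      (∀ g, N' g < 1 → g ∈ U) → ∃ φ : G → ℝ, (∀ x y, |φ x - φ y| ≤ 1) ∧
        (∀ g, |φ g - φ 1| < κ → g ∈ K) ∧ ∀ g ∈ U, ∀ (h : G) (b : ℝ),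
          (∀ y ∈ K, N' (y⁻¹ * h * y) ≤ b) →
          ∀ x, |φ (g * (h * x)) - φ (h * x) - (φ (g * x) - φ x)| ≤ N g * b := by
  let _ : MeasurableSpace G := borel G
  have _ : BorelSpace G := ⟨rfl⟩
  have hUK : U ⊆ K := fun x hx => by simpa using h4 x hx 1 h1 1 h1 1 h1
  obtain ⟨μ, hμH, hμ⟩ : ∃ μ : Measure G, μ.IsHaarMeasure ∧ μ K = 1 :=
    ⟨Measure.haarMeasure ⟨⟨K, hK⟩, ⟨1, interior_maximal hUK hU h1⟩⟩, inferInstance,
      Measure.haarMeasure_self⟩
  have hKm := hK.measurableSet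
  have hfin : μ U ≠ ⊤ := ((measure_mono hUK).trans_lt (by simp [hμ])).ne
  refine ⟨μ.real U, ENNReal.toReal_pos (hU.measure_pos μ ⟨1, h1⟩).ne' hfin,
    fun N N' hN hN' hNU hNU' => ?_⟩
  obtain ⟨ψ, mψ, ψ0, ψ1, ψU, ψs, ψl⟩ := a1_bump hU h1 hN hNU
  obtain ⟨η, mη, η0, η1, ηU, ηs, ηl⟩ := a1_bump hU h1 hN' hNU'
  have hz : ∀ g ∈ U, ∀ y, y ∉ K → ψ (g * y) = 0 := fun g hg y hy => by
    by_contra hne
    obtain ⟨a, ha, b, hb, e⟩ := ψs _ hne
    refine hy ?_
    have := h4 _ (hs g hg) a ha b hb 1 h1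
    rwa [mul_one, mul_assoc, ← e, inv_mul_cancel_left] at this
  have hz1 : ∀ y, y ∉ K → ψ y = 0 := fun y hy => by simpa using hz 1 h1 y hy
  have hB : ∀ g ∈ U, ∀ x, Integrable (fun y => ψ (g * y) * η (y⁻¹ * x)) μ ∧
      |∫ y, ψ (g * y) * η (y⁻¹ * x) ∂μ| ≤ 1 := fun g hg x => by
    have := a1_int_bound hKm hμ (F := fun y => ψ (g * y) * η (y⁻¹ * x)) (c := 1)
      (fun y _ => by
        rw [abs_of_nonneg (mul_nonneg (ψ0 _) (η0 _))]
        exact mul_le_one₀ (ψ1 _) (η0 _) (η1 _))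
      (fun y hy => by rw [hz g hg y hy, zero_mul])
    exact ⟨this.1 ((mψ.comp (Continuous.measurable (by fun_prop))).mul
      (mη.comp (Continuous.measurable (by fun_prop)))), this.2⟩
  have hB1 : ∀ x, Integrable (fun y => ψ y * η (y⁻¹ * x)) μ ∧
      |∫ y, ψ y * η (y⁻¹ * x) ∂μ| ≤ 1 := fun x => by simpa only [one_mul] using hB 1 h1 x
  have hpos : ∀ x, 0 ≤ ∫ y, ψ y * η (y⁻¹ * x) ∂μ := fun x =>
    integral_nonneg fun y => mul_nonneg (ψ0 _) (η0 _)
  have htr : ∀ g x, ∫ y, ψ y * η (y⁻¹ * (g * x)) ∂μ = ∫ y, ψ (g * y) * η (y⁻¹ * x) ∂μ :=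
    fun g x => by
      rw [← integral_mul_left_eq_self (fun y => ψ y * η (y⁻¹ * (g * x))) g]
      simp only [mul_inv_rev, mul_assoc, inv_mul_cancel_left]
  refine ⟨fun x => ∫ y, ψ y * η (y⁻¹ * x) ∂μ, fun x y => ?_, fun g hg => ?_,
    fun g hg h b hb x => ?_⟩
  · have a1 := (abs_le.1 (hB1 x).2).2
    have a2 := (abs_le.1 (hB1 y).2).2
    rw [abs_le]
    constructor <;> linarith [hpos x, hpos y]
  · by_contra hgK
    have a1 : ∀ y, ψ y * η (y⁻¹ * g) = 0 := fun y => by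
      by_contra hne
      obtain ⟨a, ha, b, hb, e⟩ := ψs _ (left_ne_zero_of_mul hne)
      obtain ⟨c, hc, d, hd, e'⟩ := ηs _ (right_ne_zero_of_mul hne)
      have := h4 a ha b hb c hc d hd
      rw [mul_assoc, ← e, ← e', mul_inv_cancel_left] at this
      exact hgK this
    have a2 : μ.real U ≤ ∫ y, ψ y * η (y⁻¹ * 1) ∂μ := by
      have a3 := integral_mono (μ := μ) (f := U.indicator fun _ => (1 : ℝ))
        ((integrable_indicator_iff hU.measurableSet).2 (integrableOn_const hfin)) (hB1 1).1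
        fun y => by
          by_cases hy : y ∈ U
          · simp only [indicator_of_mem hy, mul_one, ψU y hy, ηU _ (hs y hy), le_refl]
          · rw [indicator_of_notMem hy]
            exact mul_nonneg (ψ0 _) (η0 _)
      rwa [integral_indicator_const _ hU.measurableSet, smul_eq_mul, mul_one] at a3
    simp only [a1, integral_zero, zero_sub, abs_neg] at hg
    exact absurd (a2.trans (le_abs_self _)) (not_le.2 hg)
  · have hI : ∀ x, Integrable (fun y => ψ (g * y) * η (y⁻¹ * x) - ψ y * η (y⁻¹ * x)) μ :=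
      fun x => (hB g hg x).1.sub (hB1 x).1
    beta_reduce
    rw [htr g (h * x), htr g x, ← integral_sub (hB g hg _).1 (hB1 _).1,
      ← integral_sub (hB g hg _).1 (hB1 _).1,
      ← integral_sub (hI _) (hI _)]
    refine (a1_int_bound hKm hμ (fun y hy => ?_) fun y hy => ?_).2
    · have e : y⁻¹ * (h * x) = y⁻¹ * h * y * (y⁻¹ * x) := by group
      have a1 := mul_le_mul (ψl g y) ((ηl (y⁻¹ * h * y) (y⁻¹ * x)).trans (hb y hy))
        (abs_nonneg _) (hN.nonneg g)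
      rw [← abs_mul, ← e] at a1
      refine le_trans (le_of_eq ?_) a1
      congr 1
      ring
    · simp [hz g hg y hy, hz1 y hy]

end Crest.Agent.R217
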