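import Crest.Agent.R217.ADefs

/-! # Row 217, part A1: escape norms, word norms, bump functions -/

set_option autoImplicit false
open Filter Topology Set

namespace Crest.Agent.R217

section alg
variable {G : Type*} [Group G]

/-- the escape norm: the reciprocal of the first exit time of the powers of `g` from `U` -/
noncomputable def a1_esc (U : Set G) (g : G) : ℝ :=
  sInf {a : ℝ | 0 ≤ a ∧ ∀ n : ℕ, (n : ℝ) * a < 1 → g ^ n ∈ U}

lemma a1_esc_le {U : Set G} {g : G} {a : ℝ} (ha : 0 ≤ a)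
    (h : ∀ n : ℕ, (n : ℝ) * a < 1 → g ^ n ∈ U) : a1_esc U g ≤ a :=
  csInf_le ⟨0, fun _ hb => hb.1⟩ ⟨ha, h⟩

lemma a1_esc_nonneg (U : Set G) (g : G) : 0 ≤ a1_esc U g := Real.sInf_nonneg fun _ hb => hb.1

lemma a1_one_mem_set {U : Set G} (h1 : (1 : G) ∈ U) (g : G) (n : ℕ) (hn : (n : ℝ) * 1 < 1) :
    g ^ n ∈ U := by
  have : n = 0 := by
    rw [mul_one] at hn
    exact_mod_cast Nat.lt_one_iff.1 (by exact_mod_cast hn)
  rw [this, pow_zero]
  exact h1

lemma a1_esc_le_one {U : Set G} (h1 : (1 : G) ∈ U) (g : G) : a1_esc U g ≤ 1 :=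
  a1_esc_le zero_le_one (a1_one_mem_set h1 g)

lemma a1_pow_mem {U : Set G} (h1 : (1 : G) ∈ U) {g : G} {n : ℕ}
    (h : (n : ℝ) * a1_esc U g < 1) : g ^ n ∈ U := by
  rcases Nat.eq_zero_or_pos n with rfl | hn
  · rwa [pow_zero]
  have hn' : (0 : ℝ) < n := by exact_mod_cast hn
  rw [← lt_div_iff₀' hn'] at h
  obtain ⟨a, ha, hlt⟩ := exists_lt_of_csInf_lt
    (s := {a : ℝ | 0 ≤ a ∧ ∀ n : ℕ, (n : ℝ) * a < 1 → g ^ n ∈ U})
    ⟨1, zero_le_one, a1_one_mem_set h1 g⟩ h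
  exact ha.2 n ((lt_div_iff₀' hn').1 hlt)

lemma a1_mem_of_lt {U : Set G} (h1 : (1 : G) ∈ U) {g : G} (h : a1_esc U g < 1) : g ∈ U := by
  have := a1_pow_mem h1 (g := g) (n := 1) (by simpa using h)
  rwa [pow_one] at this

lemma a1_esc_one {U : Set G} (h1 : (1 : G) ∈ U) : a1_esc U 1 = 0 :=
  le_antisymm (a1_esc_le le_rfl fun n _ => by rwa [one_pow]) (a1_esc_nonneg _ _)

lemma a1_esc_inv {U : Set G} (hs : ∀ x ∈ U, x⁻¹ ∈ U) (g : G) : a1_esc U g⁻¹ = a1_esc U g := by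
  unfold a1_esc
  congr 1
  ext a
  refine and_congr_right fun _ => forall_congr' fun n => imp_congr_right fun _ => ?_
  rw [inv_pow]
  exact ⟨fun h => by simpa using hs _ h, hs _⟩

lemma a1_esc_mono {U V : Set G} (h1 : (1 : G) ∈ U) (h : U ⊆ V) (g : G) :
    a1_esc V g ≤ a1_esc U g :=
  a1_esc_le (a1_esc_nonneg _ _) fun _ hn => h (a1_pow_mem h1 hn)

lemma a1_esc_conj {U V : Set G} (h1 : (1 : G) ∈ V) {y : G} (h : ∀ g ∈ V, y⁻¹ * g * y ∈ U) (g : G) :
    a1_esc U (y⁻¹ * g * y) ≤ a1_esc V g :=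
  a1_esc_le (a1_esc_nonneg _ _) fun n hn => by
    have e : (y⁻¹ * g * y) ^ n = y⁻¹ * g ^ n * y := by
      have := conj_pow (a := y⁻¹) (b := g) (i := n)
      rwa [inv_inv] at this
    rw [e]
    exact h _ (a1_pow_mem h1 hn)

/-- the escape property -/
lemma a1_esc_pow {U V : Set G} (h1 : (1 : G) ∈ V) (h : ∀ v ∈ V, ∀ w ∈ V, v * w ∈ U) {g : G} {n : ℕ}
    (hn : (n : ℝ) * a1_esc V g < 1) : (n : ℝ) * a1_esc U g ≤ a1_esc V (g ^ n) := by
  rcases Nat.eq_zero_or_pos n with rfl | hpos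
  · simpa using a1_esc_nonneg V 1
  have hn' : (0 : ℝ) < n := by exact_mod_cast hpos
  rw [← le_div_iff₀' hn']
  refine a1_esc_le (div_nonneg (a1_esc_nonneg _ _) hn'.le) fun k hk => ?_
  rw [← Nat.div_add_mod k n, pow_add, pow_mul]
  refine h _ (a1_pow_mem h1 (lt_of_le_of_lt ?_ hk)) _ (a1_pow_mem h1 (lt_of_le_of_lt ?_ hn))
  · rw [mul_div_assoc', mul_comm (k : ℝ), mul_div_assoc, mul_comm]
    exact mul_le_mul_of_nonneg_left Nat.cast_div_le (a1_esc_nonneg _ _)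
  · exact mul_le_mul_of_nonneg_right (by exact_mod_cast (Nat.mod_lt k hpos).le) (a1_esc_nonneg _ _)

/-- group seminorms -/
structure a1_SN (N : G → ℝ) : Prop where
  nonneg : ∀ g, 0 ≤ N g
  map_one : N 1 = 0
  map_inv : ∀ g, N g⁻¹ = N g
  mul_le : ∀ g h, N (g * h) ≤ N g + N h

lemma a1_SN.const_mul {N : G → ℝ} (h : a1_SN N) {c : ℝ} (hc : 0 ≤ c) : a1_SN fun g => c * N g :=
  ⟨fun g => mul_nonneg hc (h.nonneg g), by rw [h.map_one, mul_zero], fun g => by rw [h.map_inv],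
    fun g k => by rw [← mul_add]; exact mul_le_mul_of_nonneg_left (h.mul_le g k) hc⟩

/-- the word norm for the cost function `f` -/
noncomputable def a1_star (f : G → ℝ) (g : G) : ℝ :=
  sInf {r : ℝ | ∃ l : List G, l.prod = g ∧ r = (l.map f).sum}

omit [Group G] in
lemma a1_sum_nonneg {f : G → ℝ} (hf : ∀ g, 0 ≤ f g) (l : List G) : 0 ≤ (l.map f).sum :=
  List.sum_nonneg fun x hx => by
    obtain ⟨y, -, rfl⟩ := List.mem_map.1 hx
    exact hf y

lemma a1_star_le_sum {f : G → ℝ} (hf : ∀ g, 0 ≤ f g) (l : List G) :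
    a1_star f l.prod ≤ (l.map f).sum :=
  csInf_le ⟨0, by rintro _ ⟨l, -, rfl⟩; exact a1_sum_nonneg hf l⟩ ⟨l, rfl, rfl⟩

lemma a1_le_star {f : G → ℝ} {g : G} {a : ℝ} (h : ∀ l : List G, l.prod = g → a ≤ (l.map f).sum) :
    a ≤ a1_star f g :=
  le_csInf ⟨_, [g], by simp, rfl⟩ (by rintro _ ⟨l, hl, rfl⟩; exact h l hl)

lemma a1_le_mul_star {f : G → ℝ} {g : G} {a M : ℝ} (hM : 0 < M)
    (h : ∀ l : List G, l.prod = g → a ≤ M * (l.map f).sum) : a ≤ M * a1_star f g := by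
  rw [← div_le_iff₀' hM]
  exact a1_le_star fun l hl => (div_le_iff₀' hM).2 (h l hl)

lemma a1_star_le {f : G → ℝ} (hf : ∀ g, 0 ≤ f g) (g : G) : a1_star f g ≤ f g := by
  simpa using a1_star_le_sum hf [g]

lemma a1_star_SN {f : G → ℝ} (hf : ∀ g, 0 ≤ f g) (hi : ∀ g, f g⁻¹ = f g) : a1_SN (a1_star f) := by
  have h0 : ∀ g, 0 ≤ a1_star f g := fun g => a1_le_star fun l _ => a1_sum_nonneg hf l
  have hinv : ∀ g, a1_star f g⁻¹ ≤ a1_star f g := fun g => a1_le_star fun l hl => by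
    have := a1_star_le_sum hf (l.map fun x => x⁻¹).reverse
    rw [← List.prod_inv_reverse, hl] at this
    simpa [List.map_reverse, List.sum_reverse, Function.comp_def, hi] using this
  refine ⟨h0, le_antisymm (by simpa using a1_star_le_sum hf []) (h0 1),
    fun g => le_antisymm (hinv g) (by simpa using hinv g⁻¹), fun g h => ?_⟩
  rw [← sub_le_iff_le_add]
  refine a1_le_star fun l hl => ?_
  rw [sub_le_comm]
  refine a1_le_star fun l' hl' => ?_
  have := a1_star_le_sum hf (l ++ l')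
  rw [List.prod_append, hl, hl', List.map_append, List.sum_append] at this
  linarith

/-! ### functions with controlled left translates -/

lemma a1_lip_pow {φ : G → ℝ} {g : G} {a : ℝ} (h : ∀ x, |φ (g * x) - φ x| ≤ a) (n : ℕ) (x : G) :
    |φ (g ^ n * x) - φ x| ≤ n * a := by
  induction n with
  | zero => simp
  | succ n ih =>
    have h1 := h (g ^ n * x)
    have h2 := abs_sub_le (φ (g * (g ^ n * x))) (φ (g ^ n * x)) (φ x)
    rw [pow_succ', mul_assoc]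
    push_cast
    linarith

lemma a1_lip_list {φ : G → ℝ} {f : G → ℝ} (h : ∀ g x, |φ (g * x) - φ x| ≤ f g) (l : List G)
    (x : G) : |φ (l.prod * x) - φ x| ≤ (l.map f).sum := by
  induction l with
  | nil => simp
  | cons g l ih =>
    have h1 := h g (l.prod * x)
    have h2 := abs_sub_le (φ (g * (l.prod * x))) (φ (l.prod * x)) (φ x)
    rw [List.prod_cons, mul_assoc, List.map_cons, List.sum_cons]
    linarith

lemma a1_lip_esc {φ : G → ℝ} {K : Set G} {κ : ℝ} (hκ : 0 < κ)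
    (hK : ∀ g, |φ g - φ 1| < κ → g ∈ K) {g : G} {a : ℝ} (h : ∀ x, |φ (g * x) - φ x| ≤ a) :
    a1_esc K g ≤ a / κ := by
  refine a1_esc_le (div_nonneg ((abs_nonneg _).trans (h 1)) hκ.le) fun n hn => hK _ ?_
  have := a1_lip_pow h n 1
  rw [mul_one] at this
  rw [← mul_div_assoc, div_lt_one hκ] at hn
  exact this.trans_lt hn

lemma a1_telescope {φ : G → ℝ} {g x : G} {β : ℝ} (n : ℕ)
    (h : ∀ i < n, |φ (g * (g ^ i * x)) - φ (g ^ i * x) - (φ (g * x) - φ x)| ≤ β) :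
    |φ (g ^ n * x) - φ x - n * (φ (g * x) - φ x)| ≤ n * β := by
  induction n with
  | zero => simp
  | succ n ih =>
    have h1 := abs_le.1 (ih fun i hi => h i (by omega))
    have h2 := abs_le.1 (h n (by omega))
    rw [pow_succ', mul_assoc, abs_le]
    push_cast
    constructor <;> linarith [h1.1, h1.2, h2.1, h2.2]

/-- second differences control first differences -/
lemma a1_first_diff {φ : G → ℝ} (hb : ∀ x y, |φ x - φ y| ≤ 1) {V : Set G} (h1 : (1 : G) ∈ V)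
    {g : G} {β : ℝ} (h : ∀ k ∈ V, ∀ x, |φ (g * (k * x)) - φ (k * x) - (φ (g * x) - φ x)| ≤ β)
    (x : G) : |φ (g * x) - φ x| ≤ a1_esc V g + β := by
  rw [← sub_le_iff_le_add]
  refine le_of_forall_gt_imp_ge_of_dense fun b hb' => ?_
  have hb0 : 0 < b := (a1_esc_nonneg V g).trans_lt hb'
  have hn : 1 / b ≤ (⌈1 / b⌉₊ : ℝ) := Nat.le_ceil _
  have hn0 : (0 : ℝ) < ⌈1 / b⌉₊ := (one_div_pos.2 hb0).trans_le hn
  have h2 := a1_telescope (φ := φ) (g := g) (x := x) (β := β) ⌈1 / b⌉₊ fun i hi =>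
    h _ (a1_pow_mem h1 (by
      have h3 : (i : ℝ) < 1 / b := Nat.lt_ceil.1 hi
      rw [lt_div_iff₀ hb0] at h3
      exact (mul_le_mul_of_nonneg_left hb'.le (Nat.cast_nonneg _)).trans_lt h3)) x
  have h3 := hb (g ^ ⌈1 / b⌉₊ * x) x
  generalize (⌈1 / b⌉₊ : ℝ) = n at hn hn0 h2
  generalize φ (g ^ ⌈1 / b⌉₊ * x) - φ x = A at h2 h3
  generalize φ (g * x) - φ x = D at h2 ⊢
  have h4 : n * |D| ≤ 1 + n * β := by
    have h5 := abs_sub_abs_le_abs_sub (n * D) A
    rw [abs_sub_comm, abs_mul, abs_of_pos hn0] at h5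
    linarith
  rw [div_le_iff₀ hb0] at hn
  refine le_of_mul_le_mul_left ?_ hn0
  linarith

end alg

section top
variable {G : Type*} [Group G] [TopologicalSpace G] [IsTopologicalGroup G]

lemma a1_symm {V : Set G} (hV : V ∈ 𝓝 (1 : G)) :
    ∃ U : Set G, IsOpen U ∧ (1 : G) ∈ U ∧ U ⊆ V ∧ ∀ x ∈ U, x⁻¹ ∈ U := by
  have h1 : (1 : G) ∈ interior V := mem_interior_iff_mem_nhds.2 hV
  refine ⟨interior V ∩ (interior V)⁻¹, isOpen_interior.inter isOpen_interior.inv,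
    ⟨h1, by simpa using h1⟩, fun x hx => interior_subset hx.1, fun x hx => ⟨hx.2, ?_⟩⟩
  simpa using hx.1

lemma a1_prod_nhds (L : ℕ) : ∀ {U : Set G}, U ∈ 𝓝 (1 : G) → ∃ V ∈ 𝓝 (1 : G),
    ∀ l : List G, l.length ≤ L → (∀ x ∈ l, x ∈ V) → l.prod ∈ U := by
  induction L with
  | zero =>
    intro U hU
    refine ⟨U, hU, fun l hl _ => ?_⟩
    rw [List.length_eq_zero_iff.1 (Nat.le_zero.1 hl), List.prod_nil]
    exact mem_of_mem_nhds hU
  | succ L ih =>
    intro U hU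
    obtain ⟨V, hV, h1⟩ := exists_nhds_one_split hU
    obtain ⟨V', hV', h2⟩ := ih hV
    refine ⟨V ∩ V', inter_mem hV hV', fun l hl h => ?_⟩
    rcases l with _ | ⟨x, l⟩
    · exact mem_of_mem_nhds hU
    · rw [List.prod_cons]
      exact h1 _ (h x List.mem_cons_self).1 _ (h2 l (by simpa using hl)
        fun y hy => (h y (List.mem_cons_of_mem _ hy)).2)

lemma a1_tube {K : Set G} (hK : IsCompact K) {V : Set G} (hV : V ∈ 𝓝 (1 : G)) :
    {h : G | ∀ y ∈ K, y⁻¹ * h * y ∈ V} ∈ 𝓝 (1 : G) := by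
  refine hK.eventually_forall_of_forall_eventually (P := fun h y => y⁻¹ * h * y ∈ V) fun y _ => ?_
  have hc : Continuous fun z : G × G => z.2⁻¹ * z.1 * z.2 := by fun_prop
  exact hc.continuousAt.preimage_mem_nhds (by simpa using hV)

lemma a1_esc_small {U : Set G} (hU : U ∈ 𝓝 (1 : G)) {δ : ℝ} (hδ : 0 < δ) :
    {g : G | a1_esc U g ≤ δ} ∈ 𝓝 (1 : G) := by
  have h : ∀ᶠ g in 𝓝 (1 : G), ∀ n ∈ Finset.range ⌈1 / δ⌉₊, g ^ n ∈ U :=
    (Finset.eventually_all _).2 fun n _ =>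
      (continuous_pow n).continuousAt.preimage_mem_nhds (by simpa using hU)
  filter_upwards [h] with g hg
  refine a1_esc_le hδ.le fun n hn => hg n (Finset.mem_range.2 (Nat.lt_ceil.2 ?_))
  rwa [lt_div_iff₀ hδ]

/-- the trapping lemma and the comparison of escape norms -/
lemma a1_compare [T2Space G] {K : Set G} (hK : IsCompact K) (h1 : (1 : G) ∈ K)
    (hs : ∀ x ∈ K, x⁻¹ ∈ K) (hn : ∀ H : Subgroup G, (H : Set G) ⊆ K → H = ⊥) {V : Set G}
    (hV : V ∈ 𝓝 (1 : G)) : ∃ m : ℝ, 1 ≤ m ∧ ∀ g, a1_esc V g ≤ m * a1_esc K g := by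
  have hcl : ∀ m : ℕ, IsClosed ({g : G | ∀ i ≤ m, g ^ i ∈ K} ∩ (interior V)ᶜ) := fun m => by
    refine IsClosed.inter ?_ isOpen_interior.isClosed_compl
    simp only [ofPred_forall]
    exact isClosed_iInter fun i => isClosed_iInter fun _ => hK.isClosed.preimage (continuous_pow i)
  obtain ⟨m, hm⟩ := hK.elim_directed_family_closed _ hcl (by
    refine eq_empty_of_forall_notMem fun g hg => ?_
    have h2 := mem_iInter.1 hg.2
    have h3 : ∀ i : ℕ, g ^ i ∈ K := fun i => (h2 i).1 i le_rfl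
    have h4 := hn (Subgroup.zpowers g) (by
      rintro _ ⟨k, rfl⟩
      rcases k with k | k
      · simpa using h3 k
      · simpa using hs _ (h3 (k + 1)))
    rw [Subgroup.zpowers_eq_bot] at h4
    exact (h2 0).2 (h4 ▸ mem_interior_iff_mem_nhds.2 hV))
    (directed_of_isDirected_le fun i j hij g hg => ⟨fun k hk => hg.1 k (hk.trans hij), hg.2⟩)
  refine ⟨m + 1, by simp, fun g => a1_esc_le (mul_nonneg (by positivity) (a1_esc_nonneg _ _))
    fun n hn' => ?_⟩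
  have h5 : ∀ i ≤ m + 1, (g ^ n) ^ i ∈ K := fun i hi => by
    rw [← pow_mul]
    refine a1_pow_mem h1 (lt_of_le_of_lt ?_ hn')
    rw [Nat.cast_mul, mul_assoc]
    refine mul_le_mul_of_nonneg_left (mul_le_mul_of_nonneg_right ?_ (a1_esc_nonneg _ _))
      (Nat.cast_nonneg _)
    exact_mod_cast hi
  by_contra h6
  have h7 : g ^ n ∈ K ∩ ({g : G | ∀ i ≤ m, g ^ i ∈ K} ∩ (interior V)ᶜ) :=
    ⟨by simpa using h5 1 (by omega), fun i hi => h5 i (by omega), fun h => h6 (interior_subset h)⟩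
  rw [hm] at h7
  exact h7

/-- a seminorm which is small near the identity and whose unit ball lies in `U` -/
lemma a1_exists_SN {U : Set G} (hU : U ∈ 𝓝 (1 : G)) {δ : ℝ} (hδ : 0 < δ) :
    ∃ N : G → ℝ, a1_SN N ∧ (∀ g, N g < 1 → g ∈ U) ∧ {g | N g ≤ δ} ∈ 𝓝 (1 : G) := by
  classical
  obtain ⟨V', hV', h1⟩ := a1_prod_nhds ⌈1 / δ⌉₊ hU
  obtain ⟨V, hVo, hV1, hVV, hVs⟩ := a1_symm hV'
  have hf : ∀ g : G, 0 ≤ (if g ∈ V then δ else 1 : ℝ) := fun g => by split_ifs <;> positivity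
  refine ⟨a1_star fun g => if g ∈ V then δ else 1, a1_star_SN hf fun g => ?_, fun g hg => ?_, ?_⟩
  · have : g⁻¹ ∈ V ↔ g ∈ V := ⟨fun h => by simpa using hVs _ h, hVs _⟩
    simp only [this]
  · by_contra hgU
    refine absurd hg (not_lt.2 (a1_le_star fun l hl => ?_))
    by_contra hlt
    rw [not_le] at hlt
    have h2 : ∀ x ∈ l, x ∈ V := fun x hx => by
      by_contra hx'
      have h3 := List.single_le_sum (l := l.map fun g => if g ∈ V then δ else 1)
        (fun y hy => by obtain ⟨z, -, rfl⟩ := List.mem_map.1 hy; exact hf z) _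
        (List.mem_map.2 ⟨x, hx, rfl⟩)
      rw [if_neg hx'] at h3
      linarith
    rw [List.map_congr_left (g := fun _ => δ) fun x hx => if_pos (h2 x hx)] at hlt
    simp only [List.map_const', List.sum_replicate, nsmul_eq_mul] at hlt
    refine hgU (hl ▸ h1 l (Nat.lt_ceil.2 ?_).le fun x hx => hVV (h2 x hx))
    rwa [lt_div_iff₀ hδ]
  · filter_upwards [hVo.mem_nhds hV1] with g hg
    exact (a1_star_le hf g).trans (if_pos hg).le

/-- a bump function which is Lipschitz for the seminorm `N` -/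
lemma a1_bump [MeasurableSpace G] [BorelSpace G] {U : Set G} (hU : IsOpen U) (h1 : (1 : G) ∈ U)
    {N : G → ℝ} (hN : a1_SN N) (hNU : ∀ g, N g < 1 → g ∈ U) :
    ∃ ψ : G → ℝ, Measurable ψ ∧ (∀ x, 0 ≤ ψ x) ∧ (∀ x, ψ x ≤ 1) ∧ (∀ x ∈ U, ψ x = 1) ∧
      (∀ x, ψ x ≠ 0 → ∃ a ∈ U, ∃ b ∈ U, x = a * b) ∧ ∀ g x, |ψ (g * x) - ψ x| ≤ N g := by
  obtain ⟨D, hD⟩ : ∃ D : G → ℝ, D = fun x => sInf (N '' {g | g⁻¹ * x ∈ U}) := ⟨_, rfl⟩
  have hne : ∀ x : G, (N '' {g | g⁻¹ * x ∈ U}).Nonempty := fun x => ⟨_, x, by simpa using h1, rfl⟩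
  have hle : ∀ x g : G, g⁻¹ * x ∈ U → D x ≤ N g := fun x g hg => by
    rw [hD]
    exact csInf_le ⟨0, by rintro _ ⟨k, -, rfl⟩; exact hN.nonneg k⟩ ⟨g, hg, rfl⟩
  have hge : ∀ (x : G) (a : ℝ), (∀ g, g⁻¹ * x ∈ U → a ≤ N g) → a ≤ D x := fun x a h => by
    rw [hD]
    exact le_csInf (hne x) (by rintro _ ⟨k, hk, rfl⟩; exact h k hk)
  have hlt : ∀ (x : G) (a : ℝ), D x < a → ∃ g, g⁻¹ * x ∈ U ∧ N g < a := fun x a h => by
    by_contra hc
    exact absurd h (not_lt.2 (hge x a fun g hg => not_lt.1 fun h' => hc ⟨g, hg, h'⟩))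
  have h0 : ∀ x, 0 ≤ D x := fun x => hge x 0 fun g _ => hN.nonneg g
  have hlip : ∀ g x, D (g * x) - N g ≤ D x := fun g x => hge x _ fun k hk => by
    have h2 := hle (g * x) (g * k) (by simpa [mul_assoc] using hk)
    linarith [hN.mul_le g k]
  have hmeas : Measurable D := measurable_of_Iio fun r => IsOpen.measurableSet (by
    refine isOpen_iff_mem_nhds.2 fun x hx => ?_
    obtain ⟨g, hg, hr⟩ := hlt x r hx
    have hc : Continuous fun z : G => g⁻¹ * z := by fun_prop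
    filter_upwards [hc.continuousAt.preimage_mem_nhds (hU.mem_nhds hg)] with z hz
    exact (hle z g hz).trans_lt hr)
  refine ⟨fun x => max (1 - D x) 0, (measurable_const.sub hmeas).max measurable_const,
    fun x => le_max_right _ _, fun x => max_le (by linarith [h0 x]) zero_le_one, fun x hx => ?_,
    fun x hx => ?_, fun g x => (abs_max_sub_max_le_abs _ _ _).trans ?_⟩
  · have h2 := hle x 1 (by simpa using hx)
    rw [hN.map_one] at h2
    simp [le_antisymm h2 (h0 x)]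
  · obtain ⟨g, hg, hr⟩ := hlt x 1 (by
      by_contra h
      exact hx (max_eq_right (by linarith [not_lt.1 h])))
    exact ⟨g, hNU g hr, _, hg, by simp⟩
  · have h2 := hlip g x
    have h3 := hlip g⁻¹ (g * x)
    rw [inv_mul_cancel_left, hN.map_inv] at h3
    rw [abs_le]
    constructor <;> linarith

end top

end Crest.Agent.R217
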