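import Crest.Agent.R217.ADefs

/-! # Row 217, part A2, file a: elementary estimates for Gleason norms -/

set_option autoImplicit false
set_option linter.unusedSectionVars false
open Filter Topology Metric Set

namespace Crest.Agent.R217

variable {G : Type*} [Group G] [TopologicalSpace G] {ν : G → ℝ} {C : ℝ}

namespace Gleason

variable (h : Gleason ν C)
include h

lemma a2_pos : 0 < C := lt_of_lt_of_le one_pos h.one_le

lemma a2_symm (a b : G) : ν (a⁻¹ * b) = ν (b⁻¹ * a) := by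
  rw [← h.map_inv]; congr 1; group

lemma a2_tri (a b c : G) : ν (a⁻¹ * c) ≤ ν (a⁻¹ * b) + ν (b⁻¹ * c) := by
  have := h.mul_le (a⁻¹ * b) (b⁻¹ * c)
  rwa [show a⁻¹ * b * (b⁻¹ * c) = a⁻¹ * c by group] at this

lemma a2_dist_le (a b : G) : ν (a⁻¹ * b) ≤ ν a + ν b := by
  have := h.mul_le a⁻¹ b
  rwa [h.map_inv] at this

lemma a2_pow_le (g : G) (n : ℕ) : ν (g ^ n) ≤ n * ν g := by
  induction n with
  | zero => simp [h.map_one]
  | succ n ih =>
    rw [pow_succ]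
    have := h.mul_le (g ^ n) g
    push_cast
    linarith

lemma a2_zpow_le (g : G) (n : ℤ) : ν (g ^ n) ≤ |(n : ℝ)| * ν g := by
  rcases Int.eq_nat_or_neg n with ⟨m, rfl | rfl⟩
  · simpa using h.a2_pow_le g m
  · simpa [h.map_inv] using h.a2_pow_le g m

lemma a2_tendsto_one {ι : Type*} {l : Filter ι} {a : ι → G} :
    Tendsto a l (𝓝 1) ↔ Tendsto (fun i => ν (a i)) l (𝓝 0) := by
  constructor
  · intro ha
    refine tendsto_order.2 ⟨fun r hr => Eventually.of_forall fun i => hr.trans_le (h.nonneg _),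
      fun r hr => ha (h.ball_mem r hr)⟩
  · intro ha U hU
    obtain ⟨r, hr, hs⟩ := h.ball_sub U hU
    exact mem_of_superset ((tendsto_order.1 ha).2 r hr) fun i hi => hs hi

lemma a2_eq_one [T2Space G] {g : G} (hg : ν g ≤ 0) : g = 1 := by
  have : Tendsto (fun _ : ℕ => g) atTop (𝓝 1) :=
    h.a2_tendsto_one.2 (by rw [le_antisymm hg (h.nonneg g)]; exact tendsto_const_nhds)
  exact tendsto_nhds_unique tendsto_const_nhds this

lemma a2_eq [T2Space G] {a b : G} (hg : ν (a⁻¹ * b) ≤ 0) : a = b :=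
  inv_mul_eq_one.1 (h.a2_eq_one hg)

lemma a2_tendsto [IsTopologicalGroup G] {ι : Type*} {l : Filter ι} {a : ι → G} {b : G} :
    Tendsto a l (𝓝 b) ↔ Tendsto (fun i => ν (b⁻¹ * a i)) l (𝓝 0) := by
  rw [← h.a2_tendsto_one]
  constructor
  · intro ha
    simpa using ha.const_mul b⁻¹
  · intro ha
    simpa using ha.const_mul b

lemma a2_continuous [IsTopologicalGroup G] : Continuous ν := by
  refine continuous_iff_continuousAt.2 fun b => ?_
  rw [ContinuousAt, tendsto_iff_norm_sub_tendsto_zero]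
  refine squeeze_zero (fun _ => norm_nonneg _) (fun a => ?_) (h.a2_tendsto.1 tendsto_id)
  rw [Real.norm_eq_abs, abs_le]
  have h1 := h.mul_le b (b⁻¹ * a)
  have h2 := h.mul_le a (a⁻¹ * b)
  rw [mul_inv_cancel_left] at h1 h2
  rw [h.a2_symm a b] at h2
  simp only [id]
  constructor <;> linarith

lemma a2_compact [IsTopologicalGroup G] [LocallyCompactSpace G] :
    ∃ r, 0 < r ∧ ∃ K : Set G, IsCompact K ∧ ∀ g, ν g < r → g ∈ K := by
  obtain ⟨K, hK, h1⟩ := exists_compact_mem_nhds (1 : G)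
  obtain ⟨r, hr, hs⟩ := h.ball_sub K h1
  exact ⟨r, hr, K, hK, fun g hg => hs hg⟩

lemma a2_small {a b : ℝ} (ha : a ≤ 1 / C) (hb : 0 ≤ b) : C * a * b ≤ b := by
  have := h.a2_pos
  have h1 : C * a ≤ 1 := by rwa [le_div_iff₀' this] at ha
  nlinarith

/-- conjugation by a small element -/
lemma a2_conj {g k : G} (hg : ν g ≤ 1 / C) (hk : ν k ≤ 1 / C) : ν (k⁻¹ * g * k) ≤ 2 * ν g := by
  have h1 := h.comm g k hg hk
  have h2 := h.mul_le g (g⁻¹ * k⁻¹ * g * k)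
  rw [show g * (g⁻¹ * k⁻¹ * g * k) = k⁻¹ * g * k by group] at h2
  have h3 := h.a2_small hk (h.nonneg g)
  nlinarith

lemma a2_right {a b k : G} (hg : ν (a⁻¹ * b) ≤ 1 / C) (hk : ν k ≤ 1 / C) :
    ν ((a * k)⁻¹ * (b * k)) ≤ 2 * ν (a⁻¹ * b) := by
  rw [show (a * k)⁻¹ * (b * k) = k⁻¹ * (a⁻¹ * b) * k by group]
  exact h.a2_conj hg hk

lemma a2_swap {a b : G} (ha : ν a ≤ 1 / C) (hb : ν b ≤ 1 / C) :
    ν ((a * b)⁻¹ * (b * a)) ≤ C * ν a * ν b := by
  rw [show (a * b)⁻¹ * (b * a) = b⁻¹ * a⁻¹ * b * a by group]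
  have := h.comm b a hb ha
  linarith

lemma a2_mul_pow (g k : G) (n : ℕ) (hg : n * ν g ≤ 1 / C) (hk : n * ν k ≤ 1 / C) :
    ν ((g ^ n * k ^ n)⁻¹ * (g * k) ^ n) ≤ C * n ^ 2 * ν g * ν k := by
  induction n with
  | zero => simp [h.map_one]
  | succ n ih =>
    have g0 := h.nonneg g
    have k0 := h.nonneg k
    have hC := h.a2_pos
    have n0 : (0 : ℝ) ≤ n := Nat.cast_nonneg n
    push_cast at hg hk
    have hg' : n * ν g ≤ 1 / C := by nlinarith
    have hk' : n * ν k ≤ 1 / C := by nlinarith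
    have hk1 : ν k ≤ 1 / C := by nlinarith
    have h1 := ih hg' hk'
    have h2 := h.a2_swap ((h.a2_pow_le g n).trans hg') hk1
    have h3 : C * ν (g ^ n) * ν k ≤ C * (n * ν g) * ν k := by
      have := h.a2_pow_le g n
      gcongr
    have h4 := h.a2_right (k := k ^ n) (h2.trans (h3.trans ((h.a2_small hg' k0).trans hk1)))
      ((h.a2_pow_le k n).trans hk')
    have h5 := h.a2_tri (g ^ (n + 1) * k ^ (n + 1)) (g * k * (g ^ n * k ^ n)) ((g * k) ^ (n + 1))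
    rw [show (g ^ (n + 1) * k ^ (n + 1))⁻¹ * (g * k * (g ^ n * k ^ n)) =
        (g ^ n * k * k ^ n)⁻¹ * (k * g ^ n * k ^ n) by rw [pow_succ' g, pow_succ' k]; group,
      show (g * k * (g ^ n * k ^ n))⁻¹ * (g * k) ^ (n + 1) = (g ^ n * k ^ n)⁻¹ * (g * k) ^ n by
        rw [pow_succ' (g * k), mul_inv_rev, mul_assoc, inv_mul_cancel_left]] at h5
    have h6 : 0 ≤ C * ν g * ν k := by positivity
    push_cast
    nlinarith

lemma a2_pow_dist (g k : G) (n : ℕ) (hg : n * ν g ≤ 1 / (2 * C ^ 2))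
    (hk : n * ν (g⁻¹ * k) ≤ 1 / C) :
    ν ((g ^ n)⁻¹ * k ^ n) ≤ 2 * (n * ν (g⁻¹ * k)) ∧
      n * ν (g⁻¹ * k) ≤ 2 * C * ν ((g ^ n)⁻¹ * k ^ n) := by
  have hC := h.a2_pos
  have hC1 := h.one_le
  have hg' : n * ν g ≤ 1 / C :=
    hg.trans (one_div_le_one_div_of_le hC (by nlinarith))
  have h1 := h.a2_mul_pow g (g⁻¹ * k) n hg' hk
  rw [mul_inv_cancel_left] at h1
  have h2 := h.a2_tri (g ^ n) (g ^ n * (g⁻¹ * k) ^ n) (k ^ n)
  have h3 := h.a2_tri (g ^ n) (k ^ n) (g ^ n * (g⁻¹ * k) ^ n)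
  rw [inv_mul_cancel_left] at h2 h3
  rw [h.a2_symm (k ^ n)] at h3
  have h4 := h.a2_pow_le (g⁻¹ * k) n
  have h5 := h.escape _ n hk
  have p0 : 0 ≤ n * ν (g⁻¹ * k) := mul_nonneg (Nat.cast_nonneg n) (h.nonneg _)
  have h6 : 2 * C ^ 2 * (n * ν g) ≤ 1 := by rwa [le_div_iff₀' (by positivity)] at hg
  have h7 : 2 * C * (C * n ^ 2 * ν g * ν (g⁻¹ * k)) ≤ n * ν (g⁻¹ * k) := by nlinarith
  have h8 : 0 ≤ C * n ^ 2 * ν g * ν (g⁻¹ * k) := by
    have := h.nonneg g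
    have := h.nonneg (g⁻¹ * k)
    positivity
  constructor <;> nlinarith

/-- trapping -/
lemma a2_trap (g : G) {η : ℝ} (hη : η ≤ 1 / (2 * C ^ 2)) (N : ℕ) (hN : ∀ k ≤ N, ν (g ^ k) ≤ η) :
    N * ν g ≤ C * η := by
  have hC := h.a2_pos
  have hC1 := h.one_le
  have η0 : 0 ≤ η := (h.nonneg _).trans (hN 0 (Nat.zero_le _))
  induction N with
  | zero => simp; positivity
  | succ n ih =>
    have h1 := ih fun k hk => hN k (hk.trans (Nat.le_succ n))
    have h2 := hN 1 (by omega)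
    rw [pow_one] at h2
    have h3 : 2 * C ^ 2 * η ≤ 1 := by rwa [le_div_iff₀' (by positivity)] at hη
    have h4 : ((n + 1 : ℕ) : ℝ) * ν g ≤ 1 / C := by
      rw [le_div_iff₀' hC]
      push_cast
      nlinarith
    exact (h.escape g _ h4).trans (mul_le_mul_of_nonneg_left (hN _ le_rfl) hC.le)

end Gleason

end Crest.Agent.R217
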