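import Crest.Agent.R217.A2a

/-! # Row 217, part A2, file b: one-parameter subgroups, limits, the Trotter sum -/

set_option autoImplicit false
set_option linter.unusedSectionVars false
open Filter Topology Metric Set

namespace Crest.Agent.R217

variable {G : Type*} [Group G] [TopologicalSpace G] [IsTopologicalGroup G] [T2Space G]
  [LocallyCompactSpace G] {ν : G → ℝ} {C : ℝ}

/-- continuous one-parameter subgroups -/
@[ext] structure A2OP (h : Gleason ν C) where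
  toFun : ℝ → G
  cont : Continuous toFun
  map_add : ∀ s t, toFun (s + t) = toFun s * toFun t

variable {h : Gleason ν C}

namespace A2OP

lemma map_zero (X : A2OP h) : X.toFun 0 = 1 := by
  have := X.map_add 0 0
  rw [add_zero] at this
  exact mul_eq_left.1 this.symm

lemma map_neg (X : A2OP h) (t : ℝ) : X.toFun (-t) = (X.toFun t)⁻¹ := by
  have := X.map_add (-t) t
  rw [neg_add_cancel, X.map_zero] at this
  exact eq_inv_of_mul_eq_one_left this.symm

lemma map_nat (X : A2OP h) (n : ℕ) (t : ℝ) : X.toFun (n * t) = X.toFun t ^ n := by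
  induction n with
  | zero => simp [X.map_zero]
  | succ n ih => rw [pow_succ, ← ih, ← X.map_add]; congr 1; push_cast; ring

lemma nu_abs (X : A2OP h) (t : ℝ) : ν (X.toFun |t|) = ν (X.toFun t) := by
  rcases abs_choice t with e | e <;> rw [e]
  rw [X.map_neg, h.map_inv]

lemma tendsto_one (X : A2OP h) : Tendsto X.toFun (𝓝 0) (𝓝 1) := by
  have := X.cont.tendsto 0
  rwa [X.map_zero] at this

/-- a local bound is a global bound -/
lemma bound_of_local (X : A2OP h) {K δ : ℝ} (hδ : 0 < δ)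
    (hK : ∀ s, 0 < s → s ≤ δ → ν (X.toFun s) ≤ K * s) (t : ℝ) : ν (X.toFun t) ≤ K * |t| := by
  rw [← X.nu_abs]
  rcases (abs_nonneg t).eq_or_lt with e | e
  · rw [← e, X.map_zero, h.map_one, mul_zero]
  · obtain ⟨m, hm⟩ := exists_nat_gt (|t| / δ)
    have m0 : (0 : ℝ) < m := lt_trans (by positivity) hm
    have h1 : |t| = m * (|t| / m) := by field_simp
    have h2 := hK (|t| / m) (by positivity) (by
      rw [div_le_iff₀ m0]; rw [div_lt_iff₀ hδ] at hm; linarith)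
    conv_lhs => rw [h1, X.map_nat]
    refine (h.a2_pow_le _ _).trans ?_
    calc m * ν (X.toFun (|t| / m)) ≤ m * (K * (|t| / m)) := by gcongr
      _ = K * |t| := by field_simp

lemma exists_bound (X : A2OP h) : ∃ K, 0 ≤ K ∧ ∀ t, ν (X.toFun t) ≤ K * |t| := by
  have hC := h.a2_pos
  have h1 := (tendsto_order.1 (h.a2_tendsto_one.1 X.tendsto_one)).2 (1 / (2 * C ^ 2))
    (by positivity)
  obtain ⟨ε, hε, h2⟩ := Metric.eventually_nhds_iff.1 h1
  refine ⟨4 * (C * (1 / (2 * C ^ 2))) / ε, by positivity,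
    X.bound_of_local (δ := ε / 2) (by positivity) fun s hs hs' => ?_⟩
  have h3 := h.a2_trap (X.toFun s) le_rfl ⌊ε / 2 / s⌋₊ fun k hk => by
    rw [← X.map_nat]
    refine (h2 ?_).le
    have h4 : (k : ℝ) ≤ ε / 2 / s := (Nat.cast_le.2 hk).trans (Nat.floor_le (by positivity))
    rw [le_div_iff₀ hs] at h4
    rw [Real.dist_eq, sub_zero, abs_of_nonneg (by positivity)]
    linarith
  have h4 : ε / 2 / s < ⌊ε / 2 / s⌋₊ + 1 := Nat.lt_floor_add_one _
  have h5 : (1 : ℝ) ≤ ⌊ε / 2 / s⌋₊ := by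
    exact_mod_cast Nat.le_floor (by rw [Nat.cast_one, le_div_iff₀ hs]; linarith)
  rw [div_lt_iff₀ hs] at h4
  rw [div_mul_eq_mul_div, le_div_iff₀ hε]
  have h6 := h.nonneg (X.toFun s)
  generalize (⌊ε / 2 / s⌋₊ : ℝ) = N at *
  have h7 : ε ≤ 4 * N * s := by nlinarith
  calc ν (X.toFun s) * ε ≤ ν (X.toFun s) * (4 * N * s) := by gcongr
    _ = 4 * (N * ν (X.toFun s)) * s := by ring
    _ ≤ 4 * (C * (1 / (2 * C ^ 2))) * s := by gcongr

/-- two one-parameter subgroups that are tangent to second order agree -/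
lemma eq_of_tan {X Y : A2OP h} {K : ℝ}
    (hK : ∀ᶠ t in 𝓝[>] (0 : ℝ), ν ((X.toFun t)⁻¹ * Y.toFun t) ≤ K * t ^ 2) : X = Y := by
  have hC := h.a2_pos
  obtain ⟨A, A0, hA⟩ := X.exists_bound
  obtain ⟨B, B0, hB⟩ := Y.exists_bound
  obtain ⟨δ, hδ, hK⟩ := (mem_nhdsGT_iff_exists_Ioo_subset).1 hK
  have hδ : 0 < δ := hδ
  have key : ∀ t, 0 < t → t < δ → (A + B) * t ≤ 1 / (2 * C ^ 2) → X.toFun t = Y.toFun t := by
    intro t ht htδ hs
    refine h.a2_eq (ge_of_tendsto (tendsto_const_div_atTop_nhds_zero_nat (2 * K * t ^ 2)) ?_)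
    filter_upwards [eventually_ge_atTop 1] with n hn
    have n0 : (0 : ℝ) < n := by exact_mod_cast hn
    have n1 : (1 : ℝ) ≤ n := by exact_mod_cast hn
    have e : t = n * (t / n) := by field_simp
    have tn : 0 < t / n := by positivity
    have a1 : n * ν (X.toFun (t / n)) ≤ A * t := by
      have := hA (t / n)
      rw [abs_of_pos tn] at this
      calc n * ν (X.toFun (t / n)) ≤ n * (A * (t / n)) := by gcongr
        _ = A * t := by field_simp
    have b1 : n * ν (Y.toFun (t / n)) ≤ B * t := by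
      have := hB (t / n)
      rw [abs_of_pos tn] at this
      calc n * ν (Y.toFun (t / n)) ≤ n * (B * (t / n)) := by gcongr
        _ = B * t := by field_simp
    have c1 := h.a2_dist_le (X.toFun (t / n)) (Y.toFun (t / n))
    have c2 : 1 / (2 * C ^ 2) ≤ 1 / C := one_div_le_one_div_of_le hC (by nlinarith [h.one_le])
    have h1 := (h.a2_pow_dist (X.toFun (t / n)) (Y.toFun (t / n)) n (by nlinarith)
      (by nlinarith)).1
    rw [← X.map_nat, ← Y.map_nat, ← e] at h1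
    have h2 : ν ((X.toFun (t / n))⁻¹ * Y.toFun (t / n)) ≤ K * (t / n) ^ 2 :=
      hK ⟨tn, (div_le_self ht.le n1).trans_lt htδ⟩
    calc _ ≤ _ := h1
      _ ≤ 2 * (n * (K * (t / n) ^ 2)) := by gcongr
      _ = 2 * K * t ^ 2 / n := by field_simp
  have key2 : ∀ t, 0 < t → X.toFun t = Y.toFun t := by
    intro t ht
    have l0 := tendsto_const_div_atTop_nhds_zero_nat (𝕜 := ℝ) t
    have l1 : Tendsto (fun n : ℕ => (A + B) * (t / n)) atTop (𝓝 0) := by
      simpa using l0.const_mul (A + B)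
    obtain ⟨n, h1, h2, h3⟩ := (((tendsto_order.1 l0).2 δ hδ).and
      (((tendsto_order.1 l1).2 (1 / (2 * C ^ 2)) (by positivity)).and (eventually_ge_atTop 1))).exists
    have n0 : (0 : ℝ) < n := by exact_mod_cast h3
    have e : t = n * (t / n) := by field_simp
    rw [e, X.map_nat, Y.map_nat, key _ (by positivity) h1 h2.le]
  ext t
  rcases lt_trichotomy t 0 with ht | rfl | ht
  · have := key2 (-t) (by linarith)
    rw [X.map_neg, Y.map_neg] at this
    exact inv_injective this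
  · rw [X.map_zero, Y.map_zero]
  · exact key2 t ht

end A2OP

/-- limits of approximate one-parameter subgroups along an ultrafilter -/
theorem a2_exists_lim (h : Gleason ν C) {ι : Type*} (U : Ultrafilter ι) (a : ι → ℝ → G) {K : ℝ}
    (hK : 0 ≤ K) (h1 : ∀ s t, Tendsto (fun n => (a n s * a n t)⁻¹ * a n (s + t)) U (𝓝 1))
    (h2 : ∀ t ε, 0 < ε → ∀ᶠ n in U, ν (a n t) ≤ K * |t| + ε) :
    ∃ X : A2OP h, (∀ t, Tendsto (fun n => a n t) U (𝓝 (X.toFun t))) ∧
      ∀ t, ν (X.toFun t) ≤ K * |t| := by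
  obtain ⟨r, hr, Q, hQ, hrQ⟩ := h.a2_compact
  have add : ∀ s t x y, Tendsto (fun n => a n s) U (𝓝 x) → Tendsto (fun n => a n t) U (𝓝 y) →
      Tendsto (fun n => a n (s + t)) U (𝓝 (x * y)) := fun s t x y hx hy => by
    simpa only [mul_inv_cancel_left, mul_one] using (hx.mul hy).mul (h1 s t)
  have small : ∀ t, K * |t| < r → ∃ x, Tendsto (fun n => a n t) U (𝓝 x) := fun t ht => by
    have : Q ∈ U.map fun n => a n t := by
      rw [Ultrafilter.mem_map]
      filter_upwards [h2 t ((r - K * |t|) / 2) (by linarith)] with n hn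
      exact hrQ _ (by linarith)
    obtain ⟨x, -, hx⟩ := hQ.ultrafilter_le_nhds' _ this
    exact ⟨x, hx⟩
  have ex : ∀ t, ∃ x, Tendsto (fun n => a n t) U (𝓝 x) := fun t => by
    obtain ⟨m, hm⟩ := exists_nat_gt (K * |t| / r)
    have m0 : (0 : ℝ) < m + 1 := by positivity
    have hs : K * |t / (m + 1)| < r := by
      rw [abs_div, abs_of_pos m0, ← mul_div_assoc, div_lt_iff₀ m0]
      rw [div_lt_iff₀ hr] at hm
      linarith
    obtain ⟨y, hy⟩ := small _ hs
    have : ∀ k : ℕ, ∃ x, Tendsto (fun n => a n ((k + 1) * (t / (m + 1)))) U (𝓝 x) := fun k => by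
      induction k with
      | zero => exact ⟨y, by simpa using hy⟩
      | succ k ih =>
        obtain ⟨x, hx⟩ := ih
        refine ⟨x * y, ?_⟩
        have := add _ _ _ _ hx hy
        convert this using 3
        push_cast
        ring
    have e : t = (m + 1) * (t / (m + 1)) := by field_simp
    rw [e]
    exact this m
  choose X hX using ex
  have hadd : ∀ s t, X (s + t) = X s * X t := fun s t =>
    tendsto_nhds_unique (hX _) (add _ _ _ _ (hX s) (hX t))
  have hb : ∀ t, ν (X t) ≤ K * |t| := fun t => le_of_forall_pos_le_add fun ε hε =>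
    le_of_tendsto ((h.a2_continuous.tendsto _).comp (hX t)) (h2 t ε hε)
  refine ⟨⟨X, continuous_iff_continuousAt.2 fun s => h.a2_tendsto.2 ?_, hadd⟩, hX, hb⟩
  have : Tendsto (fun t : ℝ => K * |t - s|) (𝓝 s) (𝓝 0) := by
    have : Continuous fun t : ℝ => K * |t - s| := by fun_prop
    simpa using this.tendsto s
  refine squeeze_zero (fun _ => h.nonneg _) (fun t => ?_) this
  have := hadd s (t - s)
  rw [add_sub_cancel] at this
  rw [this, inv_mul_cancel_left]
  exact hb _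

theorem a2_exists_lim_pow (h : Gleason ν C) {ι : Type*} (U : Ultrafilter ι) (g : ι → G) (N : ι → ℝ)
    {K : ℝ} (hK : 0 ≤ K) (hN : Tendsto N U atTop) (hg : ∀ᶠ n in U, N n * ν (g n) ≤ K) :
    ∃ X : A2OP h, (∀ t, Tendsto (fun n => g n ^ ⌊t * N n⌋) U (𝓝 (X.toFun t))) ∧
      ∀ t, ν (X.toFun t) ≤ K * |t| := by
  have h0 : Tendsto (fun n => ν (g n)) U (𝓝 0) := by
    refine squeeze_zero' (Eventually.of_forall fun _ => h.nonneg _) ?_
      (tendsto_const_nhds (x := K).div_atTop hN)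
    filter_upwards [hg, hN.eventually_gt_atTop 0] with n h1 h2
    rwa [le_div_iff₀' h2]
  refine a2_exists_lim h U (fun n t => g n ^ ⌊t * N n⌋) hK (fun s t => ?_) fun t ε hε => ?_
  · refine h.a2_tendsto_one.2 (squeeze_zero (fun _ => h.nonneg _) (fun n => ?_) h0)
    rw [← zpow_add, ← zpow_neg, ← zpow_add]
    refine (h.a2_zpow_le _ _).trans (mul_le_of_le_one_left (h.nonneg _) ?_)
    have a1 := Int.floor_le (s * N n)
    have a2 := Int.lt_floor_add_one (s * N n)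
    have a3 := Int.floor_le (t * N n)
    have a4 := Int.lt_floor_add_one (t * N n)
    have a5 := Int.floor_le ((s + t) * N n)
    have a6 := Int.lt_floor_add_one ((s + t) * N n)
    have b1 : -(⌊s * N n⌋ + ⌊t * N n⌋) + ⌊(s + t) * N n⌋ < 2 := by
      have : ((-(⌊s * N n⌋ + ⌊t * N n⌋) + ⌊(s + t) * N n⌋ : ℤ) : ℝ) < 2 := by
        push_cast; linarith
      exact_mod_cast this
    have b2 : -1 < -(⌊s * N n⌋ + ⌊t * N n⌋) + ⌊(s + t) * N n⌋ := by
      have : (-1 : ℝ) < ((-(⌊s * N n⌋ + ⌊t * N n⌋) + ⌊(s + t) * N n⌋ : ℤ) : ℝ) := by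
        push_cast; linarith
      exact_mod_cast this
    have b3 : |-(⌊s * N n⌋ + ⌊t * N n⌋) + ⌊(s + t) * N n⌋| ≤ 1 := abs_le.2 ⟨by omega, by omega⟩
    exact_mod_cast b3
  · filter_upwards [hg, hN.eventually_gt_atTop 0, (tendsto_order.1 h0).2 ε hε] with n h1 h2 h3
    refine (h.a2_zpow_le _ _).trans ?_
    have a1 := Int.floor_le (t * N n)
    have a2 := Int.lt_floor_add_one (t * N n)
    have a3 : |((⌊t * N n⌋ : ℤ) : ℝ)| ≤ |t| * N n + 1 := by
      have := le_abs_self t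
      have := neg_abs_le t
      rw [abs_le]
      constructor <;> nlinarith
    have a4 := h.nonneg (g n)
    have a5 := abs_nonneg t
    nlinarith

lemma a2_tendsto_nat : Tendsto (fun n : ℕ => (n : ℝ)) (hyperfilter ℕ) atTop :=
  tendsto_natCast_atTop_atTop.mono_left Nat.hyperfilter_le_atTop

namespace A2OP

/-- the norm -/
noncomputable def nrm (X : A2OP h) : ℝ := sInf {K | 0 ≤ K ∧ ∀ t, ν (X.toFun t) ≤ K * |t|}

lemma nrm_nonneg (X : A2OP h) : 0 ≤ X.nrm := le_csInf X.exists_bound fun _ hK => hK.1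

lemma nrm_le (X : A2OP h) {K : ℝ} (h0 : 0 ≤ K) (hK : ∀ t, ν (X.toFun t) ≤ K * |t|) : X.nrm ≤ K :=
  csInf_le ⟨0, fun _ hK => hK.1⟩ ⟨h0, hK⟩

lemma le_nrm (X : A2OP h) (t : ℝ) : ν (X.toFun t) ≤ X.nrm * |t| := by
  rcases (abs_nonneg t).eq_or_lt with e | e
  · rw [← X.nu_abs, ← e, X.map_zero, h.map_one, mul_zero]
  · rw [← div_le_iff₀ e]
    exact le_csInf X.exists_bound fun K hK => (div_le_iff₀ e).2 (hK.2 t)

lemma nrm_le_exp (X : A2OP h) (hX : X.nrm ≤ 1 / C) : X.nrm ≤ C * ν (X.toFun 1) := by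
  have hC := h.a2_pos
  have n0 := X.nrm_nonneg
  have e0 := h.nonneg (X.toFun 1)
  refine le_of_forall_pos_le_add fun ε hε => X.nrm_le (by positivity)
    (X.bound_of_local (δ := ε / ((C + 1) * X.nrm + 1)) (by positivity) fun s hs hs' => ?_)
  rw [le_div_iff₀ (by positivity)] at hs'
  have a1 : (⌊1 / s⌋₊ : ℝ) * s ≤ 1 := by
    have := Nat.floor_le (a := 1 / s) (by positivity)
    rwa [le_div_iff₀ hs] at this
  have a2 : 1 < ((⌊1 / s⌋₊ : ℝ) + 1) * s := by
    have := Nat.lt_floor_add_one (1 / s)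
    rwa [div_lt_iff₀ hs] at this
  have b1 := X.le_nrm s
  rw [abs_of_pos hs] at b1
  have b2 := h.escape (X.toFun s) ⌊1 / s⌋₊ (by
    have : (0 : ℝ) ≤ ⌊1 / s⌋₊ := Nat.cast_nonneg _
    calc ⌊1 / s⌋₊ * ν (X.toFun s) ≤ ⌊1 / s⌋₊ * (X.nrm * s) := by gcongr
      _ = (⌊1 / s⌋₊ * s) * X.nrm := by ring
      _ ≤ 1 * X.nrm := by gcongr
      _ ≤ 1 / C := by rwa [one_mul])
  rw [← X.map_nat] at b2
  have b3 := h.mul_le (X.toFun 1) (X.toFun (⌊1 / s⌋₊ * s - 1))
  rw [← X.map_add, add_sub_cancel] at b3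
  have b4 := X.le_nrm (⌊1 / s⌋₊ * s - 1)
  have b5 : |(⌊1 / s⌋₊ : ℝ) * s - 1| ≤ s := abs_le.2 ⟨by linarith, by linarith⟩
  have b6 := h.nonneg (X.toFun s)
  generalize (⌊1 / s⌋₊ : ℝ) = N at *
  have b7 : N * ν (X.toFun s) ≤ C * (ν (X.toFun 1) + X.nrm * s) := by
    refine b2.trans (mul_le_mul_of_nonneg_left (b3.trans ?_) hC.le)
    have : X.nrm * |N * s - 1| ≤ X.nrm * s := by gcongr
    linarith
  calc ν (X.toFun s) ≤ ν (X.toFun s) * ((N + 1) * s) := le_mul_of_one_le_right b6 a2.le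
    _ = (N * ν (X.toFun s) + ν (X.toFun s)) * s := by ring
    _ ≤ (C * ν (X.toFun 1) + ε) * s :=
      mul_le_mul_of_nonneg_right (by nlinarith) hs.le

lemma exists_add (X Y : A2OP h) : ∃ Z : A2OP h,
    (∀ t : ℝ, Tendsto (fun n : ℕ => (X.toFun (1 / n) * Y.toFun (1 / n)) ^ ⌊t * (n : ℝ)⌋) (hyperfilter ℕ)
      (𝓝 (Z.toFun t))) ∧ ∀ t, ν (Z.toFun t) ≤ (X.nrm + Y.nrm) * |t| := by
  refine a2_exists_lim_pow h _ _ _ (add_nonneg X.nrm_nonneg Y.nrm_nonneg) a2_tendsto_nat ?_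
  filter_upwards [a2_tendsto_nat.eventually_gt_atTop 0] with n hn
  have a1 := X.le_nrm (1 / n)
  have a2 := Y.le_nrm (1 / n)
  have a3 := h.mul_le (X.toFun (1 / n)) (Y.toFun (1 / n))
  rw [abs_of_pos (by positivity)] at a1 a2
  calc n * ν (X.toFun (1 / n) * Y.toFun (1 / n)) ≤ n * (X.nrm * (1 / n) + Y.nrm * (1 / n)) := by
        gcongr; linarith
    _ = X.nrm + Y.nrm := by field_simp

noncomputable instance : Add (A2OP h) := ⟨fun X Y => (X.exists_add Y).choose⟩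

lemma tendsto_add (X Y : A2OP h) (t : ℝ) :
    Tendsto (fun n : ℕ => (X.toFun (1 / n) * Y.toFun (1 / n)) ^ ⌊t * (n : ℝ)⌋) (hyperfilter ℕ)
      (𝓝 ((X + Y).toFun t)) := (X.exists_add Y).choose_spec.1 t

lemma nrm_add_le (X Y : A2OP h) : (X + Y).nrm ≤ X.nrm + Y.nrm :=
  nrm_le _ (add_nonneg X.nrm_nonneg Y.nrm_nonneg) (X.exists_add Y).choose_spec.2

lemma add_est (X Y : A2OP h) {t : ℝ} (ht : 0 ≤ t) (hX : X.nrm * t ≤ 1 / C)
    (hY : Y.nrm * t ≤ 1 / C) :
    ν ((X.toFun t * Y.toFun t)⁻¹ * (X + Y).toFun t) ≤ C * X.nrm * Y.nrm * t ^ 2 := by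
  have hC := h.a2_pos
  have x0 := X.nrm_nonneg
  have y0 := Y.nrm_nonneg
  have l0 : Tendsto (fun n : ℕ => (⌊t * n⌋₊ : ℝ) * (1 / n)) (hyperfilter ℕ) (𝓝 t) := by
    have := (tendsto_nat_floor_mul_div_atTop ht).comp a2_tendsto_nat
    simpa [Function.comp_def, div_eq_mul_inv] using this
  have l1 := (((X.cont.tendsto t).comp l0).mul ((Y.cont.tendsto t).comp l0)).inv.mul
    (X.tendsto_add Y t)
  refine le_of_tendsto ((h.a2_continuous.tendsto _).comp l1) ?_
  filter_upwards [a2_tendsto_nat.eventually_gt_atTop 0] with n hn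
  have e : ⌊t * n⌋ = (⌊t * n⌋₊ : ℤ) := (Int.natCast_floor_eq_floor (by positivity)).symm
  simp only [Function.comp_def]
  rw [e, zpow_natCast, X.map_nat, Y.map_nat]
  have a0 : (⌊t * n⌋₊ : ℝ) ≤ t * n := Nat.floor_le (by positivity)
  have a1 : ∀ Z : A2OP h, ⌊t * n⌋₊ * ν (Z.toFun (1 / n)) ≤ Z.nrm * t := fun Z => by
    have a1 := Z.le_nrm (1 / n)
    rw [abs_of_pos (by positivity)] at a1
    have := h.nonneg (Z.toFun (1 / n))
    calc ⌊t * n⌋₊ * ν (Z.toFun (1 / n)) ≤ (t * n) * (Z.nrm * (1 / n)) := by gcongr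
      _ = Z.nrm * t := by field_simp
  refine (h.a2_mul_pow _ _ _ ((a1 X).trans hX) ((a1 Y).trans hY)).trans ?_
  have := h.nonneg (Y.toFun (1 / n))
  calc C * (⌊t * n⌋₊ : ℝ) ^ 2 * ν (X.toFun (1 / n)) * ν (Y.toFun (1 / n))
      = C * (⌊t * n⌋₊ * ν (X.toFun (1 / n))) * (⌊t * n⌋₊ * ν (Y.toFun (1 / n))) := by ring
    _ ≤ C * (X.nrm * t) * (Y.nrm * t) := by
      have := a1 X
      have := a1 Y
      gcongr
    _ = C * X.nrm * Y.nrm * t ^ 2 := by ring

end A2OP

end Crest.Agent.R217
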