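import Crest.Agent.R217.A2b

/-! # Row 217, part A2, file c: the normed space of one-parameter subgroups -/

set_option autoImplicit false
set_option linter.unusedSectionVars false
open Filter Topology Metric Set

namespace Crest.Agent.R217

variable {G : Type*} [Group G] [TopologicalSpace G] [IsTopologicalGroup G] [T2Space G]
  [LocallyCompactSpace G] {ν : G → ℝ} {C : ℝ}

/-- second order tangency at `0⁺` -/
def A2Tan (ν : G → ℝ) (a b : ℝ → G) : Prop :=
  ∃ K : ℝ, ∀ᶠ t in 𝓝[>] (0 : ℝ), ν ((a t)⁻¹ * b t) ≤ K * t ^ 2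

variable {h : Gleason ν C} {a b c : ℝ → G}

lemma a2_ev_mul_le (K : ℝ) {δ : ℝ} (hδ : 0 < δ) : ∀ᶠ t in 𝓝[>] (0 : ℝ), K * t ≤ δ := by
  have : Tendsto (fun t : ℝ => K * t) (𝓝[>] 0) (𝓝 0) := by
    have : Continuous fun t : ℝ => K * t := by fun_prop
    simpa using (this.tendsto 0).mono_left nhdsWithin_le_nhds
  exact ((tendsto_order.1 this).2 δ hδ).mono fun _ h => h.le

lemma A2Tan.symm (h : Gleason ν C) (H : A2Tan ν a b) : A2Tan ν b a := by
  obtain ⟨K, hK⟩ := H
  exact ⟨K, hK.mono fun t ht => by rwa [h.a2_symm]⟩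

lemma A2Tan.trans (h : Gleason ν C) (H : A2Tan ν a b) (H' : A2Tan ν b c) : A2Tan ν a c := by
  obtain ⟨K, hK⟩ := H
  obtain ⟨K', hK'⟩ := H'
  refine ⟨K + K', (hK.and hK').mono fun t ht => ?_⟩
  have := h.a2_tri (a t) (b t) (c t)
  linarith [ht.1, ht.2]

lemma A2Tan.mul_left (H : A2Tan ν a b) (c : ℝ → G) :
    A2Tan ν (fun t => c t * a t) (fun t => c t * b t) := by
  obtain ⟨K, hK⟩ := H
  exact ⟨K, hK.mono fun t ht => by rwa [mul_inv_rev, mul_assoc, inv_mul_cancel_left]⟩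

lemma A2Tan.mul_right (H : A2Tan ν a b) (Z : A2OP h) :
    A2Tan ν (fun t => a t * Z.toFun t) (fun t => b t * Z.toFun t) := by
  obtain ⟨K, hK⟩ := H
  have hC : 0 < 1 / C := one_div_pos.2 h.a2_pos
  refine ⟨2 * K, ?_⟩
  filter_upwards [hK, a2_ev_mul_le Z.nrm hC, a2_ev_mul_le |K| hC, a2_ev_mul_le 1 one_pos,
    self_mem_nhdsWithin] with t h1 h2 h3 h4 h5
  have h5 : 0 < t := h5
  have h6 := Z.le_nrm t
  rw [abs_of_pos h5] at h6
  have h7 : K * t ^ 2 ≤ 1 / C := by
    have := le_abs_self K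
    have := abs_nonneg K
    calc K * t ^ 2 ≤ |K| * t ^ 2 := by gcongr
      _ = (|K| * t) * t := by ring
      _ ≤ (|K| * t) * 1 := by gcongr; linarith
      _ ≤ 1 / C := by rwa [mul_one]
  have := h.a2_right (h1.trans h7) (h6.trans h2)
  linarith

lemma A2Tan.comp (H : A2Tan ν a b) {s : ℝ} (hs : 0 < s) :
    A2Tan ν (fun t => a (s * t)) (fun t => b (s * t)) := by
  obtain ⟨K, hK⟩ := H
  have : Tendsto (fun t : ℝ => s * t) (𝓝[>] 0) (𝓝[>] 0) := by
    refine tendsto_nhdsWithin_iff.2 ⟨?_, ?_⟩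
    · have : Continuous fun t : ℝ => s * t := by fun_prop
      simpa using (this.tendsto 0).mono_left nhdsWithin_le_nhds
    · filter_upwards [self_mem_nhdsWithin] with t ht using mul_pos hs ht
  exact ⟨K * s ^ 2, (this.eventually hK).mono fun t ht => by linarith [ht, mul_pow s t 2 ▸ ht]⟩

namespace A2OP

lemma eq_of_A2Tan {X Y : A2OP h} (H : A2Tan ν X.toFun Y.toFun) : X = Y := eq_of_tan H.choose_spec

lemma tan_add (X Y : A2OP h) : A2Tan ν (fun t => X.toFun t * Y.toFun t) (X + Y).toFun := by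
  have hC : 0 < 1 / C := one_div_pos.2 h.a2_pos
  refine ⟨C * X.nrm * Y.nrm, ?_⟩
  filter_upwards [a2_ev_mul_le X.nrm hC, a2_ev_mul_le Y.nrm hC, self_mem_nhdsWithin]
    with t h1 h2 h3 using X.add_est Y (le_of_lt h3) h1 h2

lemma tan_swap (X Y : A2OP h) :
    A2Tan ν (fun t => X.toFun t * Y.toFun t) (fun t => Y.toFun t * X.toFun t) := by
  have hC : 0 < 1 / C := one_div_pos.2 h.a2_pos
  refine ⟨C * X.nrm * Y.nrm, ?_⟩
  filter_upwards [a2_ev_mul_le X.nrm hC, a2_ev_mul_le Y.nrm hC, self_mem_nhdsWithin]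
    with t h1 h2 h3
  have h3 : 0 < t := h3
  have h4 := X.le_nrm t
  have h5 := Y.le_nrm t
  rw [abs_of_pos h3] at h4 h5
  refine (h.a2_swap (h4.trans h1) (h5.trans h2)).trans ?_
  have := h.a2_pos
  have := h.nonneg (Y.toFun t)
  have := X.nrm_nonneg
  calc C * ν (X.toFun t) * ν (Y.toFun t) ≤ C * (X.nrm * t) * (Y.nrm * t) := by gcongr
    _ = _ := by ring

lemma add_eq_of_tan {X Y Z : A2OP h} (H : A2Tan ν (fun t => X.toFun t * Y.toFun t) Z.toFun) :
    X + Y = Z := eq_of_A2Tan (((X.tan_add Y).symm h).trans h H)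

lemma add_eq_of_eq {X Y Z : A2OP h} (H : ∀ t, X.toFun t * Y.toFun t = Z.toFun t) : X + Y = Z :=
  add_eq_of_tan ⟨0, Eventually.of_forall fun t => by simp [H t, h.map_one]⟩

instance : Zero (A2OP h) := ⟨⟨fun _ => 1, continuous_const, fun _ _ => (mul_one _).symm⟩⟩

instance : SMul ℝ (A2OP h) := ⟨fun c X => ⟨fun t => X.toFun (c * t), X.cont.comp (by fun_prop),
  fun s t => by rw [mul_add, X.map_add]⟩⟩

instance : Neg (A2OP h) := ⟨fun X => (-1 : ℝ) • X⟩

lemma zero_toFun (t : ℝ) : (0 : A2OP h).toFun t = 1 := rfl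
lemma smul_toFun (c : ℝ) (X : A2OP h) (t : ℝ) : (c • X).toFun t = X.toFun (c * t) := rfl
lemma neg_toFun (X : A2OP h) (t : ℝ) : (-X).toFun t = (X.toFun t)⁻¹ := by
  rw [← X.map_neg, ← neg_one_mul]; rfl

noncomputable instance : AddCommGroup (A2OP h) :=
  { AddGroup.ofLeftAxioms
      (fun X Y Z => add_eq_of_tan ((((X.tan_add Y).symm h).mul_right Z).trans h (by
        simp only [mul_assoc]
        exact ((Y.tan_add Z).mul_left X.toFun).trans h (X.tan_add (Y + Z)))))
      (fun X => add_eq_of_eq fun t => one_mul _)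
      (fun X => add_eq_of_eq fun t => by rw [neg_toFun, inv_mul_cancel, zero_toFun]) with
    add_comm := fun X Y => add_eq_of_tan ((X.tan_swap Y).trans h (Y.tan_add X)) }

lemma smul_add_pos {c : ℝ} (hc : 0 < c) (X Y : A2OP h) : c • (X + Y) = c • X + c • Y :=
  (add_eq_of_tan ((X.tan_add Y).comp hc)).symm

noncomputable instance : Module ℝ (A2OP h) := Module.ofMinimalAxioms
  (fun c X Y => by
    rcases lt_trichotomy c 0 with hc | rfl | hc
    · have e : ∀ Z : A2OP h, c • Z = -((-c) • Z) := fun Z => by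
        ext t
        rw [neg_toFun, smul_toFun, smul_toFun, ← map_neg, neg_mul, neg_neg]
      rw [e, e X, e Y, smul_add_pos (neg_pos.2 hc), neg_add]
    · refine (add_eq_of_eq fun t => ?_).symm
      simp only [smul_toFun, zero_mul, map_zero, one_mul]
    · exact smul_add_pos hc X Y)
  (fun c d X => (add_eq_of_eq fun t => by simp only [smul_toFun, add_mul, map_add]).symm)
  (fun c d X => by ext t; simp only [smul_toFun]; congr 1; ring)
  (fun X => by ext t; simp only [smul_toFun, one_mul])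

lemma nrm_smul_le (c : ℝ) (X : A2OP h) : (c • X).nrm ≤ |c| * X.nrm :=
  nrm_le _ (mul_nonneg (abs_nonneg c) X.nrm_nonneg) fun t => by
    have := X.le_nrm (c * t)
    rw [abs_mul] at this
    rw [smul_toFun]
    linarith

/-- the norm as a group norm -/
noncomputable def gnorm (h : Gleason ν C) : AddGroupNorm (A2OP h) where
  toFun := nrm
  map_zero' := le_antisymm (nrm_le _ le_rfl fun t => by simp [zero_toFun, h.map_one])
    (nrm_nonneg _)
  add_le' := nrm_add_le
  neg' X := by simp only [nrm, neg_toFun, h.map_inv]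
  eq_zero_of_map_eq_zero' X hX := by
    ext t
    have := X.le_nrm t
    rw [show X.nrm = 0 from hX, zero_mul] at this
    exact h.a2_eq_one this

noncomputable instance : NormedAddCommGroup (A2OP h) := (gnorm h).toNormedAddCommGroup

noncomputable instance : NormedSpace ℝ (A2OP h) where
  norm_smul_le := nrm_smul_le

lemma norm_eq (X : A2OP h) : ‖X‖ = X.nrm := rfl

/-- the exponential map -/
def exp (X : A2OP h) : G := X.toFun 1

lemma exp_smul (t : ℝ) (X : A2OP h) : exp (t • X) = X.toFun t := by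
  rw [exp, smul_toFun, mul_one]

lemma nu_exp_le (X : A2OP h) : ν (exp X) ≤ ‖X‖ := by simpa [exp, norm_eq] using X.le_nrm 1

lemma exp_add_est {X Y : A2OP h} (hX : ‖X‖ ≤ 1 / C) (hY : ‖Y‖ ≤ 1 / C) :
    ν ((exp X * exp Y)⁻¹ * exp (X + Y)) ≤ C * ‖X‖ * ‖Y‖ := by
  simpa [exp, norm_eq] using X.add_est Y zero_le_one (by rwa [mul_one]) (by rwa [mul_one])

lemma exp_dist {X Y : A2OP h} (hX : ‖X‖ ≤ 1 / (2 * C ^ 2)) (hY : ‖Y‖ ≤ 1 / (2 * C ^ 2)) :
    ν ((exp X)⁻¹ * exp Y) ≤ 2 * ‖Y - X‖ ∧ ‖Y - X‖ ≤ 2 * C * ν ((exp X)⁻¹ * exp Y) := by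
  have hC := h.a2_pos
  have hC1 := h.one_le
  have a1 : 1 / (2 * C ^ 2) ≤ 1 / (2 * C) := one_div_le_one_div_of_le (by positivity) (by nlinarith)
  have a2 : 1 / (2 * C) + 1 / (2 * C) = 1 / C := by field_simp; ring
  have a3 : 0 < 1 / (2 * C) := by positivity
  have hW : ‖Y - X‖ ≤ 1 / C := by linarith [norm_sub_le Y X]
  have h1 := exp_add_est (X := X) (Y := Y - X) (by linarith) hW
  rw [add_sub_cancel] at h1
  have h2 := h.a2_tri (exp X) (exp X * exp (Y - X)) (exp Y)
  have h3 := h.a2_tri (exp X) (exp Y) (exp X * exp (Y - X))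
  rw [inv_mul_cancel_left] at h2 h3
  rw [h.a2_symm (exp Y)] at h3
  have h4 := nu_exp_le (Y - X)
  have h5 : ‖Y - X‖ ≤ C * ν (exp (Y - X)) := nrm_le_exp _ hW
  have h6 : 2 * C ^ 2 * ‖X‖ ≤ 1 := by rwa [le_div_iff₀' (by positivity)] at hX
  have p0 := norm_nonneg (Y - X)
  have p1 := norm_nonneg X
  have h7 : 2 * C * (C * ‖X‖ * ‖Y - X‖) ≤ ‖Y - X‖ := by nlinarith
  have h8 : 0 ≤ C * ‖X‖ * ‖Y - X‖ := by positivity
  constructor <;> nlinarith

lemma continuous_exp : Continuous (exp : A2OP h → G) := by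
  have hC := h.a2_pos
  have loc : ∀ X : A2OP h, ‖X‖ < 1 / (2 * C ^ 2) → ContinuousAt exp X := fun X hX => by
    refine h.a2_tendsto.2 (squeeze_zero' (Eventually.of_forall fun _ => h.nonneg _) ?_
      (g := fun Y => 2 * ‖Y - X‖) ?_)
    · filter_upwards [continuous_norm.continuousAt.eventually_lt continuousAt_const hX] with Y hY
        using (exp_dist hX.le hY.le).1
    · have : Continuous fun Y : A2OP h => 2 * ‖Y - X‖ := by fun_prop
      simpa using this.tendsto X
  refine continuous_iff_continuousAt.2 fun X => ?_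
  obtain ⟨m, hm⟩ := exists_nat_gt (‖X‖ * (2 * C ^ 2))
  have m0 : (0 : ℝ) < m := lt_of_le_of_lt (by positivity) hm
  have e : (exp : A2OP h → G) = fun Y => exp ((m : ℝ)⁻¹ • Y) ^ m := funext fun Y => by
    rw [exp_smul, ← map_nat, mul_inv_cancel₀ m0.ne', exp]
  rw [e]
  refine ContinuousAt.pow (ContinuousAt.comp (f := fun Y : A2OP h => (m : ℝ)⁻¹ • Y) (loc _ ?_)
    (by fun_prop)) m
  rw [norm_smul, Real.norm_eq_abs, abs_of_pos (by positivity), lt_div_iff₀ (by positivity),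
    mul_assoc, inv_mul_lt_iff₀ m0]
  linarith

lemma isCompact_ball : IsCompact (closedBall (0 : A2OP h) (1 / (2 * C ^ 2))) := by
  have hC := h.a2_pos
  rw [isCompact_iff_ultrafilter_le_nhds']
  intro U hU
  have hU' : ∀ᶠ Y in (U : Filter (A2OP h)), ‖Y‖ ≤ 1 / (2 * C ^ 2) :=
    mem_of_superset hU fun Y hY => mem_closedBall_zero_iff.1 hY
  obtain ⟨X, h1, h2⟩ := a2_exists_lim h U (fun Y t => Y.toFun t) (K := 1 / (2 * C ^ 2))
    (by positivity) (fun s t => by simp only [map_add, inv_mul_cancel]; exact tendsto_const_nhds)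
    fun t ε hε => hU'.mono fun Y hY => by
      have := Y.le_nrm t
      have : Y.nrm * |t| ≤ 1 / (2 * C ^ 2) * |t| := mul_le_mul_of_nonneg_right hY (abs_nonneg t)
      linarith
  have hX : ‖X‖ ≤ 1 / (2 * C ^ 2) := X.nrm_le (by positivity) h2
  refine ⟨X, mem_closedBall_zero_iff.2 hX, ?_⟩
  change Tendsto id (U : Filter (A2OP h)) (𝓝 X)
  rw [tendsto_iff_norm_sub_tendsto_zero]
  refine squeeze_zero' (Eventually.of_forall fun _ => norm_nonneg _)
    (hU'.mono fun Y hY => (exp_dist hX hY).2) ?_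
  simpa [exp] using (h.a2_tendsto.1 (h1 1)).const_mul (2 * C)

instance : FiniteDimensional ℝ (A2OP h) :=
  FiniteDimensional.of_isCompact_closedBall₀ ℝ (by have := h.a2_pos; positivity) isCompact_ball

/-- conjugation -/
def conj (g : G) : A2OP h →ₗ[ℝ] A2OP h where
  toFun X := ⟨fun t => g * X.toFun t * g⁻¹, by have := X.cont; fun_prop, fun s t => by
    rw [X.map_add]; group⟩
  map_add' X Y := by
    ext t
    refine tendsto_nhds_unique (((X.tendsto_add Y t).const_mul g).mul_const g⁻¹) ?_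
    refine (tendsto_add _ _ t).congr fun n => ?_
    rw [← conj_zpow]
    congr 1
    group
  map_smul' c X := rfl

lemma exp_conj (g : G) (X : A2OP h) : exp (conj g X) = g * exp X * g⁻¹ := rfl

end A2OP

end Crest.Agent.R217
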