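import Crest.Agent.R217.A2c

/-! # Row 217, part A2, file d: the exponential map is locally onto; the chart -/

set_option autoImplicit false
set_option linter.unusedSectionVars false
open Filter Topology Metric Set

namespace Crest.Agent.R217

variable {G : Type*} [Group G] [TopologicalSpace G] [IsTopologicalGroup G] [T2Space G]
  [LocallyCompactSpace G] {ν : G → ℝ} {C : ℝ}

namespace A2OP

variable {h : Gleason ν C}

/-- Hirschfeld's argument -/
theorem image_mem_nhds {ρ : ℝ} (hρ : 0 < ρ) : exp '' closedBall (0 : A2OP h) ρ ∈ 𝓝 (1 : G) := by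
  have hC := h.a2_pos
  have hC1 := h.one_le
  wlog hρ' : ρ ≤ 1 / C generalizing ρ
  · exact mem_of_superset (this (one_div_pos.2 hC) le_rfl)
      (image_mono (closedBall_subset_closedBall (not_le.1 hρ').le))
  by_contra hn
  have hg : ∀ n : ℕ, ∃ g, ν g < 1 / ((n : ℝ) + 1) ∧ g ∉ exp '' closedBall (0 : A2OP h) ρ := by
    intro n
    by_contra hc
    push Not at hc
    exact hn (mem_of_superset (h.ball_mem (1 / ((n : ℝ) + 1)) (by positivity)) fun g hg => hc g hg)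
  choose g hg1 hg2 using hg
  have hx : ∀ n, ∃ x ∈ closedBall (0 : A2OP h) ρ, ∀ y ∈ closedBall (0 : A2OP h) ρ,
      ν ((exp x)⁻¹ * g n) ≤ ν ((exp y)⁻¹ * g n) := fun n => by
    have hc : Continuous fun y : A2OP h => ν ((exp y)⁻¹ * g n) :=
      h.a2_continuous.comp (continuous_exp.inv.mul continuous_const)
    exact (isCompact_closedBall (0 : A2OP h) ρ).exists_isMinOn ⟨0, mem_closedBall_self hρ.le⟩
      hc.continuousOn
  choose x hx1 hx2 using hx
  obtain ⟨k, hk⟩ : ∃ k : ℕ → G, ∀ n, k n = (exp (x n))⁻¹ * g n := ⟨_, fun _ => rfl⟩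
  have δ0 : ∀ n, 0 < ν (k n) := fun n => by
    by_contra hc
    rw [hk] at hc
    exact hg2 n ⟨x n, hx1 n, h.a2_eq (not_lt.1 hc)⟩
  have δ1 : ∀ n, ν (k n) ≤ ν (g n) := fun n => by
    have := hx2 n 0 (mem_closedBall_self hρ.le)
    rw [← hk] at this
    simpa [exp, zero_toFun] using this
  have lg : Tendsto (fun n => ν (g n)) (hyperfilter ℕ) (𝓝 0) :=
    squeeze_zero (fun _ => h.nonneg _) (fun n => (hg1 n).le)
      (tendsto_one_div_add_atTop_nhds_zero_nat.mono_left Nat.hyperfilter_le_atTop)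
  have lk : Tendsto (fun n => ν (k n)) (hyperfilter ℕ) (𝓝 0) :=
    squeeze_zero (fun _ => h.nonneg _) δ1 lg
  have lx : Tendsto (fun n => ‖x n‖) (hyperfilter ℕ) (𝓝 0) := by
    refine squeeze_zero (fun _ => norm_nonneg _) (fun n => ?_)
      (by simpa using lg.const_mul (C * 2))
    have h1 : ‖x n‖ ≤ C * ν (exp (x n)) :=
      nrm_le_exp _ ((mem_closedBall_zero_iff.1 (hx1 n)).trans hρ')
    have h2 := h.mul_le (g n) (k n)⁻¹
    rw [h.map_inv, hk, mul_inv_rev, mul_inv_cancel_left, inv_inv, ← hk] at h2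
    have := δ1 n
    nlinarith
  have lN : Tendsto (fun n => (ν (k n))⁻¹) (hyperfilter ℕ) atTop :=
    tendsto_inv_nhdsGT_zero.comp (tendsto_nhdsWithin_iff.2 ⟨lk, Eventually.of_forall δ0⟩)
  obtain ⟨X, hX1, hX2⟩ := a2_exists_lim_pow h (hyperfilter ℕ) k (fun n => (ν (k n))⁻¹) zero_le_one
    lN (Eventually.of_forall fun n => (inv_mul_cancel₀ (δ0 n).ne').le)
  have hX : ‖X‖ ≤ 1 := X.nrm_le zero_le_one hX2
  obtain ⟨t, ht⟩ : ∃ t : ℝ, t = 1 / (2 * C ^ 2) := ⟨_, rfl⟩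
  have t0 : 0 < t := by rw [ht]; positivity
  have t1 : 2 * t ≤ 1 / C := by
    rw [ht, mul_one_div, div_le_div_iff₀ (by positivity) hC]; nlinarith
  obtain ⟨m, hm⟩ : ∃ m : ℕ → ℕ, ∀ n, m n = ⌊t * (ν (k n))⁻¹⌋₊ := ⟨_, fun _ => rfl⟩
  have lm : Tendsto (fun n => (m n : ℝ) * ν (k n)) (hyperfilter ℕ) (𝓝 t) := by
    have := (tendsto_nat_floor_mul_div_atTop t0.le).comp lN
    simpa [Function.comp_def, hm] using this
  have m1 : ∀ n, (m n : ℝ) * ν (k n) ≤ t := fun n => by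
    have := δ0 n
    have h1 : (m n : ℝ) ≤ t * (ν (k n))⁻¹ := by rw [hm]; exact Nat.floor_le (by positivity)
    rwa [← div_eq_mul_inv, le_div_iff₀ this] at h1
  have le : Tendsto (fun n => ν ((k n ^ m n)⁻¹ * X.toFun (ν (k n)) ^ m n)) (hyperfilter ℕ)
      (𝓝 0) := by
    refine h.a2_tendsto_one.1 ?_
    have h1 := (hX1 t).inv.mul ((X.cont.tendsto t).comp lm)
    rw [inv_mul_cancel] at h1
    refine h1.congr fun n => ?_
    have := δ0 n
    rw [← Int.natCast_floor_eq_floor (by positivity), zpow_natCast, ← hm, Function.comp_apply,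
      map_nat]
  obtain ⟨n, h1, h2, h3, h4, h5⟩ := (((tendsto_order.1 lx).2 (1 / (4 * C)) (by positivity)).and
    (((tendsto_order.1 lx).2 (ρ / 2) (by positivity)).and
    (((tendsto_order.1 lk).2 (ρ / 2) (by positivity)).and
    (((tendsto_order.1 lm).1 (t / 2) (by linarith)).and
    ((tendsto_order.1 le).2 (t / (8 * C)) (by positivity)))))).exists
  have d0 := δ0 n
  have a1 : ν (X.toFun (ν (k n))) ≤ ν (k n) := by
    have := hX2 (ν (k n))
    rwa [one_mul, abs_of_pos d0] at this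
  have a2 := h.a2_dist_le (k n) (X.toFun (ν (k n)))
  have a3 : (0 : ℝ) ≤ m n := Nat.cast_nonneg _
  have a4 := (h.a2_pow_dist (k n) (X.toFun (ν (k n))) (m n) (ht ▸ m1 n)
    (by nlinarith [m1 n])).2
  have a5 : ν ((k n)⁻¹ * X.toFun (ν (k n))) < ν (k n) / 2 := by
    rw [lt_div_iff₀' (by positivity)] at h5
    by_contra hc
    have : m n * (ν (k n) / 2) ≤ m n * ν ((k n)⁻¹ * X.toFun (ν (k n))) := by
      gcongr; exact not_lt.1 hc
    nlinarith
  have b1 : ‖ν (k n) • X‖ ≤ ν (k n) := by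
    rw [norm_smul, Real.norm_eq_abs, abs_of_pos d0]
    exact mul_le_of_le_one_right d0.le hX
  have b2 := hx2 n (x n + ν (k n) • X) (mem_closedBall_zero_iff.2 (by
    linarith [norm_add_le (x n) (ν (k n) • X)]))
  rw [← hk] at b2
  have b3 := exp_add_est (X := x n) (Y := ν (k n) • X) (by linarith) (by linarith)
  have b4 := h.a2_tri (exp (x n + ν (k n) • X)) (exp (x n) * exp (ν (k n) • X)) (g n)
  rw [h.a2_symm _ (exp (x n) * exp (ν (k n) • X)), mul_inv_rev (exp (x n)), mul_assoc _ _ (g n),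
    ← hk, ← mul_inv_rev, h.a2_symm _ (k n)] at b4
  rw [exp_smul] at b3 b4
  have b5 : C * ‖x n‖ * ‖ν (k n) • X‖ ≤ ν (k n) / 4 := by
    rw [lt_div_iff₀' (by positivity)] at h1
    have := norm_nonneg (ν (k n) • X)
    nlinarith
  linarith

end A2OP

/-- exponential coordinates before the choice of the logarithm -/
structure A2Pre {G : Type*} [Group G] [TopologicalSpace G] (ν : G → ℝ)
    {V : Type*} [NormedAddCommGroup V] [NormedSpace ℝ V] (exp : V → G) (ρ M : ℝ) : Prop where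
  ρ_pos : 0 < ρ
  M_pos : 0 < M
  exp_add : ∀ (s t : ℝ) (x : V), exp ((s + t) • x) = exp (s • x) * exp (t • x)
  cont_exp : Continuous exp
  nu_le : ∀ x, ν (exp x) ≤ M * ‖x‖
  lower : ∀ x y, ‖x‖ ≤ ρ → ‖y‖ ≤ ρ → ‖y - x‖ ≤ M * ν ((exp x)⁻¹ * exp y)
  est : ∀ x y, ‖x‖ ≤ ρ → ‖y‖ ≤ ρ → ν ((exp x * exp y)⁻¹ * exp (x + y)) ≤ M * ‖x‖ * ‖y‖
  nhds : ∀ r, 0 < r → exp '' closedBall 0 r ∈ 𝓝 (1 : G)
  conj : ∀ g : G, ∃ A : V →L[ℝ] V, ∀ x : V, g * exp x * g⁻¹ = exp (A x)

theorem a2_pre (h : Gleason ν C) : A2Pre ν (A2OP.exp (h := h)) (1 / (2 * C ^ 2)) (2 * C) := by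
  have hC := h.a2_pos
  have hC1 := h.one_le
  have a1 : 1 / (2 * C ^ 2) ≤ 1 / C := one_div_le_one_div_of_le hC (by nlinarith)
  refine ⟨by positivity, by positivity, fun s t x => by simp only [A2OP.exp_smul, x.map_add],
    A2OP.continuous_exp, fun x => x.nu_exp_le.trans (by nlinarith [norm_nonneg x]),
    fun x y hx hy => (A2OP.exp_dist hx hy).2, fun x y hx hy => ?_,
    fun r hr => A2OP.image_mem_nhds hr,
    fun g => ⟨LinearMap.toContinuousLinearMap (A2OP.conj g), fun x => rfl⟩⟩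
  refine (A2OP.exp_add_est (hx.trans a1) (hy.trans a1)).trans ?_
  have : 0 ≤ C * ‖x‖ * ‖y‖ := by positivity
  linarith

variable {V W : Type*} [NormedAddCommGroup V] [NormedSpace ℝ V] [NormedAddCommGroup W]
  [NormedSpace ℝ W] {exp : V → G} {ρ M : ℝ}

theorem A2Pre.transfer (h : Gleason ν C) (H : A2Pre ν exp ρ M) (e : W ≃L[ℝ] V) :
    ∃ ρ' M', A2Pre ν (fun x => exp (e x)) ρ' M' := by
  obtain ⟨a, a1, ha, ha'⟩ : ∃ a : ℝ, 1 ≤ a ∧ (∀ x, ‖e x‖ ≤ a * ‖x‖) ∧ ∀ x, ‖x‖ ≤ a * ‖e x‖ := by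
    have n1 := norm_nonneg (e : W →L[ℝ] V)
    have n2 := norm_nonneg (e.symm : V →L[ℝ] W)
    refine ⟨1 + ‖(e : W →L[ℝ] V)‖ + ‖(e.symm : V →L[ℝ] W)‖, by linarith, fun x => ?_, fun x => ?_⟩
    · have : ‖e x‖ ≤ ‖(e : W →L[ℝ] V)‖ * ‖x‖ := (e : W →L[ℝ] V).le_opNorm x
      nlinarith [norm_nonneg x]
    · have : ‖e.symm (e x)‖ ≤ ‖(e.symm : V →L[ℝ] W)‖ * ‖e x‖ := (e.symm : V →L[ℝ] W).le_opNorm _
      rw [e.symm_apply_apply] at this
      nlinarith [norm_nonneg (e x)]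
  have a0 : 0 < a := by linarith
  have hρ := H.ρ_pos
  have hM := H.M_pos
  have hs : ∀ x, ‖x‖ ≤ ρ / a → ‖e x‖ ≤ ρ := fun x hx => by
    rw [le_div_iff₀' a0] at hx
    exact (ha x).trans hx
  have hMa : M * a ≤ M * a ^ 2 := by gcongr; nlinarith
  refine ⟨ρ / a, M * a ^ 2, by positivity, by positivity,
    fun s t x => by simp only [map_smul, H.exp_add], H.cont_exp.comp e.continuous,
    fun x => (H.nu_le _).trans ?_, fun x y hx hy => ?_, fun x y hx hy => ?_, fun r hr => ?_,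
    fun g => ?_⟩
  · calc M * ‖e x‖ ≤ M * (a * ‖x‖) := by gcongr; exact ha x
      _ = M * a * ‖x‖ := by ring
      _ ≤ _ := by gcongr
  · have h1 := H.lower _ _ (hs x hx) (hs y hy)
    have h2 := ha' (y - x)
    rw [map_sub] at h2
    have := h.nonneg ((exp (e x))⁻¹ * exp (e y))
    calc ‖y - x‖ ≤ a * (M * ν ((exp (e x))⁻¹ * exp (e y))) := h2.trans (by gcongr)
      _ = M * a * ν ((exp (e x))⁻¹ * exp (e y)) := by ring
      _ ≤ _ := by gcongr
  · have h1 := H.est _ _ (hs x hx) (hs y hy)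
    simp only [map_add]
    calc _ ≤ _ := h1
      _ ≤ M * (a * ‖x‖) * (a * ‖y‖) := by gcongr; exacts [ha x, ha y]
      _ = _ := by ring
  · refine mem_of_superset (H.nhds (r / a) (by positivity)) ?_
    rintro _ ⟨y, hy, rfl⟩
    refine ⟨e.symm y, mem_closedBall_zero_iff.2 ?_, by simp⟩
    have h1 := ha' (e.symm y)
    rw [e.apply_symm_apply] at h1
    have h2 := mem_closedBall_zero_iff.1 hy
    rw [le_div_iff₀' a0] at h2
    linarith
  · obtain ⟨A, hA⟩ := H.conj g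
    exact ⟨(e.symm : V →L[ℝ] W).comp (A.comp (e : W →L[ℝ] V)), fun x => by simp [hA]⟩

theorem A2Pre.chart [ProperSpace V] (h : Gleason ν C) (H : A2Pre ν exp ρ M) :
    ∃ (log : G → V) (r C' : ℝ), ExpChart exp log r C' := by
  have hρ := H.ρ_pos
  have hM := H.M_pos
  have e0 : exp 0 = 1 := by
    have := H.exp_add 0 0 0
    simp only [smul_zero] at this
    exact mul_eq_left.1 this.symm
  have inj : InjOn exp (closedBall 0 ρ) := fun x hx y hy e => by
    have := H.lower x y (mem_closedBall_zero_iff.1 hx) (mem_closedBall_zero_iff.1 hy)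
    rw [e, inv_mul_cancel, h.map_one, mul_zero, norm_le_zero_iff, sub_eq_zero] at this
    exact this.symm
  have h1 : exp ⁻¹' interior (exp '' closedBall 0 ρ) ∈ 𝓝 (0 : V) :=
    H.cont_exp.continuousAt.preimage_mem_nhds (by
      rw [e0]; exact interior_mem_nhds.2 (H.nhds ρ hρ))
  obtain ⟨r₀, hr₀, h2⟩ := Metric.mem_nhds_iff.1 h1
  obtain ⟨r, hr, r1, r2⟩ : ∃ r, 0 < r ∧ r ≤ r₀ ∧ r ≤ ρ :=
    ⟨min r₀ ρ, lt_min hr₀ hρ, min_le_left _ _, min_le_right _ _⟩
  have sub : ball (0 : V) r ⊆ closedBall 0 ρ :=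
    ball_subset_closedBall.trans (closedBall_subset_closedBall r2)
  have hopen : IsOpen (exp '' ball 0 r) := by
    have : exp '' ball 0 r =
        interior (exp '' closedBall 0 ρ) ∩ (exp '' (closedBall 0 ρ \ ball 0 r))ᶜ := by
      refine Subset.antisymm ?_ ?_
      · rintro _ ⟨x, hx, rfl⟩
        refine ⟨h2 (ball_subset_ball r1 hx), ?_⟩
        rintro ⟨y, hy, e⟩
        exact hy.2 (inj hy.1 (sub hx) e ▸ hx)
      · rintro u ⟨hu, hu'⟩
        obtain ⟨x, hx, rfl⟩ := interior_subset hu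
        by_contra hc
        exact hu' ⟨x, ⟨hx, fun hb => hc ⟨x, hb, rfl⟩⟩, rfl⟩
    rw [this]
    exact isOpen_interior.inter
      (((isCompact_closedBall 0 ρ).diff isOpen_ball).image H.cont_exp).isClosed.isOpen_compl
  have hlog : ∀ x ∈ ball (0 : V) r, Function.invFunOn exp (ball 0 r) (exp x) = x :=
    fun x hx => (inj.mono sub).leftInvOn_invFunOn hx
  obtain ⟨σ, hσ, h3⟩ := h.ball_sub _ (hopen.mem_nhds ⟨0, mem_ball_self hr, e0⟩)
  refine ⟨Function.invFunOn exp (ball 0 r), r, 1 + M * r / σ + M * M, hr, H.exp_add, H.cont_exp,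
    hopen, hlog, ?_, fun x y hxy => ?_, by
      have : 0 ≤ M * r / σ + M * M := by positivity
      linarith, H.conj⟩
  · rintro _ ⟨x, hx, rfl⟩
    rw [ContinuousWithinAt, tendsto_iff_norm_sub_tendsto_zero, hlog x hx]
    refine squeeze_zero' (Eventually.of_forall fun _ => norm_nonneg _)
      (g := fun b => M * ν ((exp x)⁻¹ * b)) ?_ ?_
    · filter_upwards [self_mem_nhdsWithin]
      rintro _ ⟨y, hy, rfl⟩
      rw [hlog y hy]
      exact H.lower x y (mem_closedBall_zero_iff.1 (sub hx)) (mem_closedBall_zero_iff.1 (sub hy))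
    · simpa using ((h.a2_tendsto.1 (tendsto_id (x := 𝓝 (exp x)))).const_mul M).mono_left
        nhdsWithin_le_nhds
  · have p1 : 0 ≤ M * r / σ := by positivity
    have p2 : 0 ≤ M * M := by positivity
    have x0 := norm_nonneg x
    have y0 := norm_nonneg y
    rw [lt_div_iff₀ (by positivity)] at hxy
    have s1 : ‖x‖ + ‖y‖ < r := by nlinarith
    have s2 : M * (‖x‖ + ‖y‖) < σ := by
      have : (‖x‖ + ‖y‖) * (M * r / σ) < r := by nlinarith
      rw [← mul_div_assoc, div_lt_iff₀ hσ] at this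
      nlinarith
    have s3 : exp x * exp y ∈ exp '' ball 0 r := h3 (show ν _ < σ by
      linarith [h.mul_le (exp x) (exp y), H.nu_le x, H.nu_le y])
    refine ⟨s3, ?_⟩
    obtain ⟨z, hz, e⟩ := s3
    have s4 := H.est x y (by linarith) (by linarith)
    have s5 := H.lower z (x + y) (mem_closedBall_zero_iff.1 (sub hz))
      (by linarith [norm_add_le x y])
    rw [← e] at s4 ⊢
    rw [hlog z hz, sub_sub, norm_sub_rev]
    have : M * ν ((exp z)⁻¹ * exp (x + y)) ≤ M * (M * ‖x‖ * ‖y‖) := by gcongr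
    have p3 : 0 ≤ ‖x‖ * ‖y‖ := by positivity
    nlinarith

end Crest.Agent.R217
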