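import Crest.Agent.R217.ADefs

/-! # Row 217, part A3: three lemmas of analysis (almost additive maps, a block exponential,
a fencing estimate). -/

set_option autoImplicit false
open Filter Topology Metric Set Asymptotics
open scoped ContDiff

namespace Crest.Agent.R217

variable {V E : Type*} [NormedAddCommGroup V] [NormedSpace ℝ V] [NormedAddCommGroup E]
  [NormedSpace ℝ E]

theorem a3_half_smul (x : V) (n : ℕ) :
    ((1 / 2 : ℝ) ^ (n + 1)) • x + ((1 / 2 : ℝ) ^ (n + 1)) • x = ((1 / 2 : ℝ) ^ n) • x := by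
  rw [← add_smul, pow_succ]
  congr 1
  ring

theorem a3_half_tendsto (x : V) : Tendsto (fun n : ℕ => ((1 / 2 : ℝ) ^ n) • x) atTop (𝓝 0) := by
  simpa using (tendsto_pow_atTop_nhds_zero_of_lt_one (r := (1 / 2 : ℝ)) (by norm_num)
    (by norm_num)).smul_const x

theorem a3_norm_half_smul (x : V) (n : ℕ) : ‖((1 / 2 : ℝ) ^ n) • x‖ = ‖x‖ / 2 ^ n := by
  rw [norm_smul, norm_pow, Real.norm_of_nonneg (by norm_num), one_div, inv_pow, mul_comm,
    div_eq_mul_inv]

/-- A map that is additive up to second order is differentiable at the origin. -/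
theorem a3_hyers [CompleteSpace E] {f : V → E} (h1 : f =O[𝓝 0] fun x => x)
    (h2 : (fun p : V × V => f (p.1 + p.2) - f p.1 - f p.2) =O[𝓝 0] fun p => ‖p‖ ^ 2) :
    ∃ a : V →L[ℝ] E, HasFDerivAt f a 0 := by
  obtain ⟨K1, hK1⟩ := h1.bound
  obtain ⟨K, hK0, hK⟩ := h2.exists_pos
  obtain ⟨δ, hδ, hK'⟩ := Metric.eventually_nhds_iff.1 hK.bound
  have hb : ∀ x y : V, ‖(x, y)‖ < δ → ‖f (x + y) - f x - f y‖ ≤ K * ‖(x, y)‖ ^ 2 := fun x y h => by
    have := hK' (y := (x, y)) (by rwa [dist_zero_right])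
    rwa [Real.norm_of_nonneg (sq_nonneg _)] at this
  set s : V → ℕ → E := fun x n => (2 : ℝ) ^ n • f (((1 / 2 : ℝ) ^ n) • x) with hs
  have hstep : ∀ x : V, ‖x‖ < δ → ∀ n, dist (s x n) (s x (n + 1)) ≤ K * ‖x‖ ^ 2 / 2 / 2 ^ n := by
    intro x hx n
    have h2n : (0 : ℝ) < 2 ^ n := by positivity
    have h1n : (1 : ℝ) ≤ 2 ^ n := one_le_pow₀ (by norm_num)
    have hy : ‖(((1 / 2 : ℝ) ^ (n + 1)) • x, ((1 / 2 : ℝ) ^ (n + 1)) • x)‖ = ‖x‖ / 2 ^ (n + 1) := by
      rw [Prod.norm_mk, max_self, a3_norm_half_smul]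
    have := hb _ _ (by
      rw [hy]
      exact (div_le_self (norm_nonneg x) (one_le_pow₀ (by norm_num))).trans_lt hx)
    rw [a3_half_smul, hy] at this
    have e : s x n - s x (n + 1) = (2 : ℝ) ^ n • (f (((1 / 2 : ℝ) ^ n) • x) -
        f (((1 / 2 : ℝ) ^ (n + 1)) • x) - f (((1 / 2 : ℝ) ^ (n + 1)) • x)) := by
      simp only [hs, pow_succ (2 : ℝ) n]
      module
    rw [dist_eq_norm, e, norm_smul, Real.norm_of_nonneg h2n.le]
    refine (mul_le_mul_of_nonneg_left this h2n.le).trans ?_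
    have h3 : (2 : ℝ) ^ n * (K * (‖x‖ / 2 ^ (n + 1)) ^ 2) = K * ‖x‖ ^ 2 / 2 / 2 ^ n / 2 := by
      rw [pow_succ (2 : ℝ) n]
      field_simp
    rw [h3]
    exact half_le_self (by positivity)
  have hconv : ∀ x : V, ∃ l, Tendsto (s x) atTop (𝓝 l) := by
    intro x
    obtain ⟨m, hm⟩ := ((a3_half_tendsto x).eventually (ball_mem_nhds 0 hδ)).exists
    rw [dist_zero_right] at hm
    obtain ⟨l, hl⟩ := cauchySeq_tendsto_of_complete (cauchySeq_of_le_geometric_two (hstep _ hm))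
    refine ⟨(2 : ℝ) ^ m • l, (tendsto_add_atTop_iff_nat m).1 ((hl.const_smul _).congr fun n => ?_)⟩
    simp only [hs, smul_smul, pow_add, mul_comm]
  choose a ha using hconv
  have hadd : ∀ x y, a (x + y) = a x + a y := by
    intro x y
    have t1 : Tendsto (fun n => s (x + y) n - s x n - s y n) atTop (𝓝 (a (x + y) - a x - a y)) :=
      ((ha _).sub (ha _)).sub (ha _)
    have t2 : Tendsto (fun n => s (x + y) n - s x n - s y n) atTop (𝓝 0) := by
      have t3 : Tendsto (fun n : ℕ => K * ‖(x, y)‖ ^ 2 * (1 / 2 : ℝ) ^ n) atTop (𝓝 0) := by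
        simpa using (tendsto_pow_atTop_nhds_zero_of_lt_one (r := (1 / 2 : ℝ)) (by norm_num)
          (by norm_num)).const_mul (K * ‖(x, y)‖ ^ 2)
      refine squeeze_zero_norm' ?_ t3
      filter_upwards [(a3_half_tendsto (x, y)).eventually (ball_mem_nhds 0 hδ)] with n hn
      rw [dist_zero_right] at hn
      have h2n : (0 : ℝ) < 2 ^ n := by positivity
      have := hb _ _ hn
      rw [← smul_add, ← Prod.smul_mk, a3_norm_half_smul] at this
      simp only [hs]
      rw [← smul_sub, ← smul_sub, norm_smul, Real.norm_of_nonneg h2n.le]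
      refine (mul_le_mul_of_nonneg_left this h2n.le).trans (le_of_eq ?_)
      rw [one_div, inv_pow]
      field_simp
    have := tendsto_nhds_unique t1 t2
    rwa [sub_sub, sub_eq_zero] at this
  have hbd : ∀ x, ‖a x‖ ≤ K1 * ‖x‖ := by
    intro x
    refine le_of_tendsto (ha x).norm ?_
    filter_upwards [(a3_half_tendsto x).eventually hK1] with n hn
    have h2n : (0 : ℝ) < 2 ^ n := by positivity
    rw [a3_norm_half_smul] at hn
    simp only [hs]
    rw [norm_smul, Real.norm_of_nonneg h2n.le]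
    refine (mul_le_mul_of_nonneg_left hn h2n.le).trans (le_of_eq ?_)
    field_simp
  let a' : V →+ E := AddMonoidHom.mk' a hadd
  have hcont : Continuous a' := AddMonoidHomClass.continuous_of_bound a' K1 hbd
  refine ⟨a'.toRealLinearMap hcont, ?_⟩
  have hf0 : f 0 = 0 := by
    have := hK1.self_of_nhds
    simpa using this
  rw [hasFDerivAt_iff_isLittleO_nhds_zero]
  refine IsBigO.trans_isLittleO (g := fun x : V => ‖x‖ ^ 2) (IsBigO.of_bound K ?_)
    (isLittleO_norm_pow_id (by norm_num))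
  filter_upwards [ball_mem_nhds 0 hδ] with x hx
  rw [mem_ball_zero_iff] at hx
  have := dist_le_of_le_geometric_two_of_tendsto₀ (hstep x hx) (ha x)
  rw [dist_eq_norm] at this
  simpa [hs, hf0, a'] using this

/-- A fencing estimate. -/
theorem a3_fence {γ P p : ℝ → V} {L b : ℝ} (hL : 0 ≤ L) (hγ : ContinuousOn γ (Icc 0 1))
    (h0 : γ 0 = P 0) (hP : ∀ t, HasDerivAt P (p t) t) (hb : ∀ t ∈ Ico (0 : ℝ) 1, ‖p t‖ ≤ b)
    (hw : ∀ t ∈ Ico (0 : ℝ) 1, ∃ w : ℝ → V, w t = 0 ∧ HasDerivAt w (p t) t ∧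
      ∀ᶠ z in 𝓝[>] t, ‖γ z - γ t - w z‖ ≤ L * ‖w z‖) :
    ‖γ 1 - P 1‖ ≤ L * b := by
  have hPc : Continuous P := continuous_iff_continuousAt.2 fun t => (hP t).continuousAt
  have := image_le_of_liminf_slope_right_le_deriv_boundary (f := fun t => ‖γ t - P t‖)
    (a := 0) (b := 1) (hγ.sub hPc.continuousOn).norm (B := fun t => L * b * t)
    (B' := fun _ => L * b) (by simp [h0]) (by fun_prop)
    (fun t _ => by simpa using ((hasDerivAt_id t).const_mul (L * b)).hasDerivWithinAt)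
    (fun t ht r hr => ?_) (right_mem_Icc.2 zero_le_one)
  · simpa using this
  obtain ⟨w, hw0, hw1, hw2⟩ := hw t ht
  have t1 : Tendsto (slope w t) (𝓝[>] t) (𝓝 (p t)) :=
    (hasDerivAt_iff_tendsto_slope.1 hw1).mono_left (nhdsGT_le_nhdsNE t)
  have t2 : Tendsto (slope P t) (𝓝[>] t) (𝓝 (p t)) :=
    (hasDerivAt_iff_tendsto_slope.1 (hP t)).mono_left (nhdsGT_le_nhdsNE t)
  have t3 : Tendsto (fun z => L * ‖slope w t z‖ + ‖slope w t z - slope P t z‖) (𝓝[>] t)
      (𝓝 (L * ‖p t‖ + ‖p t - p t‖)) := (t1.norm.const_mul L).add (t1.sub t2).norm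
  have hlt : L * ‖p t‖ + ‖p t - p t‖ < r := by
    rw [sub_self, norm_zero, add_zero]
    exact (mul_le_mul_of_nonneg_left (hb t ht) hL).trans_lt hr
  refine Eventually.frequently ?_
  filter_upwards [t3.eventually (gt_mem_nhds hlt), hw2, self_mem_nhdsWithin] with z h1 h2 h3
  refine lt_of_le_of_lt ?_ h1
  have h4 : 0 < z - t := sub_pos.2 h3
  rw [slope_def_field, slope_def_module, slope_def_module, ← smul_sub, norm_smul, norm_smul,
    Real.norm_of_nonneg (inv_nonneg.2 h4.le), hw0, sub_zero, div_le_iff₀ h4]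
  have h5 : (L * ((z - t)⁻¹ * ‖w z‖) + (z - t)⁻¹ * ‖w z - (P z - P t)‖) * (z - t) =
      L * ‖w z‖ + ‖w z - (P z - P t)‖ := by
    field_simp
  rw [h5]
  have h6 : γ z - P z = (γ t - P t) + ((γ z - γ t - w z) + (w z - (P z - P t))) := by abel
  have h7 := norm_add_le (γ t - P t) ((γ z - γ t - w z) + (w z - (P z - P t)))
  have h8 := norm_add_le (γ z - γ t - w z) (w z - (P z - P t))
  rw [← h6] at h7
  linarith

/-- The block matrix `[[B, 1], [0, 0]]`. -/
noncomputable def a3N (B : V →L[ℝ] V) : V × V →L[ℝ] V × V :=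
  (ContinuousLinearMap.inl ℝ V V).comp
    (B.comp (ContinuousLinearMap.fst ℝ V V) + ContinuousLinearMap.snd ℝ V V)

theorem a3N_apply (B : V →L[ℝ] V) (u v : V) : a3N B (u, v) = (B u + v, 0) := by
  simp [a3N]

theorem a3N_contDiff : ContDiff ℝ ∞ (a3N : (V →L[ℝ] V) → _) :=
  contDiff_const.clm_comp ((contDiff_id.clm_comp contDiff_const).add contDiff_const)

variable [CompleteSpace V]

theorem a3_exp_contDiff :
    ContDiff ℝ ∞ fun B : V →L[ℝ] V => NormedSpace.exp (a3N B) :=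
  (contDiff_iff_contDiffAt.2 fun x => (NormedSpace.exp_analytic (𝕂 := ℝ) x).contDiffAt).comp
    a3N_contDiff

theorem a3_block {B : V →L[ℝ] V} {τ : ℝ → V} (hτ : ∀ t, HasDerivAt τ (B (τ t)) t) (t : ℝ) :
    NormedSpace.exp (t • a3N B) (τ 0, 0) = (τ t, 0) := by
  have h1 : ∀ s, HasDerivAt (fun s => NormedSpace.exp ((t - s) • a3N B) (τ s, 0)) 0 s := by
    intro s
    have h2 := (hasDerivAt_exp_smul_const (a3N B) (t - s)).scomp s ((hasDerivAt_id s).const_sub t)
    refine (h2.clm_apply ((hτ s).prodMk (hasDerivAt_const s (0 : V)))).congr_deriv ?_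
    simp [a3N_apply]
  have h3 := is_const_of_deriv_eq_zero (fun s => (h1 s).differentiableAt)
    (fun s => (h1 s).deriv) 0 t
  simpa using h3

theorem a3_block_deriv {B : V →L[ℝ] V} {τ : ℝ → V} (hτ : ∀ t, HasDerivAt τ (B (τ t)) t) (t : ℝ) :
    HasDerivAt (fun s : ℝ => (NormedSpace.exp (s • a3N B) (0, τ 0)).1) (τ t) t := by
  have h := (ContinuousLinearMap.fst ℝ V V).hasFDerivAt.comp_hasDerivAt t
    ((hasDerivAt_exp_smul_const (a3N B) t).clm_apply (hasDerivAt_const t (0, τ 0)))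
  refine h.congr_deriv ?_
  simp [a3N_apply, a3_block hτ t]

end Crest.Agent.R217
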