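import Crest.Agent.R217.A3Anal

/-! # Row 217, part A3: the adjoint representation and the left logarithmic derivative of `exp`. -/

set_option autoImplicit false
set_option linter.unusedSectionVars false
open Filter Topology Metric Set Asymptotics
open scoped ContDiff

namespace Crest.Agent.R217

variable {G V : Type*} [Group G] [TopologicalSpace G] [IsTopologicalGroup G]
  [NormedAddCommGroup V] [NormedSpace ℝ V] {ex : V → G} {lg : G → V} {r C : ℝ}

namespace ExpChart

theorem a3_exp_zero (h : ExpChart ex lg r C) : ex 0 = 1 := by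
  have := h.exp_add 0 0 0
  simp only [smul_zero] at this
  exact mul_left_cancel (a := ex 0) (by rw [← this, mul_one])

theorem a3_exp_neg (h : ExpChart ex lg r C) (x : V) : ex (-x) = (ex x)⁻¹ := by
  have := h.exp_add (-1) 1 x
  rw [neg_add_cancel, zero_smul, h.a3_exp_zero, neg_smul, one_smul] at this
  exact eq_inv_of_mul_eq_one_left this.symm

theorem a3_log_one (h : ExpChart ex lg r C) : lg 1 = 0 := by
  rw [← h.a3_exp_zero, h.log_exp 0 (mem_ball_self h.r_pos)]

theorem a3_exp_log (h : ExpChart ex lg r C) {g : G} (hg : g ∈ ex '' ball 0 r) : ex (lg g) = g := by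
  obtain ⟨x, hx, rfl⟩ := hg
  rw [h.log_exp x hx]

theorem a3_one_mem (h : ExpChart ex lg r C) : (1 : G) ∈ ex '' ball 0 r :=
  ⟨0, mem_ball_self h.r_pos, h.a3_exp_zero⟩

theorem a3_contAt_log (h : ExpChart ex lg r C) {g : G} (hg : g ∈ ex '' ball 0 r) :
    ContinuousAt lg g := h.cont_log.continuousAt (h.open_image.mem_nhds hg)

theorem a3_ev_mem (h : ExpChart ex lg r C) {X : Type*} {l : Filter X} {f : X → G} {g : G}
    (hg : g ∈ ex '' ball 0 r) (hf : Tendsto f l (𝓝 g)) : ∀ᶠ x in l, f x ∈ ex '' ball 0 r :=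
  hf.eventually (h.open_image.mem_nhds hg)

theorem a3_ev_exp_log (h : ExpChart ex lg r C) {X : Type*} {l : Filter X} {f : X → G}
    (hf : Tendsto f l (𝓝 1)) : ∀ᶠ x in l, ex (lg (f x)) = f x :=
  (h.a3_ev_mem h.a3_one_mem hf).mono fun _ hx => h.a3_exp_log hx

theorem a3_tendsto_log (h : ExpChart ex lg r C) {X : Type*} {l : Filter X} {f : X → G}
    (hf : Tendsto f l (𝓝 1)) : Tendsto (fun x => lg (f x)) l (𝓝 0) := by
  have := (h.a3_contAt_log h.a3_one_mem).tendsto.comp hf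
  rwa [h.a3_log_one] at this

theorem a3_rC_pos (h : ExpChart ex lg r C) : 0 < r / C :=
  div_pos h.r_pos (zero_lt_one.trans_le h.one_le)

theorem a3_ev_small (h : ExpChart ex lg r C) : ∀ᶠ p : V × V in 𝓝 0, ‖p.1‖ + ‖p.2‖ < r / C := by
  have : Continuous fun p : V × V => ‖p.1‖ + ‖p.2‖ := by fun_prop
  exact this.continuousAt.eventually_lt continuousAt_const (by simpa using h.a3_rC_pos)

theorem a3_mu_bigO (h : ExpChart ex lg r C) :
    (fun p : V × V => lg (ex p.1 * ex p.2) - p.1 - p.2) =O[𝓝 0] fun p => ‖p‖ ^ 2 := by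
  refine IsBigO.of_bound C ?_
  filter_upwards [h.a3_ev_small] with p hp
  refine (h.est _ _ hp).2.trans ?_
  rw [Real.norm_of_nonneg (sq_nonneg _), mul_assoc, sq]
  exact mul_le_mul_of_nonneg_left (mul_le_mul (norm_fst_le p) (norm_snd_le p) (norm_nonneg _)
    (norm_nonneg _)) (zero_le_one.trans h.one_le)

theorem a3_mu_hasFDerivAt_zero (h : ExpChart ex lg r C) :
    HasFDerivAt (fun p : V × V => lg (ex p.1 * ex p.2))
      (ContinuousLinearMap.fst ℝ V V + ContinuousLinearMap.snd ℝ V V) 0 := by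
  rw [hasFDerivAt_iff_isLittleO_nhds_zero]
  refine (h.a3_mu_bigO.trans_isLittleO (isLittleO_norm_pow_id (by norm_num))).congr_left
    fun p => ?_
  simp [h.a3_exp_zero, h.a3_log_one, sub_sub]

/-- The adjoint representation. -/
noncomputable def a3Ad (h : ExpChart ex lg r C) (g : G) : V →L[ℝ] V := (h.conj g).choose

theorem a3Ad_spec (h : ExpChart ex lg r C) (g : G) (x : V) :
    g * ex x * g⁻¹ = ex (h.a3Ad g x) := (h.conj g).choose_spec x

theorem a3_lin_unique (h : ExpChart ex lg r C) {A B : V →L[ℝ] V}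
    (hAB : ∀ x, ex (A x) = ex (B x)) : A = B := by
  have h1 : ∀ D : V →L[ℝ] V, ∀ᶠ x in 𝓝 0, D x ∈ ball (0 : V) r := fun D =>
    D.continuous.continuousAt.eventually_mem (by
      rw [map_zero]
      exact ball_mem_nhds 0 h.r_pos)
  have h2 : A =ᶠ[𝓝 0] B := by
    filter_upwards [h1 A, h1 B] with x hA hB
    rw [← h.log_exp _ hA, hAB, h.log_exp _ hB]
  exact A.hasFDerivAt.unique (B.hasFDerivAt.congr_of_eventuallyEq h2)

theorem a3Ad_mul (h : ExpChart ex lg r C) (g k : G) : h.a3Ad (g * k) = h.a3Ad g * h.a3Ad k :=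
  h.a3_lin_unique fun x => by
    rw [mul_apply_eq_comp, ← h.a3Ad_spec, ← h.a3Ad_spec, ← h.a3Ad_spec]
    group

theorem a3Ad_one (h : ExpChart ex lg r C) : h.a3Ad 1 = 1 :=
  h.a3_lin_unique fun x => by
    rw [← h.a3Ad_spec]
    simp

theorem a3Ad_est (h : ExpChart ex lg r C) {x : V} (hx : ‖x‖ < r / C) (y : V) :
    ‖h.a3Ad (ex x) y - y‖ ≤ C * ‖x‖ * (‖h.a3Ad (ex x) y‖ + ‖y‖) := by
  set z := h.a3Ad (ex x) y with hz
  have h1 : ∀ v : V, ∀ᶠ t : ℝ in 𝓝[>] 0, ‖x‖ + ‖t • v‖ < r / C := fun v => by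
    have : Continuous fun t : ℝ => ‖x‖ + ‖t • v‖ := by fun_prop
    exact (this.continuousAt.eventually_lt continuousAt_const (by simpa using hx)).filter_mono
      nhdsWithin_le_nhds
  obtain ⟨t, ⟨hy', hz'⟩, ht⟩ := (((h1 y).and (h1 z)).and self_mem_nhdsWithin).exists
  have ht' : 0 < t := ht
  have e1 : ex (t • z) * ex x = ex x * ex (t • y) := by
    rw [hz, ← map_smul, ← h.a3Ad_spec]
    group
  have e2 := (h.est x (t • y) hy').2
  have e3 := (h.est (t • z) x (by rwa [add_comm])).2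
  rw [e1] at e3
  have e4 : t • (z - y) = (lg (ex x * ex (t • y)) - x - t • y) -
      (lg (ex x * ex (t • y)) - t • z - x) := by
    rw [smul_sub]
    abel
  have e5 := norm_sub_le (lg (ex x * ex (t • y)) - x - t • y) (lg (ex x * ex (t • y)) - t • z - x)
  rw [← e4] at e5
  simp only [norm_smul, Real.norm_of_nonneg ht'.le] at e2 e3 e5
  refine le_of_mul_le_mul_left ?_ ht'
  linarith

theorem a3Ad_bigO (h : ExpChart ex lg r C) :
    (fun x => h.a3Ad (ex x) - 1) =O[𝓝 0] fun x => x := by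
  refine IsBigO.of_bound (4 * C) ?_
  have hC : 0 ≤ C := zero_le_one.trans h.one_le
  have h1 : ∀ᶠ x : V in 𝓝 0, C * ‖x‖ < 1 / 2 := by
    have : Continuous fun x : V => C * ‖x‖ := by fun_prop
    exact this.continuousAt.eventually_lt continuousAt_const (by simp)
  filter_upwards [h1, ball_mem_nhds 0 h.a3_rC_pos] with x hx hx'
  rw [mem_ball_zero_iff] at hx'
  refine ContinuousLinearMap.opNorm_le_bound _ (by positivity) fun y => ?_
  have h2 := h.a3Ad_est hx' y
  have h3 : ‖h.a3Ad (ex x) y‖ ≤ ‖h.a3Ad (ex x) y - y‖ + ‖y‖ := norm_le_norm_sub_add _ _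
  change ‖h.a3Ad (ex x) y - y‖ ≤ _
  have h4 : 0 ≤ C * ‖x‖ := by positivity
  nlinarith [mul_le_mul_of_nonneg_left h3 h4, norm_nonneg (h.a3Ad (ex x) y - y)]

theorem a3Ad_tendsto (h : ExpChart ex lg r C) :
    Tendsto (fun x => h.a3Ad (ex x)) (𝓝 0) (𝓝 1) :=
  tendsto_sub_nhds_zero_iff.1 (h.a3Ad_bigO.trans_tendsto tendsto_id)

theorem a3Ad_add_bigO (h : ExpChart ex lg r C) :
    (fun p : V × V => (h.a3Ad (ex (p.1 + p.2)) - 1) - (h.a3Ad (ex p.1) - 1) -
      (h.a3Ad (ex p.2) - 1)) =O[𝓝 0] fun p => ‖p‖ ^ 2 := by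
  set m : V × V → V := fun p => lg (ex p.1 * ex p.2) with hm
  have hm0 : m 0 = 0 := by simp [hm, h.a3_exp_zero, h.a3_log_one]
  have hm1 : m =O[𝓝 0] fun p => p := by
    have := h.a3_mu_hasFDerivAt_zero.isBigO_sub
    simp only [sub_zero] at this
    exact this.congr_left fun p => by
      rw [show lg (ex (0 : V × V).1 * ex (0 : V × V).2) = 0 from hm0, sub_zero]
  set q : V × V → V × V := fun p => (-m p, p.1 + p.2) with hq
  have hq1 : q =O[𝓝 0] fun p => p :=
    hm1.neg_left.prod_left (isBigO_fst_prod'.add isBigO_snd_prod')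
  have hq2 : Tendsto q (𝓝 0) (𝓝 0) := hq1.trans_tendsto tendsto_id
  have he : (fun p => m (q p)) =O[𝓝 0] fun p => ‖p‖ ^ 2 := by
    have h1 := ((h.a3_mu_bigO.comp_tendsto hq2).trans (hq1.norm_norm.pow 2)).sub h.a3_mu_bigO
    refine h1.congr_left fun p => ?_
    simp only [Function.comp_apply, hq, hm]
    abel
  have he2 : Tendsto (fun p => m (q p)) (𝓝 0) (𝓝 0) := by
    have := h.a3_mu_hasFDerivAt_zero.continuousAt.tendsto.comp hq2
    rwa [show lg (ex (0 : V × V).1 * ex (0 : V × V).2) = 0 from hm0] at this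
  have t1 : Tendsto (fun p : V × V => p.1) (𝓝 0) (𝓝 0) := continuous_fst.tendsto' 0 0 rfl
  have t2 : Tendsto (fun p : V × V => p.2) (𝓝 0) (𝓝 0) := continuous_snd.tendsto' 0 0 rfl
  have h1 : (fun p : V × V => h.a3Ad (ex p.1) * h.a3Ad (ex p.2)) =O[𝓝 0] fun _ => (1 : ℝ) :=
    ((h.a3Ad_tendsto.comp t1).mul (h.a3Ad_tendsto.comp t2)).isBigO_one ℝ
  have h2 := h1.mul ((h.a3Ad_bigO.comp_tendsto he2).trans he)
  have h3 := ((h.a3Ad_bigO.comp_tendsto t1).trans isBigO_fst_prod').norm_right.mul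
    ((h.a3Ad_bigO.comp_tendsto t2).trans isBigO_snd_prod').norm_right
  simp only [one_mul] at h2
  simp only [← sq] at h3
  refine (h2.add h3).congr' ?_ EventuallyEq.rfl
  filter_upwards [h.a3_ev_small, hq2.eventually h.a3_ev_small] with p hp hp'
  have e1 : ex (m p) = ex p.1 * ex p.2 := h.a3_exp_log (h.est _ _ hp).1
  have e2 : ex (m (q p)) = ex (-m p) * ex (p.1 + p.2) := h.a3_exp_log (h.est _ _ hp').1
  have e3 : ex (p.1 + p.2) = ex p.1 * ex p.2 * ex (m (q p)) := by
    rw [e2, h.a3_exp_neg, e1]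
    group
  simp only [Function.comp_apply]
  rw [e3, h.a3Ad_mul, h.a3Ad_mul]
  noncomm_ring

variable [CompleteSpace V]

theorem a3_exists_ad (h : ExpChart ex lg r C) : ∃ a : V →L[ℝ] V →L[ℝ] V,
    ∀ (x y : V) (t : ℝ), HasDerivAt (fun s : ℝ => h.a3Ad (ex (s • x)) y)
      (a x (h.a3Ad (ex (t • x)) y)) t := by
  obtain ⟨a, ha⟩ := a3_hyers h.a3Ad_bigO h.a3Ad_add_bigO
  refine ⟨a, fun x y t => ?_⟩
  have h1 : HasFDerivAt (fun x => h.a3Ad (ex x)) a ((t - t) • x) := by
    rw [sub_self, zero_smul]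
    exact (hasFDerivAt_sub_const_iff _).1 ha
  have h2 := (h1.comp_hasDerivAt t (((hasDerivAt_id t).sub_const t).smul_const x)).clm_apply
    (hasDerivAt_const t (h.a3Ad (ex (t • x)) y))
  refine (h2.congr_deriv (by simp)).congr_of_eventuallyEq (Eventually.of_forall fun s => ?_)
  simp only [Function.comp_apply, id]
  rw [← mul_apply_eq_comp, ← h.a3Ad_mul, ← h.exp_add, sub_add_cancel]

omit [CompleteSpace V] in
theorem a3_step (h : ExpChart ex lg r C) {x y : V} {t : ℝ}
    (h1 : ex (t • -x) * ex (t • (x + y)) ∈ ex '' ball 0 r)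
    (h2 : ‖lg (ex (t • -x) * ex (t • (x + y)))‖ < r / C) :
    ∃ w : ℝ → V, w t = 0 ∧ HasDerivAt w (h.a3Ad (ex (t • -x)) y) t ∧ ∀ᶠ z in 𝓝 t,
      ‖lg (ex (z • -x) * ex (z • (x + y))) - lg (ex (t • -x) * ex (t • (x + y))) - w z‖ ≤
        C * ‖lg (ex (t • -x) * ex (t • (x + y)))‖ * ‖w z‖ := by
  have d1 : HasDerivAt (fun z : ℝ => ((z - t) • -x, (z - t) • (x + y))) (-x, x + y) t := by
    refine ((((hasDerivAt_id t).sub_const t).smul_const (-x)).prodMk
      (((hasDerivAt_id t).sub_const t).smul_const (x + y))).congr_deriv ?_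
    simp
  have d2 : HasDerivAt (fun z : ℝ => lg (ex ((z - t) • -x) * ex ((z - t) • (x + y)))) y t := by
    refine (h.a3_mu_hasFDerivAt_zero.comp_hasDerivAt_of_eq t d1
      (by simp [Prod.ext_iff])).congr_deriv ?_
    simp
  have d3 := (h.a3Ad (ex (t • -x))).hasFDerivAt.comp_hasDerivAt t d2
  have d0 : (h.a3Ad (ex (t • -x)) ∘
      fun z : ℝ => lg (ex ((z - t) • -x) * ex ((z - t) • (x + y)))) t = 0 := by
    simp [h.a3_exp_zero, h.a3_log_one]
  refine ⟨_, d0, d3, ?_⟩
  have c1 : Tendsto (fun z : ℝ => ex ((z - t) • -x) * ex ((z - t) • (x + y))) (𝓝 t) (𝓝 1) := by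
    have hc := h.cont_exp
    refine Continuous.tendsto' (by fun_prop) _ _ ?_
    simp [h.a3_exp_zero]
  have c2 := (d3.continuousAt.norm.add continuousAt_const).eventually_lt continuousAt_const
    (show _ + ‖lg (ex (t • -x) * ex (t • (x + y)))‖ < r / C by
      beta_reduce; rwa [d0, norm_zero, zero_add])
  filter_upwards [h.a3_ev_exp_log c1, c2] with z hz1 hz2
  have e := (h.est _ _ hz2).2
  have e1 : ex ((h.a3Ad (ex (t • -x)) ∘
      fun z : ℝ => lg (ex ((z - t) • -x) * ex ((z - t) • (x + y)))) z) *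
      ex (lg (ex (t • -x) * ex (t • (x + y)))) = ex (z • -x) * ex (z • (x + y)) := by
    have e2 : ex (z • -x) = ex (t • -x) * ex ((z - t) • -x) := by
      rw [← h.exp_add, add_sub_cancel]
    have e3 : ex (z • (x + y)) = ex ((z - t) • (x + y)) * ex (t • (x + y)) := by
      rw [← h.exp_add, sub_add_cancel]
    rw [Function.comp_apply, ← h.a3Ad_spec, hz1, h.a3_exp_log h1, e2, e3]
    group
  rw [e1, sub_right_comm] at e
  linarith

/-- `Ad ∘ exp` is smooth and `exp` has a smooth left logarithmic derivative. -/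
theorem a3_exists_A (h : ExpChart ex lg r C) : ContDiff ℝ ∞ (fun x => h.a3Ad (ex x)) ∧
    ∃ A : V → V →L[ℝ] V, ContDiff ℝ ∞ A ∧
      ∀ x, HasFDerivAt (fun y => lg (ex (-x) * ex (x + y))) (A x) 0 := by
  obtain ⟨a, ha⟩ := h.a3_exists_ad
  have hS : ContDiff ℝ ∞ fun x => NormedSpace.exp (a3N (a x)) := a3_exp_contDiff.comp a.contDiff
  have h0 : ∀ x y : V, h.a3Ad (ex ((0 : ℝ) • x)) y = y := fun x y => by
    rw [zero_smul, h.a3_exp_zero, h.a3Ad_one]
    rfl
  have hT : ContDiff ℝ ∞ fun x => h.a3Ad (ex x) := by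
    have : (fun x => h.a3Ad (ex x)) = fun x => (ContinuousLinearMap.fst ℝ V V).comp
        ((NormedSpace.exp (a3N (a x))).comp (ContinuousLinearMap.inl ℝ V V)) := by
      funext x
      ext y
      have := a3_block (ha x y) 1
      rw [h0, one_smul, one_smul] at this
      simp [this]
    rw [this]
    exact contDiff_const.clm_comp (hS.clm_comp contDiff_const)
  refine ⟨hT, fun x => (ContinuousLinearMap.fst ℝ V V).comp
    ((NormedSpace.exp (a3N (a (-x)))).comp (ContinuousLinearMap.inr ℝ V V)),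
    contDiff_const.clm_comp ((hS.comp contDiff_neg).clm_comp contDiff_const), fun x => ?_⟩
  have hc := h.cont_exp
  have hC : 0 < C := zero_lt_one.trans_le h.one_le
  obtain ⟨M, hM⟩ := isCompact_Icc.exists_bound_of_continuousOn (s := Icc (0 : ℝ) 1)
    (f := fun s : ℝ => h.a3Ad (ex (s • -x))) (hT.continuous.comp (by fun_prop)).continuousOn
  have hM0 : 0 ≤ M := (norm_nonneg _).trans (hM 0 (left_mem_Icc.2 zero_le_one))
  rw [hasFDerivAt_iff_isLittleO_nhds_zero, isLittleO_iff]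
  intro ε hε
  obtain ⟨η, hη, hη1, hη2⟩ : ∃ η : ℝ, 0 < η ∧ η ≤ r / C ∧ C * η * M ≤ ε := by
    refine ⟨min (r / C) (ε / (C * (M + 1))), lt_min h.a3_rC_pos (by positivity), min_le_left _ _,
      ?_⟩
    calc C * min (r / C) (ε / (C * (M + 1))) * M ≤ C * (ε / (C * (M + 1))) * (M + 1) := by
          gcongr
          · exact min_le_right _ _
          · linarith
      _ = ε := by field_simp
  have key : ∀ᶠ y in 𝓝 (0 : V), ∀ t ∈ Icc (0 : ℝ) 1,
      ex (t • -x) * ex (t • (x + y)) ∈ ex '' ball 0 r ∧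
        ‖lg (ex (t • -x) * ex (t • (x + y)))‖ < η := by
    refine isCompact_Icc.eventually_forall_of_forall_eventually fun t _ => ?_
    have c1 : Tendsto (fun z : V × ℝ => ex (z.2 • -x) * ex (z.2 • (x + z.1))) (𝓝 (0, t))
        (𝓝 1) := by
      refine Continuous.tendsto' (by fun_prop) _ _ ?_
      simp [h.a3_exp_neg]
    refine (h.a3_ev_mem h.a3_one_mem c1).and ?_
    exact (h.a3_tendsto_log c1).norm.eventually (gt_mem_nhds (by simpa using hη))
  filter_upwards [key] with y hy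
  have hP := a3_block_deriv (ha (-x) y)
  rw [h0] at hP
  have := a3_fence (γ := fun t : ℝ => lg (ex (t • -x) * ex (t • (x + y)))) (L := C * η)
    (b := M * ‖y‖) (by positivity)
    (h.cont_log.comp (Continuous.continuousOn (by fun_prop)) fun t ht => (hy t ht).1)
    (by simp [h.a3_exp_zero, h.a3_log_one]) hP
    (fun t ht => (ContinuousLinearMap.le_opNorm _ _).trans
      (mul_le_mul_of_nonneg_right (hM t (Ico_subset_Icc_self ht)) (norm_nonneg _)))
    (fun t ht => ?_)
  · simp only [one_smul] at this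
    have e : lg (ex (-x) * ex (x + 0)) = 0 := by simp [h.a3_exp_neg, h.a3_log_one]
    rw [zero_add, e, sub_zero]
    refine le_trans (le_of_eq ?_) (this.trans ?_)
    · simp
    · rw [← mul_assoc]
      exact mul_le_mul_of_nonneg_right hη2 (norm_nonneg _)
  obtain ⟨h1, h2⟩ := hy t (Ico_subset_Icc_self ht)
  obtain ⟨w, hw0, hw1, hw2⟩ := h.a3_step h1 (h2.trans_le hη1)
  refine ⟨w, hw0, hw1, (hw2.filter_mono nhdsWithin_le_nhds).mono fun z hz => hz.trans ?_⟩
  gcongr

end ExpChart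

end Crest.Agent.R217
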