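import Crest.Agent.R217.A3Basic

/-! # Row 217, part A3: the group law is smooth in exponential coordinates. -/

set_option autoImplicit false
set_option linter.unusedSectionVars false
open Filter Topology Metric Set Asymptotics
open scoped ContDiff

namespace Crest.Agent.R217

variable {G V : Type*} [Group G] [TopologicalSpace G] [IsTopologicalGroup G]
  [NormedAddCommGroup V] [NormedSpace ℝ V] {ex : V → G} {lg : G → V} {r C : ℝ}

namespace ExpChart

theorem a3_mu_hasFDerivAt (h : ExpChart ex lg r C) {A : V → V →L[ℝ] V}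
    (hA : ∀ x, HasFDerivAt (fun y => lg (ex (-x) * ex (x + y))) (A x) 0) {p : V × V}
    (hp : ex p.1 * ex p.2 ∈ ex '' ball 0 r) (hu : IsUnit (A (lg (ex p.1 * ex p.2)))) :
    HasFDerivAt (fun q : V × V => lg (ex q.1 * ex q.2))
      ((Ring.inverse (A (lg (ex p.1 * ex p.2)))).comp
        (((h.a3Ad (ex (-p.2))).comp (A p.1)).comp (ContinuousLinearMap.fst ℝ V V) +
          (A p.2).comp (ContinuousLinearMap.snd ℝ V V))) p := by
  have hc := h.cont_exp
  set z := lg (ex p.1 * ex p.2) with hz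
  have hz' : ex z = ex p.1 * ex p.2 := h.a3_exp_log hp
  have c0 : Continuous fun q : V × V => ex q.1 * ex q.2 := by fun_prop
  have c1 : ContinuousAt (fun q : V × V => lg (ex q.1 * ex q.2) - z) p :=
    ((h.a3_contAt_log hp).comp (f := fun q : V × V => ex q.1 * ex q.2) c0.continuousAt).sub
      continuousAt_const
  have d1 : HasFDerivAt (fun q : V × V => lg (ex (-p.1) * ex (p.1 + (q.1 - p.1))))
      ((A p.1).comp (ContinuousLinearMap.fst ℝ V V)) p :=
    HasFDerivAt.comp (f := fun q : V × V => q.1 - p.1)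
      (g := fun y => lg (ex (-p.1) * ex (p.1 + y))) p (by rw [sub_self]; exact hA p.1)
      (hasFDerivAt_fst.sub_const _)
  have d2 : HasFDerivAt (fun q : V × V => lg (ex (-p.2) * ex (p.2 + (q.2 - p.2))))
      ((A p.2).comp (ContinuousLinearMap.snd ℝ V V)) p :=
    HasFDerivAt.comp (f := fun q : V × V => q.2 - p.2)
      (g := fun y => lg (ex (-p.2) * ex (p.2 + y))) p (by rw [sub_self]; exact hA p.2)
      (hasFDerivAt_snd.sub_const _)
  simp only [add_sub_cancel] at d1 d2
  have d3 := ((h.a3Ad (ex (-p.2))).hasFDerivAt.comp p d1).prodMk d2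
  have d4 := HasFDerivAt.comp p (g := fun q : V × V => lg (ex q.1 * ex q.2))
    (g' := ContinuousLinearMap.fst ℝ V V + ContinuousLinearMap.snd ℝ V V) (by
      have : (((h.a3Ad (ex (-p.2))) ∘ fun q : V × V => lg (ex (-p.1) * ex q.1)) p,
          lg (ex (-p.2) * ex p.2)) = 0 := by
        simp [h.a3_exp_neg, h.a3_log_one]
      rw [this]
      exact h.a3_mu_hasFDerivAt_zero) d3
  have d5 := HasFDerivAt.of_comp_of_leftInverse (f'symm := Ring.inverse (A z)) c1
    (f := fun y => lg (ex (-z) * ex (z + y))) (f' := A z) (by rw [← hz, sub_self]; exact hA z) d4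
    ?_ ?_
  · refine ((hasFDerivAt_sub_const_iff _).1 d5).congr_fderiv ?_
    ext v <;> simp
  · have t1 : Tendsto (fun q : V × V => ex (-p.1) * ex q.1) (𝓝 p) (𝓝 1) :=
      Continuous.tendsto' (by fun_prop) _ _ (by simp [h.a3_exp_neg])
    have t2 : Tendsto (fun q : V × V => ex (-p.2) * ex q.2) (𝓝 p) (𝓝 1) :=
      Continuous.tendsto' (by fun_prop) _ _ (by simp [h.a3_exp_neg])
    filter_upwards [h.a3_ev_exp_log t1, h.a3_ev_exp_log t2,
      h.a3_ev_mem hp c0.continuousAt.tendsto] with q h1 h2 h3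
    simp only [Function.comp_apply, add_sub_cancel]
    rw [← h.a3Ad_spec, h1, h2, h.a3_exp_log h3, h.a3_exp_neg, h.a3_exp_neg, h.a3_exp_neg, hz']
    congr 1
    group
  · intro v
    rw [← mul_apply_eq_comp, Ring.inverse_mul_cancel _ hu]
    rfl

variable [CompleteSpace V]

theorem a3_mu_smooth (h : ExpChart ex lg r C) : ∃ ρ : ℝ, 0 < ρ ∧ ρ ≤ r ∧
    ∀ x ∈ ball (0 : V) ρ, ∀ y ∈ ball (0 : V) ρ,
      ContDiffAt ℝ ∞ (fun q : V × V => lg (ex q.1 * ex q.2)) (x, y) := by
  obtain ⟨hT, A, hA, hA'⟩ := h.a3_exists_A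
  have hc := h.cont_exp
  have c0 : Continuous fun q : V × V => ex q.1 * ex q.2 := by fun_prop
  set Ω : Set (V × V) := {p | ex p.1 * ex p.2 ∈ ex '' ball 0 r ∧ IsUnit (A (lg (ex p.1 * ex p.2)))}
    with hΩ
  have hΩo : IsOpen Ω := by
    refine isOpen_iff_mem_nhds.2 fun p hp => ?_
    have c1 : ContinuousAt (fun q : V × V => A (lg (ex q.1 * ex q.2))) p :=
      hA.continuous.continuousAt.comp
        ((h.a3_contAt_log hp.1).comp (f := fun q : V × V => ex q.1 * ex q.2) c0.continuousAt)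
    exact (h.a3_ev_mem hp.1 c0.continuousAt.tendsto).and
      (c1.eventually_mem (Units.isOpen.mem_nhds hp.2))
  have hsm : ∀ n : ℕ, ContDiffOn ℝ n (fun q : V × V => lg (ex q.1 * ex q.2)) Ω := by
    intro n
    induction n with
    | zero =>
      exact contDiffOn_zero.2 fun p hp =>
        (h.a3_mu_hasFDerivAt hA' hp.1 hp.2).continuousAt.continuousWithinAt
    | succ n ih =>
      rw [Nat.cast_succ, contDiffOn_succ_iff_fderiv_of_isOpen hΩo]
      refine ⟨fun p hp => (h.a3_mu_hasFDerivAt hA' hp.1 hp.2).differentiableAt.differentiableWithinAt,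
        fun hn => absurd hn (by simp), ?_⟩
      refine ContDiffOn.congr ?_ fun p hp => (h.a3_mu_hasFDerivAt hA' hp.1 hp.2).fderiv
      have hn : (n : WithTop ℕ∞) ≤ ∞ := by exact_mod_cast le_top
      have hAn := hA.of_le hn
      have hTn := hT.of_le hn
      refine ContDiffOn.clm_comp (fun p hp => ?_) (ContDiff.contDiffOn ?_)
      · obtain ⟨u, hu⟩ := hp.2
        have h1 : ContDiffAt ℝ n Ring.inverse (A (lg (ex p.1 * ex p.2))) :=
          hu ▸ contDiffAt_ringInverse ℝ u
        exact h1.comp_contDiffWithinAt p (hAn.contDiffAt.comp_contDiffWithinAt p (ih p hp))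
      · exact (((hTn.comp contDiff_snd.neg).clm_comp (hAn.comp contDiff_fst)).clm_comp
          contDiff_const).add ((hAn.comp contDiff_snd).clm_comp contDiff_const)
  have hA0 : A 0 = 1 := by
    refine (hA' 0).unique ((hasFDerivAt_id (0 : V)).congr_of_eventuallyEq ?_)
    filter_upwards [ball_mem_nhds 0 h.r_pos] with y hy
    simp [h.a3_exp_zero, h.log_exp y hy]
  have h0 : (0 : V × V) ∈ Ω := by
    simp only [hΩ, mem_ofPred_eq, Prod.fst_zero, Prod.snd_zero, h.a3_exp_zero, mul_one,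
      h.a3_log_one, hA0]
    exact ⟨h.a3_one_mem, isUnit_one⟩
  obtain ⟨ρ, hρ, hρΩ⟩ := Metric.isOpen_iff.1 hΩo 0 h0
  refine ⟨min ρ r, lt_min hρ h.r_pos, min_le_right _ _, fun x hx y hy => ?_⟩
  refine (contDiffOn_infty.2 hsm).contDiffAt (hΩo.mem_nhds (hρΩ ?_))
  rw [mem_ball_zero_iff] at hx hy ⊢
  rw [Prod.norm_mk]
  exact max_lt (hx.trans_le (min_le_left _ _)) (hy.trans_le (min_le_left _ _))

theorem a3_isOpen_image (h : ExpChart ex lg r C) {ρ : ℝ} (hρ : ρ ≤ r) :
    IsOpen (ex '' ball 0 ρ) := by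
  have : ex '' ball 0 ρ = ex '' ball 0 r ∩ lg ⁻¹' ball 0 ρ := by
    ext g
    constructor
    · rintro ⟨x, hx, rfl⟩
      refine ⟨⟨x, ball_subset_ball hρ hx, rfl⟩, ?_⟩
      rwa [mem_preimage, h.log_exp x (ball_subset_ball hρ hx)]
    · rintro ⟨h1, h2⟩
      exact ⟨_, h2, h.a3_exp_log h1⟩
  rw [this]
  exact h.cont_log.isOpen_inter_preimage h.open_image isOpen_ball

/-- The chart centred at `g`. -/
def a3chart (h : ExpChart ex lg r C) {ρ : ℝ} (hρ : ρ ≤ r) (g : G) : OpenPartialHomeomorph G V where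
  toFun k := lg (g⁻¹ * k)
  invFun x := g * ex x
  source := (fun k => g⁻¹ * k) ⁻¹' (ex '' ball 0 ρ)
  target := ball 0 ρ
  map_source' := by
    rintro k ⟨x, hx, e⟩
    beta_reduce at e
    rwa [← e, h.log_exp x (ball_subset_ball hρ hx)]
  map_target' x hx := ⟨x, hx, by simp⟩
  left_inv' k hk := by
    rw [h.a3_exp_log (image_mono (ball_subset_ball hρ) hk), mul_inv_cancel_left]
  right_inv' x hx := by rw [inv_mul_cancel_left, h.log_exp x (ball_subset_ball hρ hx)]
  open_source := (h.a3_isOpen_image hρ).preimage (continuous_const_mul _)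
  open_target := isOpen_ball
  continuousOn_toFun := h.cont_log.comp (continuous_const_mul _).continuousOn
    fun _ hk => image_mono (ball_subset_ball hρ) hk
  continuousOn_invFun := (continuous_const.mul h.cont_exp).continuousOn

end ExpChart

end Crest.Agent.R217
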