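import Crest.Agent.R217.Defs

/-! # Row 217, part A: interfaces between the three stages.  FIXED STATEMENTS, do not edit. -/

set_option autoImplicit false
open Filter Topology Metric Set

namespace Crest.Agent.R217

/-- A Gleason norm `ν g = d(g, 1)` (left-invariant metric `d(g,h) = ν (g⁻¹ * h)`), with constant `C`. -/
structure Gleason {G : Type*} [Group G] [TopologicalSpace G] (ν : G → ℝ) (C : ℝ) : Prop where
  one_le : 1 ≤ C
  nonneg : ∀ g, 0 ≤ ν g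
  map_one : ν 1 = 0
  map_inv : ∀ g, ν g⁻¹ = ν g
  mul_le : ∀ g h, ν (g * h) ≤ ν g + ν h
  ball_mem : ∀ r : ℝ, 0 < r → {g | ν g < r} ∈ 𝓝 (1 : G)
  ball_sub : ∀ U ∈ 𝓝 (1 : G), ∃ r : ℝ, 0 < r ∧ {g | ν g < r} ⊆ U
  escape : ∀ (g : G) (n : ℕ), (n : ℝ) * ν g ≤ 1 / C → (n : ℝ) * ν g ≤ C * ν (g ^ n)
  comm : ∀ g h, ν g ≤ 1 / C → ν h ≤ 1 / C → ν (g⁻¹ * h⁻¹ * g * h) ≤ C * ν g * ν h

/-- Exponential coordinates with the `C^{1,1}` estimate. -/
structure ExpChart {G : Type*} [Group G] [TopologicalSpace G]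
    {V : Type*} [NormedAddCommGroup V] [NormedSpace ℝ V]
    (exp : V → G) (log : G → V) (r C : ℝ) : Prop where
  r_pos : 0 < r
  exp_add : ∀ (s t : ℝ) (x : V), exp ((s + t) • x) = exp (s • x) * exp (t • x)
  cont_exp : Continuous exp
  open_image : IsOpen (exp '' ball 0 r)
  log_exp : ∀ x ∈ ball (0 : V) r, log (exp x) = x
  cont_log : ContinuousOn log (exp '' ball 0 r)
  /-- `C^{1,1}` estimate -/
  est : ∀ x y : V, ‖x‖ + ‖y‖ < r / C →
    exp x * exp y ∈ exp '' ball 0 r ∧ ‖log (exp x * exp y) - x - y‖ ≤ C * ‖x‖ * ‖y‖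
  one_le : 1 ≤ C
  /-- conjugation is linear in exponential coordinates -/
  conj : ∀ g : G, ∃ A : V →L[ℝ] V, ∀ x : V, g * exp x * g⁻¹ = exp (A x)

end Crest.Agent.R217
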