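import Crest.Agent.R217.BForm

/-! # Row 217, part B, layer 0: homological algebra of ungraded complexes.
Recipe: everything is an explicit formula + `simp` with the block API of `BCat.lean`
(`id_sum`, `reassoc`, `dag_congr`), finishing with `abel`/`module`.
* `Contr.tri`: with `H = blk h₁ 0 0 h₂`, `δH + Hδ = 1 + N`, `N = blk 0 0 (f h₁ + h₂ f) 0`, `N² = 0`,
  `N` commutes with `δ`; take `H (1 - N)`.
* `contr_cone_iff`: (→) read off the blocks of the contraction; (←) factor, or improve the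
  homotopies: `H = blk (±s) g k (±t)` gives `δH + Hδ = 1 + N` with `N` strictly lower triangular.
* `IsEqv.tri` (five lemma): the cone of the triangular map is, after a permutation isomorphism,
  a triangular extension of the two cones. -/

set_option autoImplicit false
open Complex

namespace Crest.Agent.R217
namespace DC

universe u v
variable {O : Type u} [Add O] {𝒜 ℬ 𝒞 : DC.{u, v} O} {W X Y Z X' Y' : O}

section Htp
variable {a : 𝒜.Hom X X} {b : 𝒜.Hom Y Y} {c : 𝒜.Hom Z Z} {f g k f' g' : 𝒜.Hom X Y}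

theorem Htp.refl (a : 𝒜.Hom X X) (b : 𝒜.Hom Y Y) (f : 𝒜.Hom X Y) : Htp a b f f := ⟨0, by simp⟩
theorem Htp.of_eq (h : f = g) : Htp a b f g := h ▸ Htp.refl a b f
theorem Htp.symm (h : Htp a b f g) : Htp a b g f := by
  obtain ⟨h, e⟩ := h
  exact ⟨-h, by rw [← neg_sub, e]; simp; abel⟩
theorem Htp.trans (h : Htp a b f g) (h' : Htp a b g k) : Htp a b f k := by
  obtain ⟨h, e⟩ := h
  obtain ⟨h', e'⟩ := h'
  exact ⟨h + h', by rw [← sub_add_sub_cancel f g k, e, e']; simp; abel⟩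
theorem Htp.add (h : Htp a b f g) (h' : Htp a b f' g') : Htp a b (f + f') (g + g') := by
  obtain ⟨h, e⟩ := h
  obtain ⟨h', e'⟩ := h'
  exact ⟨h + h', by rw [add_sub_add_comm, e, e']; simp; abel⟩
theorem Htp.sub (h : Htp a b f g) (h' : Htp a b f' g') : Htp a b (f - f') (g - g') := by
  obtain ⟨h, e⟩ := h
  obtain ⟨h', e'⟩ := h'
  exact ⟨h - h', by rw [sub_sub_sub_comm, e, e']; simp; abel⟩
theorem Htp.neg (h : Htp a b f g) : Htp a b (-f) (-g) := by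
  obtain ⟨h, e⟩ := h
  exact ⟨-h, by rw [← neg_sub', e]; simp; abel⟩
theorem Htp.smul (z : ℂ) (h : Htp a b f g) : Htp a b (z • f) (z • g) := by
  obtain ⟨h, e⟩ := h
  exact ⟨z • h, by rw [← smul_sub, e]; simp⟩
theorem Htp.dag (h : Htp a b f g) : Htp b† a† f† g† := by
  obtain ⟨h, e⟩ := h
  exact ⟨h†, by rw [← dag_sub, e]; simp; abel⟩
theorem Htp.comp_left (h : Htp a b f g) {m : 𝒜.Hom Y Z} (hm : m ⊚ b = c ⊚ m) :
    Htp a c (m ⊚ f) (m ⊚ g) := by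
  obtain ⟨h, e⟩ := h
  exact ⟨m ⊚ h, by rw [← comp_sub, e]; simp [reassoc hm]⟩
theorem Htp.comp_right (h : Htp a b f g) {m : 𝒜.Hom Z X} (hm : m ⊚ c = a ⊚ m) :
    Htp c b (f ⊚ m) (g ⊚ m) := by
  obtain ⟨h, e⟩ := h
  exact ⟨h ⊚ m, by rw [← sub_comp, e]; simp [hm]⟩
theorem Htp.scale (h : Htp a b f g) {z : ℂ} (hz : z ≠ 0) : Htp (z • a) (z • b) f g := by
  obtain ⟨h, e⟩ := h
  exact ⟨z⁻¹ • h, by rw [e]; simp [smul_smul, hz]⟩
theorem Htp.map (F : DFun 𝒜 ℬ) (h : Htp a b f g) :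
    Htp (F.map a) (F.map b) (F.map f) (F.map g) := by
  obtain ⟨h, e⟩ := h
  exact ⟨F.map h, by rw [← F.map_sub, e]; simp⟩
theorem rho_comm (ha : a ⊚ a = 0) (h : 𝒜.Hom X X) : rho a h ⊚ a = a ⊚ rho a h := by
  simp [rho, ha, reassoc ha]
theorem rho_htp (a h : 𝒜.Hom X X) : Htp a a (rho a h) (𝒜.id X) := ⟨-h, by simp [rho]; abel⟩
@[simp] theorem map_rho (F : DFun 𝒜 ℬ) (a h : 𝒜.Hom X X) :
    F.map (rho a h) = rho (F.map a) (F.map h) := by simp [rho]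
theorem contr_iff_rho : Contr a ↔ ∃ h, rho a h = 0 := exists_congr fun h => by
  rw [rho, sub_sub, sub_eq_zero, eq_comm]

theorem balg1_contr_iff : Contr a ↔ Htp a a (𝒜.id X) 0 := exists_congr fun h => by
  rw [sub_zero, eq_comm]

theorem balg1_rho2 (ha : a ⊚ a = 0) (h k : 𝒜.Hom X X) :
    Htp a a (rho a h ⊚ rho a k) (𝒜.id X) :=
  ((rho_htp a k).comp_left (rho_comm ha h)).trans (by simpa using rho_htp a h)

theorem balg1_contr_of_rho2 (ha : a ⊚ a = 0) (h k : 𝒜.Hom X X) (e : rho a h ⊚ rho a k = 0) :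
    Contr a := balg1_contr_iff.2 (e ▸ balg1_rho2 ha h k).symm

theorem balg1_contr_of_rho3 (ha : a ⊚ a = 0) (h k l : 𝒜.Hom X X)
    (e : rho a h ⊚ rho a k ⊚ rho a l = 0) : Contr a :=
  balg1_contr_iff.2 (e ▸ ((balg1_rho2 ha k l).comp_left (rho_comm ha h)).trans
    (by simpa using rho_htp a h)).symm

end Htp

section Contr
variable {a : 𝒜.Hom X X} {b : 𝒜.Hom Y Y} {c : 𝒜.Hom Z Z}

theorem Contr.dag (h : Contr a) : Contr a† := by
  simpa [balg1_contr_iff] using (balg1_contr_iff.1 h).dag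
theorem Contr.smul (h : Contr a) {z : ℂ} (hz : z ≠ 0) : Contr (z • a) := balg1_contr_iff.2 ((balg1_contr_iff.1 h).scale hz)
theorem Contr.neg (h : Contr a) : Contr (-a) := by
  simpa using h.smul (z := -1) (by simp)
theorem Contr.map (F : DFun 𝒜 ℬ) (h : Contr a) : Contr (F.map a) := by
  simpa [balg1_contr_iff] using (balg1_contr_iff.1 h).map F
/-- a triangular extension of contractible complexes is contractible -/
theorem Contr.tri (ha : Contr a) (hb : Contr b) (haa : a ⊚ a = 0) (hbb : b ⊚ b = 0)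
    {f : 𝒜.Hom X Y} (hf : f ⊚ a + b ⊚ f = 0) : Contr (blk a 0 f b) := by
  obtain ⟨h₁, e₁⟩ := contr_iff_rho.1 ha
  obtain ⟨h₂, e₂⟩ := contr_iff_rho.1 hb
  have e : rho (blk a 0 f b) (blk h₁ 0 0 h₂) = blk 0 0 (-(f ⊚ h₁ + h₂ ⊚ f)) 0 := by
    rw [rho, id_sum]
    simp only [rho] at e₁ e₂
    simp [e₁, e₂]
    abel
  exact balg1_contr_of_rho2 (by simp [haa, hbb, hf]) (blk h₁ 0 0 h₂) (blk h₁ 0 0 h₂)
    (by rw [e]; simp)
/-- domination -/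
theorem Contr.of_dom (hb : Contr b) {f : 𝒜.Hom X Y} {g : 𝒜.Hom Y X} (hf : f ⊚ a = b ⊚ f)
    (hg : g ⊚ b = a ⊚ g) (h : Htp a a (g ⊚ f) (𝒜.id X)) : Contr a := by
  have h1 := ((balg1_contr_iff.1 hb).comp_right hf).comp_left hg
  exact balg1_contr_iff.2 (h.symm.trans (by simpa using h1))
/-- a contraction in a full quotient lifts -/
theorem exists_rho_map_eq_zero (F : DFun 𝒜 ℬ) (hF : F.Full) (h : Contr (F.map a)) :
    ∃ k : 𝒜.Hom X X, F.map (rho a k) = 0 := by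
  obtain ⟨h, e⟩ := contr_iff_rho.1 h
  obtain ⟨k, rfl⟩ := hF h
  exact ⟨k, by rw [map_rho, e]⟩
/-- local detection of contractibility -/
theorem contr_of_cover2 (F : DFun 𝒜 ℬ) (G : DFun 𝒜 𝒞) (hF : F.Full) (hG : G.Full)
    (hFG : ∀ f : 𝒜.Hom X X, F.map f = 0 → G.map f = 0 → f = 0) (haa : a ⊚ a = 0)
    (h₁ : Contr (F.map a)) (h₂ : Contr (G.map a)) : Contr a := by
  obtain ⟨k₁, e₁⟩ := exists_rho_map_eq_zero F hF h₁
  obtain ⟨k₂, e₂⟩ := exists_rho_map_eq_zero G hG h₂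
  exact balg1_contr_of_rho2 haa k₁ k₂ (hFG _ (by rw [F.map_comp, e₁, zero_comp])
    (by rw [G.map_comp, e₂, comp_zero]))
theorem contr_of_cover3 {sg : ∀ X : O, 𝒜.Hom X X} (C : Cover3 𝒜 sg) (haa : a ⊚ a = 0)
    (hR : Contr (C.FR.map a)) (hL : Contr (C.FL.map a)) (hM : Contr (C.FM.map a)) : Contr a := by
  obtain ⟨k₁, e₁⟩ := exists_rho_map_eq_zero C.FR C.fullR hR
  obtain ⟨k₂, e₂⟩ := exists_rho_map_eq_zero C.FL C.fullL hL
  obtain ⟨k₃, e₃⟩ := exists_rho_map_eq_zero C.FM C.fullM hM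
  exact balg1_contr_of_rho3 haa k₁ k₂ k₃ (C.faithful _ (by rw [C.FR.map_comp, e₁, zero_comp])
    (by rw [C.FL.map_comp, C.FL.map_comp, e₂, zero_comp, comp_zero])
    (by rw [C.FM.map_comp, C.FM.map_comp, e₃, comp_zero, comp_zero]))

end Contr

section IsEqv
variable {a : 𝒜.Hom X X} {b : 𝒜.Hom Y Y} {c : 𝒜.Hom Z Z} {f f' : 𝒜.Hom X Y} {g : 𝒜.Hom Y Z}

theorem IsEqv.id (a : 𝒜.Hom X X) : IsEqv a a (𝒜.id X) :=   ⟨by simp, 𝒜.id X, by simp, Htp.of_eq (by simp), Htp.of_eq (by simp)⟩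
theorem IsEqv.of_iso (hf : f ⊚ a = b ⊚ f) {k : 𝒜.Hom Y X} (h₁ : k ⊚ f = 𝒜.id X)
    (h₂ : f ⊚ k = 𝒜.id Y) : IsEqv a b f := by
  refine ⟨hf, k, ?_, Htp.of_eq h₁, Htp.of_eq h₂⟩
  calc k ⊚ b = k ⊚ (b ⊚ f) ⊚ k := by rw [comp_assoc, h₂, comp_id]
    _ = a ⊚ k := by rw [← hf, comp_assoc, reassoc h₁, id_comp]
theorem IsEqv.comp (hg : IsEqv b c g) (hf : IsEqv a b f) : IsEqv a c (g ⊚ f) := by
  obtain ⟨g1, g', g2, g3, g4⟩ := hg
  obtain ⟨f1, f', f2, f3, f4⟩ := hf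
  refine ⟨by simp [f1, reassoc g1], f' ⊚ g', by simp [g2, reassoc f2], ?_, ?_⟩
  · exact Htp.trans (by simpa using (g3.comp_right f1).comp_left f2) f3
  · exact Htp.trans (by simpa using (f4.comp_right g2).comp_left g1) g4
theorem IsEqv.dag (hf : IsEqv a b f) : IsEqv b† a† f† := by
  obtain ⟨f1, f', f2, f3, f4⟩ := hf
  exact ⟨by simpa using (dag_congr f1).symm, f'†, by simpa using (dag_congr f2).symm,
    by simpa using f4.dag, by simpa using f3.dag⟩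
theorem IsEqv.smul (hf : IsEqv a b f) {z : ℂ} (hz : z ≠ 0) : IsEqv a b (z • f) := by
  obtain ⟨f1, f', f2, f3, f4⟩ := hf
  exact ⟨by simp [f1], z⁻¹ • f', by simp [f2], by simpa [smul_smul, hz] using f3,
    by simpa [smul_smul, hz] using f4⟩
theorem IsEqv.neg (hf : IsEqv a b f) : IsEqv a b (-f) := by
  simpa using hf.smul (z := -1) (by simp)
theorem IsEqv.scale (hf : IsEqv a b f) {z : ℂ} (hz : z ≠ 0) : IsEqv (z • a) (z • b) f := by
  obtain ⟨f1, f', f2, f3, f4⟩ := hf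
  exact ⟨by simp [f1], f', by simp [f2], f3.scale hz, f4.scale hz⟩
theorem IsEqv.map (F : DFun 𝒜 ℬ) (hf : IsEqv a b f) :
    IsEqv (F.map a) (F.map b) (F.map f) := by
  obtain ⟨f1, f', f2, f3, f4⟩ := hf
  exact ⟨by rw [← F.map_comp, f1, F.map_comp], F.map f', by rw [← F.map_comp, f2, F.map_comp],
    by simpa using f3.map F, by simpa using f4.map F⟩
theorem IsEqv.of_htp (hf : IsEqv a b f) (hc : f' ⊚ a = b ⊚ f') (h : Htp a b f' f) :
    IsEqv a b f' := by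
  obtain ⟨-, k, f2, f3, f4⟩ := hf
  exact ⟨hc, k, f2, (h.comp_left f2).trans f3, (h.comp_right f2).trans f4⟩
theorem IsEqv.cancel_left (hg : IsEqv b c g) (hgf : IsEqv a c (g ⊚ f)) (hf : f ⊚ a = b ⊚ f) :
    IsEqv a b f := by
  obtain ⟨g1, g', g2, g3, g4⟩ := hg
  have h1 : IsEqv c b g' := ⟨g2, g, g1, g4, g3⟩
  exact (h1.comp hgf).of_htp hf (by simpa using (g3.comp_right hf).symm)
theorem IsEqv.cancel_right (hf : IsEqv a b f) (hgf : IsEqv a c (g ⊚ f)) (hg : g ⊚ b = c ⊚ g) :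
    IsEqv b c g := by
  obtain ⟨f1, k, f2, f3, f4⟩ := hf
  have h1 : IsEqv b a k := ⟨f2, f, f1, f4, f3⟩
  exact (hgf.comp h1).of_htp hg (by simpa using (f4.comp_left hg).symm)
theorem isEqv_rho (ha : a ⊚ a = 0) (h : 𝒜.Hom X X) : IsEqv a a (rho a h) :=   (IsEqv.id a).of_htp (rho_comm ha h) (rho_htp a h)
theorem IsEqv.of_contr (ha : Contr a) (hb : Contr b) (hf : f ⊚ a = b ⊚ f) : IsEqv a b f :=   ⟨hf, 0, by simp, by simpa using (balg1_contr_iff.1 ha).symm,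
    by simpa using (balg1_contr_iff.1 hb).symm⟩
theorem IsEqv.contr_left (hf : IsEqv a b f) (hb : Contr b) : Contr a := by
  obtain ⟨f1, k, f2, f3, -⟩ := hf
  exact hb.of_dom f1 f2 f3
theorem IsEqv.contr_right (hf : IsEqv a b f) (ha : Contr a) : Contr b := by
  obtain ⟨f1, k, f2, -, f4⟩ := hf
  exact ha.of_dom f2 f1 f4
/-- mapping cone -/
theorem contr_cone_iff (haa : a ⊚ a = 0) (hbb : b ⊚ b = 0) (hf : f ⊚ a = b ⊚ f) :
    Contr (blk (-a) 0 f b) ↔ IsEqv a b f := by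
  constructor
  · rintro ⟨H, e⟩
    obtain ⟨u, w, rfl⟩ := exists_lift H
    obtain ⟨p, q, rfl⟩ := exists_desc u
    obtain ⟨r, s, rfl⟩ := exists_desc w
    rw [id_sum] at e
    simp only [blk, lift_comp, desc_comp_lift, comp_desc, desc_add, lift_add, lift_inj, desc_inj,
      neg_comp, comp_neg, zero_comp, comp_zero, add_zero, zero_add] at e
    obtain ⟨⟨e1, e2⟩, -, e4⟩ := e
    refine ⟨hf, q, ?_, ⟨p, ?_⟩, ⟨-s, ?_⟩⟩
    · rw [neg_add_eq_zero] at e2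
      exact e2.symm
    · rw [← e1]; abel
    · rw [← e4]; simp; abel
  · rintro ⟨-, k, f2, ⟨s, f3⟩, ⟨t, f4⟩⟩
    rw [sub_eq_iff_eq_add] at f3 f4
    have e : rho (blk (-a) 0 f b) (blk s k 0 (-t)) = blk 0 0 (t ⊚ f - f ⊚ s) 0 := by
      rw [rho, id_sum]
      simp [f2, f3, f4]
      refine ⟨?_, ?_, ?_⟩ <;> abel
    exact balg1_contr_of_rho2 (by simp [haa, hbb, hf]) (blk s k 0 (-t)) (blk s k 0 (-t))
      (by rw [e]; simp)
/-- five lemma -/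
theorem IsEqv.tri {a₁ : 𝒜.Hom X X} {a₂ : 𝒜.Hom Y Y} {b₁ : 𝒜.Hom X' X'} {b₂ : 𝒜.Hom Y' Y'}
    {x : 𝒜.Hom X Y} {y : 𝒜.Hom X' Y'} {f₁ : 𝒜.Hom X X'} {f₂ : 𝒜.Hom Y Y'} {k : 𝒜.Hom X Y'}
    (ha : blk a₁ 0 x a₂ ⊚ blk a₁ 0 x a₂ = 0) (hb : blk b₁ 0 y b₂ ⊚ blk b₁ 0 y b₂ = 0)
    (hc : blk f₁ 0 k f₂ ⊚ blk a₁ 0 x a₂ = blk b₁ 0 y b₂ ⊚ blk f₁ 0 k f₂)
    (h₁ : IsEqv a₁ b₁ f₁) (h₂ : IsEqv a₂ b₂ f₂) :
    IsEqv (blk a₁ 0 x a₂) (blk b₁ 0 y b₂) (blk f₁ 0 k f₂) := by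
  rw [← contr_cone_iff ha hb hc]
  simp only [blk, lift_comp, desc_comp_lift, comp_desc, desc_add, lift_eq_zero, desc_eq_zero,
    lift_inj, desc_inj, zero_comp, comp_zero, add_zero, zero_add, and_true] at ha hb hc
  obtain ⟨a1, a2, a3⟩ := ha
  obtain ⟨b1, b2, b3⟩ := hb
  obtain ⟨c1, c2, c3⟩ := hc
  have H : Contr (blk (blk (-a₁) 0 f₁ b₁) 0 (blk (-x) 0 k y) (blk (-a₂) 0 f₂ b₂)) :=
    ((contr_cone_iff a1 b1 c1).2 h₁).tri ((contr_cone_iff a3 b3 c3).2 h₂)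
      (by simp [a1, b1, c1]) (by simp [a3, b3, c3]) (by
        simp [a2, b2]
        rw [← sub_eq_zero] at c2
        rw [← neg_eq_zero, ← c2]
        abel)
  refine H.of_dom
    (f := blk (blk (𝒜.id X) 0 0 0) (blk 0 0 (𝒜.id X') 0) (blk 0 (𝒜.id Y) 0 0)
      (blk 0 0 0 (𝒜.id Y')))
    (g := blk (blk (𝒜.id X) 0 0 0) (blk 0 0 (𝒜.id Y) 0) (blk 0 (𝒜.id X') 0 0)
      (blk 0 0 0 (𝒜.id Y'))) (by simp) (by simp) (Htp.of_eq ?_)
  rw [id_sum, id_sum, id_sum]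
  simp
theorem isEqv_of_cover3 {sg : ∀ X : O, 𝒜.Hom X X} (C : Cover3 𝒜 sg) (haa : a ⊚ a = 0)
    (hbb : b ⊚ b = 0) (hf : f ⊚ a = b ⊚ f)
    (hR : IsEqv (C.FR.map a) (C.FR.map b) (C.FR.map f))
    (hL : IsEqv (C.FL.map a) (C.FL.map b) (C.FL.map f))
    (hM : IsEqv (C.FM.map a) (C.FM.map b) (C.FM.map f)) : IsEqv a b f := by
  have key : ∀ {ℬ : DC.{u, v} O} (F : DFun 𝒜 ℬ), IsEqv (F.map a) (F.map b) (F.map f) →
      Contr (F.map (blk (-a) 0 f b)) := fun F h => by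
    simpa using (contr_cone_iff (by rw [← F.map_comp, haa, F.map_zero])
      (by rw [← F.map_comp, hbb, F.map_zero]) h.1).2 h
  exact (contr_cone_iff haa hbb hf).1 (contr_of_cover3 C (by simp [haa, hbb, hf]) (key _ hR)
    (key _ hL) (key _ hM))

end IsEqv

end DC
end Crest.Agent.R217
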