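import Crest.Agent.R217.BAlg1

/-! # Row 217, part B, layer 0: forms, surgery, neutrality.
Recipes:
* `contr_surg_of_eqv`: the surgery complex is `Λ + ((V₁ + V₂) + Λ)`; permute it to
  `(Λ + V₂) + (V₁ + Λ)`: quotient = cone of `j₂`, sub = cone (up to sign) of `j₁† φ₁ : (V₁,d₁) → (Λ, e†)`;
  `Contr.tri`, `contr_cone_iff`, `Contr.of_dom` along the permutation.
* `neutral_of_eqv`: symmetrise the homotopy, `T = (H + H†)/2`.
* `neutral_surg`: Lagrangian `N = V + Λ`, `e_N = blk d 0 (j†φ) (-e†)`, `j_N (x, μ) = (x, (0, x, μ))`,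
  `T = 0`.  Contractibility of the surgery complex `N + ((V + (Λ + (V + Λ))) + N)`: after the change
  of variable `x ↦ x - x'` and a permutation it is a triangular extension of the cones of
  `1_N`, `φ` and `1_Λ`.  (Alternatively `surg` is an iterated cone; use `IsEqv.tri`.)
* `Poinc.surg`: the form is anti-triangular; compose with the flip `Λ + (V + Λ) ≅ Λ + (V + Λ)` to make
  source and target lower triangular with diagonal maps `1, φ, 1`, use `IsEqv.tri` twice.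
* `Poinc.idem`: `J = 2E - 1`, `J J ≃ 1`, the form is `≃ φ J`. -/

set_option autoImplicit false
open Complex

namespace Crest.Agent.R217
namespace Form
open DC

universe u v
variable {O : Type u} [Add O] {𝒜 ℬ : DC.{u, v} O} {D E : Form 𝒜}

theorem IsForm.add (hD : D.IsForm) (hE : E.IsForm) : (D.add E).IsForm :=   ⟨by simp [hD.dd, hE.dd], by simp [hD.herm, hE.herm], by simp [hD.comm, hE.comm],
    adm_blk 0 hD.adm hE.adm⟩
theorem IsForm.neg (hD : D.IsForm) : D.neg.IsForm :=   ⟨hD.dd, by simp [hD.herm], by simp [hD.comm], hD.adm⟩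
theorem IsForm.map (F : DFun 𝒜 ℬ) (hD : D.IsForm) : (D.map F).IsForm :=   ⟨by rw [← F.map_comp, hD.dd, F.map_zero], by rw [← F.map_dag, hD.herm],
    by rw [← F.map_dag, ← F.map_comp, hD.comm, F.map_comp], F.map_adm hD.adm⟩

theorem IsForm.balg2_dd (hD : D.IsForm) : D.d† ⊚ D.d† = 0 := by simpa using dag_congr hD.dd
theorem Poinc.add (hD : D.Poinc) (hE : E.Poinc) : (D.add E).Poinc := by
  refine ⟨hD.isForm.add hE.isForm, ?_⟩
  have := IsEqv.tri (x := 0) (y := 0) (k := 0) (by simp [hD.isForm.dd, hE.isForm.dd])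
    (by simp [hD.isForm.balg2_dd, hE.isForm.balg2_dd]) (by simp [hD.isForm.comm, hE.isForm.comm])
    hD.eqv hE.eqv
  simpa using this
theorem Poinc.neg (hD : D.Poinc) : D.neg.Poinc := ⟨hD.isForm.neg, hD.eqv.neg⟩
theorem Poinc.map (F : DFun 𝒜 ℬ) (hD : D.Poinc) : (D.map F).Poinc :=   ⟨hD.isForm.map F, by simpa using hD.eqv.map F⟩

theorem map_add (F : DFun 𝒜 ℬ) (D E : Form 𝒜) :
    (D.add E).map F = (D.map F).add (E.map F) := by simp [map, add]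
theorem map_neg (F : DFun 𝒜 ℬ) (D : Form 𝒜) : D.neg.map F = (D.map F).neg := by
  simp [map, neg]
theorem map_bd (F : DFun 𝒜 ℬ) (D : Form 𝒜) : D.bd.map F = (D.map F).bd := by
  simp [map, bd]
theorem map_surg (F : DFun 𝒜 ℬ) (D : Form 𝒜) (L : D.Iso) :
    (D.surg L).map F = (D.map F).surg (L.map F) := by simp [map, surg, Iso.map]
theorem map_idem (F : DFun 𝒜 ℬ) (D : Form 𝒜) (P : 𝒜.Hom D.V D.V) :
    (D.idem P).map F = (D.map F).idem (F.map P) := by simp [map, idem]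

theorem IsForm.bd (hD : D.IsForm) : D.bd.IsForm :=   ⟨by simp [hD.dd, hD.balg2_dd, hD.comm], by simp, by simp [hD.herm],
    adm_blk _ (adm_smul _ hD.adm) (adm_smul _ (adm_dag hD.adm))⟩
theorem IsForm.bd_poinc (hD : D.IsForm) : D.bd.Poinc :=   ⟨hD.bd, IsEqv.of_iso hD.bd.comm (k := D.bd.φ) (by rw [id_sum]; simp) (by rw [id_sum]; simp)⟩
theorem Poinc.contr_bd (hD : D.Poinc) : Contr D.bd.d := by
  have := (contr_cone_iff (by simp [hD.isForm.dd]) (by simp [hD.isForm.balg2_dd])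
    (by simp [hD.isForm.comm])).2 (hD.eqv.scale (z := -I) (by simp))
  simpa using this

theorem Iso.IsIso.map (F : DFun 𝒜 ℬ) {L : D.Iso} (hL : L.IsIso) : (L.map F).IsIso :=   ⟨by rw [← F.map_comp, hL.ee, F.map_zero], F.map_adm hL.adm,
    by rw [← F.map_comp, hL.chain, F.map_comp], by rw [← F.map_dag, hL.herm],
    by simpa using congrArg F.map hL.null⟩

theorem Iso.IsIso.balg2_ee {L : D.Iso} (hL : L.IsIso) : L.e† ⊚ L.e† = 0 := by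
  simpa using dag_congr hL.ee

theorem Iso.IsIso.balg2_chain {L : D.Iso} (hL : L.IsIso) : L.e† ⊚ L.j† = L.j† ⊚ D.d† := by
  simpa using dag_congr hL.chain
theorem IsForm.surg (hD : D.IsForm) {L : D.Iso} (hL : L.IsIso) : (D.surg L).IsForm :=   ⟨by simp [hD.dd, hL.ee, hL.balg2_ee, hD.comm, hL.chain, hL.null, reassoc hL.balg2_chain],
    by simp [hD.herm], by simp [hD.herm, hD.comm, hL.herm],
    adm_blk3 _ _ _ (adm_neg hL.adm) hD.adm (adm_neg (adm_dag hL.adm))⟩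
theorem Poinc.surg (hD : D.Poinc) {L : D.Iso} (hL : L.IsIso) : (D.surg L).Poinc := by
  have hF := hD.isForm
  have hn : L.T ⊚ L.e + L.e† ⊚ L.T = L.j† ⊚ D.φ ⊚ L.j := hL.null.symm
  have h1 : IsEqv (blk D.d 0 (L.j† ⊚ D.φ) (-L.e†)) (blk D.d† 0 L.j† (-L.e†))
      (blk D.φ 0 0 (𝒜.id L.Λ)) :=
    IsEqv.tri (by simp [hF.dd, hL.balg2_ee, hF.comm, reassoc hL.balg2_chain])
      (by simp [hF.balg2_dd, hL.balg2_ee, hL.balg2_chain]) (by simp [hF.comm]) hD.eqv (IsEqv.id _)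
  have h2 : IsEqv (blk (-L.e) 0 (lift L.j L.T) (blk D.d 0 (L.j† ⊚ D.φ) (-L.e†)))
      (blk (-L.e) 0 (lift (D.φ ⊚ L.j) L.T) (blk D.d† 0 L.j† (-L.e†)))
      (blk (𝒜.id L.Λ) 0 0 (blk D.φ 0 0 (𝒜.id L.Λ))) :=
    IsEqv.tri
      (by simp [hF.dd, hL.ee, hL.balg2_ee, hF.comm, hL.chain, hL.null, reassoc hL.balg2_chain])
      (by simp [hF.balg2_dd, hL.ee, hL.balg2_ee, hL.chain, hL.null, hL.balg2_chain,
        reassoc hF.comm])
      (by simp [hF.comm]) (IsEqv.id _) h1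
  have h3 : IsEqv (blk (-L.e) 0 (lift (D.φ ⊚ L.j) L.T) (blk D.d† 0 L.j† (-L.e†))) (D.surg L).d†
      (blk3 0 0 (𝒜.id L.Λ) 0 (𝒜.id D.V) 0 (𝒜.id L.Λ) 0 0) :=
    IsEqv.of_iso (by simp [hF.herm, hL.herm])
      (k := blk3 0 0 (𝒜.id L.Λ) 0 (𝒜.id D.V) 0 (𝒜.id L.Λ) 0 0)
      (by rw [id_sum, id_sum]; simp) (by rw [id_sum, id_sum]; simp)
  refine ⟨hF.surg hL, ?_⟩
  convert h3.comp h2 using 1 <;> simp
theorem Neutral.map (F : DFun 𝒜 ℬ) (h : D.Neutral) : (D.map F).Neutral := by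
  obtain ⟨L, hL, h⟩ := h
  exact ⟨L.map F, hL.map F, by simpa using h.map F⟩

/-- surgery on contractible data is contractible -/
theorem contr_surg (hD : D.IsForm) {L : D.Iso} (hL : L.IsIso) (h₁ : Contr D.d) (h₂ : Contr L.e) :
    Contr (D.surg L).d := by
  have h3 : Contr (blk D.d 0 (L.j† ⊚ D.φ) (-L.e†)) :=
    h₁.tri h₂.dag.neg hD.dd (by simp [hL.balg2_ee]) (by simp [hD.comm, reassoc hL.balg2_chain])
  have h4 : Contr (blk (-L.e) 0 (lift L.j L.T) (blk D.d 0 (L.j† ⊚ D.φ) (-L.e†))) :=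
    h₂.neg.tri h3 (by simp [hL.ee])
      (by simp [hD.dd, hL.balg2_ee, hD.comm, reassoc hL.balg2_chain])
      (by simp [hL.chain, hL.null])
  convert h4 using 1
  simp
theorem neutral_of_contr (hD : D.IsForm) (h : Contr D.d) : D.Neutral := by
  have hL : Iso.IsIso (D := D) ⟨D.V, D.d, 0, 0⟩ := ⟨hD.dd, hD.adm, by simp, by simp, by simp⟩
  exact ⟨_, hL, contr_surg hD hL h h⟩

theorem contr_surg_of_eqv (hD : D.Poinc) (hE : E.IsForm) {Λ : O} {e T : 𝒜.Hom Λ Λ}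
    {j₁ : 𝒜.Hom Λ D.V} {j₂ : 𝒜.Hom Λ E.V}
    (hL : Iso.IsIso (D := D.add E.neg) ⟨Λ, e, lift j₁ j₂, T⟩)
    (h₁ : IsEqv e D.d j₁) (h₂ : IsEqv e E.d j₂) :
    Contr ((D.add E.neg).surg ⟨Λ, e, lift j₁ j₂, T⟩).d := by
  have hF := hD.isForm
  have ee : e ⊚ e = 0 := hL.ee
  have ee' : e† ⊚ e† = 0 := hL.balg2_ee
  have c1 : e† ⊚ j₁† = j₁† ⊚ D.d† := by simpa using dag_congr h₁.1
  have c2 : e† ⊚ j₂† = j₂† ⊚ E.d† := by simpa using dag_congr h₂.1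
  have hn : j₁† ⊚ D.φ ⊚ j₁ = T ⊚ e + e† ⊚ T + j₂† ⊚ E.φ ⊚ j₂ := by
    have := hL.null
    simp at this
    rw [← this]
    abel
  have k1 : Contr (blk (-e) 0 j₂ E.d) := (contr_cone_iff ee hE.dd h₂.1).2 h₂
  have k2 : Contr (blk D.d 0 (j₁† ⊚ D.φ) (-e†)) := by
    have := (contr_cone_iff (by simp [hF.dd]) (by simp [ee']) (by simp [hF.comm, reassoc c1])).2
      ((h₁.dag.comp hD.eqv).scale (z := -1) (by simp))
    simpa using this
  have k3 := k1.tri k2 (f := blk j₁ 0 T (-(j₂† ⊚ E.φ))) (by simp [ee, hE.dd, h₂.1])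
    (by simp [ee', hF.dd, hF.comm, reassoc c1]) (by
      simp [h₁.1, hE.comm, reassoc c2, hn]
      abel)
  refine k3.of_dom
    (f := lift (lift (desc (𝒜.id Λ) (desc (desc 0 0) 0)) (desc 0 (desc (desc 0 (𝒜.id E.V)) 0)))
      (lift (desc 0 (desc (desc (𝒜.id D.V) 0) 0)) (desc 0 (desc (desc 0 0) (𝒜.id Λ)))))
    (g := lift (desc (desc (𝒜.id Λ) 0) (desc 0 0))
      (lift (lift (desc (desc 0 0) (desc (𝒜.id D.V) 0)) (desc (desc 0 (𝒜.id E.V)) (desc 0 0)))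
        (desc (desc 0 0) (desc 0 (𝒜.id Λ))))) (by simp) (by simp) (Htp.of_eq ?_)
  rw [id_sum, id_sum, id_sum]
  simp

/-- homotopy-isometric Poincaré complexes are cobordant -/
theorem neutral_of_eqv (hD : D.Poinc) (hE : E.IsForm) {Λ : O} {e : 𝒜.Hom Λ Λ}
    {j₁ : 𝒜.Hom Λ D.V} {j₂ : 𝒜.Hom Λ E.V} (hee : e ⊚ e = 0) (hadm : 𝒜.adm e)
    (h₁ : IsEqv e D.d j₁) (h₂ : IsEqv e E.d j₂)
    (h : Htp e e† (j₁† ⊚ D.φ ⊚ j₁) (j₂† ⊚ E.φ ⊚ j₂)) : (D.add E.neg).Neutral := by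
  obtain ⟨H, hH⟩ := h
  have hH' := dag_congr hH
  simp only [dag_sub, dag_comp, dag_add, dag_dag, comp_assoc, hD.isForm.herm, hE.herm] at hH'
  have hL : Iso.IsIso (D := D.add E.neg) ⟨Λ, e, lift j₁ j₂, (1 / 2 : ℂ) • (H + H†)⟩ := by
    refine ⟨hee, hadm, by simp [h₁.1, h₂.1], by simp [add_comm, map_ofNat], ?_⟩
    simp only [blk, dag_lift, lift_comp, desc_comp_lift, zero_comp, add_zero, zero_add, neg_comp,
      comp_neg, smul_comp, comp_smul, add_comp, comp_add]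
    linear_combination (norm := module) (1 / 2 : ℂ) • hH + (1 / 2 : ℂ) • hH'
  exact ⟨_, hL, contr_surg_of_eqv hD hE hL h₁ h₂⟩

theorem neutral_self (hD : D.Poinc) : (D.add D.neg).Neutral :=   neutral_of_eqv hD hD.isForm hD.isForm.dd hD.isForm.adm (IsEqv.id _) (IsEqv.id _) (Htp.refl _ _ _)

/-- a row on `(V + Λ) + ((V + (Λ + (V + Λ))) + (V + Λ))` -/
@[simp] def balg2_row {V Λ Z : O} (a₁ : 𝒜.Hom V Z) (a₂ : 𝒜.Hom Λ Z) (a₃ : 𝒜.Hom V Z)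
    (a₄ : 𝒜.Hom Λ Z) (a₅ : 𝒜.Hom V Z) (a₆ : 𝒜.Hom Λ Z) (a₇ : 𝒜.Hom V Z) (a₈ : 𝒜.Hom Λ Z) :
    𝒜.Hom ((V + Λ) + ((V + (Λ + (V + Λ))) + (V + Λ))) Z :=
  desc (desc a₁ a₂) (desc (desc a₃ (desc a₄ (desc a₅ a₆))) (desc a₇ a₈))

/-- a row on `(Λ + Λ) + (((V + Λ) + (V + Λ)) + (V + V))` -/
@[simp] def balg2_row' {V Λ Z : O} (a₁ : 𝒜.Hom Λ Z) (a₂ : 𝒜.Hom Λ Z) (a₃ : 𝒜.Hom V Z)
    (a₄ : 𝒜.Hom Λ Z) (a₅ : 𝒜.Hom V Z) (a₆ : 𝒜.Hom Λ Z) (a₇ : 𝒜.Hom V Z) (a₈ : 𝒜.Hom V Z) :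
    𝒜.Hom ((Λ + Λ) + (((V + Λ) + (V + Λ)) + (V + V))) Z :=
  desc (desc a₁ a₂) (desc (desc (desc a₃ a₄) (desc a₅ a₆)) (desc a₇ a₈))

/-- surgery gives a cobordant complex -/
theorem neutral_surg (hD : D.Poinc) {L : D.Iso} (hL : L.IsIso) :
    (D.add (D.surg L).neg).Neutral := by
  have hF := hD.isForm
  have hN : blk D.d 0 (L.j† ⊚ D.φ) (-L.e†) ⊚ blk D.d 0 (L.j† ⊚ D.φ) (-L.e†) = 0 := by
    simp [hF.dd, hL.balg2_ee, hF.comm, reassoc hL.balg2_chain]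
  refine ⟨⟨D.V + L.Λ, blk D.d 0 (L.j† ⊚ D.φ) (-L.e†), lift (desc (𝒜.id D.V) 0)
    (lift (desc 0 0) (lift (desc (𝒜.id D.V) 0) (desc 0 (𝒜.id L.Λ)))), 0⟩,
    ⟨hN, adm_blk _ hF.adm (adm_neg (adm_dag hL.adm)), by simp, by simp, by simp⟩, ?_⟩
  have k1 : Contr (blk (-L.e) 0 (-𝒜.id L.Λ) L.e) :=
    (contr_cone_iff hL.ee hL.ee (by simp)).2 (IsEqv.id _).neg
  have k2 := (contr_cone_iff hN hN (by rw [id_comp, comp_id])).2 (IsEqv.id _)
  rw [id_sum] at k2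
  have k3 : Contr (blk D.d 0 D.φ (-D.d†)) := by
    have := (contr_cone_iff (by simp [hF.dd]) (by simp [hF.balg2_dd]) (by simp [hF.comm])).2
      (hD.eqv.scale (z := -1) (by simp))
    simpa using this
  have k4 := k2.tri k3 (f := 0) (by simp [hF.dd, hL.balg2_ee, hF.comm, reassoc hL.balg2_chain])
    (by simp [hF.dd, hF.balg2_dd, hF.comm]) (by simp)
  have k5 := k1.tri k4 (f := lift (lift 0 (blk L.j 0 L.T 0)) (blk (-L.j) 0 0 (-(D.φ ⊚ L.j))))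
    (by simp [hL.ee])
    (by simp [hF.dd, hF.balg2_dd, hL.balg2_ee, hF.comm, reassoc hL.balg2_chain])
    (by simp [hL.chain, hL.null, reassoc hF.comm])
  refine k5.of_dom
    (f := lift
      (lift (balg2_row 0 0 0 (𝒜.id _) 0 0 0 0) (balg2_row 0 0 0 0 0 0 0 (𝒜.id _)))
      (lift
        (lift (lift (balg2_row (𝒜.id _) 0 0 0 0 0 0 0) (balg2_row 0 (𝒜.id _) 0 0 0 0 0 0))
          (lift (balg2_row 0 0 0 0 (𝒜.id _) 0 0 0) (balg2_row 0 0 0 0 0 (𝒜.id _) 0 0)))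
        (lift (balg2_row 0 0 (𝒜.id _) 0 (-𝒜.id _) 0 0 0) (balg2_row 0 0 0 0 0 0 (𝒜.id _) 0))))
    (g := lift
      (lift (balg2_row' 0 0 (𝒜.id _) 0 0 0 0 0) (balg2_row' 0 0 0 (𝒜.id _) 0 0 0 0))
      (lift
        (lift (balg2_row' 0 0 0 0 (𝒜.id _) 0 (𝒜.id _) 0)
          (lift (balg2_row' (𝒜.id _) 0 0 0 0 0 0 0)
            (lift (balg2_row' 0 0 0 0 (𝒜.id _) 0 0 0) (balg2_row' 0 0 0 0 0 (𝒜.id _) 0 0))))
        (lift (balg2_row' 0 0 0 0 0 0 0 (𝒜.id _)) (balg2_row' 0 (𝒜.id _) 0 0 0 0 0 0))))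
    (by simp [hF.herm]) (by simp [hF.herm]) (Htp.of_eq ?_)
  simp only [id_sum]
  simp

theorem IsForm.balg2_idem (hD : D.IsForm) {P : 𝒜.Hom D.V D.V} (hc : P ⊚ D.d = D.d ⊚ P) :
    (D.idem P).IsForm := by
  have hc' : D.d† ⊚ P† = P† ⊚ D.d† := by simpa using dag_congr hc
  exact ⟨hD.dd, by simp [hD.herm, add_comm], by simp [hc, hD.comm, reassoc hD.comm, reassoc hc'],
    hD.adm⟩

theorem Poinc.idem (hD : D.Poinc) {P : 𝒜.Hom D.V D.V} (hc : P ⊚ D.d = D.d ⊚ P)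
    (hPP : Htp D.d D.d (P ⊚ P) P) (hs : Htp D.d D.d† (P† ⊚ D.φ) (D.φ ⊚ P)) :
    (D.idem P).Poinc := by
  have hF := hD.isForm.balg2_idem hc
  have hJ : (P + P - 𝒜.id D.V) ⊚ D.d = D.d ⊚ (P + P - 𝒜.id D.V) := by simp [hc]
  have hJJ : Htp D.d D.d ((P + P - 𝒜.id D.V) ⊚ (P + P - 𝒜.id D.V)) (𝒜.id D.V) := by
    obtain ⟨h, e⟩ := hPP
    refine ⟨(4 : ℂ) • h, ?_⟩
    simp only [sub_comp, add_comp, comp_sub, comp_add, id_comp, comp_id, comp_smul, smul_comp]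
    linear_combination (norm := module) (4 : ℂ) • e
  refine ⟨hF, (hD.eqv.comp ⟨hJ, _, hJ, hJJ, hJJ⟩).of_htp hF.comm ?_⟩
  simpa using ((Htp.refl _ _ (D.φ ⊚ P)).add hs).sub (Htp.refl _ _ D.φ)
theorem neutral_idem_one (hD : D.Poinc) {P : 𝒜.Hom D.V D.V} (hc : P ⊚ D.d = D.d ⊚ P)
    (h : Htp D.d D.d P (𝒜.id D.V)) : (D.add (D.idem P).neg).Neutral := by
  refine neutral_of_eqv hD (hD.isForm.balg2_idem hc) hD.isForm.dd hD.isForm.adm (IsEqv.id _)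
    (IsEqv.id _) ?_
  simpa using (((h.comp_left hD.isForm.comm).add (h.dag.comp_right hD.isForm.comm)).sub
    (Htp.refl _ _ D.φ)).symm
theorem neutral_idem_zero (hD : D.Poinc) {P : 𝒜.Hom D.V D.V} (hc : P ⊚ D.d = D.d ⊚ P)
    (h : Htp D.d D.d P 0) : (D.neg.add (D.idem P).neg).Neutral := by
  refine neutral_of_eqv hD.neg (hD.isForm.balg2_idem hc) hD.isForm.dd hD.isForm.adm (IsEqv.id _)
    (IsEqv.id _) ?_
  simpa using (((h.comp_left hD.isForm.comm).add (h.dag.comp_right hD.isForm.comm)).sub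
    (Htp.refl _ _ D.φ)).symm

end Form
end Crest.Agent.R217
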