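import Crest.Agent.R217.BAlg3a

/-! # Row 217, part B, layer 0: cutting.
Equations are checked in the three quotients of a `Cover3` (`C.faithful` applied to the difference):
in the middle `ρ = 0`, on the right `sg = 1`, on the left `sg = -1`.

Recipes (`D = (V,d,ψ)`, `W = V + V`, `δ = D.bd.d`, `Φ = D.bd.φ`):
* `bdIso_contr`: the surgery complex is `Λ' + (W + Λ')`, coordinates `(λ,f,μ),(x,y),(λ*,f*,μ*)`.
  The coordinates `(μ*, y, λ*, f*)` form a subcomplex with quotient `(λ,f,μ,x)` and the connecting map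
  is `identity + (x ↦ ψ x in the y-slot)`, an isomorphism: permute and use `contr_cone_iff`/`IsEqv.of_iso`
  (or write the contraction `K⁻¹` explicitly: `H` = inverse of the connecting map; then `δH + Hδ = 1`).
* `bdIso_e_contr`: `diag (1, I ψ, -1) : (surg, -I • d_surg) → (Λ', e')` is an equivalence (`IsEqv.tri`).
* `contr_surg_change`: (1) the unitriangular isomorphism `(λ,x,μ) ↦ (λ,x,μ ± j†H x)` changes the form
  `Φ` to `Φ + Hδ + δ†H` and `T` to `T + j†Hj`; (2) for `r`: the complex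
  `blk3 (-e) 0 0 (j r) δ 0 (T r) (j†Φ) (-e†)` maps by `diag (r,1,1)` to `surg (j,T)` and by
  `diag (1,1,r†)` to `surg (j r, r†T r)`, both equivalences by `IsEqv.tri`.
* `cut_neutral`: `(Λ',e',j',T') = bdIso`, `r = rho e' k` with `FM r = 0`
  (`bdIso_e_contr`, `exists_rho_map_eq_zero`), `ρ†Φρ = Φ + Hδ + δ†H` with `H = (H₀ + H₀†)/2`,
  `H₀ = -h†Φρ - Φh`; Lagrangian `(Λ', e', j' r, r† (T' + j'†H j') sg r)`; `contr_of_cover3`.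
* `cut_add`: `h = f (h₁ ⊕ h₂) f†` with `f` the shuffle `(V₁+V₁)+(V₂+V₂) → (V₁+V₂)+(V₁+V₂)`;
  `cut_neg`: `h' = τ h τ`, `τ = diag (1,-1)`; both by `neutral_of_eqv` with `j₁ = 1`. -/

set_option autoImplicit false
open Complex

namespace Crest.Agent.R217
namespace Form
open DC

universe u v
variable {O : Type u} [Add O] {𝒜 ℬ : DC.{u, v} O} {D E : Form 𝒜} {sg : ∀ X : O, 𝒜.Hom X X}

theorem balg3_ext (C : Cover3 𝒜 sg) {X Y : O} {f g : 𝒜.Hom X Y} (hR : C.FR.map f = C.FR.map g)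
    (hL : C.FL.map f = C.FL.map g) (hM : C.FM.map f = C.FM.map g) : f = g :=
  sub_eq_zero.1 (C.faithful _ (by simp [hR]) (by simp [hL]) (by simp [hM]))

/-- `ψ` is `χ` on the right, `-χ` on the left and `0` in the middle -/
structure Balg3Cut (C : Cover3 𝒜 sg) {X Y : O} (ψ χ : 𝒜.Hom X Y) : Prop where
  R : C.FR.map ψ = C.FR.map χ
  L : C.FL.map ψ = -C.FL.map χ
  M : C.FM.map ψ = 0

section cut
variable {C : Cover3 𝒜 sg} {W X Y Z : O}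

theorem Balg3Cut.eq {ψ ψ' χ χ' : 𝒜.Hom X Y} (h : Balg3Cut C ψ χ) (h' : Balg3Cut C ψ' χ')
    (e : χ = χ') : ψ = ψ' :=
  balg3_ext C (by rw [h.R, h'.R, e]) (by rw [h.L, h'.L, e]) (by rw [h.M, h'.M])

theorem balg3Cut_sg (a : 𝒜.Hom Y Z) {r : 𝒜.Hom X Y} (hr : C.FM.map r = 0) :
    Balg3Cut C (a ⊚ sg Y ⊚ r) (a ⊚ r) :=
  ⟨by simp [C.sgR], by simp [C.sgL], by simp [hr]⟩

theorem Balg3Cut.dag {ψ χ : 𝒜.Hom X Y} (h : Balg3Cut C ψ χ) : Balg3Cut C ψ† χ† :=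
  ⟨by simp [h.R], by simp [h.L], by simp [h.M]⟩

theorem Balg3Cut.neg {ψ χ : 𝒜.Hom X Y} (h : Balg3Cut C ψ χ) : Balg3Cut C (-ψ) (-χ) :=
  ⟨by simp [h.R], by simp [h.L], by simp [h.M]⟩

theorem Balg3Cut.add {ψ χ ψ' χ' : 𝒜.Hom X Y} (h : Balg3Cut C ψ χ) (h' : Balg3Cut C ψ' χ') :
    Balg3Cut C (ψ + ψ') (χ + χ') :=
  ⟨by simp [h.R, h'.R], by simp [h.L, h'.L, add_comm], by simp [h.M, h'.M]⟩

theorem Balg3Cut.left {ψ χ : 𝒜.Hom X Y} (h : Balg3Cut C ψ χ) (a : 𝒜.Hom Y Z) :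
    Balg3Cut C (a ⊚ ψ) (a ⊚ χ) :=
  ⟨by simp [h.R], by simp [h.L], by simp [h.M]⟩

theorem Balg3Cut.right {ψ χ : 𝒜.Hom X Y} (h : Balg3Cut C ψ χ) (a : 𝒜.Hom W X) :
    Balg3Cut C (ψ ⊚ a) (χ ⊚ a) :=
  ⟨by simp [h.R], by simp [h.L], by simp [h.M]⟩

theorem Balg3Cut.diag {ψ χ : 𝒜.Hom X X} {ψ' χ' : 𝒜.Hom Y Y} (h : Balg3Cut C ψ χ)
    (h' : Balg3Cut C ψ' χ') : Balg3Cut C (blk ψ 0 0 ψ') (blk χ 0 0 χ') :=
  ⟨by simp [h.R, h'.R], by simp [h.L, h'.L], by simp [h.M, h'.M]⟩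

theorem balg3Cut_form (Φ : 𝒜.Hom X X) {r : 𝒜.Hom X X} (hr : C.FM.map r = 0) :
    Balg3Cut C (r† ⊚ Φ ⊚ sg X ⊚ r) (r† ⊚ Φ ⊚ r) := (balg3Cut_sg Φ hr).left _

theorem balg3_contr {a h : 𝒜.Hom X X} (hh : C.FM.map (rho a h) = 0) : Contr (C.FM.map a) :=
  contr_iff_rho.2 ⟨C.FM.map h, by rw [← map_rho, hh]⟩

end cut

/-- `ρ†Φρ = Φ + Hδ + δ†H` with `H` hermitian -/
theorem balg3_rho_form {B : Form 𝒜} (hB : B.IsForm) (h : 𝒜.Hom B.V B.V) :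
    ∃ H : 𝒜.Hom B.V B.V, H† = H ∧
      (rho B.d h)† ⊚ B.φ ⊚ rho B.d h = B.φ + H ⊚ B.d + B.d† ⊚ H := by
  have hc := rho_comm hB.dd h
  have h1 : (rho B.d h)† ⊚ B.φ ⊚ rho B.d h = B.φ + (-(h† ⊚ B.φ ⊚ rho B.d h) - B.φ ⊚ h) ⊚ B.d
      + B.d† ⊚ (-(h† ⊚ B.φ ⊚ rho B.d h) - B.φ ⊚ h) := by
    have e1 : (rho B.d h)† = 𝒜.id _ - h† ⊚ B.d† - B.d† ⊚ h† := by simp [rho]
    have e2 : B.φ ⊚ rho B.d h = B.φ - B.d† ⊚ B.φ ⊚ h - B.φ ⊚ h ⊚ B.d := by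
      simp [rho, reassoc hB.comm]
    have e3 : B.d† ⊚ B.φ ⊚ rho B.d h = B.φ ⊚ rho B.d h ⊚ B.d := by
      rw [hc, reassoc hB.comm, comp_assoc]
    rw [e1]
    simp only [sub_comp, id_comp, comp_assoc, neg_comp, comp_sub, comp_neg, e3]
    nth_rewrite 1 [e2]
    abel
  generalize -(h† ⊚ B.φ ⊚ rho B.d h) - B.φ ⊚ h = H at h1
  have h2 := dag_congr h1
  simp only [dag_comp, dag_dag, dag_add, hB.herm, comp_assoc] at h2
  refine ⟨(1 / 2 : ℂ) • (H + H†), by simp [add_comm, map_ofNat], ?_⟩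
  simp only [smul_comp, comp_smul, add_comp, comp_add]
  linear_combination (norm := module) (1 / 2 : ℂ) • h1 + (1 / 2 : ℂ) • h2

theorem balg3_isForm (C : Cover3 𝒜 sg) {B : Form 𝒜} (hB : B.IsForm) {h : 𝒜.Hom B.V B.V}
    (hh : C.FM.map (rho B.d h) = 0) :
    IsForm ⟨B.V, B.d, (rho B.d h)† ⊚ B.φ ⊚ sg B.V ⊚ rho B.d h⟩ := by
  have hc := rho_comm hB.dd h
  have hc' := dag_congr hc
  simp only [dag_comp] at hc'
  have k := balg3Cut_form B.φ hh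
  exact ⟨hB.dd, k.dag.eq k (by simp [hB.herm]),
    (k.right B.d).eq (k.left B.d†) (by simp [hc, reassoc hB.comm, reassoc hc']), hB.adm⟩

theorem balg3_poinc (C : Cover3 𝒜 sg) {B : Form 𝒜} (hB : B.Poinc) {h : 𝒜.Hom B.V B.V}
    (hh : C.FM.map (rho B.d h) = 0) :
    Poinc ⟨B.V, B.d, (rho B.d h)† ⊚ B.φ ⊚ sg B.V ⊚ rho B.d h⟩ := by
  have hF := balg3_isForm C hB.isForm hh
  have k := balg3Cut_form B.φ hh
  have hρ := isEqv_rho hB.isForm.dd h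
  have he : IsEqv B.d B.d† ((rho B.d h)† ⊚ B.φ ⊚ rho B.d h) := hρ.dag.comp (hB.eqv.comp hρ)
  refine ⟨hF, isEqv_of_cover3 C hB.isForm.dd (by simpa using dag_congr hB.isForm.dd) hF.comm
    ?_ ?_ ?_⟩
  · rw [k.R]; exact he.map _
  · rw [k.L]; exact (he.map _).neg
  · refine IsEqv.of_contr (balg3_contr hh) ?_ (by rw [k.M]; simp)
    rw [DFun.map_dag]
    exact (balg3_contr hh).dag

theorem balg3_neutral (C : Cover3 𝒜 sg) {B : Form 𝒜} (hB : B.IsForm) {h : 𝒜.Hom B.V B.V}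
    (hh : C.FM.map (rho B.d h) = 0) {L : B.Iso} (hL : L.IsIso) (hc : Contr (B.surg L).d)
    {k : 𝒜.Hom L.Λ L.Λ} (hk : C.FM.map (rho L.e k) = 0) :
    Neutral ⟨B.V, B.d, (rho B.d h)† ⊚ B.φ ⊚ sg B.V ⊚ rho B.d h⟩ := by
  obtain ⟨H, hH, hρ⟩ := balg3_rho_form hB h
  have hF := balg3_isForm C hB hh
  have k₁ := balg3Cut_form B.φ hh
  rw [hρ] at k₁
  have k₂ := balg3Cut_form (L.T + L.j† ⊚ H ⊚ L.j) hk
  have hr := isEqv_rho hL.ee k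
  have hch := contr_surg_change hB hL hc H hH _ hr
  have hM₁ := balg3_contr hh
  have hM₂ := balg3_contr hk
  generalize (rho B.d h)† ⊚ B.φ ⊚ sg B.V ⊚ rho B.d h = ψ at *
  generalize (rho L.e k)† ⊚ (L.T + L.j† ⊚ H ⊚ L.j) ⊚ sg L.Λ ⊚ rho L.e k = T at *
  generalize rho L.e k = r at *
  have hre : r ⊚ L.e = L.e ⊚ r := hr.1
  have hre' := dag_congr hre
  have hj' := dag_congr hL.chain
  simp only [dag_comp] at hre' hj'
  have hI : Iso.IsIso (D := ⟨B.V, B.d, ψ⟩) ⟨L.Λ, L.e, L.j ⊚ r, T⟩ := by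
    refine ⟨hL.ee, hL.adm, ?_, k₂.dag.eq k₂ (by simp [hL.herm, hH]),
      ((k₁.right (L.j ⊚ r)).left (L.j ⊚ r)†).eq ((k₂.right L.e).add (k₂.left L.e†)) ?_⟩
    · simp [hre, reassoc hL.chain]
    · have e : L.j† ⊚ B.φ ⊚ L.j ⊚ r = L.T ⊚ L.e ⊚ r + L.e† ⊚ L.T ⊚ r := by
        have := congrArg (· ⊚ r) hL.null
        simpa using this
      simp [e, hre, reassoc hre', reassoc hL.chain, reassoc hj']
      abel
  refine ⟨_, hI, contr_of_cover3 C (hF.surg hI).dd ?_ ?_ ?_⟩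
  · convert hch.map C.FR using 1
    simp [k₁.R, k₂.R]
  · convert (contr_surg_neg hch).map C.FL using 1
    simp [k₁.L, k₂.L]
  · have := contr_surg (hF.map C.FM) (hI.map C.FM) hM₁ hM₂
    convert this using 1
    simp

theorem balg3_rho_conj {X Y : O} {a : 𝒜.Hom X X} {b : 𝒜.Hom Y Y} {f : 𝒜.Hom X Y}
    (h₁ : f† ⊚ f = 𝒜.id X) (h₂ : f ⊚ f† = 𝒜.id Y) (hc : f ⊚ a = b ⊚ f) (h : 𝒜.Hom X X) :
    rho b (f ⊚ h ⊚ f†) = f ⊚ rho a h ⊚ f† := by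
  have e : f† ⊚ b = a ⊚ f† := by
    rw [← comp_id (f† ⊚ b), ← h₂, comp_assoc, ← comp_assoc b, ← hc, comp_assoc, reassoc h₁, id_comp]
  simp [rho, h₂, e, reassoc hc]

theorem balg3_transfer (C : Cover3 𝒜 sg) {A B : Form 𝒜} (hA : A.Poinc) (hB : B.IsForm)
    {f : 𝒜.Hom A.V B.V} (h₁ : f† ⊚ f = 𝒜.id _) (h₂ : f ⊚ f† = 𝒜.id _) (hc : f ⊚ A.d = B.d ⊚ f)
    {h : 𝒜.Hom A.V A.V} (hh : C.FM.map (rho A.d h) = 0)
    (hφ : Balg3Cut C A.φ ((rho A.d h)† ⊚ (f† ⊚ B.φ ⊚ f) ⊚ rho A.d h)) :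
    ∃ m : 𝒜.Hom B.V B.V, C.FM.map (rho B.d m) = 0 ∧
      (A.add (neg ⟨B.V, B.d, (rho B.d m)† ⊚ B.φ ⊚ sg B.V ⊚ rho B.d m⟩)).Neutral := by
  have e := balg3_rho_conj h₁ h₂ hc h
  have hm : C.FM.map (rho B.d (f ⊚ h ⊚ f†)) = 0 := by
    rw [e, DFun.map_comp, DFun.map_comp, hh, zero_comp, comp_zero]
  refine ⟨_, hm, neutral_of_eqv (E := ⟨B.V, B.d, _⟩) hA (balg3_isForm C hB hm) hA.isForm.dd
    hA.isForm.adm (IsEqv.id _) (IsEqv.of_iso hc h₁ h₂) (Htp.of_eq ?_)⟩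
  rw [dag_id, id_comp, comp_id]
  refine hφ.eq (((balg3Cut_form B.φ hm).right f).left f†) ?_
  rw [e]
  simp [h₁, reassoc h₁]

theorem cut_poinc (C : Cover3 𝒜 sg) (hD : D.IsForm) {h : 𝒜.Hom (D.V + D.V) (D.V + D.V)}
    (hh : C.FM.map (rho D.bd.d h) = 0) : (D.cut sg h).Poinc :=
  balg3_poinc C hD.bd_poinc hh

theorem cut_neutral (C : Cover3 𝒜 sg) (hD : D.IsForm) {h : 𝒜.Hom (D.V + D.V) (D.V + D.V)}
    (hh : C.FM.map (rho D.bd.d h) = 0) {L : D.Iso} (hL : L.IsIso)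
    (hP : (D.map C.FM).Poinc) (hc : Contr (C.FM.map (D.surg L).d)) : (D.cut sg h).Neutral := by
  have h1 : Contr ((D.map C.FM).surg (L.map C.FM)).d := by
    convert hc using 1
    simp
  have h2 : Contr (C.FM.map (D.bdIso L).e) := by
    convert bdIso_e_contr hP (hL.map C.FM) h1 using 1
    simp
  obtain ⟨k, hk⟩ := exists_rho_map_eq_zero C.FM C.fullM h2
  exact balg3_neutral C hD.bd hh (bdIso_isIso hD hL) (bdIso_contr hD hL) hk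

theorem cut_add (C : Cover3 𝒜 sg) (hD : D.IsForm) (hE : E.IsForm)
    {h : 𝒜.Hom (D.V + D.V) (D.V + D.V)} {k : 𝒜.Hom (E.V + E.V) (E.V + E.V)}
    (hh : C.FM.map (rho D.bd.d h) = 0) (hk : C.FM.map (rho E.bd.d k) = 0) :
    ∃ m : 𝒜.Hom ((D.add E).V + (D.add E).V) ((D.add E).V + (D.add E).V),
      C.FM.map (rho (D.add E).bd.d m) = 0 ∧
      (((D.cut sg h).add (E.cut sg k)).add ((D.add E).cut sg m).neg).Neutral := by
  have e : rho ((D.cut sg h).add (E.cut sg k)).d (blk h 0 0 k) =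
      blk (rho D.bd.d h) 0 0 (rho E.bd.d k) := by
    show rho (blk D.bd.d 0 0 E.bd.d) (blk h 0 0 k) = _
    generalize D.bd.d = a
    generalize E.bd.d = b
    unfold rho
    rw [id_sum]
    simp
  refine balg3_transfer C (B := (D.add E).bd) ((cut_poinc C hD hh).add (cut_poinc C hE hk))
    (hD.add hE).bd
    (f := lift (lift (desc (desc (𝒜.id _) 0) (desc 0 0)) (desc (desc 0 0) (desc (𝒜.id _) 0)))
      (lift (desc (desc 0 (𝒜.id _)) (desc 0 0)) (desc (desc 0 0) (desc 0 (𝒜.id _)))))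
    ?_ ?_ ?_ (h := blk h 0 0 k) ?_ ?_
  · simp [id_sum, desc_zero]
  · simp [id_sum, desc_zero]
  · simp [desc_zero]
  · rw [e, blk, DFun.map_lift, DFun.map_desc, DFun.map_desc, hh, hk]
    simp
  · rw [e]
    convert (balg3Cut_form D.bd.φ hh).diag (balg3Cut_form E.bd.φ hk) using 1
    generalize rho D.bd.d h = a
    generalize rho E.bd.d k = b
    have e' : ∀ (Φ : 𝒜.Hom (D.V + D.V + (E.V + E.V)) (D.V + D.V + (E.V + E.V))),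
        Φ = blk D.bd.φ 0 0 E.bd.φ → (blk a 0 0 b)† ⊚ Φ ⊚ blk a 0 0 b =
          blk (a† ⊚ D.bd.φ ⊚ a) 0 0 (b† ⊚ E.bd.φ ⊚ b) := by
      rintro _ rfl
      generalize D.bd.φ = x
      generalize E.bd.φ = y
      simp
    exact e' _ (by simp [desc_zero])

theorem cut_neg (C : Cover3 𝒜 sg) (hD : D.IsForm) {h : 𝒜.Hom (D.V + D.V) (D.V + D.V)}
    (hh : C.FM.map (rho D.bd.d h) = 0) :
    ∃ m : 𝒜.Hom (D.neg.V + D.neg.V) (D.neg.V + D.neg.V),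
      C.FM.map (rho D.neg.bd.d m) = 0 ∧ ((D.cut sg h).neg.add (D.neg.cut sg m).neg).Neutral := by
  refine balg3_transfer C (B := D.neg.bd) (cut_poinc C hD hh).neg hD.neg.bd
    (f := blk (𝒜.id _) 0 0 (-𝒜.id _)) ?_ ?_ ?_ hh ?_
  · simp [id_sum]
  · simp [id_sum]
  · simp
  · convert (balg3Cut_form D.bd.φ hh).neg using 1
    rw [← comp_neg, ← neg_comp]
    congr 2
    simp

/-- pulling the cut form back along chain maps supported on the right, resp. left -/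
theorem cut_pull (C : Cover3 𝒜 sg) (hD : D.IsForm) {h : 𝒜.Hom (D.V + D.V) (D.V + D.V)}
    (hh : C.FM.map (rho D.bd.d h) = 0) {A B : Form 𝒜}
    {α : 𝒜.Hom A.V (D.V + D.V)} {β : 𝒜.Hom B.V (D.V + D.V)}
    (hα : α ⊚ A.d = D.bd.d ⊚ α) (hβ : β ⊚ B.d = D.bd.d ⊚ β)
    (hαL : C.FL.map α = 0) (hβR : C.FR.map β = 0)
    (hαα : α† ⊚ D.bd.φ ⊚ α = A.φ) (hββ : β† ⊚ D.bd.φ ⊚ β = -B.φ) (hαβ : α† ⊚ D.bd.φ ⊚ β = 0) :
    Htp (A.add B).d (A.add B).d† ((desc α β)† ⊚ (D.cut sg h).φ ⊚ desc α β) (A.add B).φ := by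
  obtain ⟨H, -, hρ⟩ := balg3_rho_form hD.bd h
  have k := balg3Cut_form D.bd.φ hh
  have hΦ := hD.bd.herm
  have h1 : Htp D.bd.d D.bd.d† ((rho D.bd.d h)† ⊚ D.bd.φ ⊚ rho D.bd.d h) D.bd.φ :=
    ⟨H, by rw [hρ]; abel⟩
  show Htp (blk A.d 0 0 B.d) (blk A.d 0 0 B.d)†
    ((desc α β)† ⊚ ((rho D.bd.d h)† ⊚ D.bd.φ ⊚ sg _ ⊚ rho D.bd.d h) ⊚ desc α β) (blk A.φ 0 0 B.φ)
  generalize (rho D.bd.d h)† ⊚ D.bd.φ ⊚ sg _ ⊚ rho D.bd.d h = ψ at *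
  have hM : C.FM.map ((rho D.bd.d h)† ⊚ D.bd.φ ⊚ rho D.bd.d h) = 0 := by
    rw [DFun.map_comp, DFun.map_comp, hh, comp_zero, comp_zero]
  generalize (rho D.bd.d h)† ⊚ D.bd.φ ⊚ rho D.bd.d h = χ at *
  generalize D.bd.d = δ at *
  generalize D.bd.φ = Φ at *
  have hβα : β† ⊚ Φ ⊚ α = 0 := by simpa [hΦ] using dag_congr hαβ
  have e : ψ ⊚ desc α β = χ ⊚ desc α (-β) :=
    balg3_ext C (by simp [k.R, hβR]) (by simp [k.L, hαL]) (by simp [k.M, hM])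
  have hu : desc α β ⊚ blk A.d 0 0 B.d = δ ⊚ desc α β := by simp [hα, hβ]
  have hv : desc α (-β) ⊚ blk A.d 0 0 B.d = δ ⊚ desc α (-β) := by simp [hα, hβ]
  have hu' := dag_congr hu
  rw [dag_comp, dag_comp] at hu'
  rw [e]
  refine ((h1.comp_right hv).comp_left hu'.symm).trans (Htp.of_eq ?_)
  simp [hαα, hββ, hαβ, hβα]

end Form
end Crest.Agent.R217
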