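import Crest.Agent.R217.BAlg2

/-! # Row 217, part B, layer 0: cutting.
Equations are checked in the three quotients of a `Cover3` (`C.faithful` applied to the difference):
in the middle `ρ = 0`, on the right `sg = 1`, on the left `sg = -1`.

Recipes (`D = (V,d,ψ)`, `W = V + V`, `δ = D.bd.d`, `Φ = D.bd.φ`):
* `bdIso_contr`: the surgery complex is `Λ' + (W + Λ')`, coordinates `(λ,f,μ),(x,y),(λ*,f*,μ*)`.
  The coordinates `(μ*, y, λ*, f*)` form a subcomplex with quotient `(λ,f,μ,x)` and the connecting map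
  is `identity + (x ↦ ψ x in the y-slot)`, an isomorphism: permute and use `contr_cone_iff`/`IsEqv.of_iso`
  (or write the contraction `K⁻¹` explicitly: `H` = inverse of the connecting map; then `δH + Hδ = 1`).
* `bdIso_e_contr`: `diag (1, I ψ, -1) : (surg, -I • d_surg) → (Λ', e')` is an equivalence (`IsEqv.tri`).
* `contr_surg_change`: (1) the unitriangular isomorphism `(λ,x,μ) ↦ (λ,x,μ ± j†H x)` changes the form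
  `Φ` to `Φ + Hδ + δ†H` and `T` to `T + j†Hj`; (2) for `r`: the complex
  `blk3 (-e) 0 0 (j r) δ 0 (T r) (j†Φ) (-e†)` maps by `diag (r,1,1)` to `surg (j,T)` and by
  `diag (1,1,r†)` to `surg (j r, r†T r)`, both equivalences by `IsEqv.tri`.
* `cut_neutral`: `(Λ',e',j',T') = bdIso`, `r = rho e' k` with `FM r = 0`
  (`bdIso_e_contr`, `exists_rho_map_eq_zero`), `ρ†Φρ = Φ + Hδ + δ†H` with `H = (H₀ + H₀†)/2`,
  `H₀ = -h†Φρ - Φh`; Lagrangian `(Λ', e', j' r, r† (T' + j'†H j') sg r)`; `contr_of_cover3`.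
* `cut_add`: `h = f (h₁ ⊕ h₂) f†` with `f` the shuffle `(V₁+V₁)+(V₂+V₂) → (V₁+V₂)+(V₁+V₂)`;
  `cut_neg`: `h' = τ h τ`, `τ = diag (1,-1)`; both by `neutral_of_eqv` with `j₁ = 1`. -/

set_option autoImplicit false
open Complex

namespace Crest.Agent.R217
namespace Form
open DC

universe u v
variable {O : Type u} [Add O] {𝒜 ℬ : DC.{u, v} O} {D E : Form 𝒜} {sg : ∀ X : O, 𝒜.Hom X X}

/-- the Lagrangian of the boundary induced by isotropic data -/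
@[reducible] def bdIso (D : Form 𝒜) (L : D.Iso) : D.bd.Iso :=
  ⟨L.Λ + (D.V + L.Λ), blk3 (I • L.e) 0 0 (D.φ ⊚ L.j) (-I • D.d†) 0 (I • L.T) L.j† (I • L.e†),
    lift (desc L.j (desc 0 0)) (desc 0 (desc (𝒜.id D.V) 0)),
    blk3 0 0 (𝒜.id L.Λ) 0 0 0 (𝒜.id L.Λ) 0 0⟩

/-- five lemma for diagonal maps of `3 × 3` triangular complexes -/
theorem b3a_tri3 {X Y Z X' Y' Z' : O} {a₁ : 𝒜.Hom X X} {a₂ : 𝒜.Hom Y Y} {a₃ : 𝒜.Hom Z Z}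
    {x : 𝒜.Hom X Y} {y : 𝒜.Hom X Z} {z : 𝒜.Hom Y Z}
    {b₁ : 𝒜.Hom X' X'} {b₂ : 𝒜.Hom Y' Y'} {b₃ : 𝒜.Hom Z' Z'}
    {x' : 𝒜.Hom X' Y'} {y' : 𝒜.Hom X' Z'} {z' : 𝒜.Hom Y' Z'}
    {f₁ : 𝒜.Hom X X'} {f₂ : 𝒜.Hom Y Y'} {f₃ : 𝒜.Hom Z Z'}
    (ha : blk3 a₁ 0 0 x a₂ 0 y z a₃ ⊚ blk3 a₁ 0 0 x a₂ 0 y z a₃ = 0)
    (hb : blk3 b₁ 0 0 x' b₂ 0 y' z' b₃ ⊚ blk3 b₁ 0 0 x' b₂ 0 y' z' b₃ = 0)
    (hc : blk3 f₁ 0 0 0 f₂ 0 0 0 f₃ ⊚ blk3 a₁ 0 0 x a₂ 0 y z a₃ =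
      blk3 b₁ 0 0 x' b₂ 0 y' z' b₃ ⊚ blk3 f₁ 0 0 0 f₂ 0 0 0 f₃)
    (h₁ : IsEqv a₁ b₁ f₁) (h₂ : IsEqv a₂ b₂ f₂) (h₃ : IsEqv a₃ b₃ f₃) :
    IsEqv (blk3 a₁ 0 0 x a₂ 0 y z a₃) (blk3 b₁ 0 0 x' b₂ 0 y' z' b₃)
      (blk3 f₁ 0 0 0 f₂ 0 0 0 f₃) := by
  have ea : blk3 a₁ 0 0 x a₂ 0 y z a₃ = blk a₁ 0 (lift x y) (blk a₂ 0 z a₃) := by
    simp [desc_zero]
  have eb : blk3 b₁ 0 0 x' b₂ 0 y' z' b₃ = blk b₁ 0 (lift x' y') (blk b₂ 0 z' b₃) := by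
    simp [desc_zero]
  have ef : blk3 f₁ 0 0 0 f₂ 0 0 0 f₃ = blk f₁ 0 0 (blk f₂ 0 0 f₃) := by
    simp [desc_zero]
  have h₂₃ : IsEqv (blk a₂ 0 z a₃) (blk b₂ 0 z' b₃) (blk f₂ 0 0 f₃) := by
    refine IsEqv.tri ?_ ?_ ?_ h₂ h₃
    · simp at ha ⊢
      exact ⟨ha.2.1.2, ha.2.2.2⟩
    · simp at hb ⊢
      exact ⟨hb.2.1.2, hb.2.2.2⟩
    · simp at hc ⊢
      exact ⟨hc.2.1.2, hc.2.2.2⟩
  rw [ea] at ha
  rw [eb] at hb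
  rw [ea, eb, ef] at hc ⊢
  exact IsEqv.tri ha hb hc h₁ h₂₃

theorem bdIso_isIso (hD : D.IsForm) {L : D.Iso} (hL : L.IsIso) : (D.bdIso L).IsIso := by
  have hd' : D.d† ⊚ D.d† = 0 := by simpa using dag_congr hD.dd
  have he' : L.e† ⊚ L.e† = 0 := by simpa using dag_congr hL.ee
  have hj' : L.e† ⊚ L.j† = L.j† ⊚ D.d† := by simpa using dag_congr hL.chain
  refine ⟨?_, adm_blk3 _ _ _ (adm_smul _ hL.adm) (adm_smul _ (adm_dag hD.adm))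
    (adm_smul _ (adm_dag hL.adm)), ?_, ?_, ?_⟩
  · simp [hd', he', hj', hL.ee, hL.chain, hL.null, reassoc hD.comm, smul_smul]
  · simp [hL.chain]
  · simp
  · simp [hL.herm]
theorem bdIso_contr (hD : D.IsForm) {L : D.Iso} (hL : L.IsIso) :
    Contr (D.bd.surg (D.bdIso L)).d := by
  refine ⟨blk3 0 (lift 0 (lift (desc 0 (𝒜.id D.V)) 0))
    (blk3 0 0 (𝒜.id L.Λ) 0 (-D.φ) 0 (𝒜.id L.Λ) 0 0)
    0 0 (lift (desc 0 (desc (𝒜.id D.V) 0)) 0) 0 0 0, ?_⟩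
  simp only [id_sum]
  simp [hD.herm, hL.herm, hD.comm, desc_zero, lift_zero]
theorem bdIso_e_contr (hD : D.Poinc) {L : D.Iso} (hL : L.IsIso) (h : Contr (D.surg L).d) :
    Contr (D.bdIso L).e := by
  have hI : (-I : ℂ) ≠ 0 := neg_ne_zero.2 I_ne_zero
  have h1 : (-I) • (D.surg L).d = blk3 (I • L.e) 0 0 (-I • L.j) (-I • D.d) 0 (-I • L.T)
      (-I • L.j† ⊚ D.φ) (I • L.e†) := by simp
  have h2 := h.smul hI
  have h3 : ((-I) • (D.surg L).d) ⊚ ((-I) • (D.surg L).d) = 0 := by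
    rw [smul_comp, comp_smul, (hD.isForm.surg hL).dd, smul_zero, smul_zero]
  rw [h1] at h2 h3
  refine (b3a_tri3 (f₁ := 𝒜.id L.Λ) (f₂ := I • D.φ) (f₃ := -𝒜.id L.Λ) h3
    (bdIso_isIso hD.isForm hL).ee ?_ (IsEqv.id _) ((hD.eqv.scale hI).smul I_ne_zero)
    (IsEqv.id _).neg).contr_right h2
  simp [smul_smul, hD.isForm.comm]

theorem b3a_contr_surg_r (hD : D.IsForm) {L : D.Iso} (hL : L.IsIso) (h : Contr (D.surg L).d)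
    (r : 𝒜.Hom L.Λ L.Λ) (hr : IsEqv L.e L.e r) :
    Contr (D.surg ⟨L.Λ, L.e, L.j ⊚ r, r† ⊚ L.T ⊚ r⟩).d := by
  have he' : L.e† ⊚ L.e† = 0 := by simpa using dag_congr hL.ee
  have hj' : L.e† ⊚ L.j† = L.j† ⊚ D.d† := by simpa using dag_congr hL.chain
  have hr' : L.e† ⊚ r† = r† ⊚ L.e† := by simpa using dag_congr hr.1
  have hn : L.j† ⊚ D.φ ⊚ L.j ⊚ r = L.T ⊚ L.e ⊚ r + L.e† ⊚ L.T ⊚ r := by
    have := congrArg (fun k => k ⊚ r) hL.null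
    simpa using this
  have hrn : IsEqv (-L.e) (-L.e) r := by simpa using hr.scale (z := -1) (by norm_num)
  have hrn' : IsEqv (-L.e†) (-L.e†) r† := by simpa using hr.dag.scale (z := -1) (by norm_num)
  have s2 : blk3 (-L.e) 0 0 (L.j ⊚ r) D.d 0 (L.T ⊚ r) (L.j† ⊚ D.φ) (-L.e†) ⊚
      blk3 (-L.e) 0 0 (L.j ⊚ r) D.d 0 (L.T ⊚ r) (L.j† ⊚ D.φ) (-L.e†) = 0 := by
    simp [hL.ee, hD.dd, he', hr.1, reassoc hL.chain, hn, reassoc hj', hD.comm]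
  have s3 : (D.surg ⟨L.Λ, L.e, L.j ⊚ r, r† ⊚ L.T ⊚ r⟩).d ⊚
      (D.surg ⟨L.Λ, L.e, L.j ⊚ r, r† ⊚ L.T ⊚ r⟩).d = 0 := by
    simp [hL.ee, hD.dd, he', hr.1, reassoc hL.chain, hn, reassoc hj', hD.comm, reassoc hr']
  have c2 := (b3a_tri3 s2 (hD.surg hL).dd (by simp [hr.1]) hrn (IsEqv.id _)
    (IsEqv.id _)).contr_left h
  exact (b3a_tri3 s2 s3 (by simp [hr']) (IsEqv.id _) (IsEqv.id _) hrn').contr_right c2

theorem contr_surg_change (hD : D.IsForm) {L : D.Iso} (hL : L.IsIso) (h : Contr (D.surg L).d)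
    (H : 𝒜.Hom D.V D.V) (hH : H† = H) (r : 𝒜.Hom L.Λ L.Λ) (hr : IsEqv L.e L.e r) :
    Contr (surg ⟨D.V, D.d, D.φ + H ⊚ D.d + D.d† ⊚ H⟩
      ⟨L.Λ, L.e, L.j ⊚ r, r† ⊚ (L.T + L.j† ⊚ H ⊚ L.j) ⊚ r⟩).d := by
  have hd' : D.d† ⊚ D.d† = 0 := by simpa using dag_congr hD.dd
  have hj' : L.e† ⊚ L.j† = L.j† ⊚ D.d† := by simpa using dag_congr hL.chain
  have hD' : IsForm (⟨D.V, D.d, D.φ + H ⊚ D.d + D.d† ⊚ H⟩ : Form 𝒜) := by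
    refine ⟨hD.dd, ?_, ?_, hD.adm⟩
    · simp only [dag_add, dag_comp, dag_dag, hH, hD.herm]
      abel
    · simp [hD.dd, reassoc hd', hD.comm]
  have hL' : Iso.IsIso (D := ⟨D.V, D.d, D.φ + H ⊚ D.d + D.d† ⊚ H⟩)
      ⟨L.Λ, L.e, L.j, L.T + L.j† ⊚ H ⊚ L.j⟩ := by
    refine ⟨hL.ee, hL.adm, hL.chain, ?_, ?_⟩
    · simp [hH, hL.herm]
    · simp only [comp_add, add_comp, comp_assoc, hL.null, hL.chain, reassoc hj']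
      abel
  refine b3a_contr_surg_r hD' hL' ?_ r hr
  refine (IsEqv.of_iso
    (f := blk3 (𝒜.id L.Λ) 0 0 0 (𝒜.id D.V) 0 0 (L.j† ⊚ H) (𝒜.id L.Λ))
    (k := blk3 (𝒜.id L.Λ) 0 0 0 (𝒜.id D.V) 0 0 (-(L.j† ⊚ H)) (𝒜.id L.Λ)) ?_ ?_ ?_).contr_right h
  · simp [reassoc hj', add_comm]
  · simp only [id_sum]
    simp [desc_zero]
  · simp only [id_sum]
    simp [desc_zero]
theorem contr_surg_neg {L : D.Iso} (h : Contr (D.surg L).d) :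
    Contr (D.neg.surg ⟨L.Λ, L.e, L.j, -L.T⟩).d := by
  refine (IsEqv.of_iso
    (f := blk3 (𝒜.id L.Λ) 0 0 0 (𝒜.id D.V) 0 0 0 (-𝒜.id L.Λ))
    (k := blk3 (𝒜.id L.Λ) 0 0 0 (𝒜.id D.V) 0 0 0 (-𝒜.id L.Λ)) ?_ ?_ ?_).contr_right h
  · simp
  · simp only [id_sum]
    simp [desc_zero]
  · simp only [id_sum]
    simp [desc_zero]

end Form
end Crest.Agent.R217
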