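import Mathlib

/-! # Row 217, part B, layer 0: dagger `ℂ`-linear additive "categories" on a fixed object type.

`DC O` is a `ℂ`-linear category with objects `O`, a conjugate-linear involution `†`, chosen
orthogonal direct sums `X + Y`, and a class `adm` of "admissible" endomorphisms (differentials that
have enough subcomplexes).  Composition is written `g ⊚ f` (first `f`, then `g`), like matrices.
Block matrices are `lift (desc a b) (desc c d)`; `simp` multiplies them out (see the examples at the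
end).  Use `DC.reassoc h` to turn `h : a ⊚ b = c` into `∀ f, a ⊚ (b ⊚ f) = c ⊚ f`. -/

set_option autoImplicit false

namespace Crest.Agent.R217

universe u v

structure DC (O : Type u) [Add O] : Type (max u (v + 1)) where
  Hom : O → O → Type v
  acg : ∀ X Y, AddCommGroup (Hom X Y)
  mod : ∀ X Y, @Module ℂ (Hom X Y) _ (acg X Y).toAddCommMonoid
  comp : ∀ {X Y Z : O}, Hom Y Z → Hom X Y → Hom X Z
  id : ∀ X, Hom X X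
  dag : ∀ {X Y : O}, Hom X Y → Hom Y X
  inl : ∀ X Y, Hom X (X + Y)
  inr : ∀ X Y, Hom Y (X + Y)
  adm : ∀ {X : O}, Hom X X → Prop
  comp_assoc' : ∀ {W X Y Z : O} (h : Hom Y Z) (g : Hom X Y) (f : Hom W X),
    comp (comp h g) f = comp h (comp g f)
  id_comp' : ∀ {X Y : O} (f : Hom X Y), comp (id Y) f = f
  comp_id' : ∀ {X Y : O} (f : Hom X Y), comp f (id X) = f
  comp_add' : ∀ {X Y Z : O} (g : Hom Y Z) (f f' : Hom X Y),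
    comp g (f + f') = comp g f + comp g f'
  comp_smul' : ∀ {X Y Z : O} (c : ℂ) (g : Hom Y Z) (f : Hom X Y), comp g (c • f) = c • comp g f
  dag_dag' : ∀ {X Y : O} (f : Hom X Y), dag (dag f) = f
  dag_comp' : ∀ {X Y Z : O} (g : Hom Y Z) (f : Hom X Y), dag (comp g f) = comp (dag f) (dag g)
  dag_add' : ∀ {X Y : O} (f f' : Hom X Y), dag (f + f') = dag f + dag f'
  dag_smul' : ∀ {X Y : O} (c : ℂ) (f : Hom X Y), dag (c • f) = (starRingEnd ℂ c) • dag f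
  inl_inl' : ∀ X Y, comp (dag (inl X Y)) (inl X Y) = id X
  inr_inr' : ∀ X Y, comp (dag (inr X Y)) (inr X Y) = id Y
  inl_inr' : ∀ X Y, comp (dag (inl X Y)) (inr X Y) = 0
  total' : ∀ X Y, comp (inl X Y) (dag (inl X Y)) + comp (inr X Y) (dag (inr X Y)) = id (X + Y)
  adm_smul' : ∀ {X : O} (c : ℂ) (d : Hom X X), adm d → adm (c • d)
  adm_dag' : ∀ {X : O} (d : Hom X X), adm d → adm (dag d)
  adm_tri' : ∀ {X Y : O} (d₁ : Hom X X) (d₂ : Hom Y Y) (f : Hom X Y), adm d₁ → adm d₂ →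
    adm (comp (inl X Y) (comp d₁ (dag (inl X Y))) + comp (inr X Y) (comp f (dag (inl X Y))) +
      comp (inr X Y) (comp d₂ (dag (inr X Y))))

namespace DC

variable {O : Type u} [Add O] {𝒜 : DC.{u, v} O}

instance (X Y : O) : AddCommGroup (𝒜.Hom X Y) := 𝒜.acg X Y
instance (X Y : O) : Module ℂ (𝒜.Hom X Y) := 𝒜.mod X Y

scoped infixr:80 " ⊚ " => DC.comp _
scoped postfix:max "†" => DC.dag _

section basic
variable {W X Y Z : O}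

@[simp] theorem comp_assoc (h : 𝒜.Hom Y Z) (g : 𝒜.Hom X Y) (f : 𝒜.Hom W X) :
    (h ⊚ g) ⊚ f = h ⊚ g ⊚ f := 𝒜.comp_assoc' h g f
@[simp] theorem id_comp (f : 𝒜.Hom X Y) : 𝒜.id Y ⊚ f = f := 𝒜.id_comp' f
@[simp] theorem comp_id (f : 𝒜.Hom X Y) : f ⊚ 𝒜.id X = f := 𝒜.comp_id' f
@[simp] theorem comp_add (g : 𝒜.Hom Y Z) (f f' : 𝒜.Hom X Y) : g ⊚ (f + f') = g ⊚ f + g ⊚ f' :=
  𝒜.comp_add' g f f'
@[simp] theorem comp_smul (c : ℂ) (g : 𝒜.Hom Y Z) (f : 𝒜.Hom X Y) : g ⊚ (c • f) = c • (g ⊚ f) :=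
  𝒜.comp_smul' c g f
@[simp] theorem dag_dag (f : 𝒜.Hom X Y) : f†† = f := 𝒜.dag_dag' f
@[simp] theorem dag_comp (g : 𝒜.Hom Y Z) (f : 𝒜.Hom X Y) : (g ⊚ f)† = f† ⊚ g† := 𝒜.dag_comp' g f
@[simp] theorem dag_add (f f' : 𝒜.Hom X Y) : (f + f')† = f† + f'† := 𝒜.dag_add' f f'
@[simp] theorem dag_smul (c : ℂ) (f : 𝒜.Hom X Y) : (c • f)† = (starRingEnd ℂ c) • f† :=
  𝒜.dag_smul' c f

theorem dag_inj {f g : 𝒜.Hom X Y} (h : f† = g†) : f = g := by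
  rw [← dag_dag f, h, dag_dag]

@[simp] theorem add_comp (g g' : 𝒜.Hom Y Z) (f : 𝒜.Hom X Y) : (g + g') ⊚ f = g ⊚ f + g' ⊚ f := by
  apply dag_inj; simp
@[simp] theorem smul_comp (c : ℂ) (g : 𝒜.Hom Y Z) (f : 𝒜.Hom X Y) : (c • g) ⊚ f = c • (g ⊚ f) := by
  apply dag_inj; simp
@[simp] theorem dag_zero : (0 : 𝒜.Hom X Y)† = 0 := by
  have h := dag_smul (𝒜 := 𝒜) 0 (0 : 𝒜.Hom X Y)
  simpa using h
@[simp] theorem comp_zero (g : 𝒜.Hom Y Z) : g ⊚ (0 : 𝒜.Hom X Y) = 0 := by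
  have h := comp_smul (𝒜 := 𝒜) 0 g (0 : 𝒜.Hom X Y)
  simpa using h
@[simp] theorem zero_comp (f : 𝒜.Hom X Y) : (0 : 𝒜.Hom Y Z) ⊚ f = 0 := by
  apply dag_inj; simp
@[simp] theorem dag_neg (f : 𝒜.Hom X Y) : (-f)† = -f† := by
  have h := dag_smul (𝒜 := 𝒜) (-1) f
  simpa using h
@[simp] theorem comp_neg (g : 𝒜.Hom Y Z) (f : 𝒜.Hom X Y) : g ⊚ (-f) = -(g ⊚ f) := by
  have h := comp_smul (𝒜 := 𝒜) (-1) g f
  simpa using h
@[simp] theorem neg_comp (g : 𝒜.Hom Y Z) (f : 𝒜.Hom X Y) : (-g) ⊚ f = -(g ⊚ f) := by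
  apply dag_inj; simp
@[simp] theorem dag_sub (f f' : 𝒜.Hom X Y) : (f - f')† = f† - f'† := by
  simp [sub_eq_add_neg]
@[simp] theorem comp_sub (g : 𝒜.Hom Y Z) (f f' : 𝒜.Hom X Y) : g ⊚ (f - f') = g ⊚ f - g ⊚ f' := by
  simp [sub_eq_add_neg]
@[simp] theorem sub_comp (g g' : 𝒜.Hom Y Z) (f : 𝒜.Hom X Y) : (g - g') ⊚ f = g ⊚ f - g' ⊚ f := by
  simp [sub_eq_add_neg]
@[simp] theorem dag_id : (𝒜.id X)† = 𝒜.id X := by
  have h := dag_comp (𝒜 := 𝒜) (𝒜.id X)† (𝒜.id X)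
  simpa using h.symm
@[simp] theorem dag_eq_zero {f : 𝒜.Hom X Y} : f† = 0 ↔ f = 0 :=
  ⟨fun h => dag_inj (by simpa using h), fun h => by simp [h]⟩

theorem reassoc {a : 𝒜.Hom Y Z} {b : 𝒜.Hom X Y} {c : 𝒜.Hom X Z} (h : a ⊚ b = c) :
    ∀ {W : O} (f : 𝒜.Hom W X), a ⊚ b ⊚ f = c ⊚ f := by
  intro W f; rw [← comp_assoc, h]

/-- the dagger of an equation -/
theorem dag_congr {f g : 𝒜.Hom X Y} (h : f = g) : f† = g† := by rw [h]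

end basic

section blocks
variable {W X Y Z X' Y' : O}

/-- column `(a ; b) : Z → X + Y` -/
def lift (a : 𝒜.Hom Z X) (b : 𝒜.Hom Z Y) : 𝒜.Hom Z (X + Y) := 𝒜.inl X Y ⊚ a + 𝒜.inr X Y ⊚ b
/-- row `(a  b) : X + Y → Z` -/
def desc (a : 𝒜.Hom X Z) (b : 𝒜.Hom Y Z) : 𝒜.Hom (X + Y) Z :=
  a ⊚ (𝒜.inl X Y)† + b ⊚ (𝒜.inr X Y)†

theorem inl_inl : (𝒜.inl X Y)† ⊚ 𝒜.inl X Y = 𝒜.id X := 𝒜.inl_inl' X Y
theorem inr_inr : (𝒜.inr X Y)† ⊚ 𝒜.inr X Y = 𝒜.id Y := 𝒜.inr_inr' X Y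
theorem inl_inr : (𝒜.inl X Y)† ⊚ 𝒜.inr X Y = 0 := 𝒜.inl_inr' X Y
theorem inr_inl : (𝒜.inr X Y)† ⊚ 𝒜.inl X Y = 0 := by
  apply dag_inj; simpa using (inl_inr (𝒜 := 𝒜) (X := X) (Y := Y))

@[simp] theorem dag_lift (a : 𝒜.Hom Z X) (b : 𝒜.Hom Z Y) : (lift a b)† = desc a† b† := by
  simp [lift, desc]
@[simp] theorem dag_desc (a : 𝒜.Hom X Z) (b : 𝒜.Hom Y Z) : (desc a b)† = lift a† b† := by
  simp [lift, desc]
@[simp] theorem lift_comp (a : 𝒜.Hom Z X) (b : 𝒜.Hom Z Y) (f : 𝒜.Hom W Z) :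
    lift a b ⊚ f = lift (a ⊚ f) (b ⊚ f) := by simp [lift]
@[simp] theorem comp_desc (f : 𝒜.Hom Z W) (a : 𝒜.Hom X Z) (b : 𝒜.Hom Y Z) :
    f ⊚ desc a b = desc (f ⊚ a) (f ⊚ b) := by simp [desc]
@[simp] theorem desc_comp_lift (a : 𝒜.Hom X Z) (b : 𝒜.Hom Y Z) (c : 𝒜.Hom W X) (d : 𝒜.Hom W Y) :
    desc a b ⊚ lift c d = a ⊚ c + b ⊚ d := by
  simp [desc, lift, reassoc inl_inl, reassoc inr_inr, reassoc inl_inr, reassoc inr_inl]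
theorem fst_lift (a : 𝒜.Hom Z X) (b : 𝒜.Hom Z Y) : (𝒜.inl X Y)† ⊚ lift a b = a := by
  simp [lift, reassoc inl_inl, reassoc inl_inr]
theorem snd_lift (a : 𝒜.Hom Z X) (b : 𝒜.Hom Z Y) : (𝒜.inr X Y)† ⊚ lift a b = b := by
  simp [lift, reassoc inr_inr, reassoc inr_inl]
@[simp] theorem lift_inj {a a' : 𝒜.Hom Z X} {b b' : 𝒜.Hom Z Y} :
    lift a b = lift a' b' ↔ a = a' ∧ b = b' := by
  refine ⟨fun h => ⟨?_, ?_⟩, fun h => by rw [h.1, h.2]⟩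
  · rw [← fst_lift a b, h, fst_lift]
  · rw [← snd_lift a b, h, snd_lift]
@[simp] theorem desc_inj {a a' : 𝒜.Hom X Z} {b b' : 𝒜.Hom Y Z} :
    desc a b = desc a' b' ↔ a = a' ∧ b = b' := by
  refine ⟨fun h => ?_, fun h => by rw [h.1, h.2]⟩
  have h' := dag_congr h
  simp only [dag_desc, lift_inj] at h'
  exact ⟨dag_inj h'.1, dag_inj h'.2⟩
/-- normal form: `lift` outside, `desc` inside -/
@[simp] theorem desc_lift (a : 𝒜.Hom X X') (b : 𝒜.Hom Y X') (c : 𝒜.Hom X Y') (d : 𝒜.Hom Y Y') :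
    desc (lift a c) (lift b d) = lift (desc a b) (desc c d) := by
  simp only [desc, lift, add_comp, comp_add, comp_assoc]; abel
@[simp] theorem lift_add (a a' : 𝒜.Hom Z X) (b b' : 𝒜.Hom Z Y) :
    lift a b + lift a' b' = lift (a + a') (b + b') := by
  simp only [lift, comp_add]; abel
@[simp] theorem desc_add (a a' : 𝒜.Hom X Z) (b b' : 𝒜.Hom Y Z) :
    desc a b + desc a' b' = desc (a + a') (b + b') := by
  simp only [desc, add_comp]; abel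
@[simp] theorem lift_smul (c : ℂ) (a : 𝒜.Hom Z X) (b : 𝒜.Hom Z Y) :
    c • lift a b = lift (c • a) (c • b) := by simp [lift]
@[simp] theorem desc_smul (c : ℂ) (a : 𝒜.Hom X Z) (b : 𝒜.Hom Y Z) :
    c • desc a b = desc (c • a) (c • b) := by simp [desc]
@[simp] theorem lift_neg (a : 𝒜.Hom Z X) (b : 𝒜.Hom Z Y) : -lift a b = lift (-a) (-b) := by
  simp only [lift, comp_neg]; abel
@[simp] theorem desc_neg (a : 𝒜.Hom X Z) (b : 𝒜.Hom Y Z) : -desc a b = desc (-a) (-b) := by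
  simp only [desc, neg_comp]; abel
@[simp] theorem lift_sub (a a' : 𝒜.Hom Z X) (b b' : 𝒜.Hom Z Y) :
    lift a b - lift a' b' = lift (a - a') (b - b') := by simp [sub_eq_add_neg]
@[simp] theorem desc_sub (a a' : 𝒜.Hom X Z) (b b' : 𝒜.Hom Y Z) :
    desc a b - desc a' b' = desc (a - a') (b - b') := by simp [sub_eq_add_neg]
theorem lift_zero : lift (0 : 𝒜.Hom Z X) (0 : 𝒜.Hom Z Y) = 0 := by simp [lift]
theorem desc_zero : desc (0 : 𝒜.Hom X Z) (0 : 𝒜.Hom Y Z) = 0 := by simp [desc]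
@[simp] theorem lift_eq_zero {a : 𝒜.Hom Z X} {b : 𝒜.Hom Z Y} : lift a b = 0 ↔ a = 0 ∧ b = 0 := by
  rw [← lift_zero, lift_inj]
@[simp] theorem desc_eq_zero {a : 𝒜.Hom X Z} {b : 𝒜.Hom Y Z} : desc a b = 0 ↔ a = 0 ∧ b = 0 := by
  rw [← desc_zero, desc_inj]
@[simp] theorem zero_eq_lift {a : 𝒜.Hom Z X} {b : 𝒜.Hom Z Y} : 0 = lift a b ↔ a = 0 ∧ b = 0 := by
  rw [eq_comm, lift_eq_zero]
@[simp] theorem zero_eq_desc {a : 𝒜.Hom X Z} {b : 𝒜.Hom Y Z} : 0 = desc a b ↔ a = 0 ∧ b = 0 := by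
  rw [eq_comm, desc_eq_zero]
@[simp] theorem desc_lift_zero (a : 𝒜.Hom X X') (c : 𝒜.Hom X Y') :
    desc (lift a c) (0 : 𝒜.Hom Y (X' + Y')) = lift (desc a 0) (desc c 0) := by
  rw [← lift_zero, desc_lift]
@[simp] theorem desc_zero_lift (b : 𝒜.Hom Y X') (d : 𝒜.Hom Y Y') :
    desc (0 : 𝒜.Hom X (X' + Y')) (lift b d) = lift (desc 0 b) (desc 0 d) := by
  rw [← lift_zero, desc_lift]
/-- the identity of a sum as a block matrix; rewrite with it before `simp` (not a simp lemma) -/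
theorem id_sum : 𝒜.id (X + Y) = lift (desc (𝒜.id X) 0) (desc 0 (𝒜.id Y)) := by
  rw [← 𝒜.total' X Y]; simp [lift, desc]
theorem eq_lift (f : 𝒜.Hom Z (X + Y)) : f = lift ((𝒜.inl X Y)† ⊚ f) ((𝒜.inr X Y)† ⊚ f) := by
  conv_lhs => rw [← id_comp f, ← 𝒜.total' X Y]
  simp [lift]
theorem eq_desc (f : 𝒜.Hom (X + Y) Z) : f = desc (f ⊚ 𝒜.inl X Y) (f ⊚ 𝒜.inr X Y) := by
  conv_lhs => rw [← comp_id f, ← 𝒜.total' X Y]
  simp [desc]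
theorem exists_lift (f : 𝒜.Hom Z (X + Y)) : ∃ a b, f = lift a b := ⟨_, _, eq_lift f⟩
theorem exists_desc (f : 𝒜.Hom (X + Y) Z) : ∃ a b, f = desc a b := ⟨_, _, eq_desc f⟩
theorem inl_eq : 𝒜.inl X Y = lift (𝒜.id X) 0 := by simp [lift]
theorem inr_eq : 𝒜.inr X Y = lift 0 (𝒜.id Y) := by simp [lift]

/-- `2 × 2` block matrix `[[a, b], [c, d]]` -/
@[simp] def blk (a : 𝒜.Hom X X') (b : 𝒜.Hom Y X') (c : 𝒜.Hom X Y') (d : 𝒜.Hom Y Y') :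
    𝒜.Hom (X + Y) (X' + Y') := lift (desc a b) (desc c d)

/-- `3 × 3` block matrix on `X + (Y + Z)` -/
@[simp] def blk3 {X Y Z X' Y' Z' : O}
    (a₁₁ : 𝒜.Hom X X') (a₁₂ : 𝒜.Hom Y X') (a₁₃ : 𝒜.Hom Z X')
    (a₂₁ : 𝒜.Hom X Y') (a₂₂ : 𝒜.Hom Y Y') (a₂₃ : 𝒜.Hom Z Y')
    (a₃₁ : 𝒜.Hom X Z') (a₃₂ : 𝒜.Hom Y Z') (a₃₃ : 𝒜.Hom Z Z') :
    𝒜.Hom (X + (Y + Z)) (X' + (Y' + Z')) :=
  lift (desc a₁₁ (desc a₁₂ a₁₃)) (lift (desc a₂₁ (desc a₂₂ a₂₃)) (desc a₃₁ (desc a₃₂ a₃₃)))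

theorem adm_smul (c : ℂ) {d : 𝒜.Hom X X} (h : 𝒜.adm d) : 𝒜.adm (c • d) := 𝒜.adm_smul' c d h
theorem adm_neg {d : 𝒜.Hom X X} (h : 𝒜.adm d) : 𝒜.adm (-d) := by
  simpa using adm_smul (-1) h
theorem adm_dag {d : 𝒜.Hom X X} (h : 𝒜.adm d) : 𝒜.adm d† := 𝒜.adm_dag' d h
theorem adm_blk {d₁ : 𝒜.Hom X X} {d₂ : 𝒜.Hom Y Y} (f : 𝒜.Hom X Y) (h₁ : 𝒜.adm d₁)
    (h₂ : 𝒜.adm d₂) : 𝒜.adm (blk d₁ 0 f d₂) := by
  have h := 𝒜.adm_tri' d₁ d₂ f h₁ h₂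
  convert h using 1
  simp [blk, lift, desc, add_assoc]
theorem adm_blk' {d₁ : 𝒜.Hom X X} {d₂ : 𝒜.Hom Y Y} (f : 𝒜.Hom Y X) (h₁ : 𝒜.adm d₁)
    (h₂ : 𝒜.adm d₂) : 𝒜.adm (blk d₁ f 0 d₂) := by
  have h := adm_dag (adm_blk f† (adm_dag h₁) (adm_dag h₂))
  simpa using h
theorem adm_blk3 {d₁ : 𝒜.Hom X X} {d₂ : 𝒜.Hom Y Y} {d₃ : 𝒜.Hom Z Z} (a : 𝒜.Hom X Y)
    (b : 𝒜.Hom X Z) (c : 𝒜.Hom Y Z) (h₁ : 𝒜.adm d₁) (h₂ : 𝒜.adm d₂) (h₃ : 𝒜.adm d₃) :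
    𝒜.adm (blk3 d₁ 0 0 a d₂ 0 b c d₃) := by
  have h := adm_blk (lift a b) h₁ (adm_blk c h₂ h₃)
  convert h using 1
  simp [desc_zero]

end blocks

end DC

/-- Identity-on-objects `†`-functors. -/
structure DFun {O : Type u} [Add O] (𝒜 : DC.{u, v} O) (ℬ : DC.{u, v} O) : Type (max u v) where
  map : ∀ {X Y : O}, 𝒜.Hom X Y → ℬ.Hom X Y
  map_add' : ∀ {X Y : O} (f g : 𝒜.Hom X Y), map (f + g) = map f + map g
  map_smul' : ∀ {X Y : O} (c : ℂ) (f : 𝒜.Hom X Y), map (c • f) = c • map f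
  map_comp' : ∀ {X Y Z : O} (g : 𝒜.Hom Y Z) (f : 𝒜.Hom X Y),
    map (𝒜.comp g f) = ℬ.comp (map g) (map f)
  map_id' : ∀ X : O, map (𝒜.id X) = ℬ.id X
  map_dag' : ∀ {X Y : O} (f : 𝒜.Hom X Y), map (𝒜.dag f) = ℬ.dag (map f)
  map_inl' : ∀ X Y : O, map (𝒜.inl X Y) = ℬ.inl X Y
  map_inr' : ∀ X Y : O, map (𝒜.inr X Y) = ℬ.inr X Y
  map_adm' : ∀ {X : O} (d : 𝒜.Hom X X), 𝒜.adm d → ℬ.adm (map d)

namespace DFun
open DC

variable {O : Type u} [Add O] {𝒜 ℬ : DC.{u, v} O} (F : DFun 𝒜 ℬ) {X Y Z X' Y' Z' : O}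

@[simp] theorem map_add (f g : 𝒜.Hom X Y) : F.map (f + g) = F.map f + F.map g := F.map_add' f g
@[simp] theorem map_smul (c : ℂ) (f : 𝒜.Hom X Y) : F.map (c • f) = c • F.map f := F.map_smul' c f
@[simp] theorem map_comp (g : 𝒜.Hom Y Z) (f : 𝒜.Hom X Y) : F.map (g ⊚ f) = F.map g ⊚ F.map f :=
  F.map_comp' g f
@[simp] theorem map_id : F.map (𝒜.id X) = ℬ.id X := F.map_id' X
@[simp] theorem map_dag (f : 𝒜.Hom X Y) : F.map f† = (F.map f)† := F.map_dag' f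
@[simp] theorem map_zero : F.map (0 : 𝒜.Hom X Y) = 0 := by
  simpa using F.map_smul 0 (0 : 𝒜.Hom X Y)
@[simp] theorem map_neg (f : 𝒜.Hom X Y) : F.map (-f) = -F.map f := by
  simpa using F.map_smul (-1) f
@[simp] theorem map_sub (f g : 𝒜.Hom X Y) : F.map (f - g) = F.map f - F.map g := by
  simp [sub_eq_add_neg]
@[simp] theorem map_lift (a : 𝒜.Hom Z X) (b : 𝒜.Hom Z Y) :
    F.map (lift a b) = lift (F.map a) (F.map b) := by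
  simp [lift, F.map_inl', F.map_inr']
@[simp] theorem map_desc (a : 𝒜.Hom X Z) (b : 𝒜.Hom Y Z) :
    F.map (desc a b) = desc (F.map a) (F.map b) := by
  simp [desc, F.map_inl', F.map_inr']
theorem map_adm {d : 𝒜.Hom X X} (h : 𝒜.adm d) : ℬ.adm (F.map d) := F.map_adm' d h

/-- `F` is full. -/
def Full : Prop := ∀ {X Y : O} (g : ℬ.Hom X Y), ∃ f : 𝒜.Hom X Y, F.map f = g

end DFun

section examples
open DC Complex
variable {O : Type u} [Add O] {𝒜 : DC.{u, v} O} {V Λ : O}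

example (d φ : 𝒜.Hom V V) (hd : d ⊚ d = 0) (hφ : φ ⊚ d = d† ⊚ φ) :
    blk (I • d) 0 φ (-I • d†) ⊚ blk (I • d) 0 φ (-I • d†) = 0 := by
  have hd' : d† ⊚ d† = 0 := by simpa using dag_congr hd
  simp [hd, hd', hφ]

example (d φ : 𝒜.Hom V V) (e T : 𝒜.Hom Λ Λ) (j : 𝒜.Hom Λ V) (hd : d ⊚ d = 0) (he : e ⊚ e = 0)
    (hφ : φ ⊚ d = d† ⊚ φ) (hj : j ⊚ e = d ⊚ j) (hT : j† ⊚ φ ⊚ j = T ⊚ e + e† ⊚ T) :
    blk3 (-e) 0 0 j d 0 T (j† ⊚ φ) (-e†) ⊚ blk3 (-e) 0 0 j d 0 T (j† ⊚ φ) (-e†) = 0 := by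
  have he' : e† ⊚ e† = 0 := by simpa using dag_congr he
  have hj' : e† ⊚ j† = j† ⊚ d† := by simpa using dag_congr hj
  simp [hd, he, he', hφ, hj, hT, reassoc hj']

end examples

end Crest.Agent.R217
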