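import Crest.Agent.R217.BCat

/-! # Row 217, part B, layer 1: controlled matrices modulo the boundary ideal.
FIXED DEFINITIONS.  Objects: families of finite sets with positions in `Z`.  A context `Γ` is a filter
on the index set, pseudo-metrics `ρ i` on `Z` and `1`-Lipschitz functions `u i` (the region of
interest is `u > 0`).  `Γ.cat` is the dagger category of controlled families of matrices modulo the
families living where `u ≤ 0`; `Γ.cls T` is the class of a controlled family `T`. -/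

set_option autoImplicit false
open Filter Matrix

namespace Crest.Agent.R217

structure Obj (ι Z : Type) : Type 1 where
  V : ι → Type
  fin : ∀ i, Fintype (V i)
  dec : ∀ i, DecidableEq (V i)
  pos : ∀ i, V i → Z

attribute [instance] Obj.fin Obj.dec

variable {ι Z : Type}

@[reducible] def Obj.sum (X Y : Obj ι Z) : Obj ι Z where
  V i := X.V i ⊕ Y.V i
  fin _ := inferInstance
  dec _ := inferInstance
  pos i := Sum.elim (X.pos i) (Y.pos i)

instance : Add (Obj ι Z) := ⟨Obj.sum⟩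

/-- families of matrices `X → Y` -/
abbrev Mat (X Y : Obj ι Z) : Type := ∀ i, Matrix (Y.V i) (X.V i) ℂ

structure Ctx (ι Z : Type) : Type where
  l : Filter ι
  ρ : ι → Z → Z → ℝ
  u : ι → Z → ℝ
  ρ_self : ∀ i x, ρ i x x = 0
  ρ_comm : ∀ i x y, ρ i x y = ρ i y x
  ρ_tri : ∀ i x y z, ρ i x z ≤ ρ i x y + ρ i y z
  u_lip : ∀ i x y, u i x ≤ u i y + ρ i x y

namespace Ctx
variable (Γ : Ctx ι Z) {W X Y X' Y' : Obj ι Z}

theorem ρ_nonneg (i : ι) (x y : Z) : 0 ≤ Γ.ρ i x y := by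
  have h := Γ.ρ_tri i x y x
  rw [Γ.ρ_self, Γ.ρ_comm i y x] at h; linarith

/-- controlled -/
def Ctrl (T : Mat X Y) : Prop := ∀ η : ℝ, 0 < η → ∀ᶠ i in Γ.l, ∀ b a, T i b a ≠ 0 →
  Γ.ρ i (Y.pos i b) (X.pos i a) ≤ η ∨ (Γ.u i (Y.pos i b) ≤ η ∧ Γ.u i (X.pos i a) ≤ η)

/-- negligible -/
def Van (T : Mat X Y) : Prop := ∀ η : ℝ, 0 < η → ∀ᶠ i in Γ.l, ∀ b a, T i b a ≠ 0 →
  Γ.u i (Y.pos i b) ≤ η ∧ Γ.u i (X.pos i a) ≤ η

variable {Γ}

theorem Van.ctrl {T : Mat X Y} (h : Γ.Van T) : Γ.Ctrl T :=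
  fun η hη => (h η hη).mono fun _ hi b a hT => Or.inr (hi b a hT)

theorem ctrl_zero : Γ.Ctrl (0 : Mat X Y) := fun _ _ => Eventually.of_forall fun _ _ _ h => by
  simp at h
theorem van_zero : Γ.Van (0 : Mat X Y) := fun _ _ => Eventually.of_forall fun _ _ _ h => by
  simp at h

/-- a family whose support is (eventually) inside the union of two supports -/
theorem Ctrl.of_supp₂ {S T U : Mat X Y} (hS : Γ.Ctrl S) (hT : Γ.Ctrl T)
    (h : ∀ᶠ i in Γ.l, ∀ b a, U i b a ≠ 0 → S i b a ≠ 0 ∨ T i b a ≠ 0) : Γ.Ctrl U := by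
  intro η hη
  filter_upwards [hS η hη, hT η hη, h] with i h1 h2 h3 b a hU
  exact (h3 b a hU).elim (h1 b a) (h2 b a)
theorem Van.of_supp₂ {S T U : Mat X Y} (hS : Γ.Van S) (hT : Γ.Van T)
    (h : ∀ᶠ i in Γ.l, ∀ b a, U i b a ≠ 0 → S i b a ≠ 0 ∨ T i b a ≠ 0) : Γ.Van U := by
  intro η hη
  filter_upwards [hS η hη, hT η hη, h] with i h1 h2 h3 b a hU
  exact (h3 b a hU).elim (h1 b a) (h2 b a)
theorem Ctrl.of_supp {S U : Mat X Y} (hS : Γ.Ctrl S)
    (h : ∀ᶠ i in Γ.l, ∀ b a, U i b a ≠ 0 → S i b a ≠ 0) : Γ.Ctrl U :=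
  hS.of_supp₂ hS (h.mono fun _ hi b a hU => Or.inl (hi b a hU))
theorem Van.of_supp {S U : Mat X Y} (hS : Γ.Van S)
    (h : ∀ᶠ i in Γ.l, ∀ b a, U i b a ≠ 0 → S i b a ≠ 0) : Γ.Van U :=
  hS.of_supp₂ hS (h.mono fun _ hi b a hU => Or.inl (hi b a hU))

private theorem add_supp (S T : Mat X Y) (i : ι) (b : Y.V i) (a : X.V i) (h : (S + T) i b a ≠ 0) :
    S i b a ≠ 0 ∨ T i b a ≠ 0 := by
  by_contra hc
  push Not at hc
  exact h (by simp [hc.1, hc.2])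
private theorem smul_supp (c : ℂ) (S : Mat X Y) (i : ι) (b : Y.V i) (a : X.V i)
    (h : (c • S) i b a ≠ 0) : S i b a ≠ 0 := fun hc => h (by simp [hc])

theorem Ctrl.add {S T : Mat X Y} (hS : Γ.Ctrl S) (hT : Γ.Ctrl T) : Γ.Ctrl (S + T) :=
  hS.of_supp₂ hT (Eventually.of_forall (add_supp S T))
theorem Van.add {S T : Mat X Y} (hS : Γ.Van S) (hT : Γ.Van T) : Γ.Van (S + T) :=
  hS.of_supp₂ hT (Eventually.of_forall (add_supp S T))
theorem Ctrl.smul (c : ℂ) {S : Mat X Y} (hS : Γ.Ctrl S) : Γ.Ctrl (c • S) :=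
  hS.of_supp (Eventually.of_forall (smul_supp c S))
theorem Van.smul (c : ℂ) {S : Mat X Y} (hS : Γ.Van S) : Γ.Van (c • S) :=
  hS.of_supp (Eventually.of_forall (smul_supp c S))
theorem Ctrl.neg {S : Mat X Y} (hS : Γ.Ctrl S) : Γ.Ctrl (-S) := by simpa using hS.smul (-1)
theorem Van.neg {S : Mat X Y} (hS : Γ.Van S) : Γ.Van (-S) := by simpa using hS.smul (-1)
theorem Ctrl.sub {S T : Mat X Y} (hS : Γ.Ctrl S) (hT : Γ.Ctrl T) : Γ.Ctrl (S - T) := by
  simpa [sub_eq_add_neg] using hS.add hT.neg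
theorem Van.sub {S T : Mat X Y} (hS : Γ.Van S) (hT : Γ.Van T) : Γ.Van (S - T) := by
  simpa [sub_eq_add_neg] using hS.add hT.neg

theorem exists_of_mul_ne_zero {l m n : Type} [Fintype m] {S : Matrix l m ℂ} {T : Matrix m n ℂ}
    {c : l} {a : n} (h : (S * T) c a ≠ 0) : ∃ b, S c b ≠ 0 ∧ T b a ≠ 0 := by
  rw [Matrix.mul_apply] at h
  obtain ⟨b, -, hb⟩ := Finset.exists_ne_zero_of_sum_ne_zero h
  exact ⟨b, left_ne_zero_of_mul hb, right_ne_zero_of_mul hb⟩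

theorem Ctrl.mul {S : Mat X Y} {T : Mat W X} (hS : Γ.Ctrl S) (hT : Γ.Ctrl T) :
    Γ.Ctrl (X := W) (Y := Y) fun i => S i * T i := by
  intro η hη
  filter_upwards [hS (η / 2) (by positivity), hT (η / 2) (by positivity)] with i h1 h2 c a h
  obtain ⟨b, hb, hb'⟩ := exists_of_mul_ne_zero h
  have t1 := Γ.ρ_tri i (Y.pos i c) (X.pos i b) (W.pos i a)
  have t2 := Γ.u_lip i (Y.pos i c) (X.pos i b)
  have t3 := Γ.u_lip i (W.pos i a) (X.pos i b)
  rw [Γ.ρ_comm i (W.pos i a)] at t3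
  rcases h1 c b hb with h1 | h1 <;> rcases h2 b a hb' with h2 | h2
  · left; linarith
  · right; constructor <;> linarith [h2.1, h2.2]
  · right; constructor <;> linarith [h1.1, h1.2]
  · right; constructor <;> linarith [h1.1, h2.2]

theorem Ctrl.ct {S : Mat X Y} (hS : Γ.Ctrl S) : Γ.Ctrl (X := Y) (Y := X) fun i => (S i)ᴴ := by
  intro η hη
  filter_upwards [hS η hη] with i h1 a b h
  have h' : S i b a ≠ 0 := by simpa using h
  rcases h1 b a h' with h1 | h1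
  · left; rwa [Γ.ρ_comm]
  · right; exact h1.symm
theorem Van.ct {S : Mat X Y} (hS : Γ.Van S) : Γ.Van (X := Y) (Y := X) fun i => (S i)ᴴ := by
  intro η hη
  filter_upwards [hS η hη] with i h1 a b h
  exact (h1 b a (by simpa using h)).symm

/-- a controlled family whose nonzero columns are outside is negligible -/
theorem Ctrl.van_of_src {S : Mat X Y} (hS : Γ.Ctrl S)
    (h : ∀ η : ℝ, 0 < η → ∀ᶠ i in Γ.l, ∀ b a, S i b a ≠ 0 → Γ.u i (X.pos i a) ≤ η) : Γ.Van S := by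
  intro η hη
  filter_upwards [hS (η / 2) (by positivity), h (η / 2) (by positivity)] with i h1 h2 b a hb
  have t := Γ.u_lip i (Y.pos i b) (X.pos i a)
  have := h2 b a hb
  rcases h1 b a hb with h1 | h1
  · constructor <;> linarith
  · constructor <;> linarith [h1.1]
theorem Ctrl.van_of_tgt {S : Mat X Y} (hS : Γ.Ctrl S)
    (h : ∀ η : ℝ, 0 < η → ∀ᶠ i in Γ.l, ∀ b a, S i b a ≠ 0 → Γ.u i (Y.pos i b) ≤ η) : Γ.Van S := by
  intro η hη
  filter_upwards [hS (η / 2) (by positivity), h (η / 2) (by positivity)] with i h1 h2 b a hb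
  have t := Γ.u_lip i (X.pos i a) (Y.pos i b)
  rw [Γ.ρ_comm] at t
  have := h2 b a hb
  rcases h1 b a hb with h1 | h1
  · constructor <;> linarith
  · constructor <;> linarith [h1.2]

theorem Van.mul_ctrl {S : Mat X Y} {T : Mat W X} (hS : Γ.Van S) (hT : Γ.Ctrl T) :
    Γ.Van (X := W) (Y := Y) fun i => S i * T i := by
  refine (hS.ctrl.mul hT).van_of_tgt fun η hη => ?_
  filter_upwards [hS η hη] with i h1 c a h
  obtain ⟨b, hb, -⟩ := exists_of_mul_ne_zero h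
  exact (h1 c b hb).1
theorem Ctrl.mul_van {S : Mat X Y} {T : Mat W X} (hS : Γ.Ctrl S) (hT : Γ.Van T) :
    Γ.Van (X := W) (Y := Y) fun i => S i * T i := by
  refine (hS.mul hT.ctrl).van_of_src fun η hη => ?_
  filter_upwards [hT η hη] with i h1 c a h
  obtain ⟨b, -, hb⟩ := exists_of_mul_ne_zero h
  exact (h1 b a hb).2

/-- entries only between equal positions -/
theorem ctrl_of_pos_eq {S : Mat X Y} (h : ∀ i b a, S i b a ≠ 0 → Y.pos i b = X.pos i a) :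
    Γ.Ctrl S := fun η hη => Eventually.of_forall fun i b a hb => by
  left; rw [h i b a hb, Γ.ρ_self]; exact hη.le
theorem ctrl_diagonal (w : ∀ i, X.V i → ℂ) :
    Γ.Ctrl (X := X) (Y := X) fun i => diagonal (w i) :=
  ctrl_of_pos_eq fun i b a h => by
    by_contra hc
    exact h (diagonal_apply_ne _ fun e => hc (by rw [e]))
theorem ctrl_one : Γ.Ctrl (X := X) (Y := X) fun _ => 1 := by
  simpa using ctrl_diagonal (Γ := Γ) (X := X) fun _ _ => 1

variable (Γ)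

def ctrlSub (X Y : Obj ι Z) : Submodule ℂ (Mat X Y) where
  carrier := {T | Γ.Ctrl T}
  add_mem' := Ctrl.add
  zero_mem' := ctrl_zero
  smul_mem' c _ h := Ctrl.smul c h

def vanSub (X Y : Obj ι Z) : Submodule ℂ (Mat X Y) where
  carrier := {T | Γ.Van T}
  add_mem' := Van.add
  zero_mem' := van_zero
  smul_mem' c _ h := Van.smul c h

def Hom (X Y : Obj ι Z) : Type :=
  (Γ.ctrlSub X Y) ⧸ ((Γ.vanSub X Y).comap (Γ.ctrlSub X Y).subtype)

noncomputable instance : AddCommGroup (Γ.Hom X Y) := by unfold Hom; infer_instance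
noncomputable instance : Module ℂ (Γ.Hom X Y) := by unfold Hom; infer_instance

open Classical in
/-- the class of a controlled family (junk `0` otherwise) -/
noncomputable def cls₀ (T : Mat X Y) : Γ.Hom X Y :=
  if h : Γ.Ctrl T then Submodule.Quotient.mk (⟨T, h⟩ : Γ.ctrlSub X Y) else 0

variable {Γ}

theorem cls₀_of {T : Mat X Y} (h : Γ.Ctrl T) :
    Γ.cls₀ T = Submodule.Quotient.mk (⟨T, h⟩ : Γ.ctrlSub X Y) := dif_pos h

theorem cls₀_surj (f : Γ.Hom X Y) : ∃ T : Mat X Y, Γ.Ctrl T ∧ Γ.cls₀ T = f := by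
  obtain ⟨⟨T, hT⟩, rfl⟩ := Submodule.Quotient.mk_surjective _ f
  exact ⟨T, hT, cls₀_of hT⟩

theorem cls₀_eq_iff {S T : Mat X Y} (hS : Γ.Ctrl S) (hT : Γ.Ctrl T) :
    Γ.cls₀ S = Γ.cls₀ T ↔ Γ.Van (S - T) := by
  rw [cls₀_of hS, cls₀_of hT]
  exact Submodule.Quotient.eq _

theorem cls₀_add {S T : Mat X Y} (hS : Γ.Ctrl S) (hT : Γ.Ctrl T) :
    Γ.cls₀ (S + T) = Γ.cls₀ S + Γ.cls₀ T := by
  rw [cls₀_of hS, cls₀_of hT, cls₀_of (hS.add hT)]; rfl
theorem cls₀_smul (c : ℂ) {S : Mat X Y} (hS : Γ.Ctrl S) : Γ.cls₀ (c • S) = c • Γ.cls₀ S := by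
  rw [cls₀_of hS, cls₀_of (hS.smul c)]; rfl
theorem cls₀_zero : Γ.cls₀ (0 : Mat X Y) = 0 := by
  rw [cls₀_of ctrl_zero]; rfl

/-- a chosen controlled representative -/
noncomputable def rep₀ (f : Γ.Hom X Y) : Mat X Y := (cls₀_surj f).choose
theorem rep₀_ctrl (f : Γ.Hom X Y) : Γ.Ctrl (rep₀ f) := (cls₀_surj f).choose_spec.1
theorem cls₀_rep₀ (f : Γ.Hom X Y) : Γ.cls₀ (rep₀ f) = f := (cls₀_surj f).choose_spec.2
theorem van_rep₀_sub {S : Mat X Y} (hS : Γ.Ctrl S) : Γ.Van (rep₀ (Γ.cls₀ S) - S) :=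
  (cls₀_eq_iff (rep₀_ctrl _) hS).1 (cls₀_rep₀ _)

noncomputable def comp₀ (g : Γ.Hom X Y) (f : Γ.Hom W X) : Γ.Hom W Y :=
  Γ.cls₀ fun i => rep₀ g i * rep₀ f i
noncomputable def dag₀ (f : Γ.Hom X Y) : Γ.Hom Y X := Γ.cls₀ fun i => (rep₀ f i)ᴴ

theorem comp₀_cls {S : Mat X Y} {T : Mat W X} (hS : Γ.Ctrl S) (hT : Γ.Ctrl T) :
    comp₀ (Γ.cls₀ S) (Γ.cls₀ T) = Γ.cls₀ fun i => S i * T i := by
  unfold comp₀
  rw [cls₀_eq_iff ((rep₀_ctrl _).mul (rep₀_ctrl _)) (hS.mul hT)]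
  have h := ((van_rep₀_sub hS).mul_ctrl (rep₀_ctrl (Γ.cls₀ T))).add (hS.mul_van (van_rep₀_sub hT))
  convert h using 1
  funext i
  simp [Matrix.sub_mul, Matrix.mul_sub]

theorem dag₀_cls {S : Mat X Y} (hS : Γ.Ctrl S) : dag₀ (Γ.cls₀ S) = Γ.cls₀ fun i => (S i)ᴴ := by
  unfold dag₀
  rw [cls₀_eq_iff (rep₀_ctrl _).ct hS.ct]
  convert (van_rep₀_sub hS).ct using 1
  funext i
  simp

/-- the diagonal projection onto the basis elements in `S` -/
noncomputable def projMat (X : Obj ι Z) (S : ∀ i, Set (X.V i)) : Mat X X :=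
  fun i => diagonal fun a => (S i).indicator (fun _ => (1 : ℂ)) a

theorem ctrl_projMat (S : ∀ i, Set (X.V i)) : Γ.Ctrl (projMat X S) := ctrl_diagonal _

/-- `d` has a subcomplex between any two sublevel sets of any `1`-Lipschitz function. -/
def Adm₀ (d : Γ.Hom X X) : Prop :=
  ∀ w : ι → Z → ℝ, (∀ i x y, w i x ≤ w i y + Γ.ρ i x y) → ∀ s t : ℝ, s < t →
    ∃ S : ∀ i, Set (X.V i),
      (∀ᶠ i in Γ.l, ∀ a, (w i (X.pos i a) ≤ s → a ∈ S i) ∧ (a ∈ S i → w i (X.pos i a) ≤ t)) ∧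
      comp₀ (Γ.cls₀ (projMat X fun i => (S i)ᶜ)) (comp₀ d (Γ.cls₀ (projMat X S))) = 0

def inlMat (X Y : Obj ι Z) : Mat X (X + Y) := fun _ => fromRows 1 0
def inrMat (X Y : Obj ι Z) : Mat Y (X + Y) := fun _ => fromRows 0 1

theorem ctrl_inlMat : Γ.Ctrl (inlMat X Y) := ctrl_of_pos_eq fun i b a h => by
  rcases b with b | b
  · have : b = a := by
      by_contra hc
      exact h (by simp [inlMat, Matrix.one_apply_ne hc])
    subst this; rfl
  · exact absurd (by simp [inlMat]) h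
theorem ctrl_inrMat : Γ.Ctrl (inrMat X Y) := ctrl_of_pos_eq fun i b a h => by
  rcases b with b | b
  · exact absurd (by simp [inrMat]) h
  · have : b = a := by
      by_contra hc
      exact h (by simp [inrMat, Matrix.one_apply_ne hc])
    subst this; rfl

theorem rows_aux (m n : Type) [Fintype m] [DecidableEq m] [Fintype n] [DecidableEq n] :
    let A : Matrix (m ⊕ n) m ℂ := fromRows 1 0
    let B : Matrix (m ⊕ n) n ℂ := fromRows 0 1
    Aᴴ * A = 1 ∧ Bᴴ * B = 1 ∧ Aᴴ * B = 0 ∧ A * Aᴴ + B * Bᴴ = 1 := by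
  simp only [conjTranspose_fromRows_eq_fromCols_conjTranspose, fromCols_mul_fromRows,
    fromRows_mul_fromCols, fromBlocks_add]
  simp

theorem bctx_entry (S : ∀ i, Set (X.V i)) (T : Mat X X) (i : ι) (b a : X.V i) :
    (projMat X (fun i => (S i)ᶜ) i * (T i * projMat X S i)) b a ≠ 0 ↔
      b ∉ S i ∧ a ∈ S i ∧ T i b a ≠ 0 := by
  by_cases hb : b ∈ S i <;> by_cases ha : a ∈ S i <;> simp [projMat, ha, hb]

/-- admissibility in terms of a representative -/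
theorem bctx_adm_iff {T : Mat X X} (hT : Γ.Ctrl T) : Adm₀ (Γ.cls₀ T) ↔
    ∀ w : ι → Z → ℝ, (∀ i x y, w i x ≤ w i y + Γ.ρ i x y) → ∀ s t : ℝ, s < t →
      ∃ S : ∀ i, Set (X.V i),
        (∀ᶠ i in Γ.l, ∀ a, (w i (X.pos i a) ≤ s → a ∈ S i) ∧ (a ∈ S i → w i (X.pos i a) ≤ t)) ∧
        ∀ η : ℝ, 0 < η → ∀ᶠ i in Γ.l, ∀ b a, b ∉ S i ∧ a ∈ S i ∧ T i b a ≠ 0 →
          Γ.u i (X.pos i b) ≤ η ∧ Γ.u i (X.pos i a) ≤ η := by
  refine forall₂_congr fun w _ => forall₃_congr fun s t _ => exists_congr fun S =>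
    and_congr_right fun _ => ?_
  have h1 := hT.mul (ctrl_projMat (Γ := Γ) S)
  have h2 := (ctrl_projMat (Γ := Γ) fun i => (S i)ᶜ).mul h1
  rw [comp₀_cls hT (ctrl_projMat S), comp₀_cls (ctrl_projMat _) h1, ← cls₀_zero,
    cls₀_eq_iff h2 ctrl_zero, sub_zero]
  simp only [Van, bctx_entry]

theorem adm₀_smul (c : ℂ) (d : Γ.Hom X X) (h : Adm₀ d) : Adm₀ (c • d) := by
  obtain ⟨T, hT, rfl⟩ := cls₀_surj d
  rw [← cls₀_smul c hT, bctx_adm_iff (hT.smul c)]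
  intro w hw s t hst
  obtain ⟨S, h1, h2⟩ := (bctx_adm_iff hT).1 h w hw s t hst
  exact ⟨S, h1, fun η hη => (h2 η hη).mono fun i hi b a hba =>
    hi b a ⟨hba.1, hba.2.1, smul_supp c T i b a hba.2.2⟩⟩
theorem adm₀_dag (d : Γ.Hom X X) (h : Adm₀ d) : Adm₀ (dag₀ d) := by
  obtain ⟨T, hT, rfl⟩ := cls₀_surj d
  rw [dag₀_cls hT, bctx_adm_iff hT.ct]
  intro w hw s t hst
  obtain ⟨S, h1, h2⟩ := (bctx_adm_iff hT).1 h (fun i x => -w i x)
    (fun i x y => by have := hw i y x; rw [Γ.ρ_comm] at this; linarith) (-t) (-((s + t) / 2))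
    (by linarith)
  refine ⟨fun i => (S i)ᶜ, h1.mono fun i hi a => ⟨fun h3 h4 => ?_, fun h3 => ?_⟩,
    fun η hη => (h2 η hη).mono fun i hi b a hba =>
      (hi a b ⟨hba.2.1, not_not.1 hba.1, by simpa using hba.2.2⟩).symm⟩
  · have := (hi a).2 h4
    linarith
  · by_contra h4
    exact h3 ((hi a).1 (by linarith))
theorem adm₀_tri (d₁ : Γ.Hom X X) (d₂ : Γ.Hom Y Y) (f : Γ.Hom X Y) (h₁ : Adm₀ d₁) (h₂ : Adm₀ d₂) :
    Adm₀ (comp₀ (Γ.cls₀ (inlMat X Y)) (comp₀ d₁ (dag₀ (Γ.cls₀ (inlMat X Y)))) +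
      comp₀ (Γ.cls₀ (inrMat X Y)) (comp₀ f (dag₀ (Γ.cls₀ (inlMat X Y)))) +
      comp₀ (Γ.cls₀ (inrMat X Y)) (comp₀ d₂ (dag₀ (Γ.cls₀ (inrMat X Y))))) := by
  obtain ⟨A, hA, rfl⟩ := cls₀_surj d₁
  obtain ⟨D, hD, rfl⟩ := cls₀_surj d₂
  obtain ⟨C, hC, rfl⟩ := cls₀_surj f
  have hl := ctrl_inlMat (Γ := Γ) (X := X) (Y := Y)
  have hr := ctrl_inrMat (Γ := Γ) (X := X) (Y := Y)
  have e1 := hl.mul (hA.mul hl.ct)
  have e2 := hr.mul (hC.mul hl.ct)
  have e3 := hr.mul (hD.mul hr.ct)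
  rw [dag₀_cls hl, dag₀_cls hr, comp₀_cls hA hl.ct, comp₀_cls hC hl.ct, comp₀_cls hD hr.ct,
    comp₀_cls hl (hA.mul hl.ct), comp₀_cls hr (hC.mul hl.ct), comp₀_cls hr (hD.mul hr.ct),
    ← cls₀_add e1 e2, ← cls₀_add (e1.add e2) e3, bctx_adm_iff ((e1.add e2).add e3)]
  intro w hw s t hst
  obtain ⟨S, p1, p2⟩ := (bctx_adm_iff hA).1 h₁ w hw s ((2 * s + t) / 3) (by linarith)
  obtain ⟨R, q1, q2⟩ := (bctx_adm_iff hD).1 h₂ w hw ((s + 2 * t) / 3) t (by linarith)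
  refine ⟨fun i => {x | Sum.elim (· ∈ S i) (· ∈ R i) x}, ?_, fun η hη => ?_⟩
  · filter_upwards [p1, q1] with i hp hq a
    rcases a with a | a
    · exact ⟨(hp a).1, fun h => ((hp a).2 h).trans (by linarith)⟩
    · exact ⟨fun h => (hq a).1 (h.trans (by linarith)), (hq a).2⟩
  · filter_upwards [p1, q1, p2 η hη, q2 η hη, hC (min η ((t - s) / 3))
      (lt_min hη (by linarith))] with i hp hq hp' hq' hc b a ⟨hb, ha, hba⟩
    have key : ∀ {m n : Type} [Fintype m] [DecidableEq m] [Fintype n] [DecidableEq n]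
        (A : Matrix m m ℂ) (C : Matrix n m ℂ) (D : Matrix n n ℂ),
        (fromRows 1 0 : Matrix (m ⊕ n) m ℂ) * (A * (fromRows 1 0 : Matrix (m ⊕ n) m ℂ)ᴴ) +
          (fromRows 0 1 : Matrix (m ⊕ n) n ℂ) * (C * (fromRows 1 0 : Matrix (m ⊕ n) m ℂ)ᴴ) +
          (fromRows 0 1 : Matrix (m ⊕ n) n ℂ) * (D * (fromRows 0 1 : Matrix (m ⊕ n) n ℂ)ᴴ) =
          fromBlocks A 0 C D := by
      intro m n _ _ _ _ A C D
      simp only [conjTranspose_fromRows_eq_fromCols_conjTranspose, mul_fromCols]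
      ext (b | b) (a | a) <;> simp
    have hba' : fromBlocks (A i) 0 (C i) (D i) b a ≠ 0 := by
      rw [← key]; exact hba
    rcases b with b | b <;> rcases a with a | a
    · exact hp' b a ⟨hb, ha, hba'⟩
    · exact absurd rfl hba'
    · rcases hc b a hba' with h | h
      · have h3 := (hp a).2 ha
        have h4 : (s + 2 * t) / 3 < w i (Y.pos i b) := not_le.1 fun h => hb ((hq b).1 h)
        have h5 := hw i (Y.pos i b) (X.pos i a)
        have h6 := min_le_right η ((t - s) / 3)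
        linarith
      · exact ⟨h.1.trans (min_le_left _ _), h.2.trans (min_le_left _ _)⟩
    · exact hq' b a ⟨hb, ha, hba'⟩

variable (Γ)

/-- the controlled category of the context `Γ` -/
noncomputable def cat : DC.{1, 0} (Obj ι Z) where
  Hom := Γ.Hom
  acg _ _ := inferInstance
  mod _ _ := inferInstance
  comp := comp₀
  id X := Γ.cls₀ fun _ => 1
  dag := dag₀
  inl X Y := Γ.cls₀ (inlMat X Y)
  inr X Y := Γ.cls₀ (inrMat X Y)
  adm := Adm₀
  comp_assoc' h g f := by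
    obtain ⟨h, hh, rfl⟩ := cls₀_surj h
    obtain ⟨g, hg, rfl⟩ := cls₀_surj g
    obtain ⟨f, hf, rfl⟩ := cls₀_surj f
    rw [comp₀_cls hh hg, comp₀_cls hg hf, comp₀_cls (hh.mul hg) hf, comp₀_cls hh (hg.mul hf)]
    simp [Matrix.mul_assoc]
  id_comp' f := by
    obtain ⟨f, hf, rfl⟩ := cls₀_surj f
    rw [comp₀_cls ctrl_one hf]; simp
  comp_id' f := by
    obtain ⟨f, hf, rfl⟩ := cls₀_surj f
    rw [comp₀_cls hf ctrl_one]; simp
  comp_add' g f f' := by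
    obtain ⟨g, hg, rfl⟩ := cls₀_surj g
    obtain ⟨f, hf, rfl⟩ := cls₀_surj f
    obtain ⟨f', hf', rfl⟩ := cls₀_surj f'
    rw [← cls₀_add hf hf', comp₀_cls hg hf, comp₀_cls hg hf', comp₀_cls hg (hf.add hf'),
      ← cls₀_add (hg.mul hf) (hg.mul hf')]
    congr 1; funext i; simp [Matrix.mul_add]
  comp_smul' c g f := by
    obtain ⟨g, hg, rfl⟩ := cls₀_surj g
    obtain ⟨f, hf, rfl⟩ := cls₀_surj f
    rw [← cls₀_smul c hf, comp₀_cls hg hf, comp₀_cls hg (hf.smul c), ← cls₀_smul c (hg.mul hf)]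
    congr 1; funext i; simp
  dag_dag' f := by
    obtain ⟨f, hf, rfl⟩ := cls₀_surj f
    rw [dag₀_cls hf, dag₀_cls hf.ct]; simp
  dag_comp' g f := by
    obtain ⟨g, hg, rfl⟩ := cls₀_surj g
    obtain ⟨f, hf, rfl⟩ := cls₀_surj f
    rw [comp₀_cls hg hf, dag₀_cls hg, dag₀_cls hf, dag₀_cls (hg.mul hf), comp₀_cls hf.ct hg.ct]
    simp
  dag_add' f f' := by
    obtain ⟨f, hf, rfl⟩ := cls₀_surj f
    obtain ⟨f', hf', rfl⟩ := cls₀_surj f'
    rw [← cls₀_add hf hf', dag₀_cls hf, dag₀_cls hf', dag₀_cls (hf.add hf'),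
      ← cls₀_add hf.ct hf'.ct]
    congr 1; funext i; simp
  dag_smul' c f := by
    obtain ⟨f, hf, rfl⟩ := cls₀_surj f
    rw [← cls₀_smul c hf, dag₀_cls hf, dag₀_cls (hf.smul c), ← cls₀_smul _ hf.ct]
    congr 1; funext i; simp
  inl_inl' X Y := by
    rw [dag₀_cls ctrl_inlMat, comp₀_cls ctrl_inlMat.ct ctrl_inlMat]
    congr 1; funext i
    exact (rows_aux (X.V i) (Y.V i)).1
  inr_inr' X Y := by
    rw [dag₀_cls ctrl_inrMat, comp₀_cls ctrl_inrMat.ct ctrl_inrMat]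
    congr 1; funext i
    exact (rows_aux (X.V i) (Y.V i)).2.1
  inl_inr' X Y := by
    rw [dag₀_cls ctrl_inlMat, comp₀_cls ctrl_inlMat.ct ctrl_inrMat, ← cls₀_zero]
    congr 1; funext i
    exact (rows_aux (X.V i) (Y.V i)).2.2.1
  total' X Y := by
    rw [dag₀_cls ctrl_inlMat, dag₀_cls ctrl_inrMat, comp₀_cls ctrl_inlMat ctrl_inlMat.ct,
      comp₀_cls ctrl_inrMat ctrl_inrMat.ct,
      ← cls₀_add (ctrl_inlMat.mul ctrl_inlMat.ct) (ctrl_inrMat.mul ctrl_inrMat.ct)]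
    congr 1; funext i
    exact (rows_aux (X.V i) (Y.V i)).2.2.2
  adm_smul' := adm₀_smul
  adm_dag' := adm₀_dag
  adm_tri' := adm₀_tri

end Ctx
end Crest.Agent.R217
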