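import Crest.Agent.R217.BCtx
import Crest.Agent.R217.BAlg1

/-! # Row 217, part B, layer 1: API of the controlled category, restriction functors.
Recipe for `res_full`: given `T` controlled for `Γ'`, let `A n ∈ l` be decreasing sets of indices on
which the control statement of `Γ'` holds with `η = 1/(n+1)` (and `Γ.ρ ≤ Γ'.ρ`).  Keep the entry
`(b,a)` of `T i` iff `Γ.ρ i b a ≤ 1/(n+1)` for every `n` with `i ∈ A n`.  The truncated family is
`Γ`-controlled, and `T - T'` is `Γ'`-negligible (a dropped entry fails for some `n'`; compare with `n`;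
note `Γ'.ρ ≤ Γ.ρ ≤ Γ'.ρ` eventually). -/

set_option autoImplicit false
open Filter Matrix

namespace Crest.Agent.R217
namespace Ctx
open DC

variable {ι Z : Type} (Γ : Ctx ι Z) {W X Y X' Y' : Obj ι Z}

/-- the class of a controlled family in `Γ.cat` -/
noncomputable def cls (T : Mat X Y) : Γ.cat.Hom X Y := Γ.cls₀ T

variable {Γ}

/-- a controlled representative -/
noncomputable def rep (f : Γ.cat.Hom X Y) : Mat X Y := rep₀ f
theorem rep_ctrl (f : Γ.cat.Hom X Y) : Γ.Ctrl (rep f) := rep₀_ctrl f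
theorem cls_rep (f : Γ.cat.Hom X Y) : Γ.cls (rep f) = f := cls₀_rep₀ f
theorem cls_surj (f : Γ.cat.Hom X Y) : ∃ T : Mat X Y, Γ.Ctrl T ∧ Γ.cls T = f := cls₀_surj f
theorem cls_eq_iff {S T : Mat X Y} (hS : Γ.Ctrl S) (hT : Γ.Ctrl T) :
    Γ.cls S = Γ.cls T ↔ Γ.Van (S - T) := cls₀_eq_iff hS hT
theorem cls_zero : Γ.cls (0 : Mat X Y) = 0 := cls₀_zero
theorem cls_eq_zero_iff {S : Mat X Y} (hS : Γ.Ctrl S) : Γ.cls S = 0 ↔ Γ.Van S := by
  rw [← cls_zero, cls_eq_iff hS ctrl_zero, sub_zero]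
theorem cls_add {S T : Mat X Y} (hS : Γ.Ctrl S) (hT : Γ.Ctrl T) :
    Γ.cls (S + T) = Γ.cls S + Γ.cls T := cls₀_add hS hT
theorem cls_smul (c : ℂ) {S : Mat X Y} (hS : Γ.Ctrl S) : Γ.cls (c • S) = c • Γ.cls S :=
  cls₀_smul c hS
theorem cls_neg {S : Mat X Y} (hS : Γ.Ctrl S) : Γ.cls (-S) = -Γ.cls S := by
  simpa using cls_smul (-1) hS
theorem cls_sub {S T : Mat X Y} (hS : Γ.Ctrl S) (hT : Γ.Ctrl T) :
    Γ.cls (S - T) = Γ.cls S - Γ.cls T := by
  rw [sub_eq_add_neg, cls_add hS hT.neg, cls_neg hT, sub_eq_add_neg]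
theorem cls_comp {S : Mat X Y} {T : Mat W X} (hS : Γ.Ctrl S) (hT : Γ.Ctrl T) :
    Γ.cls S ⊚ Γ.cls T = Γ.cls (X := W) (Y := Y) fun i => S i * T i := comp₀_cls hS hT
theorem cls_dag {S : Mat X Y} (hS : Γ.Ctrl S) :
    (Γ.cls S)† = Γ.cls (X := Y) (Y := X) fun i => (S i)ᴴ := dag₀_cls hS
theorem cls_one : Γ.cls (X := X) (Y := X) (fun _ => 1) = Γ.cat.id X := rfl
theorem van_of_eventually_eq_zero {S : Mat X Y} (h : ∀ᶠ i in Γ.l, S i = 0) : Γ.Van S :=
  fun _ _ => h.mono fun _ hi b a hb => absurd (by rw [hi]; rfl) hb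
theorem Ctrl.congr {S T : Mat X Y} (hS : Γ.Ctrl S) (h : ∀ᶠ i in Γ.l, S i = T i) : Γ.Ctrl T :=
  hS.of_supp (h.mono fun _ hi _ _ hb => by rwa [hi])
theorem cls_congr {S T : Mat X Y} (hS : Γ.Ctrl S) (h : ∀ᶠ i in Γ.l, S i = T i) :
    Γ.cls S = Γ.cls T :=
  (cls_eq_iff hS (hS.congr h)).2 (van_of_eventually_eq_zero (h.mono fun _ hi => by
    rw [Pi.sub_apply, hi, sub_self]))

theorem Ctrl.fromRows {S : Mat W X} {T : Mat W Y} (hS : Γ.Ctrl S) (hT : Γ.Ctrl T) :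
    Γ.Ctrl (X := W) (Y := X + Y) fun i => fromRows (S i) (T i) := by
  intro η hη
  filter_upwards [hS η hη, hT η hη] with i h1 h2 b a hb
  rcases b with b | b
  · exact h1 b a hb
  · exact h2 b a hb
theorem Ctrl.fromCols {S : Mat X W} {T : Mat Y W} (hS : Γ.Ctrl S) (hT : Γ.Ctrl T) :
    Γ.Ctrl (X := X + Y) (Y := W) fun i => fromCols (S i) (T i) := by
  intro η hη
  filter_upwards [hS η hη, hT η hη] with i h1 h2 b a hb
  rcases a with a | a
  · exact h1 b a hb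
  · exact h2 b a hb
theorem Ctrl.fromBlocks {A : Mat X X'} {B : Mat Y X'} {C : Mat X Y'} {D : Mat Y Y'}
    (hA : Γ.Ctrl A) (hB : Γ.Ctrl B) (hC : Γ.Ctrl C) (hD : Γ.Ctrl D) :
    Γ.Ctrl (X := X + Y) (Y := X' + Y') fun i => fromBlocks (A i) (B i) (C i) (D i) := by
  intro η hη
  filter_upwards [hA η hη, hB η hη, hC η hη, hD η hη] with i h1 h2 h3 h4 b a hb
  rcases b with b | b <;> rcases a with a | a
  · exact h1 b a hb
  · exact h2 b a hb
  · exact h3 b a hb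
  · exact h4 b a hb
theorem lift_cls {S : Mat W X} {T : Mat W Y} (hS : Γ.Ctrl S) (hT : Γ.Ctrl T) :
    lift (Γ.cls S) (Γ.cls T) = Γ.cls (X := W) (Y := X + Y) fun i => fromRows (S i) (T i) := by
  change Γ.cls (inlMat X Y) ⊚ Γ.cls S + Γ.cls (inrMat X Y) ⊚ Γ.cls T = _
  rw [cls_comp ctrl_inlMat hS, cls_comp ctrl_inrMat hT,
    ← cls_add (ctrl_inlMat.mul hS) (ctrl_inrMat.mul hT)]
  congr 1
  funext i
  change (fromRows 1 0 : Matrix (X.V i ⊕ Y.V i) (X.V i) ℂ) * S i +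
    (fromRows 0 1 : Matrix (X.V i ⊕ Y.V i) (Y.V i) ℂ) * T i = fromRows (S i) (T i)
  rw [fromRows_mul, fromRows_mul]
  ext (b | b) a <;> simp
theorem desc_cls {S : Mat X W} {T : Mat Y W} (hS : Γ.Ctrl S) (hT : Γ.Ctrl T) :
    desc (Γ.cls S) (Γ.cls T) = Γ.cls (X := X + Y) (Y := W) fun i => fromCols (S i) (T i) := by
  apply dag_inj
  rw [dag_desc, cls_dag hS, cls_dag hT, lift_cls hS.ct hT.ct, cls_dag (hS.fromCols hT)]
  congr 1
  funext i
  exact (conjTranspose_fromCols_eq_fromRows_conjTranspose _ _).symm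
theorem blk_cls {A : Mat X X'} {B : Mat Y X'} {C : Mat X Y'} {D : Mat Y Y'}
    (hA : Γ.Ctrl A) (hB : Γ.Ctrl B) (hC : Γ.Ctrl C) (hD : Γ.Ctrl D) :
    blk (Γ.cls A) (Γ.cls B) (Γ.cls C) (Γ.cls D) =
      Γ.cls (X := X + Y) (Y := X' + Y') fun i => fromBlocks (A i) (B i) (C i) (D i) := by
  rw [blk, desc_cls hA hB, desc_cls hC hD, lift_cls (hA.fromCols hB) (hC.fromCols hD)]
  exact congrArg _ (funext fun i => fromRows_fromCols_eq_fromBlocks _ _ _ _)

/-! ### projections and subcomplexes -/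

variable (Γ) in
/-- the projection onto the basis elements in `S` -/
noncomputable def proj (X : Obj ι Z) (S : ∀ i, Set (X.V i)) : Γ.cat.Hom X X := Γ.cls (projMat X S)

theorem proj_dag (S : ∀ i, Set (X.V i)) : (Γ.proj X S)† = Γ.proj X S := by
  rw [proj, cls_dag (ctrl_projMat S)]
  congr 1
  funext i
  ext b a
  by_cases h : b = a
  · subst h
    by_cases hb : b ∈ S i <;> simp [projMat, hb]
  · simp [projMat, h, Ne.symm h]
theorem proj_comp (S T : ∀ i, Set (X.V i)) :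
    Γ.proj X S ⊚ Γ.proj X T = Γ.proj X fun i => S i ∩ T i := by
  rw [proj, proj, proj, cls_comp (ctrl_projMat S) (ctrl_projMat T)]
  congr 1
  funext i
  simp only [projMat, diagonal_mul_diagonal]
  congr 1
  funext a
  by_cases h1 : a ∈ S i <;> by_cases h2 : a ∈ T i <;> simp [h1, h2]
theorem proj_idem (S : ∀ i, Set (X.V i)) : Γ.proj X S ⊚ Γ.proj X S = Γ.proj X S := by
  simp only [proj_comp, Set.inter_self]
theorem proj_compl (S : ∀ i, Set (X.V i)) :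
    (Γ.proj X fun i => (S i)ᶜ) = Γ.cat.id X - Γ.proj X S := by
  rw [proj, proj, ← cls_one, ← cls_sub ctrl_one (ctrl_projMat S)]
  congr 1
  funext i
  ext b a
  by_cases h : b = a
  · subst h
    by_cases hb : b ∈ S i <;> simp [projMat, hb]
  · simp [projMat, h]
/-- a projection containing the region `u > 0` is the identity -/
theorem proj_eq_id {S : ∀ i, Set (X.V i)}
    (h : ∀ᶠ i in Γ.l, ∀ a, 0 < Γ.u i (X.pos i a) → a ∈ S i) : Γ.proj X S = Γ.cat.id X := by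
  rw [eq_comm, ← sub_eq_zero, ← proj_compl, proj, cls_eq_zero_iff (ctrl_projMat _)]
  intro η hη
  filter_upwards [h] with i hi b a hba
  obtain rfl : b = a := by
    by_contra hc
    exact hba (diagonal_apply_ne _ hc)
  have h1 : b ∉ S i := fun hb => hba (by simp [projMat, hb])
  have h2 := (not_lt.1 fun h => h1 (hi b h)).trans hη.le
  exact ⟨h2, h2⟩

theorem adm_iff (d : Γ.cat.Hom X X) : Γ.cat.adm d ↔
    ∀ w : ι → Z → ℝ, (∀ i x y, w i x ≤ w i y + Γ.ρ i x y) → ∀ s t : ℝ, s < t →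
      ∃ S : ∀ i, Set (X.V i),
        (∀ᶠ i in Γ.l, ∀ a, (w i (X.pos i a) ≤ s → a ∈ S i) ∧ (a ∈ S i → w i (X.pos i a) ≤ t)) ∧
        Γ.proj X S ⊚ d ⊚ Γ.proj X S = d ⊚ Γ.proj X S := by
  refine forall₂_congr fun w _ => forall₃_congr fun s t _ => exists_congr fun S =>
    and_congr_right fun _ => ?_
  change (Γ.proj X fun i => (S i)ᶜ) ⊚ d ⊚ Γ.proj X S = 0 ↔ _
  rw [proj_compl, sub_comp, id_comp, sub_eq_zero, eq_comm]

/-- differentials that lower a bounded level are admissible (staggered thresholds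
`S = {a | w a ≤ t - lev a * (t - s) / (N + 1)}`) -/
theorem adm_of_level {T : Mat X X} (hT : Γ.Ctrl T) (N : ℕ) (lev : ∀ i, X.V i → ℕ)
    (hN : ∀ i a, lev i a ≤ N) (h : ∀ i b a, T i b a ≠ 0 → lev i b < lev i a) :
    Γ.cat.adm (Γ.cls T) := by
  refine (bctx_adm_iff hT).2 fun w hw s t hst => ?_
  obtain ⟨δ, hδ, hs⟩ : ∃ δ : ℝ, 0 < δ ∧ s = t - (N + 1) * δ :=
    ⟨(t - s) / (N + 1), div_pos (sub_pos.2 hst) (by positivity), by field_simp; ring⟩
  refine ⟨fun i => {a | w i (X.pos i a) ≤ t - lev i a * δ},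
    Eventually.of_forall fun i a => ⟨fun h1 => ?_, fun h1 => ?_⟩, fun η hη => ?_⟩
  · have h2 : (lev i a : ℝ) ≤ N := by exact_mod_cast hN i a
    change w i (X.pos i a) ≤ t - lev i a * δ
    nlinarith
  · have h2 : (0 : ℝ) ≤ lev i a * δ := by positivity
    change w i (X.pos i a) ≤ t - lev i a * δ at h1
    linarith
  · filter_upwards [hT (min η δ) (lt_min hη hδ)] with i hi b a ⟨hb, ha, hba⟩
    rcases hi b a hba with h1 | h1
    · have h2 : (lev i b : ℝ) + 1 ≤ lev i a := by exact_mod_cast h i b a hba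
      have h3 := hw i (X.pos i b) (X.pos i a)
      have h4 := min_le_right η δ
      have hb' : t - lev i b * δ < w i (X.pos i b) := not_le.1 hb
      change w i (X.pos i a) ≤ t - lev i a * δ at ha
      nlinarith
    · exact ⟨h1.1.trans (min_le_left _ _), h1.2.trans (min_le_left _ _)⟩

/-! ### restriction functors -/

/-- `Γ'` sees less than `Γ` -/
def Le (Γ Γ' : Ctx ι Z) : Prop :=
  Γ'.l ≤ Γ.l ∧ ∀ᶠ i in Γ'.l, ∀ x y, Γ'.ρ i x y ≤ Γ.ρ i x y ∧ Γ'.u i x ≤ Γ.u i x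

variable {Γ' Γ'' : Ctx ι Z}

theorem Le.refl (Γ : Ctx ι Z) : Le Γ Γ :=
  ⟨le_rfl, Eventually.of_forall fun _ _ _ => ⟨le_rfl, le_rfl⟩⟩
theorem Le.trans (h : Le Γ Γ') (h' : Le Γ' Γ'') : Le Γ Γ'' := by
  refine ⟨h'.1.trans h.1, ?_⟩
  filter_upwards [h'.2, h.2.filter_mono h'.1] with i h1 h2 x y
  exact ⟨(h1 x y).1.trans (h2 x y).1, (h1 x y).2.trans (h2 x y).2⟩
theorem Le.ctrl (h : Le Γ Γ') {T : Mat X Y} (hT : Γ.Ctrl T) : Γ'.Ctrl T := by
  intro η hη
  filter_upwards [(hT η hη).filter_mono h.1, h.2] with i h1 h2 b a hb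
  rcases h1 b a hb with h1 | h1
  · exact Or.inl ((h2 _ _).1.trans h1)
  · exact Or.inr ⟨(h2 _ (X.pos i a)).2.trans h1.1, (h2 _ (X.pos i a)).2.trans h1.2⟩
theorem Le.van (h : Le Γ Γ') {T : Mat X Y} (hT : Γ.Van T) : Γ'.Van T := by
  intro η hη
  filter_upwards [(hT η hη).filter_mono h.1, h.2] with i h1 h2 b a hb
  exact ⟨(h2 _ (X.pos i a)).2.trans (h1 b a hb).1, (h2 _ (X.pos i a)).2.trans (h1 b a hb).2⟩
theorem Le.cls_rep (h : Le Γ Γ') {T : Mat X Y} (hT : Γ.Ctrl T) :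
    Γ'.cls (rep (Γ.cls T)) = Γ'.cls T :=
  (cls_eq_iff (h.ctrl (rep_ctrl _)) (h.ctrl hT)).2 (h.van (van_rep₀_sub hT))

/-- the restriction functor -/
noncomputable def res (h : Le Γ Γ') : DFun Γ.cat Γ'.cat where
  map f := Γ'.cls (rep f)
  map_add' f g := by
    obtain ⟨S, hS, rfl⟩ := cls_surj f
    obtain ⟨T, hT, rfl⟩ := cls_surj g
    rw [← cls_add hS hT, h.cls_rep (hS.add hT), h.cls_rep hS, h.cls_rep hT,
      cls_add (h.ctrl hS) (h.ctrl hT)]
  map_smul' c f := by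
    obtain ⟨S, hS, rfl⟩ := cls_surj f
    rw [← cls_smul c hS, h.cls_rep (hS.smul c), h.cls_rep hS, cls_smul c (h.ctrl hS)]
  map_comp' g f := by
    obtain ⟨S, hS, rfl⟩ := cls_surj g
    obtain ⟨T, hT, rfl⟩ := cls_surj f
    rw [cls_comp hS hT, h.cls_rep (hS.mul hT), h.cls_rep hS, h.cls_rep hT,
      cls_comp (h.ctrl hS) (h.ctrl hT)]
  map_id' X := h.cls_rep ctrl_one
  map_dag' f := by
    obtain ⟨S, hS, rfl⟩ := cls_surj f
    rw [cls_dag hS, h.cls_rep hS.ct, h.cls_rep hS, cls_dag (h.ctrl hS)]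
  map_inl' X Y := h.cls_rep ctrl_inlMat
  map_inr' X Y := h.cls_rep ctrl_inrMat
  map_adm' {X} d hd := by
    classical
    obtain ⟨T, hT, rfl⟩ := cls_surj d
    rw [h.cls_rep hT]
    intro w hw s t hst
    obtain ⟨S, hS, hS'⟩ := hd
      (fun i => if ∀ x y, w i x ≤ w i y + Γ.ρ i x y then w i else 0) (fun i x y => by
        split_ifs with hi
        · exact hi x y
        · simpa using Γ.ρ_nonneg i x y) s t hst
    refine ⟨S, ?_, ?_⟩
    · filter_upwards [hS.filter_mono h.1, h.2] with i h1 h2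
      rwa [if_pos fun x y => (hw i x y).trans (add_le_add le_rfl (h2 x y).1)] at h1
    · have hP := ctrl_projMat (Γ := Γ) S
      have hQ := ctrl_projMat (Γ := Γ) fun i => (S i)ᶜ
      change Γ.cls _ ⊚ Γ.cls T ⊚ Γ.cls _ = 0 at hS'
      change Γ'.cls _ ⊚ Γ'.cls T ⊚ Γ'.cls _ = 0
      rw [cls_comp hT hP, cls_comp hQ (hT.mul hP), cls_eq_zero_iff (hQ.mul (hT.mul hP))] at hS'
      rw [cls_comp (h.ctrl hT) (h.ctrl hP), cls_comp (h.ctrl hQ) (h.ctrl (hT.mul hP)),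
        cls_eq_zero_iff (h.ctrl (hQ.mul (hT.mul hP)))]
      exact h.van hS'

theorem res_cls (h : Le Γ Γ') {T : Mat X Y} (hT : Γ.Ctrl T) :
    (res h).map (Γ.cls T) = Γ'.cls T := h.cls_rep hT
theorem res_res (h : Le Γ Γ') (h' : Le Γ' Γ'') (f : Γ.cat.Hom X Y) :
    (res h').map ((res h).map f) = (res (h.trans h')).map f := by
  obtain ⟨T, hT, rfl⟩ := cls_surj f
  rw [res_cls h hT, res_cls h' (h.ctrl hT), res_cls (h.trans h') hT]
theorem res_proj (h : Le Γ Γ') (S : ∀ i, Set (X.V i)) :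
    (res h).map (Γ.proj X S) = Γ'.proj X S := res_cls h (ctrl_projMat S)
theorem res_full (h : Le Γ Γ') (hl : Γ.l ≤ Γ'.l)
    (hρ : ∀ᶠ i in Γ.l, ∀ x y, Γ.ρ i x y ≤ Γ'.ρ i x y) : (res h).Full := by
  classical
  intro X Y g
  obtain ⟨T, hT, rfl⟩ := cls_surj g
  set P : ℝ → ι → Prop := fun η i => ∀ b a, T i b a ≠ 0 →
    Γ'.ρ i (Y.pos i b) (X.pos i a) ≤ η ∨ (Γ'.u i (Y.pos i b) ≤ η ∧ Γ'.u i (X.pos i a) ≤ η) with hP
  set T' : Mat X Y := fun i => Matrix.of fun b a =>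
    if ∀ η, P η i → Γ.ρ i (Y.pos i b) (X.pos i a) ≤ η then T i b a else 0 with hT'
  have h1 : Γ.Ctrl T' := by
    intro η hη
    filter_upwards [(hT η hη).filter_mono hl] with i hi b a hb
    left
    by_contra hc
    exact hb (if_neg fun hh => hc (hh η hi))
  refine ⟨Γ.cls T', ?_⟩
  rw [res_cls h h1, cls_eq_iff (h.ctrl h1) hT]
  intro η hη
  filter_upwards [hT η hη, hρ.filter_mono h.1] with i hi h2 b a hb
  have h3 : ¬ ∀ η, P η i → Γ.ρ i (Y.pos i b) (X.pos i a) ≤ η := fun hh =>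
    hb (by simp only [hT', Pi.sub_apply, Matrix.sub_apply, Matrix.of_apply, if_pos hh, sub_self])
  have h4 : T i b a ≠ 0 := fun h0 =>
    hb (by simp only [hT', Pi.sub_apply, Matrix.sub_apply, Matrix.of_apply, h0, ite_self, sub_self])
  push Not at h3
  obtain ⟨η', h5, h6⟩ := h3
  have h7 := h6.trans_le (h2 _ _)
  rcases le_total η' η with h8 | h8
  · have := (h5 b a h4).resolve_left (not_le.2 h7)
    exact ⟨this.1.trans h8, this.2.trans h8⟩
  · exact (hi b a h4).resolve_left (not_le.2 (h8.trans_lt h7))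

variable (Γ) in
/-- restrict attention to the region `v > 0` -/
def restrict (v : ι → Z → ℝ) (hv : ∀ i x y, v i x ≤ v i y + Γ.ρ i x y) : Ctx ι Z :=
  { Γ with
    u := fun i x => min (Γ.u i x) (v i x)
    u_lip := fun i x y => by
      have h1 := Γ.u_lip i x y
      have h2 := hv i x y
      rcases le_total (Γ.u i y) (v i y) with h | h
      · rw [min_eq_left h]; exact (min_le_left _ _).trans h1
      · rw [min_eq_right h]; exact (min_le_right _ _).trans h2 }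

variable {v v₁ v₂ v₃ : ι → Z → ℝ}

theorem le_restrict (hv : ∀ i x y, v i x ≤ v i y + Γ.ρ i x y) : Le Γ (Γ.restrict v hv) :=
  ⟨le_rfl, Eventually.of_forall fun _ _ _ => ⟨le_rfl, min_le_left _ _⟩⟩
theorem restrict_full (hv : ∀ i x y, v i x ≤ v i y + Γ.ρ i x y) : (res (le_restrict hv)).Full :=
  res_full (le_restrict hv) le_rfl (Eventually.of_forall fun _ _ _ => le_rfl)

/-- morphisms whose source is cut down to the region `v ≥ θ` are detected in `Γ.restrict v` -/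
theorem comp_proj_eq_zero (hv : ∀ i x y, v i x ≤ v i y + Γ.ρ i x y) {S : ∀ i, Set (X.V i)} {θ : ℝ}
    (hθ : 0 < θ) (hS : ∀ᶠ i in Γ.l, ∀ a ∈ S i, θ ≤ v i (X.pos i a)) (f : Γ.cat.Hom X Y)
    (hf : (res (le_restrict hv)).map (f ⊚ Γ.proj X S) = 0) : f ⊚ Γ.proj X S = 0 := by
  obtain ⟨T, hT, rfl⟩ := cls_surj f
  have hP := ctrl_projMat (Γ := Γ) S
  rw [proj, cls_comp hT hP] at hf ⊢
  rw [res_cls _ (hT.mul hP), cls_eq_zero_iff ((le_restrict hv).ctrl (hT.mul hP))] at hf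
  rw [cls_eq_zero_iff (hT.mul hP)]
  refine (hT.mul hP).van_of_src fun η hη => ?_
  filter_upwards [hf (min η (θ / 2)) (lt_min hη (half_pos hθ)), hS] with i h1 h2 b a hb
  have h3 : a ∈ S i := by
    by_contra hc
    exact hb (by simp [projMat, Set.indicator_of_notMem hc])
  have h4 : min (Γ.u i (X.pos i a)) (v i (X.pos i a)) ≤ min η (θ / 2) := (h1 b a hb).2
  have h5 := h2 a h3
  rcases min_le_iff.1 h4 with h6 | h6
  · exact h6.trans (min_le_left _ _)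
  · linarith [min_le_right η (θ / 2)]

theorem bc2_of_min_le {a b η θ : ℝ} (hθ : 0 < θ) (h : min a b ≤ min η (θ / 2)) (hb : θ ≤ b) :
    a ≤ η := by
  rcases min_le_iff.1 h with h6 | h6
  · exact h6.trans (min_le_left _ _)
  · linarith [min_le_right η (θ / 2)]

theorem restrict_faithful₂ (h₁ : ∀ i x y, v₁ i x ≤ v₁ i y + Γ.ρ i x y)
    (h₂ : ∀ i x y, v₂ i x ≤ v₂ i y + Γ.ρ i x y) {θ : ℝ} (hθ : 0 < θ)
    (h : ∀ i x, θ ≤ v₁ i x ∨ θ ≤ v₂ i x) (f : Γ.cat.Hom X Y)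
    (hf₁ : (res (le_restrict h₁)).map f = 0) (hf₂ : (res (le_restrict h₂)).map f = 0) : f = 0 := by
  obtain ⟨T, hT, rfl⟩ := cls_surj f
  rw [res_cls _ hT, cls_eq_zero_iff ((le_restrict _).ctrl hT)] at hf₁ hf₂
  rw [cls_eq_zero_iff hT]
  refine hT.van_of_src fun η hη => ?_
  have hη' := lt_min hη (half_pos hθ)
  filter_upwards [hf₁ _ hη', hf₂ _ hη'] with i h1 h2 b a hb
  rcases h i (X.pos i a) with h3 | h3
  · exact bc2_of_min_le hθ (h1 b a hb).2 h3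
  · exact bc2_of_min_le hθ (h2 b a hb).2 h3
theorem restrict_faithful₃ (h₁ : ∀ i x y, v₁ i x ≤ v₁ i y + Γ.ρ i x y)
    (h₂ : ∀ i x y, v₂ i x ≤ v₂ i y + Γ.ρ i x y) (h₃ : ∀ i x y, v₃ i x ≤ v₃ i y + Γ.ρ i x y)
    {θ : ℝ} (hθ : 0 < θ) (h : ∀ i x, θ ≤ v₁ i x ∨ θ ≤ v₂ i x ∨ θ ≤ v₃ i x) (f : Γ.cat.Hom X Y)
    (hf₁ : (res (le_restrict h₁)).map f = 0) (hf₂ : (res (le_restrict h₂)).map f = 0)
    (hf₃ : (res (le_restrict h₃)).map f = 0) : f = 0 := by
  obtain ⟨T, hT, rfl⟩ := cls_surj f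
  rw [res_cls _ hT, cls_eq_zero_iff ((le_restrict _).ctrl hT)] at hf₁ hf₂ hf₃
  rw [cls_eq_zero_iff hT]
  refine hT.van_of_src fun η hη => ?_
  have hη' := lt_min hη (half_pos hθ)
  filter_upwards [hf₁ _ hη', hf₂ _ hη', hf₃ _ hη'] with i h1 h2 h3 b a hb
  rcases h i (X.pos i a) with h4 | h4 | h4
  · exact bc2_of_min_le hθ (h1 b a hb).2 h4
  · exact bc2_of_min_le hθ (h2 b a hb).2 h4
  · exact bc2_of_min_le hθ (h3 b a hb).2 h4

end Ctx
end Crest.Agent.R217
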