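import Crest.Agent.R217.BCat

/-! # Row 217, part B, layer 0: definitions (complexes, forms, surgery, cutting).
FIXED DEFINITIONS, do not edit.  All complexes are ungraded: an object with `d ⊚ d = 0`. -/

set_option autoImplicit false
open Complex

namespace Crest.Agent.R217

universe u v
variable {O : Type u} [Add O]

namespace DC
variable {𝒜 : DC.{u, v} O} {X Y : O}

/-- `(X, d)` is contractible. -/
def Contr (d : 𝒜.Hom X X) : Prop := ∃ h : 𝒜.Hom X X, d ⊚ h + h ⊚ d = 𝒜.id X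

/-- `f, g : (X, a) → (Y, b)` are homotopic. -/
def Htp (a : 𝒜.Hom X X) (b : 𝒜.Hom Y Y) (f g : 𝒜.Hom X Y) : Prop :=
  ∃ h : 𝒜.Hom X Y, f - g = b ⊚ h + h ⊚ a

/-- `f : (X, a) → (Y, b)` is a chain map and a homotopy equivalence. -/
def IsEqv (a : 𝒜.Hom X X) (b : 𝒜.Hom Y Y) (f : 𝒜.Hom X Y) : Prop :=
  f ⊚ a = b ⊚ f ∧ ∃ g : 𝒜.Hom Y X, g ⊚ b = a ⊚ g ∧
    Htp a a (g ⊚ f) (𝒜.id X) ∧ Htp b b (f ⊚ g) (𝒜.id Y)

/-- `1 - d h - h d` -/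
def rho (d h : 𝒜.Hom X X) : 𝒜.Hom X X := 𝒜.id X - d ⊚ h - h ⊚ d

end DC

open DC

/-- A complex with a hermitian form (data only). -/
structure Form (𝒜 : DC.{u, v} O) : Type (max u v) where
  V : O
  d : 𝒜.Hom V V
  φ : 𝒜.Hom V V

namespace Form
variable {𝒜 ℬ : DC.{u, v} O}

structure IsForm (D : Form 𝒜) : Prop where
  dd : D.d ⊚ D.d = 0
  herm : D.φ† = D.φ
  comm : D.φ ⊚ D.d = D.d† ⊚ D.φ
  adm : 𝒜.adm D.d

/-- Poincaré complexes. -/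
structure Poinc (D : Form 𝒜) : Prop where
  isForm : D.IsForm
  eqv : IsEqv D.d D.d† D.φ

/-- orthogonal sum -/
@[reducible] def add (D E : Form 𝒜) : Form 𝒜 := ⟨D.V + E.V, blk D.d 0 0 E.d, blk D.φ 0 0 E.φ⟩
@[reducible] def neg (D : Form 𝒜) : Form 𝒜 := ⟨D.V, D.d, -D.φ⟩
@[reducible] def map (F : DFun 𝒜 ℬ) (D : Form 𝒜) : Form ℬ := ⟨D.V, F.map D.d, F.map D.φ⟩

/-- algebraic boundary -/
@[reducible] def bd (D : Form 𝒜) : Form 𝒜 :=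
  ⟨D.V + D.V, blk (I • D.d) 0 D.φ (-I • D.d†), blk 0 (𝒜.id D.V) (𝒜.id D.V) 0⟩

/-- isotropic data in `D` -/
structure Iso (D : Form 𝒜) : Type (max u v) where
  Λ : O
  e : 𝒜.Hom Λ Λ
  j : 𝒜.Hom Λ D.V
  T : 𝒜.Hom Λ Λ

structure Iso.IsIso {D : Form 𝒜} (L : D.Iso) : Prop where
  ee : L.e ⊚ L.e = 0
  adm : 𝒜.adm L.e
  chain : L.j ⊚ L.e = D.d ⊚ L.j
  herm : L.T† = L.T
  null : L.j† ⊚ D.φ ⊚ L.j = L.T ⊚ L.e + L.e† ⊚ L.T

@[reducible] def Iso.map (F : DFun 𝒜 ℬ) {D : Form 𝒜} (L : D.Iso) : (D.map F).Iso :=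
  ⟨L.Λ, F.map L.e, F.map L.j, F.map L.T⟩

/-- algebraic surgery -/
@[reducible] def surg (D : Form 𝒜) (L : D.Iso) : Form 𝒜 :=
  ⟨L.Λ + (D.V + L.Λ), blk3 (-L.e) 0 0 L.j D.d 0 L.T (L.j† ⊚ D.φ) (-L.e†),
    blk3 0 0 (𝒜.id L.Λ) 0 D.φ 0 (𝒜.id L.Λ) 0 0⟩

/-- `D` has a Lagrangian. -/
def Neutral (D : Form 𝒜) : Prop := ∃ L : D.Iso, L.IsIso ∧ Contr (D.surg L).d

/-- the form `sym (φ (2E - 1))` attached to a homotopy idempotent `E` -/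
@[reducible] noncomputable def idem (D : Form 𝒜) (E : 𝒜.Hom D.V D.V) : Form 𝒜 :=
  ⟨D.V, D.d, D.φ ⊚ E + E† ⊚ D.φ - D.φ⟩

/-- the boundary of `D` with the sign of the form flipped on the left; `h` contracts the boundary
in the middle -/
@[reducible] def cut (sg : ∀ X : O, 𝒜.Hom X X) (D : Form 𝒜) (h : 𝒜.Hom (D.V + D.V) (D.V + D.V)) :
    Form 𝒜 :=
  ⟨D.V + D.V, D.bd.d, (rho D.bd.d h)† ⊚ D.bd.φ ⊚ sg (D.V + D.V) ⊚ rho D.bd.d h⟩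

end Form

/-- A cover of `𝒜` by a right, a left and a middle quotient, adapted to the sign operators `sg`. -/
structure Cover3 (𝒜 : DC.{u, v} O) (sg : ∀ X : O, 𝒜.Hom X X) : Type (max u (v + 1)) where
  R : DC.{u, v} O
  L : DC.{u, v} O
  M : DC.{u, v} O
  FR : DFun 𝒜 R
  FL : DFun 𝒜 L
  FM : DFun 𝒜 M
  fullR : FR.Full
  fullL : FL.Full
  fullM : FM.Full
  sgR : ∀ X, FR.map (sg X) = R.id X
  sgL : ∀ X, FL.map (sg X) = -L.id X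
  faithful : ∀ {X Y : O} (f : 𝒜.Hom X Y), FR.map f = 0 → FL.map f = 0 → FM.map f = 0 → f = 0

end Crest.Agent.R217
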