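import Crest.Agent.R217.BSigDefs

/-! # Row 217, part B: existence of cut data, cuts of neutral complexes are neutral.
Notation: `F t = res (strip_le_mid k t)` (full), `G t = res (ctx_le_mid k _)`.
* `exists_ext`: by `adm_iff` for `w = |c k|` and thresholds `t < t'` (`t < t' < t₁`) get `S`;
  `P = (strip k).proj X S`; lift `G t₁ e` along the full functor `F t₁` to `ẽ`; `e_S = ẽ ⊚ P`.
  Morphisms of the form `f ⊚ P` are detected by `F t₁` (`Ctx.comp_proj_eq_zero`), `F t P = 1`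
  (`proj_eq_id`).  `adm e_S`: for `w` and thresholds take the subcomplex `Q` of `e` in `ctx (k+1)` (same
  metric as the strip); `Q ẽ P Q - ẽ P Q = (Q ẽ Q - ẽ Q) P` since projections commute.
* `exists_isCut`: `d_S = e_S` for `e = D.d`, `φ_S = P φ̃ P` with `φ̃` a symmetrised lift; the boundary is
  contractible in the middle by `Poinc.contr_bd`, lift the contraction (`exists_rho_map_eq_zero`).
* `IsCut.neutral`: `L = (Λ,e,j,T)` Lagrangian of `D`; `0 < t₀ < t`; `exists_ext` for `e` with `t₁ = t`;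
  `j_S = j̃ P`, `T_S = P T̃ P`; this is isotropic for `(d, φ)` in the strip (check under `F t`), and under
  `F t₀` its surgery is the image of the surgery of `L`; apply `Form.cut_neutral` with
  `σ.cover k (a := t₀/2) (t := t₀)` (use `res_res`, `mid_le_mid`). -/

set_option autoImplicit false
open Filter Matrix

namespace Crest.Agent.R217
namespace SCtx
open DC Ctx
variable {ι Z : Type} (σ : SCtx ι Z) {k : ℕ}

theorem bsc_lip (i : ι) (x y : Z) : |σ.c i x k| ≤ |σ.c i y k| + (σ.ctx (k + 1)).ρ i x y := by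
  have h := σ.lipM k 0 i y x
  rw [(σ.strip k).ρ_comm] at h
  change _ ≤ _ + (σ.strip k).ρ i x y
  linarith

theorem bsc_F {X Y : Obj ι Z} {t t₁ : ℝ} (h : t ≤ t₁) (f : (σ.strip k).cat.Hom X Y) :
    (res (σ.mid_le_mid k h)).map ((res (σ.strip_le_mid k t₁)).map f) =
      (res (σ.strip_le_mid k t)).map f := res_res _ _ f

theorem bsc_G {X Y : Obj ι Z} {t t₁ : ℝ} (h : t ≤ t₁) (h₁ : t₁ ≤ σ.R)
    (f : (σ.ctx (k + 1)).cat.Hom X Y) :
    (res (σ.mid_le_mid k h)).map ((res (σ.ctx_le_mid k h₁)).map f) =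
      (res (σ.ctx_le_mid k (h.trans h₁))).map f := res_res _ _ f

theorem bsc_full (t : ℝ) : (res (σ.strip_le_mid k t)).Full := Ctx.restrict_full (σ.lipM k t)

/-- hermitian morphisms have hermitian lifts -/
theorem bsc_lift_herm {O : Type 1} [Add O] {𝒜 ℬ : DC.{1, 0} O} (F : DFun 𝒜 ℬ) (hF : F.Full) {X : O}
    {g : ℬ.Hom X X} (hg : g† = g) : ∃ f : 𝒜.Hom X X, f† = f ∧ F.map f = g := by
  obtain ⟨f, hf⟩ := hF g
  refine ⟨(1 / 2 : ℂ) • (f + f†), by simp [add_comm, map_ofNat], ?_⟩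
  simp only [DFun.map_smul, DFun.map_add, DFun.map_dag, hf, hg]
  module

theorem bsc_ext {O : Type 1} [Add O] {𝒜 ℬ : DC.{1, 0} O} (F : DFun 𝒜 ℬ) {X : O} {P : 𝒜.Hom X X}
    (hdet : ∀ {Y : O} (f : 𝒜.Hom X Y), F.map (f ⊚ P) = 0 → f ⊚ P = 0) {Y : O} {f g : 𝒜.Hom X Y}
    (hf : f ⊚ P = f) (hg : g ⊚ P = g) (h : F.map f = F.map g) : f = g := by
  have := hdet (f - g) (by rw [sub_comp, hf, hg, F.map_sub, h, sub_self])
  rwa [sub_comp, hf, hg, sub_eq_zero] at this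

theorem exists_ext {X : Obj ι Z} (e : (σ.ctx (k + 1)).cat.Hom X X) (hee : e ⊚ e = 0)
    (hadm : (σ.ctx (k + 1)).cat.adm e) {t t₁ : ℝ} (htt : t < t₁) (ht₁ : t₁ ≤ σ.R) :
    ∃ P eS : (σ.strip k).cat.Hom X X, P† = P ∧ P ⊚ P = P ∧ eS ⊚ P = eS ∧ P ⊚ eS = eS ∧
      eS ⊚ eS = 0 ∧ (σ.strip k).cat.adm eS ∧
      (res (σ.strip_le_mid k t)).map P = (σ.mid k t).cat.id X ∧
      (res (σ.strip_le_mid k t₁)).map eS =
        (res (σ.ctx_le_mid k ht₁)).map e ⊚ (res (σ.strip_le_mid k t₁)).map P ∧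
      ∀ {Y : Obj ι Z} (f : (σ.strip k).cat.Hom X Y),
        (res (σ.strip_le_mid k t₁)).map (f ⊚ P) = 0 → f ⊚ P = 0 := by
  obtain ⟨S, hS, hSe⟩ := (adm_iff e).1 hadm (fun i x => |σ.c i x k|) σ.bsc_lip t ((t + t₁) / 2)
    (by linarith)
  obtain ⟨e', he'⟩ := σ.bsc_full t₁ ((res (σ.ctx_le_mid k ht₁)).map e)
  have hdet : ∀ {Y : Obj ι Z} (f : (σ.strip k).cat.Hom X Y),
      (res (σ.strip_le_mid k t₁)).map (f ⊚ (σ.strip k).proj X S) = 0 →
        f ⊚ (σ.strip k).proj X S = 0 := fun f hf =>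
    comp_proj_eq_zero (σ.lipM k t₁) (θ := (t₁ - t) / 2) (by linarith)
      (hS.mono fun i hi a ha => by have := (hi a).2 ha; linarith) f hf
  have hPP := proj_idem (Γ := σ.strip k) S
  have hFG : ∀ Q : ∀ i, Set (X.V i), (res (σ.strip_le_mid k t₁)).map ((σ.strip k).proj X Q) =
      (res (σ.ctx_le_mid k ht₁)).map ((σ.ctx (k + 1)).proj X Q) := fun Q => by
    rw [res_proj, res_proj]
  have h1 : (σ.strip k).proj X S ⊚ e' ⊚ (σ.strip k).proj X S = e' ⊚ (σ.strip k).proj X S := by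
    refine bsc_ext _ hdet (by simp [hPP]) (by simp [hPP]) ?_
    simp only [DFun.map_comp, hFG, he']
    simpa using congrArg (res (σ.ctx_le_mid k ht₁)).map hSe
  refine ⟨(σ.strip k).proj X S, e' ⊚ (σ.strip k).proj X S, proj_dag S, hPP, by simp [hPP], h1,
    ?_, ?_, ?_, by simp [he'], hdet⟩
  · rw [comp_assoc, h1, ← comp_assoc]
    refine hdet _ ?_
    simp only [DFun.map_comp, he']
    rw [← DFun.map_comp, hee]
    simp
  · refine (adm_iff _).2 fun w hw s s' hs => ?_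
    obtain ⟨Q, hQ, hQe⟩ := (adm_iff e).1 hadm w hw s s' hs
    refine ⟨Q, hQ, ?_⟩
    have hc : (σ.strip k).proj X S ⊚ (σ.strip k).proj X Q =
        (σ.strip k).proj X Q ⊚ (σ.strip k).proj X S := by
      rw [proj_comp, proj_comp]
      simp only [Set.inter_comm]
    simp only [comp_assoc, hc]
    refine bsc_ext _ hdet (by simp [hPP]) (by simp [hPP]) ?_
    simp only [DFun.map_comp, hFG, he']
    have := congrArg (res (σ.ctx_le_mid k ht₁)).map hQe
    simp only [DFun.map_comp] at this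
    rw [← comp_assoc _ _ ((res (σ.ctx_le_mid k ht₁)).map ((σ.ctx (k + 1)).proj X S)),
      ← comp_assoc, this]
  · rw [res_proj]
    refine proj_eq_id (hS.mono fun i hi a ha => (hi a).1 ?_)
    have : 0 < t - |σ.c i (X.pos i a) k| := (lt_min_iff.1 ha).2
    linarith

variable {D : Form (σ.ctx (k + 1)).cat}

theorem exists_isCut (hD : D.Poinc) {t : ℝ} (ht : 0 < t) (htR : t < σ.R) :
    ∃ d φ h, σ.IsCut k D t d φ h := by
  obtain ⟨P, d, hP, hPP, hdP, hPd, hdd, hadm, hFP, hFd, hdet⟩ :=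
    σ.exists_ext D.d hD.isForm.dd hD.isForm.adm htR le_rfl
  obtain ⟨φ, hφ, hFφ⟩ := bsc_lift_herm _ (σ.bsc_full σ.R)
    (g := (res (σ.ctx_le_mid k le_rfl)).map D.φ) (by rw [← DFun.map_dag, hD.isForm.herm])
  have hdP' : P ⊚ d† = d† := by simpa [hP] using dag_congr hdP
  have hPd' : d† ⊚ P = d† := by simpa [hP] using dag_congr hPd
  have h1 : (res (σ.strip_le_mid k t)).map d = (res (σ.ctx_le_mid k htR.le)).map D.d := by
    rw [← σ.bsc_F htR.le, hFd, DFun.map_comp, σ.bsc_F htR.le, σ.bsc_G htR.le le_rfl, hFP, comp_id]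
  have h2 : (res (σ.strip_le_mid k t)).map (P ⊚ φ ⊚ P) =
      (res (σ.ctx_le_mid k htR.le)).map D.φ := by
    rw [DFun.map_comp, DFun.map_comp, hFP, comp_id, id_comp, ← σ.bsc_F htR.le, hFφ,
      σ.bsc_G htR.le le_rfl]
  have h3 : Contr ((res (σ.strip_le_mid k t)).map (Form.bd ⟨D.V, d, P ⊚ φ ⊚ P⟩).d) := by
    convert (hD.map (res (σ.ctx_le_mid k htR.le))).contr_bd using 1
    generalize P ⊚ φ ⊚ P = ψ at h2
    simp [h1, h2]
  obtain ⟨h, hh⟩ := exists_rho_map_eq_zero _ (σ.bsc_full t) h3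
  refine ⟨d, P ⊚ φ ⊚ P, h, ht, htR.le, ⟨hdd, by simp [hP, hφ], ?_, hadm⟩, h1, h2, hh⟩
  simp only [comp_assoc, hPd, reassoc hPd']
  refine bsc_ext _ hdet (by simp [hdP]) (by simp [hPP]) ?_
  have hc := congrArg (res (σ.ctx_le_mid k le_rfl)).map hD.isForm.comm
  have hP' := congrArg (res (σ.strip_le_mid k σ.R)).map hP
  simp only [DFun.map_comp, DFun.map_dag] at hc hP'
  simp [hFd, hFφ, hP', reassoc hc]

variable {σ} {t : ℝ} {d φ : (σ.strip k).cat.Hom D.V D.V}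
  {h : (σ.strip k).cat.Hom (D.V + D.V) (D.V + D.V)}

theorem IsCut.mono (hc : σ.IsCut k D t d φ h) {t' : ℝ} (ht' : 0 < t') (htt : t' ≤ t) :
    σ.IsCut k D t' d φ h := by
  refine ⟨ht', htt.trans hc.le, hc.isForm, ?_, ?_, ?_⟩
  · rw [← σ.bsc_F htt, hc.d_eq, σ.bsc_G htt hc.le]
  · rw [← σ.bsc_F htt, hc.φ_eq, σ.bsc_G htt hc.le]
  · rw [← σ.bsc_F htt, hc.rho_eq, DFun.map_zero]
theorem IsCut.poinc (hc : σ.IsCut k D t d φ h) : (σ.cutForm k D.V d φ h).Poinc := by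
  exact (Form.cut_poinc (σ.cover k (half_pos hc.pos) (half_lt_self hc.pos)) hc.isForm
    hc.rho_eq).map _
theorem IsCut.neutral (hc : σ.IsCut k D t d φ h) (hD : D.Poinc) (hn : D.Neutral) :
    (σ.cutForm k D.V d φ h).Neutral := by
  obtain ⟨L, hL, hcon⟩ := hn
  have ht := hc.pos
  have h₀ : t / 2 ≤ t := (half_lt_self ht).le
  obtain ⟨P, e, hP, hPP, heP, hPe, hee, hadm, hFP, hFe, hdet⟩ :=
    σ.exists_ext L.e hL.ee hL.adm (half_lt_self ht) hc.le
  obtain ⟨T, hT, hFT⟩ := bsc_lift_herm _ (σ.bsc_full t)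
    (g := (res (σ.ctx_le_mid k hc.le)).map L.T) (by rw [← DFun.map_dag, hL.herm])
  obtain ⟨j, hFj⟩ := σ.bsc_full t ((res (σ.ctx_le_mid k hc.le)).map L.j)
  have hPe' : e† ⊚ P = e† := by simpa [hP] using dag_congr hPe
  have hP' := congrArg (res (σ.strip_le_mid k t)).map hP
  have hLG := hL.map (res (σ.ctx_le_mid k hc.le))
  have h1 := hLG.chain
  have h2 := congrArg (· ⊚ (res (σ.strip_le_mid k t)).map P) hLG.null
  simp only [DFun.map_dag, comp_assoc, add_comp] at hP' h1 h2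
  have hI : Form.Iso.IsIso (D := ⟨D.V, d, φ⟩) ⟨L.Λ, e, j ⊚ P, P ⊚ T ⊚ P⟩ := by
    refine ⟨hee, hadm, ?_, by simp [hP, hT], ?_⟩
    · simp only [comp_assoc, hPe]
      refine bsc_ext _ hdet (by simp [heP]) (by simp [hPP]) ?_
      simp [hFe, hFj, hc.d_eq, reassoc h1]
    · simp only [comp_assoc, hPe, reassoc hPe', dag_comp, hP]
      refine bsc_ext _ hdet (by simp [hPP]) (by simp [hPP, heP]) ?_
      simp [hFe, hFj, hFT, hc.φ_eq, hP', h2]
  have hc' := hc.mono (half_pos ht) h₀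
  have e1 : (res (σ.strip_le_mid k (t / 2))).map e = (res (σ.ctx_le_mid k hc'.le)).map L.e := by
    rw [← σ.bsc_F h₀, hFe, DFun.map_comp, σ.bsc_F h₀, σ.bsc_G h₀ hc.le, hFP, comp_id]
  have e2 : (res (σ.strip_le_mid k (t / 2))).map j = (res (σ.ctx_le_mid k hc'.le)).map L.j := by
    rw [← σ.bsc_F h₀, hFj, σ.bsc_G h₀ hc.le]
  have e3 : (res (σ.strip_le_mid k (t / 2))).map T = (res (σ.ctx_le_mid k hc'.le)).map L.T := by
    rw [← σ.bsc_F h₀, hFT, σ.bsc_G h₀ hc.le]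
  refine (Form.cut_neutral (σ.cover k (half_pos (half_pos ht)) (half_lt_self (half_pos ht)))
    hc.isForm hc'.rho_eq hI ?_ ?_).map _
  · change Form.Poinc ⟨D.V, (res (σ.strip_le_mid k (t / 2))).map d,
      (res (σ.strip_le_mid k (t / 2))).map φ⟩
    rw [hc'.d_eq, hc'.φ_eq]
    exact hD.map _
  · change Contr ((res (σ.strip_le_mid k (t / 2))).map _)
    convert hcon.map (res (σ.ctx_le_mid k hc'.le)) using 1
    simp [e1, e2, e3, hFP, hc'.d_eq, hc'.φ_eq]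

end SCtx
end Crest.Agent.R217
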