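import Crest.Agent.R217.BSigZero
import Crest.Agent.R217.BSigCut

/-! # Row 217, part B: the iterated-cut signature is a signature theory; monotonicity.
* `sigThy_succ`: `ex` from `exists_isCut` (`t = R/2`) and `IsCut.poinc`; `add`: shrink both cuts to
  `t = min t₁ t₂` (`IsCut.mono`), `Form.cut_add` with `σ.cover k (a := t/2)` gives cut data for the sum and
  a cobordism in the strip, map it to `ctx k` (`Neutral.map`, `Form.map_add`, `map_neg`) and use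
  `SigThy.transfer`; `neg` likewise with `Form.cut_neg`; `neutral` from `IsCut.neutral`.
* `hasSig_mono`: induction on `k`.  Choose cut data in `σ` with `t < σ'.R`, compare with `s` by
  uniqueness in `σ`, map the cut data by `res` (strip of `σ` to strip of `σ'`; `res` sends `σ.sg k X` to
  `σ'.sg k X` because the coordinates agree eventually; `res_res` for the squares of functors). -/

set_option autoImplicit false
open Filter Matrix

namespace Crest.Agent.R217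
namespace SCtx
open DC Ctx
variable {ι Z : Type} (σ : SCtx ι Z)

theorem sigThy_succ (k : ℕ) (hk : SigThy (σ.ctx k).cat σ.l (σ.HasSig k)) :
    SigThy (σ.ctx (k + 1)).cat σ.l (σ.HasSig (k + 1)) := by
  refine ⟨fun {D s s'} h h' => ?_, fun {D} hD => ?_, fun {D E s s'} _ _ h h' => ?_,
    fun {D s} _ h => ?_, fun {D s} hD hn h => ?_⟩
  · obtain ⟨t, d, φ, h, hc, hs⟩ := h
    exact ⟨t, d, φ, h, hc, hk.congr hs h'⟩
  · obtain ⟨d, φ, h, hc⟩ := σ.exists_isCut hD (half_pos σ.R_pos) (half_lt_self σ.R_pos)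
    obtain ⟨s, hs⟩ := hk.ex hc.poinc
    exact ⟨s, _, d, φ, h, hc, hs⟩
  · obtain ⟨t₁, d₁, φ₁, h₁, hc₁, hs₁⟩ := h
    obtain ⟨t₂, d₂, φ₂, h₂, hc₂, hs₂⟩ := h'
    have ht : 0 < min t₁ t₂ := lt_min hc₁.pos hc₂.pos
    replace hc₁ := hc₁.mono ht (min_le_left _ _)
    replace hc₂ := hc₂.mono ht (min_le_right _ _)
    obtain ⟨m, hm, hn⟩ := Form.cut_add (σ.cover k (half_pos ht) (half_lt_self ht)) hc₁.isForm
      hc₂.isForm hc₁.rho_eq hc₂.rho_eq
    have hc : σ.IsCut k (D.add E) (min t₁ t₂) (blk d₁ 0 0 d₂) (blk φ₁ 0 0 φ₂) m :=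
      ⟨ht, hc₁.le, hc₁.isForm.add hc₂.isForm, by simp [hc₁.d_eq, hc₂.d_eq],
        by simp [hc₁.φ_eq, hc₂.φ_eq], hm⟩
    refine ⟨_, _, _, m, hc, hk.transfer (hc₁.poinc.add hc₂.poinc) hc.poinc ?_
      (hk.add hc₁.poinc hc₂.poinc hs₁ hs₂)⟩
    have := hn.map (res (σ.strip_le_ctx k))
    rwa [Form.map_add, Form.map_add, Form.map_neg] at this
  · obtain ⟨t, d, φ, h, hc, hs⟩ := h
    obtain ⟨m, hm, hn⟩ := Form.cut_neg (σ.cover k (half_pos hc.pos) (half_lt_self hc.pos))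
      hc.isForm hc.rho_eq
    have hc' : σ.IsCut k D.neg t d (-φ) m :=
      ⟨hc.pos, hc.le, hc.isForm.neg, hc.d_eq, by simp [hc.φ_eq], hm⟩
    refine ⟨_, _, _, m, hc', hk.transfer hc.poinc.neg hc'.poinc ?_ (hk.neg hc.poinc hs)⟩
    have := hn.map (res (σ.strip_le_ctx k))
    rwa [Form.map_add, Form.map_neg, Form.map_neg] at this
  · obtain ⟨t, d, φ, h, hc, hs⟩ := h
    exact hk.neutral hc.poinc (hc.neutral hD hn) hs

theorem sigThy (k : ℕ) : SigThy (σ.ctx k).cat σ.l (σ.HasSig k) := by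
  induction k with
  | zero => exact σ.sigThy_zero
  | succ k ih => exact σ.sigThy_succ k ih

/-- `σ'` has a finer filter, a smaller radius and eventually the same coordinates -/
def Le (σ σ' : SCtx ι Z) : Prop := σ'.l ≤ σ.l ∧ σ'.R ≤ σ.R ∧ ∀ᶠ i in σ'.l, σ'.c i = σ.c i

variable {σ} {σ' : SCtx ι Z}

theorem Le.ctx₂ (h : Le σ σ') (k m : ℕ) (hm : m ≤ k) :
    Ctx.Le (σ.ctx₂ k m hm) (σ'.ctx₂ k m hm) := by
  refine ⟨h.1, h.2.2.mono fun i hi x y => ?_⟩
  have e : ∀ n z, σ'.co n i z = σ.co n i z := fun n z => by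
    funext a
    simp only [co, hi]
  change ‖σ'.co k i x - σ'.co k i y‖ ≤ ‖σ.co k i x - σ.co k i y‖ ∧
    σ'.R - ‖σ'.co m i x‖ ≤ σ.R - ‖σ.co m i x‖
  simp only [e]
  exact ⟨le_rfl, sub_le_sub_right h.2.1 _⟩
theorem Le.ctx (h : Le σ σ') (k : ℕ) : Ctx.Le (σ.ctx k) (σ'.ctx k) := h.ctx₂ k k le_rfl

theorem Le.bsig_strip (h : Le σ σ') (k : ℕ) : Ctx.Le (σ.strip k) (σ'.strip k) :=
  h.ctx₂ (k + 1) k (Nat.le_succ k)

theorem Le.bsig_mid (h : Le σ σ') (k : ℕ) (t : ℝ) : Ctx.Le (σ.mid k t) (σ'.mid k t) := by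
  refine ⟨h.1, ?_⟩
  filter_upwards [(h.bsig_strip k).2, h.2.2] with i h1 h2 x y
  refine ⟨(h1 x y).1, min_le_min (h1 x y).2 ?_⟩
  simp only [h2, le_refl]

theorem Le.bsig_sg (h : Le σ σ') (k : ℕ) (X : Obj ι Z) :
    (res (h.bsig_strip k)).map (σ.sg k X) = σ'.sg k X := by
  rw [sg, res_cls _ (ctrl_diagonal _), sg]
  refine cls_congr (ctrl_diagonal _) (h.2.2.mono fun i hi => ?_)
  rw [hi]

theorem bsig_map_cut {O : Type 1} [Add O] {𝒜 ℬ : DC.{1, 0} O} (F : DFun 𝒜 ℬ)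
    {sg : ∀ X : O, 𝒜.Hom X X} {sg' : ∀ X : O, ℬ.Hom X X} (hsg : ∀ X, F.map (sg X) = sg' X)
    (D : Form 𝒜) (h : 𝒜.Hom (D.V + D.V) (D.V + D.V)) :
    (D.cut sg h).map F = (D.map F).cut sg' (F.map h) := by
  have e1 : F.map D.bd.d = (D.map F).bd.d := by simp
  have e2 : F.map D.bd.φ = (D.map F).bd.φ := by simp
  change Form.mk _ _ _ = Form.mk _ _ _
  congr 1
  rw [DFun.map_comp, DFun.map_comp, DFun.map_comp, DFun.map_dag, map_rho, hsg, e1, e2]

theorem bsig_map_map {Γ₁ Γ₂ Γ₃ : Ctx ι Z} (h₁ : Ctx.Le Γ₁ Γ₂) (h₂ : Ctx.Le Γ₂ Γ₃) (D : Form Γ₁.cat) :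
    (D.map (res h₁)).map (res h₂) = D.map (res (h₁.trans h₂)) := by
  change Form.mk _ _ _ = Form.mk _ _ _
  rw [res_res, res_res]

theorem hasSig_mono (h : Le σ σ') (k : ℕ) {D : Form (σ.ctx k).cat} (hD : D.Poinc) {s : ι → ℤ}
    (hs : σ.HasSig k D s) : σ'.HasSig k (D.map (res (h.ctx k))) s := by
  induction k with
  | zero => exact (σ'.hasSig_zero_cls _ _ s).2 (Eventually.filter_mono h.1 hs)
  | succ k ih =>
    obtain ⟨t, d, φ, m, hc, hs⟩ := hs
    have ht : 0 < min t σ'.R := lt_min hc.pos σ'.R_pos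
    replace hc := hc.mono ht (min_le_left _ _)
    have key : ∀ {X Y : Obj ι Z} (f : (σ.strip k).cat.Hom X Y),
        (res (σ'.strip_le_mid k (min t σ'.R))).map ((res (h.bsig_strip k)).map f) =
          (res (h.bsig_mid k _)).map ((res (σ.strip_le_mid k (min t σ'.R))).map f) := fun f => by
      rw [res_res, res_res]
    refine ⟨min t σ'.R, (res (h.bsig_strip k)).map d, (res (h.bsig_strip k)).map φ,
      (res (h.bsig_strip k)).map m, ⟨ht, min_le_right _ _, hc.isForm.map _, ?_, ?_, ?_⟩, ?_⟩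
    · rw [key, hc.d_eq, res_res, res_res]
    · rw [key, hc.φ_eq, res_res, res_res]
    · have e : (Form.bd ⟨D.V, (res (h.bsig_strip k)).map d, (res (h.bsig_strip k)).map φ⟩).d =
          (res (h.bsig_strip k)).map (Form.bd ⟨D.V, d, φ⟩).d := by simp
      rw [e, ← map_rho, key, hc.rho_eq, DFun.map_zero]
    · have := ih hc.poinc hs
      rw [bsig_map_map] at this
      have e := bsig_map_cut (res (h.bsig_strip k)) (h.bsig_sg k) ⟨D.V, d, φ⟩ m
      change σ'.HasSig k ((Form.cut (σ'.sg k) (Form.map (res (h.bsig_strip k)) ⟨D.V, d, φ⟩)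
        ((res (h.bsig_strip k)).map m)).map (res (σ'.strip_le_ctx k))) s
      rwa [← e, bsig_map_map]

end SCtx
end Crest.Agent.R217
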