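import Mathlib

/-! # Row 217, part B: the signature of a hermitian form on the cycles of a finite complex.
Recipe: `sig d φ = sigPos Q - sigNeg Q` (Mathlib `QuadraticForm.sigPos`, file
`LinearAlgebra/QuadraticForm/Signature.lean`) for the real quadratic form `Q x = re (star x ⬝ᵥ φ *ᵥ x)`
restricted to the real subspace `K = ker d`.  `add`: `K = K₁ × K₂`; diagonalise
(`equivalent_weightedSumSquares`) or use `sigPos_add_sigNeg_add_radical` with the two inequalities.
`neutral`: `L = j (ker e) ⊆ K` is isotropic, `im d ⊆ radical`, and if `x ∈ K` is `φ`-orthogonal to `L`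
then `jᴴ φ x ∈ (ker e)^⊥ = im eᴴ`, so `(0, x, μ)` is a cycle of the surgery complex, hence a boundary,
hence `x ∈ L + im d`.  (Real-orthogonal to the complex subspace `L` = complex-orthogonal.)  So
`L + rad = L^⊥` and counting dimensions (`sigPos_add_finrank_le_of_nonpos` for `Q` and `-Q`, and
`sigPos_add_sigNeg_add_radical`) gives `sigPos = sigNeg`. -/

set_option autoImplicit false
open Matrix

namespace Crest.Agent.R217

structure Sig0 : Type 1 where
  sig : ∀ {n : Type} [Fintype n] [DecidableEq n], Matrix n n ℂ → Matrix n n ℂ → ℤ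
  add : ∀ {m n : Type} [Fintype m] [DecidableEq m] [Fintype n] [DecidableEq n]
    (d φ : Matrix m m ℂ) (d' φ' : Matrix n n ℂ), φᴴ = φ → φ'ᴴ = φ' →
    sig (fromBlocks d 0 0 d') (fromBlocks φ 0 0 φ') = sig d φ + sig d' φ'
  neg : ∀ {n : Type} [Fintype n] [DecidableEq n] (d φ : Matrix n n ℂ), sig d (-φ) = -sig d φ
  neutral : ∀ {m n : Type} [Fintype m] [DecidableEq m] [Fintype n] [DecidableEq n]
    (d φ : Matrix n n ℂ) (e T : Matrix m m ℂ) (j : Matrix n m ℂ)
    (H : Matrix (m ⊕ (n ⊕ m)) (m ⊕ (n ⊕ m)) ℂ),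
    d * d = 0 → φᴴ = φ → φ * d = dᴴ * φ → e * e = 0 → j * e = d * j → Tᴴ = T →
    jᴴ * φ * j = T * e + eᴴ * T →
    fromBlocks (-e) 0 (fromRows j T) (fromBlocks d 0 (jᴴ * φ) (-eᴴ)) * H +
      H * fromBlocks (-e) 0 (fromRows j T) (fromBlocks d 0 (jᴴ * φ) (-eᴴ)) = 1 →
    sig d φ = 0
  point : sig (0 : Matrix Unit Unit ℂ) 1 ≠ 0

/-! ### Abstract facts on signatures -/

section BSig0Aux

open QuadraticMap Module

theorem bsig_finrank_prod {V W : Type} [AddCommGroup V] [Module ℝ V] [FiniteDimensional ℝ V]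
    [AddCommGroup W] [Module ℝ W] [FiniteDimensional ℝ W] (A : Submodule ℝ V)
    (B : Submodule ℝ W) : finrank ℝ (A.prod B) = finrank ℝ A + finrank ℝ B := by
  let e : (A.prod B) ≃ₗ[ℝ] A × B :=
    { toFun := fun x => (⟨x.1.1, x.2.1⟩, ⟨x.1.2, x.2.2⟩)
      invFun := fun y => ⟨(y.1.1, y.2.1), y.1.2, y.2.2⟩
      map_add' := fun _ _ => rfl
      map_smul' := fun _ _ => rfl
      left_inv := fun _ => rfl
      right_inv := fun _ => rfl }
  rw [e.finrank_eq, Module.finrank_prod]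

theorem bsig_prod_le {V W : Type} [AddCommGroup V] [Module ℝ V] [FiniteDimensional ℝ V]
    [AddCommGroup W] [Module ℝ W] [FiniteDimensional ℝ W]
    (Q₁ : QuadraticForm ℝ V) (Q₂ : QuadraticForm ℝ W) :
    sigPos Q₁ + sigPos Q₂ ≤ sigPos (Q₁.prod Q₂ : QuadraticForm ℝ (V × W)) := by
  obtain ⟨A, hA, hA'⟩ := exists_finrank_eq_sigPos_and_posDef Q₁
  obtain ⟨B, hB, hB'⟩ := exists_finrank_eq_sigPos_and_posDef Q₂
  have h : ((Q₁.prod Q₂ : QuadraticForm ℝ (V × W)).restrict (A.prod B)).PosDef := by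
    rintro ⟨⟨x, y⟩, hx, hy⟩ hne
    have h1 : 0 ≤ Q₁ x := hA'.nonneg ⟨x, hx⟩
    have h2 : 0 ≤ Q₂ y := hB'.nonneg ⟨y, hy⟩
    change 0 < Q₁ x + Q₂ y
    by_cases hx0 : x = 0
    · have hy0 : y ≠ 0 := by
        rintro rfl
        apply hne
        subst hx0
        rfl
      have : 0 < Q₂ y := hB' ⟨y, hy⟩ (fun h => hy0 (congrArg Subtype.val h))
      linarith
    · have : 0 < Q₁ x := hA' ⟨x, hx⟩ (fun h => hx0 (congrArg Subtype.val h))
      linarith
  have := le_sigPos_of_posDef _ h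
  rw [bsig_finrank_prod] at this
  omega

theorem bsig_prod {V W : Type} [AddCommGroup V] [Module ℝ V] [FiniteDimensional ℝ V]
    [AddCommGroup W] [Module ℝ W] [FiniteDimensional ℝ W]
    (Q₁ : QuadraticForm ℝ V) (Q₂ : QuadraticForm ℝ W) :
    sigPos (Q₁.prod Q₂ : QuadraticForm ℝ (V × W)) = sigPos Q₁ + sigPos Q₂ ∧
      sigNeg (Q₁.prod Q₂ : QuadraticForm ℝ (V × W)) = sigNeg Q₁ + sigNeg Q₂ := by
  have h1 := bsig_prod_le Q₁ Q₂
  have h2 := bsig_prod_le (-Q₁) (-Q₂)
  have h3 : ((-Q₁).prod (-Q₂) : QuadraticForm ℝ (V × W)) = -(Q₁.prod Q₂) := by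
    ext x
    simp [add_comm]
  rw [h3, sigPos_neg, sigPos_neg, sigPos_neg] at h2
  have h4 : Q₁.radical.prod Q₂.radical ≤ (Q₁.prod Q₂ : QuadraticForm ℝ (V × W)).radical := by
    rintro ⟨x, y⟩ ⟨hx, hy⟩
    have hx' := mem_radical_iff'.1 hx
    have hy' := mem_radical_iff'.1 hy
    refine mem_radical_iff'.2 ⟨?_, ?_⟩
    · change Q₁ x + Q₂ y = 0
      have a1 : Q₁ x = 0 := hx'.1
      have a2 : Q₂ y = 0 := hy'.1
      rw [a1, a2, add_zero]
    · rintro ⟨a, b⟩
      change Q₁ (x + a) + Q₂ (y + b) = Q₁ a + Q₂ b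
      have a1 : Q₁ (x + a) = Q₁ a := hx'.2 a
      have a2 : Q₂ (y + b) = Q₂ b := hy'.2 b
      rw [a1, a2]
  have h5 := Submodule.finrank_mono h4
  rw [bsig_finrank_prod] at h5
  have e1 := QuadraticForm.sigPos_add_sigNeg_add_radical (Q := Q₁)
  have e2 := QuadraticForm.sigPos_add_sigNeg_add_radical (Q := Q₂)
  have e3 := QuadraticForm.sigPos_add_sigNeg_add_radical
    (Q := (Q₁.prod Q₂ : QuadraticForm ℝ (V × W)))
  rw [Module.finrank_prod] at e3
  omega

theorem bsig_neutral {V : Type} [AddCommGroup V] [Module ℝ V] [FiniteDimensional ℝ V]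
    (Q : QuadraticForm ℝ V) (N : Submodule ℝ V) (h0 : ∀ x ∈ N, Q x = 0)
    (h1 : ∀ x, (∀ y ∈ N, polar Q y x = 0) → x ∈ N) : sigPos Q = sigNeg Q := by
  have a1 := QuadraticForm.sigPos_add_finrank_le_of_nonpos (Q := Q) (V := N)
    (fun x hx => (h0 x hx).le)
  have a2 := QuadraticForm.sigPos_add_finrank_le_of_nonpos (Q := -Q) (V := N)
    (fun x hx => by simp [h0 x hx])
  rw [sigPos_neg] at a2
  have a3 := QuadraticForm.sigPos_add_sigNeg_add_radical (Q := Q)
  have a4 := LinearMap.BilinForm.finrank_add_finrank_orthogonal' (B := Q.polarBilin) N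
  have a5 : LinearMap.BilinForm.orthogonal Q.polarBilin N ≤ N := fun x hx =>
    h1 x (fun y hy => hx y hy)
  have a6 := Submodule.finrank_mono a5
  have a7 : Q.radical ≤ N ⊓ LinearMap.ker Q.polarBilin := by
    intro x hx
    have hx' := radical_le_ker_polarBilin hx
    refine ⟨h1 x (fun y _ => ?_), hx'⟩
    have := congrArg (fun f : V →ₗ[ℝ] ℝ => f y) (LinearMap.mem_ker.1 hx')
    rw [polar_comm]
    simpa using this
  have a8 := Submodule.finrank_mono a7
  omega

/-! ### The form of a hermitian matrix on the cycles -/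

/-- the real bilinear form `re (xᴴ φ y)`. -/
noncomputable def bsigB {n : Type} [Fintype n] (φ : Matrix n n ℂ) :
    (n → ℂ) →ₗ[ℝ] (n → ℂ) →ₗ[ℝ] ℝ :=
  LinearMap.mk₂ ℝ (fun x y => (star x ⬝ᵥ φ *ᵥ y).re)
    (fun x x' y => by rw [star_add, add_dotProduct, Complex.add_re])
    (fun c x y => by
      rw [star_smul, smul_dotProduct]
      simp)
    (fun x y y' => by rw [mulVec_add, dotProduct_add, Complex.add_re])
    (fun c x y => by
      rw [mulVec_smul, dotProduct_smul]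
      simp)

noncomputable def bsigQ {n : Type} [Fintype n] (φ : Matrix n n ℂ) : QuadraticForm ℝ (n → ℂ) :=
  LinearMap.BilinMap.toQuadraticMap (bsigB φ)

theorem bsigQ_apply {n : Type} [Fintype n] (φ : Matrix n n ℂ) (x : n → ℂ) :
    bsigQ φ x = (star x ⬝ᵥ φ *ᵥ x).re := rfl

/-- the cycles as a real subspace. -/
def bsigK {n : Type} [Fintype n] (d : Matrix n n ℂ) : Submodule ℝ (n → ℂ) where
  carrier := {x | d *ᵥ x = 0}
  zero_mem' := by simp
  add_mem' := fun {x y} hx hy => by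
    have hx' : d *ᵥ x = 0 := hx
    have hy' : d *ᵥ y = 0 := hy
    change d *ᵥ (x + y) = 0
    rw [mulVec_add, hx', hy', add_zero]
  smul_mem' := fun c x hx => by
    have hx' : d *ᵥ x = 0 := hx
    change d *ᵥ (c • x) = 0
    rw [mulVec_smul, hx', smul_zero]

theorem mem_bsigK {n : Type} [Fintype n] (d : Matrix n n ℂ) (x : n → ℂ) :
    x ∈ bsigK d ↔ d *ᵥ x = 0 := Iff.rfl

noncomputable def bsigR {n : Type} [Fintype n] (d φ : Matrix n n ℂ) :
    QuadraticForm ℝ (bsigK d) := (bsigQ φ).restrict (bsigK d)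

theorem bsigR_apply {n : Type} [Fintype n] (d φ : Matrix n n ℂ) (x : bsigK d) :
    bsigR d φ x = (star x.1 ⬝ᵥ φ *ᵥ x.1).re := rfl

noncomputable def bsigSig {n : Type} [Fintype n] (d φ : Matrix n n ℂ) : ℤ :=
  (sigPos (bsigR d φ) : ℤ) - (sigNeg (bsigR d φ) : ℤ)

theorem bsig_neg {n : Type} [Fintype n] (d φ : Matrix n n ℂ) :
    bsigSig d (-φ) = -bsigSig d φ := by
  have : bsigR d (-φ) = -bsigR d φ := by
    ext x
    rw [_root_.neg_apply, bsigR_apply, bsigR_apply, neg_mulVec, dotProduct_neg,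
      Complex.neg_re]
  rw [bsigSig, bsigSig, this, sigPos_neg, sigNeg_neg]
  ring

theorem bsig_add {m n : Type} [Fintype m] [Fintype n]
    (d φ : Matrix m m ℂ) (d' φ' : Matrix n n ℂ) :
    bsigSig (fromBlocks d 0 0 d') (fromBlocks φ 0 0 φ') = bsigSig d φ + bsigSig d' φ' := by
  have key : ∀ x : m ⊕ n → ℂ, x ∈ bsigK (fromBlocks d 0 0 d') ↔
      (x ∘ Sum.inl ∈ bsigK d ∧ x ∘ Sum.inr ∈ bsigK d') := by
    intro x
    rw [mem_bsigK, mem_bsigK, mem_bsigK, fromBlocks_mulVec, zero_mulVec, zero_mulVec, add_zero,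
      zero_add]
    constructor
    · intro h
      exact ⟨funext fun i => congrFun h (Sum.inl i), funext fun i => congrFun h (Sum.inr i)⟩
    · rintro ⟨h1, h2⟩
      rw [h1, h2]
      funext i
      cases i <;> rfl
  let e : bsigK (fromBlocks d 0 0 d') ≃ₗ[ℝ] bsigK d × bsigK d' :=
    { toFun := fun x => (⟨x.1 ∘ Sum.inl, ((key _).1 x.2).1⟩, ⟨x.1 ∘ Sum.inr, ((key _).1 x.2).2⟩)
      invFun := fun y => ⟨Sum.elim y.1.1 y.2.1, (key _).2 ⟨y.1.2, y.2.2⟩⟩
      map_add' := fun _ _ => rfl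
      map_smul' := fun _ _ => rfl
      left_inv := fun x => Subtype.ext (funext fun i => by cases i <;> rfl)
      right_inv := fun _ => rfl }
  have hE : QuadraticMap.Equivalent (bsigR (fromBlocks d 0 0 d') (fromBlocks φ 0 0 φ'))
      ((bsigR d φ).prod (bsigR d' φ')) := by
    refine ⟨{ e with map_app' := fun x => ?_ }⟩
    change (star (x.1 ∘ Sum.inl) ⬝ᵥ φ *ᵥ (x.1 ∘ Sum.inl)).re +
      (star (x.1 ∘ Sum.inr) ⬝ᵥ φ' *ᵥ (x.1 ∘ Sum.inr)).re = _
    rw [bsigR_apply, fromBlocks_mulVec, zero_mulVec, zero_mulVec, add_zero, zero_add,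
      ← Complex.add_re]
    congr 1
    simp [dotProduct, Fintype.sum_sum_type]
  have h := bsig_prod (bsigR d φ) (bsigR d' φ')
  rw [bsigSig, bsigSig, bsigSig, hE.sigPos_eq, hE.sigNeg_eq, h.1, h.2]
  push_cast
  ring

theorem bsig_point : bsigSig (0 : Matrix Unit Unit ℂ) 1 ≠ 0 := by
  have hpos : ∀ x : bsigK (0 : Matrix Unit Unit ℂ), x ≠ 0 →
      0 < bsigR (0 : Matrix Unit Unit ℂ) 1 x := by
    intro x hx
    have hx' : x.1 () ≠ 0 := by
      intro h
      apply hx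
      exact Subtype.ext (funext fun i => h)
    rw [bsigR_apply, one_mulVec]
    have : (star x.1 ⬝ᵥ x.1).re = Complex.normSq (x.1 ()) := by
      simp [dotProduct, Complex.normSq_apply]
    rw [this]
    exact Complex.normSq_pos.2 hx'
  have h1 := QuadraticForm.sigPos_add_finrank_le_of_nonpos
    (Q := -bsigR (0 : Matrix Unit Unit ℂ) 1) (V := ⊤) (fun x _ => by
      by_cases hx : x = 0
      · simp [hx]
      · simpa using (hpos x hx).le)
  rw [sigPos_neg, finrank_top] at h1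
  have h2 := le_sigPos_of_posDef (bsigR (0 : Matrix Unit Unit ℂ) 1) (V := ⊤) (fun x hx =>
    hpos x.1 (fun h => hx (Subtype.ext h)))
  rw [finrank_top] at h2
  have h3 : 0 < finrank ℝ (bsigK (0 : Matrix Unit Unit ℂ)) := by
    have : Nontrivial (bsigK (0 : Matrix Unit Unit ℂ)) := by
      refine ⟨⟨⟨fun _ => 1, by simp [mem_bsigK]⟩, 0, fun h => ?_⟩⟩
      have := congrFun (congrArg Subtype.val h) ()
      simp at this
    exact Module.finrank_pos
  rw [bsigSig]
  omega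

/-- a vector orthogonal to `ker e` lies in the image of `eᴴ`. -/
theorem bsig_range_conjTranspose {m : Type} [Fintype m] [DecidableEq m] (e : Matrix m m ℂ)
    (v : m → ℂ) (h : ∀ a, e *ᵥ a = 0 → star a ⬝ᵥ v = 0) : ∃ μ, eᴴ *ᵥ μ = v := by
  let f : (m → ℂ) →ₗ[ℂ] ℂ :=
    { toFun := fun a => star v ⬝ᵥ a
      map_add' := fun a b => dotProduct_add _ _ _
      map_smul' := fun c a => by simp }
  have hf : f ∈ (LinearMap.ker e.mulVecLin).dualAnnihilator := by
    rw [Submodule.mem_dualAnnihilator]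
    intro a ha
    have := h a ha
    change star v ⬝ᵥ a = 0
    rw [star_dotProduct, this, star_zero]
  rw [← LinearMap.range_dualMap_eq_dualAnnihilator_ker] at hf
  obtain ⟨g, hg⟩ := hf
  let w : m → ℂ := fun i => g (Pi.single i 1)
  have hw : ∀ a, g a = w ⬝ᵥ a := by
    intro a
    rw [LinearMap.pi_apply_eq_sum_univ g a, dotProduct]
    refine Finset.sum_congr rfl fun i _ => ?_
    rw [smul_eq_mul, mul_comm]
    congr 2
    funext k
    simp [Pi.single_apply, eq_comm]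
  have h2 : w ᵥ* e = star v := by
    funext i
    have := congrArg (fun F : (m → ℂ) →ₗ[ℂ] ℂ => F (Pi.single i 1)) hg
    simp only [LinearMap.dualMap_apply, mulVecLin_apply] at this
    rw [hw, dotProduct_mulVec] at this
    change _ = star v ⬝ᵥ Pi.single i 1 at this
    simpa using this
  refine ⟨star w, ?_⟩
  rw [← star_vecMul, h2, star_star]

theorem bsig_dot {m n : Type} [Fintype m] [Fintype n] (A : Matrix n m ℂ) (a : m → ℂ)
    (y : n → ℂ) : star (A *ᵥ a) ⬝ᵥ y = star a ⬝ᵥ Aᴴ *ᵥ y := by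
  rw [star_mulVec, dotProduct_mulVec]

theorem bsig_neutral' {m n : Type} [Fintype m] [DecidableEq m] [Fintype n] [DecidableEq n]
    (d φ : Matrix n n ℂ) (e T : Matrix m m ℂ) (j : Matrix n m ℂ)
    (H : Matrix (m ⊕ (n ⊕ m)) (m ⊕ (n ⊕ m)) ℂ)
    (_hd : d * d = 0) (hφ : φᴴ = φ) (hφd : φ * d = dᴴ * φ) (hj : j * e = d * j)
    (hT : jᴴ * φ * j = T * e + eᴴ * T)
    (hH : fromBlocks (-e) 0 (fromRows j T) (fromBlocks d 0 (jᴴ * φ) (-eᴴ)) * H +
      H * fromBlocks (-e) 0 (fromRows j T) (fromBlocks d 0 (jᴴ * φ) (-eᴴ)) = 1) :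
    bsigSig d φ = 0 := by
  let N : Submodule ℝ (bsigK d) :=
    { carrier := {x | ∃ a y, e *ᵥ a = 0 ∧ x.1 = j *ᵥ a + d *ᵥ y}
      zero_mem' := ⟨0, 0, by simp, by simp⟩
      add_mem' := by
        rintro x x' ⟨a, y, ha, hx⟩ ⟨a', y', ha', hx'⟩
        refine ⟨a + a', y + y', by rw [mulVec_add, ha, ha', add_zero], ?_⟩
        rw [Submodule.coe_add, hx, hx', mulVec_add, mulVec_add]
        abel
      smul_mem' := by
        rintro c x ⟨a, y, ha, hx⟩
        refine ⟨c • a, c • y, by rw [mulVec_smul, ha, smul_zero], ?_⟩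
        rw [Submodule.coe_smul, hx, mulVec_smul, mulVec_smul, smul_add] }
  have hcyc : ∀ a, e *ᵥ a = 0 → d *ᵥ (j *ᵥ a) = 0 := by
    intro a ha
    rw [mulVec_mulVec, ← hj, ← mulVec_mulVec, ha, mulVec_zero]
  -- boundaries are orthogonal to cycles
  have hb1 : ∀ x y, d *ᵥ x = 0 → star (d *ᵥ y) ⬝ᵥ φ *ᵥ x = 0 := by
    intro x y hx
    rw [bsig_dot, mulVec_mulVec, ← hφd, ← mulVec_mulVec, hx, mulVec_zero, dotProduct_zero]
  have hb2 : ∀ x y, d *ᵥ x = 0 → star x ⬝ᵥ φ *ᵥ (d *ᵥ y) = 0 := by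
    intro x y hx
    rw [mulVec_mulVec, hφd, ← mulVec_mulVec, ← bsig_dot, hx, star_zero, zero_dotProduct]
  have hsym : ∀ x y : n → ℂ, (star x ⬝ᵥ φ *ᵥ y).re = (star y ⬝ᵥ φ *ᵥ x).re := by
    intro x y
    have : star x ⬝ᵥ φ *ᵥ y = star (star y ⬝ᵥ φ *ᵥ x) := by
      rw [← star_dotProduct, bsig_dot, hφ]
    rw [this]
    simp
  have hpolar : ∀ x y : bsigK d, polar (bsigR d φ) y x = 2 * (star y.1 ⬝ᵥ φ *ᵥ x.1).re := by
    intro x y
    rw [polar, bsigR_apply, bsigR_apply, bsigR_apply, Submodule.coe_add, star_add, mulVec_add,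
      add_dotProduct, dotProduct_add, dotProduct_add, Complex.add_re, Complex.add_re,
      Complex.add_re, hsym x.1 y.1]
    ring
  have h := bsig_neutral (bsigR d φ) N ?_ ?_
  · rw [bsigSig, h, sub_self]
  · rintro x ⟨a, y, ha, hx⟩
    have hxK : d *ᵥ x.1 = 0 := x.2
    rw [bsigR_apply]
    have : star x.1 ⬝ᵥ φ *ᵥ x.1 = 0 := by
      conv_lhs => enter [1]; rw [hx]
      rw [star_add, add_dotProduct, hb1 _ _ hxK, add_zero, hx, mulVec_add, dotProduct_add,
        hb2 _ _ (hcyc a ha), add_zero, bsig_dot, mulVec_mulVec, mulVec_mulVec, hT, add_mulVec,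
        ← mulVec_mulVec, ← mulVec_mulVec, ha, mulVec_zero, zero_add, ← bsig_dot, ha, star_zero,
        zero_dotProduct]
    rw [this, Complex.zero_re]
  · intro x hx
    have hxK : d *ᵥ x.1 = 0 := x.2
    have hre : ∀ a, e *ᵥ a = 0 → (star a ⬝ᵥ (jᴴ * φ) *ᵥ x.1).re = 0 := by
      intro a ha
      have := hx ⟨j *ᵥ a, hcyc a ha⟩ ⟨a, 0, ha, by simp⟩
      rw [hpolar] at this
      simp only at this
      rw [bsig_dot, mulVec_mulVec] at this
      linarith
    have hc : ∀ a, e *ᵥ a = 0 → star a ⬝ᵥ (jᴴ * φ) *ᵥ x.1 = 0 := by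
      intro a ha
      have h1 := hre a ha
      have h2 := hre (Complex.I • a) (by rw [mulVec_smul, ha, smul_zero])
      rw [star_smul, smul_dotProduct] at h2
      apply Complex.ext
      · simpa using h1
      · simpa using h2
    obtain ⟨μ, hμ⟩ := bsig_range_conjTranspose e _ hc
    set D := fromBlocks (-e) 0 (fromRows j T) (fromBlocks d 0 (jᴴ * φ) (-eᴴ)) with hD
    let v : m ⊕ (n ⊕ m) → ℂ := Sum.elim 0 (Sum.elim x.1 μ)
    have hv : D *ᵥ v = 0 := by
      rw [hD, fromBlocks_mulVec]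
      simp only [v, Sum.elim_comp_inl, Sum.elim_comp_inr, mulVec_zero, zero_mulVec, add_zero,
        zero_add, fromBlocks_mulVec, hxK, neg_mulVec, hμ, add_neg_cancel]
      funext i
      rcases i with i | i | i <;> rfl
    have hv2 : D *ᵥ (H *ᵥ v) = v := by
      have := congrArg (fun M => M *ᵥ v) hH
      simp only [add_mulVec, ← mulVec_mulVec, hv, mulVec_zero, add_zero, one_mulVec] at this
      exact this
    generalize H *ᵥ v = u at hv2
    rw [hD, fromBlocks_mulVec] at hv2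
    refine ⟨u ∘ Sum.inl, (u ∘ Sum.inr) ∘ Sum.inl, ?_, ?_⟩
    · funext i
      have := congrFun hv2 (Sum.inl i)
      simp only [v, Sum.elim_inl, zero_mulVec, add_zero, neg_mulVec, Pi.neg_apply,
        Pi.zero_apply, neg_eq_zero] at this
      exact this
    · funext i
      have := congrFun hv2 (Sum.inr (Sum.inl i))
      simp only [v, Sum.elim_inr, Sum.elim_inl, fromBlocks_mulVec, fromRows_mulVec, Pi.add_apply,
        zero_mulVec, add_zero] at this
      exact this.symm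

end BSig0Aux

theorem nonempty_sig0 : Nonempty Sig0 :=
  ⟨{ sig := fun d φ => bsigSig d φ
     add := fun d φ d' φ' _ _ => bsig_add d φ d' φ'
     neg := fun d φ => bsig_neg d φ
     neutral := fun d φ e T j H hd hφ hφd _ hj _ hT hH =>
       bsig_neutral' d φ e T j H hd hφ hφd hj hT hH
     point := bsig_point }⟩

noncomputable def sig0 : Sig0 := Classical.choice nonempty_sig0

end Crest.Agent.R217
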