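import Crest.Agent.R217.BCtx2
import Crest.Agent.R217.BAlg3
import Crest.Agent.R217.BSig0

/-! # Row 217, part B: signature theories and the iterated-cut signature.  FIXED DEFINITIONS. -/

set_option autoImplicit false
open Filter Matrix

namespace Crest.Agent.R217
open DC

/-- `S D s`: "`s` is a signature of `D`" (an integer for every index, up to `l`-eventual equality). -/
structure SigThy {O : Type 1} [Add O] {ι : Type} (𝒜 : DC.{1, 0} O) (l : Filter ι)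
    (S : Form 𝒜 → (ι → ℤ) → Prop) : Prop where
  congr : ∀ {D : Form 𝒜} {s s' : ι → ℤ}, S D s → s =ᶠ[l] s' → S D s'
  ex : ∀ {D : Form 𝒜}, D.Poinc → ∃ s, S D s
  add : ∀ {D E : Form 𝒜} {s s' : ι → ℤ}, D.Poinc → E.Poinc → S D s → S E s' → S (D.add E) (s + s')
  neg : ∀ {D : Form 𝒜} {s : ι → ℤ}, D.Poinc → S D s → S D.neg (-s)
  neutral : ∀ {D : Form 𝒜} {s : ι → ℤ}, D.Poinc → D.Neutral → S D s → s =ᶠ[l] 0

namespace SigThy
variable {O : Type 1} [Add O] {ι : Type} {𝒜 ℬ : DC.{1, 0} O} {l : Filter ι}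
  {S : Form 𝒜 → (ι → ℤ) → Prop} (hS : SigThy 𝒜 l S) {D E : Form 𝒜} {s s' : ι → ℤ}
include hS

theorem eq_of_neutral (hD : D.Poinc) (hE : E.Poinc) (h : (D.add E.neg).Neutral)
    (h₁ : S D s) (h₂ : S E s') : s =ᶠ[l] s' := by
  have := hS.neutral (hD.add hE.neg) h (hS.add hD hE.neg h₁ (hS.neg hE h₂))
  filter_upwards [this] with i hi
  simp only [Pi.add_apply, Pi.neg_apply, Pi.zero_apply] at hi
  omega
theorem unique (hD : D.Poinc) (h₁ : S D s) (h₂ : S D s') : s =ᶠ[l] s' :=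
  hS.eq_of_neutral hD hD (Form.neutral_self hD) h₁ h₂
theorem transfer (hD : D.Poinc) (hE : E.Poinc) (h : (D.add E.neg).Neutral) (h₁ : S D s) :
    S E s := by
  obtain ⟨s', h₂⟩ := hS.ex hE
  exact hS.congr h₂ (hS.eq_of_neutral hD hE h h₁ h₂).symm
theorem transfer' (hD : D.Poinc) (hE : E.Poinc) (h : (D.add E.neg).Neutral) (h₂ : S E s) :
    S D s := by
  obtain ⟨s', h₁⟩ := hS.ex hD
  exact hS.congr h₁ (hS.eq_of_neutral hD hE h h₁ h₂)
theorem comap (F : DFun ℬ 𝒜) : SigThy ℬ l fun D s => S (D.map F) s where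
  congr h h' := hS.congr h h'
  ex hD := hS.ex (hD.map F)
  add hD hE h₁ h₂ := by rw [Form.map_add]; exact hS.add (hD.map F) (hE.map F) h₁ h₂
  neg hD h := by rw [Form.map_neg]; exact hS.neg (hD.map F) h
  neutral hD hn h := hS.neutral (hD.map F) (hn.map F) h

end SigThy

/-- coordinates `c i x 0, c i x 1, …` on `Z` and a radius -/
structure SCtx (ι Z : Type) : Type where
  l : Filter ι
  c : ι → Z → ℕ → ℝ
  R : ℝ
  R_pos : 0 < R

namespace SCtx
variable {ι Z : Type} (σ : SCtx ι Z)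

/-- the first `k` coordinates -/
def co (k : ℕ) (i : ι) (x : Z) : Fin k → ℝ := fun m => σ.c i x m

theorem norm_co_sub_le {m k : ℕ} (h : m ≤ k) (i : ι) (x y : Z) :
    ‖σ.co m i x - σ.co m i y‖ ≤ ‖σ.co k i x - σ.co k i y‖ := by
  refine (pi_norm_le_iff_of_nonneg (norm_nonneg _)).2 fun a => ?_
  exact norm_le_pi_norm (σ.co k i x - σ.co k i y) ⟨a, lt_of_lt_of_le a.2 h⟩

theorem abs_c_sub_le {m k : ℕ} (h : m < k) (i : ι) (x y : Z) :
    |σ.c i x m - σ.c i y m| ≤ ‖σ.co k i x - σ.co k i y‖ :=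
  norm_le_pi_norm (σ.co k i x - σ.co k i y) ⟨m, h⟩

/-- control in the first `k` coordinates, region `‖first m coordinates‖ < R` -/
noncomputable def ctx₂ (k m : ℕ) (h : m ≤ k) : Ctx ι Z where
  l := σ.l
  ρ i x y := ‖σ.co k i x - σ.co k i y‖
  u i x := σ.R - ‖σ.co m i x‖
  ρ_self i x := by simp
  ρ_comm i x y := norm_sub_rev _ _
  ρ_tri i x y z := norm_sub_le_norm_sub_add_norm_sub _ _ _
  u_lip i x y := by
    have h1 := σ.norm_co_sub_le h i x y
    have h2 := norm_sub_norm_le (σ.co m i y) (σ.co m i x)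
    rw [norm_sub_rev] at h2
    linarith

noncomputable def ctx (k : ℕ) : Ctx ι Z := σ.ctx₂ k k le_rfl
noncomputable def strip (k : ℕ) : Ctx ι Z := σ.ctx₂ (k + 1) k (Nat.le_succ k)

theorem lipM (k : ℕ) (t : ℝ) (i : ι) (x y : Z) :
    t - |σ.c i x k| ≤ t - |σ.c i y k| + (σ.strip k).ρ i x y := by
  have h := σ.abs_c_sub_le (Nat.lt_succ_self k) i x y
  have h2 := abs_sub_abs_le_abs_sub (σ.c i y k) (σ.c i x k)
  rw [abs_sub_comm] at h2
  change _ ≤ _ + ‖σ.co (k + 1) i x - σ.co (k + 1) i y‖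
  linarith
theorem lipR (k : ℕ) (a : ℝ) (i : ι) (x y : Z) :
    σ.c i x k - a ≤ σ.c i y k - a + (σ.strip k).ρ i x y := by
  have h := σ.abs_c_sub_le (Nat.lt_succ_self k) i x y
  change _ ≤ _ + ‖σ.co (k + 1) i x - σ.co (k + 1) i y‖
  linarith [le_abs_self (σ.c i x k - σ.c i y k)]
theorem lipL (k : ℕ) (a : ℝ) (i : ι) (x y : Z) :
    -σ.c i x k - a ≤ -σ.c i y k - a + (σ.strip k).ρ i x y := by
  have h := σ.abs_c_sub_le (Nat.lt_succ_self k) i x y
  change _ ≤ _ + ‖σ.co (k + 1) i x - σ.co (k + 1) i y‖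
  linarith [neg_abs_le (σ.c i x k - σ.c i y k)]

noncomputable def mid (k : ℕ) (t : ℝ) : Ctx ι Z :=
  (σ.strip k).restrict (fun i x => t - |σ.c i x k|) (σ.lipM k t)
noncomputable def right (k : ℕ) (a : ℝ) : Ctx ι Z :=
  (σ.strip k).restrict (fun i x => σ.c i x k - a) (σ.lipR k a)
noncomputable def left (k : ℕ) (a : ℝ) : Ctx ι Z :=
  (σ.strip k).restrict (fun i x => -σ.c i x k - a) (σ.lipL k a)

theorem strip_le_mid (k : ℕ) (t : ℝ) : Ctx.Le (σ.strip k) (σ.mid k t) := Ctx.le_restrict _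
theorem strip_le_ctx (k : ℕ) : Ctx.Le (σ.strip k) (σ.ctx k) :=
  ⟨le_rfl, Eventually.of_forall fun i x y => ⟨σ.norm_co_sub_le (Nat.le_succ k) i x y, le_rfl⟩⟩
theorem strip_le_ctx_succ (k : ℕ) : Ctx.Le (σ.strip k) (σ.ctx (k + 1)) := by
  refine ⟨le_rfl, Eventually.of_forall fun i x y => ⟨le_rfl, ?_⟩⟩
  change σ.R - ‖σ.co (k + 1) i x‖ ≤ σ.R - ‖σ.co k i x‖
  have : ‖σ.co k i x‖ ≤ ‖σ.co (k + 1) i x‖ := by
    refine (pi_norm_le_iff_of_nonneg (norm_nonneg _)).2 fun a => ?_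
    exact norm_le_pi_norm (σ.co (k + 1) i x) ⟨a, lt_of_lt_of_le a.2 (Nat.le_succ k)⟩
  linarith
theorem ctx_le_mid (k : ℕ) {t : ℝ} (ht : t ≤ σ.R) : Ctx.Le (σ.ctx (k + 1)) (σ.mid k t) := by
  refine ⟨le_rfl, Eventually.of_forall fun i x y => ⟨le_rfl, ?_⟩⟩
  change min (σ.R - ‖σ.co k i x‖) (t - |σ.c i x k|) ≤ σ.R - ‖σ.co (k + 1) i x‖
  have : ‖σ.co (k + 1) i x‖ ≤ max ‖σ.co k i x‖ |σ.c i x k| := by
    refine (pi_norm_le_iff_of_nonneg (le_max_of_le_left (norm_nonneg _))).2 fun a => ?_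
    rcases Nat.lt_succ_iff_lt_or_eq.1 a.2 with h | h
    · exact le_max_of_le_left (norm_le_pi_norm (σ.co k i x) ⟨a, h⟩)
    · refine le_max_of_le_right (le_of_eq ?_)
      simp [co, h]
  rcases le_max_iff.1 this with h | h
  · exact (min_le_left _ _).trans (by linarith)
  · exact (min_le_right _ _).trans (by linarith)
theorem mid_le_mid (k : ℕ) {t t' : ℝ} (h : t' ≤ t) : Ctx.Le (σ.mid k t) (σ.mid k t') :=
  ⟨le_rfl, Eventually.of_forall fun _ _ _ => ⟨le_rfl, min_le_min_left _ (by linarith)⟩⟩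

/-- the sign of the `k`-th coordinate -/
noncomputable def sg (k : ℕ) (X : Obj ι Z) : (σ.strip k).cat.Hom X X :=
  (σ.strip k).cls fun i => diagonal fun a => if 0 ≤ σ.c i (X.pos i a) k then 1 else -1

theorem sg_right (k : ℕ) {a : ℝ} (ha : 0 < a) (X : Obj ι Z) :
    (Ctx.res (Ctx.le_restrict (σ.lipR k a))).map (σ.sg k X) = (σ.right k a).cat.id X := by
  rw [sg, Ctx.res_cls _ (Ctx.ctrl_diagonal _), ← Ctx.cls_one]
  refine (Ctx.cls_eq_iff (Ctx.ctrl_diagonal _) Ctx.ctrl_one).2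
    (((Ctx.ctrl_diagonal _).sub Ctx.ctrl_one).van_of_src fun η hη => ?_)
  refine Eventually.of_forall fun i b c hbc => ?_
  by_cases h : 0 ≤ σ.c i (X.pos i c) k
  · exfalso; apply hbc
    by_cases e : b = c
    · subst e; simp [h]
    · simp [e]
  · exact (min_le_right _ _).trans (by linarith)
theorem sg_left (k : ℕ) {a : ℝ} (ha : 0 < a) (X : Obj ι Z) :
    (Ctx.res (Ctx.le_restrict (σ.lipL k a))).map (σ.sg k X) = -(σ.left k a).cat.id X := by
  rw [sg, Ctx.res_cls _ (Ctx.ctrl_diagonal _), ← Ctx.cls_one, ← Ctx.cls_neg Ctx.ctrl_one]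
  refine (Ctx.cls_eq_iff (Ctx.ctrl_diagonal _) Ctx.ctrl_one.neg).2
    (((Ctx.ctrl_diagonal _).sub Ctx.ctrl_one.neg).van_of_src fun η hη => ?_)
  refine Eventually.of_forall fun i b c hbc => ?_
  by_cases h : 0 ≤ σ.c i (X.pos i c) k
  · exact (min_le_right _ _).trans (by linarith)
  · exfalso; apply hbc
    by_cases e : b = c
    · subst e; simp [h]
    · simp [e]

/-- the cover of the strip by right, left and middle parts -/
noncomputable def cover (k : ℕ) {a t : ℝ} (ha : 0 < a) (hat : a < t) :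
    Cover3 (σ.strip k).cat (σ.sg k) where
  R := (σ.right k a).cat
  L := (σ.left k a).cat
  M := (σ.mid k t).cat
  FR := Ctx.res (Ctx.le_restrict (σ.lipR k a))
  FL := Ctx.res (Ctx.le_restrict (σ.lipL k a))
  FM := Ctx.res (σ.strip_le_mid k t)
  fullR := Ctx.restrict_full _
  fullL := Ctx.restrict_full _
  fullM := Ctx.restrict_full (σ.lipM k t)
  sgR := σ.sg_right k ha
  sgL := σ.sg_left k ha
  faithful f h₁ h₂ h₃ := by
    refine Ctx.restrict_faithful₃ (σ.lipR k a) (σ.lipL k a) (σ.lipM k t) (θ := (t - a) / 2)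
      (by linarith) (fun i x => ?_) f h₁ h₂ h₃
    rcases abs_cases (σ.c i x k) with h | h <;> rw [h.1] <;> by_contra hc <;> push Not at hc <;>
      linarith [hc.1, hc.2.1, hc.2.2]

/-- Cut data for `D`: an extension `(d, φ)` to the strip of the restriction of `D` to the middle,
and a contraction `h` of its boundary over the middle. -/
structure IsCut (k : ℕ) (D : Form (σ.ctx (k + 1)).cat) (t : ℝ)
    (d φ : (σ.strip k).cat.Hom D.V D.V) (h : (σ.strip k).cat.Hom (D.V + D.V) (D.V + D.V)) :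
    Prop where
  pos : 0 < t
  le : t ≤ σ.R
  isForm : Form.IsForm ⟨D.V, d, φ⟩
  d_eq : (Ctx.res (σ.strip_le_mid k t)).map d = (Ctx.res (σ.ctx_le_mid k le)).map D.d
  φ_eq : (Ctx.res (σ.strip_le_mid k t)).map φ = (Ctx.res (σ.ctx_le_mid k le)).map D.φ
  rho_eq : (Ctx.res (σ.strip_le_mid k t)).map (rho (Form.bd ⟨D.V, d, φ⟩).d h) = 0

/-- the cut, as a form in one dimension less -/
@[reducible] noncomputable def cutForm (k : ℕ) (V : Obj ι Z) (d φ : (σ.strip k).cat.Hom V V)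
    (h : (σ.strip k).cat.Hom (V + V) (V + V)) : Form (σ.ctx k).cat :=
  (Form.cut (σ.sg k) ⟨V, d, φ⟩ h).map (Ctx.res (σ.strip_le_ctx k))

/-- the iterated-cut signature -/
def HasSig : (k : ℕ) → Form (σ.ctx k).cat → (ι → ℤ) → Prop
  | 0, D, s => ∀ᶠ i in σ.l, s i = sig0.sig (Ctx.rep D.d i) (Ctx.rep D.φ i)
  | k + 1, D, s => ∃ t d φ h, σ.IsCut k D t d φ h ∧ HasSig k (σ.cutForm k D.V d φ h) s

end SCtx
end Crest.Agent.R217
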