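import Crest.Agent.R217.BSigDefs

/-! # Row 217, part B: the signature theory in dimension `0`.
In `σ.ctx 0` the metric is `0` and `u = R > 0`, so every family is controlled and negligible means
eventually zero (`zero_ctrl`, `zero_van_iff`).  Write all morphisms as classes, use
`Ctx.blk_cls`, `lift_cls`, `desc_cls`, `cls_comp`, `cls_dag` to turn equations of morphisms into
eventual equations of matrices, and apply the fields of `sig0`. -/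

set_option autoImplicit false
open Filter Matrix

namespace Crest.Agent.R217
namespace SCtx
open DC
variable {ι Z : Type} (σ : SCtx ι Z) {X Y : Obj ι Z}

theorem bsz_rho (i : ι) (x y : Z) : (σ.ctx 0).ρ i x y = 0 := by
  change ‖σ.co 0 i x - σ.co 0 i y‖ = 0
  rw [Subsingleton.elim (σ.co 0 i x - σ.co 0 i y) 0, norm_zero]
theorem bsz_u (i : ι) (x : Z) : (σ.ctx 0).u i x = σ.R := by
  change σ.R - ‖σ.co 0 i x‖ = σ.R
  rw [Subsingleton.elim (σ.co 0 i x) 0, norm_zero, sub_zero]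

theorem zero_ctrl (T : Mat X Y) : (σ.ctx 0).Ctrl T := by
  exact fun η hη => Eventually.of_forall fun i b a _ => Or.inl (by rw [bsz_rho]; exact hη.le)
theorem zero_van_iff (T : Mat X Y) : (σ.ctx 0).Van T ↔ ∀ᶠ i in σ.l, T i = 0 := by
  refine ⟨fun h => ?_, fun h => Ctx.van_of_eventually_eq_zero (Γ := σ.ctx 0) h⟩
  filter_upwards [h (σ.R / 2) (half_pos σ.R_pos)] with i hi
  ext b a
  by_contra hc
  have := (hi b a hc).1
  rw [bsz_u] at this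
  linarith [σ.R_pos]
theorem zero_cls_eq_iff (S T : Mat X Y) :
    (σ.ctx 0).cls S = (σ.ctx 0).cls T ↔ ∀ᶠ i in σ.l, S i = T i := by
  rw [Ctx.cls_eq_iff (σ.zero_ctrl S) (σ.zero_ctrl T), zero_van_iff]
  simp only [Pi.sub_apply, sub_eq_zero]
theorem hasSig_zero_cls (d φ : Mat X X) (s : ι → ℤ) :
    σ.HasSig 0 ⟨X, (σ.ctx 0).cls d, (σ.ctx 0).cls φ⟩ s ↔
      ∀ᶠ i in σ.l, s i = sig0.sig (d i) (φ i) := by
  have h1 := (σ.zero_cls_eq_iff _ _).1 (Ctx.cls_rep ((σ.ctx 0).cls d))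
  have h2 := (σ.zero_cls_eq_iff _ _).1 (Ctx.cls_rep ((σ.ctx 0).cls φ))
  refine eventually_congr ?_
  filter_upwards [h1, h2] with i h1 h2
  rw [h1, h2]

theorem bsz_comp {W : Obj ι Z} (S : Mat X Y) (T : Mat W X) :
    (σ.ctx 0).cls S ⊚ (σ.ctx 0).cls T = (σ.ctx 0).cls (X := W) (Y := Y) fun i => S i * T i :=
  Ctx.cls_comp (σ.zero_ctrl _) (σ.zero_ctrl _)
theorem bsz_dag (S : Mat X Y) :
    ((σ.ctx 0).cls S)† = (σ.ctx 0).cls (X := Y) (Y := X) fun i => (S i)ᴴ :=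
  Ctx.cls_dag (σ.zero_ctrl _)
theorem bsz_add (S T : Mat X Y) :
    (σ.ctx 0).cls S + (σ.ctx 0).cls T = (σ.ctx 0).cls (X := X) (Y := Y) fun i => S i + T i :=
  (Ctx.cls_add (σ.zero_ctrl _) (σ.zero_ctrl _)).symm
theorem bsz_neg (S : Mat X Y) :
    -(σ.ctx 0).cls S = (σ.ctx 0).cls (X := X) (Y := Y) fun i => -S i :=
  (Ctx.cls_neg (σ.zero_ctrl _)).symm
theorem bsz_zero : (0 : (σ.ctx 0).cat.Hom X Y) = (σ.ctx 0).cls (X := X) (Y := Y) fun _ => 0 :=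
  Ctx.cls_zero.symm
theorem bsz_blk {X' Y' : Obj ι Z} (A : Mat X X') (B : Mat Y X') (C : Mat X Y') (D : Mat Y Y') :
    blk ((σ.ctx 0).cls A) ((σ.ctx 0).cls B) ((σ.ctx 0).cls C) ((σ.ctx 0).cls D) =
      (σ.ctx 0).cls (X := X + Y) (Y := X' + Y') fun i => fromBlocks (A i) (B i) (C i) (D i) :=
  Ctx.blk_cls (σ.zero_ctrl _) (σ.zero_ctrl _) (σ.zero_ctrl _) (σ.zero_ctrl _)
theorem bsz_lift {W : Obj ι Z} (S : Mat W X) (T : Mat W Y) :
    lift ((σ.ctx 0).cls S) ((σ.ctx 0).cls T) =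
      (σ.ctx 0).cls (X := W) (Y := X + Y) fun i => fromRows (S i) (T i) :=
  Ctx.lift_cls (σ.zero_ctrl _) (σ.zero_ctrl _)

theorem bsz_blk3 {O : Type 1} [Add O] {𝒜 : DC.{1, 0} O} {A B C : O} (a : 𝒜.Hom A A) (b : 𝒜.Hom A B)
    (c : 𝒜.Hom B B) (d : 𝒜.Hom A C) (e : 𝒜.Hom B C) (f : 𝒜.Hom C C) :
    blk3 a 0 0 b c 0 d e f = blk a 0 (lift b d) (blk c 0 e f) := by
  simp [desc_zero]

theorem sigThy_zero : SigThy (σ.ctx 0).cat σ.l (σ.HasSig 0) := by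
  refine ⟨fun {D s s'} h h' => ?_, fun {D} _ => ⟨_, Eventually.of_forall fun _ => rfl⟩,
    fun {D E s s'} hD hE h h' => ?_, fun {D s} _ h => ?_, fun {D s} hD hn h => ?_⟩
  · have h₀ : ∀ᶠ i in σ.l, s i = sig0.sig (Ctx.rep D.d i) (Ctx.rep D.φ i) := h
    change ∀ᶠ i in σ.l, s' i = sig0.sig (Ctx.rep D.d i) (Ctx.rep D.φ i)
    filter_upwards [h₀, h'] with i h1 h2
    rw [← h2, h1]
  · obtain ⟨X, d, φ⟩ := D
    obtain ⟨Y, d', φ'⟩ := E
    obtain ⟨d, -, rfl⟩ := Ctx.cls_surj d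
    obtain ⟨φ, -, rfl⟩ := Ctx.cls_surj φ
    obtain ⟨d', -, rfl⟩ := Ctx.cls_surj d'
    obtain ⟨φ', -, rfl⟩ := Ctx.cls_surj φ'
    have h1 := hD.isForm.herm
    have h2 := hE.isForm.herm
    simp only [bsz_dag, zero_cls_eq_iff] at h1 h2
    rw [hasSig_zero_cls] at h h'
    change σ.HasSig 0 ⟨X + Y, blk _ 0 0 _, blk _ 0 0 _⟩ _
    rw [bsz_zero σ (X := X) (Y := Y), bsz_zero σ (X := Y) (Y := X), bsz_blk, bsz_blk,
      hasSig_zero_cls]
    filter_upwards [h, h', h1, h2] with i h h' h1 h2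
    rw [Pi.add_apply, h, h']
    exact (sig0.add _ _ _ _ h1 h2).symm
  · obtain ⟨X, d, φ⟩ := D
    obtain ⟨d, -, rfl⟩ := Ctx.cls_surj d
    obtain ⟨φ, -, rfl⟩ := Ctx.cls_surj φ
    rw [hasSig_zero_cls] at h
    change σ.HasSig 0 ⟨X, _, -_⟩ _
    rw [bsz_neg, hasSig_zero_cls]
    filter_upwards [h] with i h
    rw [Pi.neg_apply, h]
    exact (sig0.neg _ _).symm
  · obtain ⟨X, d, φ⟩ := D
    obtain ⟨⟨Λ, e, j, T⟩, hL, H, hH⟩ := hn
    obtain ⟨d, -, rfl⟩ := Ctx.cls_surj d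
    obtain ⟨φ, -, rfl⟩ := Ctx.cls_surj φ
    obtain ⟨e, -, rfl⟩ := Ctx.cls_surj e
    obtain ⟨j, -, rfl⟩ := Ctx.cls_surj j
    obtain ⟨T, -, rfl⟩ := Ctx.cls_surj T
    obtain ⟨H, -, rfl⟩ := Ctx.cls_surj H
    rw [hasSig_zero_cls] at h
    have h1 := hD.isForm.dd
    have h2 := hD.isForm.herm
    have h3 := hD.isForm.comm
    have h4 := hL.ee
    have h5 := hL.chain
    have h6 := hL.herm
    have h7 := hL.null
    dsimp only at h1 h2 h3 h4 h5 h6 h7 hH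
    rw [bsz_blk3, ← Ctx.cls_one, bsz_zero σ (X := X + Λ) (Y := Λ), bsz_zero σ (X := Λ) (Y := X)] at hH
    rw [bsz_zero] at h1 h4
    simp only [bsz_dag, bsz_comp, bsz_add, bsz_neg, bsz_lift, bsz_blk, zero_cls_eq_iff]
      at h1 h2 h3 h4 h5 h6 h7 hH
    filter_upwards [h, h1, h2, h3, h4, h5, h6, h7, hH] with i h h1 h2 h3 h4 h5 h6 h7 hH
    rw [h]
    exact sig0.neutral _ _ (e i) (T i) (j i) (H i) h1 h2 h3 h4 h5 h6
      (by rw [Matrix.mul_assoc]; exact h7) hH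

end SCtx
end Crest.Agent.R217
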