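import Crest.Agent.R217.BSigDefs

/-! # Row 217, part B: twisting by a flat line bundle of finite order does not change signatures.

`tw` multiplies the entry `(b, a)` by `ω (pos b) (pos a)`.  It is a `†`-functor: the defect of
multiplicativity at `(c, a)` is `∑_b S c b T b a (ω c b ω b a - ω c a)`, nonzero only if for some `b`
the three points are not (all close and in `u > 0`), hence negligible; `‖ω‖ = 1` from `ω ^ p = 1`,
`ω y x = conj (ω x y)` for close points in `u > 0` from the cocycle identity and `ω x x = 1`. -/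

set_option autoImplicit false
open Filter Matrix

namespace Crest.Agent.R217
namespace Ctx
open DC
variable {ι Z : Type} (Γ : Ctx ι Z) {X Y : Obj ι Z}

structure Cocycle (p : ℕ) (ω : Z → Z → ℂ) : Prop where
  pos : 0 < p
  pow : ∀ x y, ω x y ^ p = 1
  self : ∀ i x, 0 < Γ.u i x → ω x x = 1
  mul : ∃ δ : ℝ, 0 < δ ∧ ∀ i x y z, Γ.ρ i x y ≤ δ → Γ.ρ i y z ≤ δ →
    0 < Γ.u i x → 0 < Γ.u i y → 0 < Γ.u i z → ω x y * ω y z = ω x z
  cover : ∀ r : ℝ, 0 < r → ∃ zs : List Z, (∀ i, ∀ z ∈ zs, 0 < Γ.u i z) ∧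
    ∀ i x, 0 < Γ.u i x → ∃ z ∈ zs, Γ.ρ i x z ≤ r

def twMat (ω : Z → Z → ℂ) (T : Mat X Y) : Mat X Y :=
  fun i => Matrix.of fun b a => ω (Y.pos i b) (X.pos i a) * T i b a

variable {Γ} {p : ℕ} {ω : Z → Z → ℂ}

theorem btw_apply (ω : Z → Z → ℂ) (T : Mat X Y) (i : ι) (b : Y.V i) (a : X.V i) :
    twMat ω T i b a = ω (Y.pos i b) (X.pos i a) * T i b a := rfl
theorem btw_supp (ω : Z → Z → ℂ) (T : Mat X Y) (i : ι) (b : Y.V i) (a : X.V i)
    (h : twMat ω T i b a ≠ 0) : T i b a ≠ 0 := right_ne_zero_of_mul h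
theorem btw_add (ω : Z → Z → ℂ) (S T : Mat X Y) : twMat ω (S + T) = twMat ω S + twMat ω T := by
  funext i
  ext b a
  simp only [btw_apply, Pi.add_apply, Matrix.add_apply, mul_add]
theorem btw_sub (ω : Z → Z → ℂ) (S T : Mat X Y) : twMat ω (S - T) = twMat ω S - twMat ω T := by
  funext i
  ext b a
  simp only [btw_apply, Pi.sub_apply, Matrix.sub_apply, mul_sub]
theorem btw_smul (ω : Z → Z → ℂ) (c : ℂ) (S : Mat X Y) : twMat ω (c • S) = c • twMat ω S := by
  funext i
  ext b a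
  simp only [btw_apply, Pi.smul_apply, Matrix.smul_apply, smul_eq_mul]
  ring

theorem Ctrl.twMat (ω : Z → Z → ℂ) {T : Mat X Y} (hT : Γ.Ctrl T) : Γ.Ctrl (twMat ω T) :=
  hT.of_supp (Eventually.of_forall (btw_supp ω T))
theorem Van.twMat (ω : Z → Z → ℂ) {T : Mat X Y} (hT : Γ.Van T) : Γ.Van (twMat ω T) :=
  hT.of_supp (Eventually.of_forall (btw_supp ω T))
theorem cls_twMat_rep (ω : Z → Z → ℂ) {T : Mat X Y} (hT : Γ.Ctrl T) :
    Γ.cls (twMat ω (rep (Γ.cls T))) = Γ.cls (twMat ω T) := by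
  rw [cls_eq_iff ((rep_ctrl _).twMat ω) (hT.twMat ω), ← btw_sub]
  exact ((cls_eq_iff (rep_ctrl _) hT).1 (cls_rep _)).twMat ω

/-- families supported on pairs of equal positions are not changed -/
theorem btw_of_pos_eq (hω : Γ.Cocycle p ω) {T : Mat X Y}
    (h : ∀ i b a, T i b a ≠ 0 → Y.pos i b = X.pos i a) : Γ.cls (twMat ω T) = Γ.cls T := by
  have hT : Γ.Ctrl T := ctrl_of_pos_eq h
  rw [cls_eq_iff (hT.twMat ω) hT]
  refine ((hT.twMat ω).sub hT).van_of_src fun η hη => Eventually.of_forall fun i b a hba => ?_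
  by_contra hc
  apply hba
  rw [Pi.sub_apply, Matrix.sub_apply, btw_apply]
  by_cases h0 : T i b a = 0
  · rw [h0, mul_zero, sub_zero]
  · rw [h i b a h0, hω.self i _ (hη.trans (not_le.1 hc)), one_mul, sub_self]

theorem btw_mul (hω : Γ.Cocycle p ω) {W : Obj ι Z} {S : Mat X Y} {T : Mat W X} (hS : Γ.Ctrl S)
    (hT : Γ.Ctrl T) : Γ.cls (twMat ω (X := W) (Y := Y) fun i => S i * T i) =
      Γ.cls (X := W) (Y := Y) fun i => twMat ω S i * twMat ω T i := by
  obtain ⟨δ, hδ, hm⟩ := hω.mul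
  have h1 := (hS.mul hT).twMat ω
  have h2 := (hS.twMat ω).mul (hT.twMat ω)
  rw [cls_eq_iff h1 h2]
  refine (h1.sub h2).van_of_src fun η hη => ?_
  have hη' : 0 < min (η / 3) δ := lt_min (by positivity) hδ
  filter_upwards [hS _ hη', hT _ hη'] with i e1 e2 c a hca
  by_contra hc
  apply hca
  rw [Pi.sub_apply, Matrix.sub_apply, btw_apply, Matrix.mul_apply, Matrix.mul_apply,
    Finset.mul_sum, sub_eq_zero]
  refine Finset.sum_congr rfl fun b _ => ?_
  rw [btw_apply, btw_apply]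
  by_cases hS0 : S i c b = 0
  · simp [hS0]
  by_cases hT0 : T i b a = 0
  · simp [hT0]
  have m1 := min_le_left (η / 3) δ
  have m2 := min_le_right (η / 3) δ
  have ha : η < Γ.u i (W.pos i a) := not_le.1 hc
  have r2 : Γ.ρ i (X.pos i b) (W.pos i a) ≤ min (η / 3) δ :=
    (e2 b a hT0).resolve_right fun h => by linarith [h.2]
  have l2 := Γ.u_lip i (W.pos i a) (X.pos i b)
  rw [Γ.ρ_comm] at l2
  have r1 : Γ.ρ i (Y.pos i c) (X.pos i b) ≤ min (η / 3) δ :=
    (e1 c b hS0).resolve_right fun h => by linarith [h.2]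
  have l1 := Γ.u_lip i (X.pos i b) (Y.pos i c)
  rw [Γ.ρ_comm] at l1
  rw [← hm i (Y.pos i c) (X.pos i b) (W.pos i a) (r1.trans m2) (r2.trans m2) (by linarith)
    (by linarith) (by linarith)]
  ring

theorem btw_ct (hω : Γ.Cocycle p ω) {S : Mat X Y} (hS : Γ.Ctrl S) :
    Γ.cls (twMat ω (X := Y) (Y := X) fun i => (S i)ᴴ) =
      Γ.cls (X := Y) (Y := X) fun i => (twMat ω S i)ᴴ := by
  obtain ⟨δ, hδ, hm⟩ := hω.mul
  have h1 := hS.ct.twMat ω
  have h2 := (hS.twMat ω).ct
  rw [cls_eq_iff h1 h2]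
  refine (h1.sub h2).van_of_src fun η hη => ?_
  have hη' : 0 < min (η / 2) δ := lt_min (by positivity) hδ
  filter_upwards [hS _ hη'] with i e1 a b hab
  by_contra hc
  apply hab
  rw [Pi.sub_apply, Matrix.sub_apply, btw_apply, conjTranspose_apply, conjTranspose_apply,
    btw_apply, sub_eq_zero]
  by_cases hS0 : S i b a = 0
  · simp [hS0]
  have m1 := min_le_left (η / 2) δ
  have m2 := min_le_right (η / 2) δ
  have hb : η < Γ.u i (Y.pos i b) := not_le.1 hc
  have r1 : Γ.ρ i (Y.pos i b) (X.pos i a) ≤ min (η / 2) δ :=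
    (e1 b a hS0).resolve_right fun h => by linarith [h.1]
  have l1 := Γ.u_lip i (Y.pos i b) (X.pos i a)
  have k1 := hm i (Y.pos i b) (X.pos i a) (Y.pos i b) (r1.trans m2)
    (by rw [Γ.ρ_comm]; exact r1.trans m2) (by linarith) (by linarith) (by linarith)
  rw [hω.self i _ (by linarith)] at k1
  have k2 : ‖ω (Y.pos i b) (X.pos i a)‖ = 1 := by
    have := congrArg norm (hω.pow (Y.pos i b) (X.pos i a))
    rw [norm_pow, norm_one] at this
    exact (pow_eq_one_iff_of_nonneg (norm_nonneg _) hω.pos.ne').1 this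
  have k3 : star (ω (Y.pos i b) (X.pos i a)) * ω (Y.pos i b) (X.pos i a) = 1 := by
    rw [Complex.star_def, Complex.conj_mul', k2]
    simp
  have k4 : ω (X.pos i a) (Y.pos i b) = star (ω (Y.pos i b) (X.pos i a)) := by
    calc ω (X.pos i a) (Y.pos i b)
        = (star (ω (Y.pos i b) (X.pos i a)) * ω (Y.pos i b) (X.pos i a)) *
            ω (X.pos i a) (Y.pos i b) := by rw [k3, one_mul]
      _ = _ := by rw [mul_assoc, k1, mul_one]
  rw [k4, star_mul']

theorem btw_inl_pos (i : ι) (b : (X + Y).V i) (a : X.V i) (h : inlMat X Y i b a ≠ 0) :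
    (X + Y).pos i b = X.pos i a := by
  rcases b with b | b
  · have : b = a := by
      by_contra hc
      exact h (by simp [inlMat, Matrix.one_apply_ne hc])
    subst this; rfl
  · exact absurd (by simp [inlMat]) h
theorem btw_inr_pos (i : ι) (b : (X + Y).V i) (a : Y.V i) (h : inrMat X Y i b a ≠ 0) :
    (X + Y).pos i b = Y.pos i a := by
  rcases b with b | b
  · exact absurd (by simp [inrMat]) h
  · have : b = a := by
      by_contra hc
      exact h (by simp [inrMat, Matrix.one_apply_ne hc])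
    subst this; rfl

/-- the twisting functor -/
noncomputable def tw (hω : Γ.Cocycle p ω) : DFun Γ.cat Γ.cat where
  map f := Γ.cls (twMat ω (rep f))
  map_add' f g := by
    obtain ⟨S, hS, rfl⟩ := cls_surj f
    obtain ⟨T, hT, rfl⟩ := cls_surj g
    rw [← cls_add hS hT, cls_twMat_rep ω hS, cls_twMat_rep ω hT, cls_twMat_rep ω (hS.add hT),
      btw_add, cls_add (hS.twMat ω) (hT.twMat ω)]
  map_smul' c f := by
    obtain ⟨S, hS, rfl⟩ := cls_surj f
    rw [← cls_smul c hS, cls_twMat_rep ω hS, cls_twMat_rep ω (hS.smul c), btw_smul,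
      cls_smul c (hS.twMat ω)]
  map_comp' g f := by
    obtain ⟨S, hS, rfl⟩ := cls_surj g
    obtain ⟨T, hT, rfl⟩ := cls_surj f
    rw [cls_comp hS hT, cls_twMat_rep ω hS, cls_twMat_rep ω hT, cls_twMat_rep ω (hS.mul hT),
      cls_comp (hS.twMat ω) (hT.twMat ω), btw_mul hω hS hT]
  map_id' X := by
    rw [← cls_one, cls_twMat_rep ω ctrl_one]
    refine btw_of_pos_eq hω fun i b a h => ?_
    by_contra hc
    exact h (Matrix.one_apply_ne fun e => hc (by rw [e]))
  map_dag' f := by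
    obtain ⟨S, hS, rfl⟩ := cls_surj f
    rw [cls_dag hS, cls_twMat_rep ω hS, cls_twMat_rep ω hS.ct, cls_dag (hS.twMat ω),
      btw_ct hω hS]
  map_inl' X Y :=
    (cls_twMat_rep ω (ctrl_inlMat (X := X) (Y := Y))).trans (btw_of_pos_eq hω btw_inl_pos)
  map_inr' X Y :=
    (cls_twMat_rep ω (ctrl_inrMat (X := X) (Y := Y))).trans (btw_of_pos_eq hω btw_inr_pos)
  map_adm' d hd := by
    obtain ⟨T, hT, rfl⟩ := cls_surj d
    rw [cls_twMat_rep ω hT]
    refine (bctx_adm_iff (hT.twMat ω)).2 fun w hw s t hst => ?_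
    obtain ⟨S, h1, h2⟩ := (bctx_adm_iff hT).1 hd w hw s t hst
    exact ⟨S, h1, fun η hη => (h2 η hη).mono fun i hi b a hba =>
      hi b a ⟨hba.1, hba.2.1, btw_supp ω T i b a hba.2.2⟩⟩

theorem tw_cls (hω : Γ.Cocycle p ω) {T : Mat X Y} (hT : Γ.Ctrl T) :
    (tw hω).map (Γ.cls T) = Γ.cls (twMat ω T) := cls_twMat_rep ω hT

theorem tw_proj (hω : Γ.Cocycle p ω) (S : ∀ i, Set (X.V i)) :
    (tw hω).map (Γ.proj X S) = Γ.proj X S := by
  rw [proj, tw_cls hω (ctrl_projMat S)]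
  refine btw_of_pos_eq hω fun i b a h => ?_
  by_contra hc
  exact h (diagonal_apply_ne _ fun e => hc (by rw [e]))

theorem res_tw_eq_zero (hω : Γ.Cocycle p ω) {Γ' : Ctx ι Z} (h : Le Γ Γ') {f : Γ.cat.Hom X Y}
    (hf : (res h).map f = 0) : (res h).map ((tw hω).map f) = 0 := by
  obtain ⟨T, hT, rfl⟩ := cls_surj f
  rw [res_cls h hT, cls_eq_zero_iff (h.ctrl hT)] at hf
  rw [tw_cls hω hT, res_cls h (hT.twMat ω), cls_eq_zero_iff (h.ctrl (hT.twMat ω))]
  exact hf.twMat ω

theorem btw_iterate_cls (hω : Γ.Cocycle p ω) {T : Mat X Y} (hT : Γ.Ctrl T) (k : ℕ) :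
    ((tw hω).map)^[k] (Γ.cls T) = Γ.cls (twMat (fun x y => ω x y ^ k) T) := by
  induction k with
  | zero =>
    rw [Function.iterate_zero, id_eq]
    congr 1
    funext i
    ext b a
    simp only [btw_apply, pow_zero, one_mul]
  | succ k ih =>
    rw [Function.iterate_succ_apply', ih, tw_cls hω (hT.twMat _)]
    congr 1
    funext i
    ext b a
    simp only [btw_apply]
    ring

theorem btw_iterate (hω : Γ.Cocycle p ω) (f : Γ.cat.Hom X Y) : ((tw hω).map)^[p] f = f := by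
  obtain ⟨T, hT, rfl⟩ := cls_surj f
  rw [btw_iterate_cls hω hT]
  congr 1
  funext i
  ext b a
  simp only [btw_apply, hω.pow, one_mul]

theorem btw_form_iterate (F : DFun Γ.cat Γ.cat) (D : Form Γ.cat) (k : ℕ) :
    (Form.map F)^[k] D = ⟨D.V, (F.map)^[k] D.d, (F.map)^[k] D.φ⟩ := by
  induction k with
  | zero => rfl
  | succ k ih =>
    rw [Function.iterate_succ_apply', ih, Function.iterate_succ_apply',
      Function.iterate_succ_apply']

theorem tw_iterate (hω : Γ.Cocycle p ω) (D : Form Γ.cat) : (Form.map (tw hω))^[p] D = D := by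
  rw [btw_form_iterate, btw_iterate hω, btw_iterate hω]

end Ctx
end Crest.Agent.R217
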