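import Crest.Agent.R217.BTwist

/-! # Row 217, part B: twisting does not change signatures.

Proof of `twist_invariant`.  For a list `zs` of centres (`0 < u i z`) and `r`, let
`off zs i x = min_{z ∈ zs} ρ i x z` (fold of `min` starting from the constant `δ`), and say `D` is
*trivial off `(zs, r)`* if `D.d` is contractible in `Γ.restrict (off zs - r)`.  Claim `P zs`: for all
`r < δ/2` and all Poincaré `D` trivial off `(zs, r)`, `σ (tw D) = σ D`.
* Triviality off `(zs, r)` passes to `tw D` (lift the contraction `k` with `exists_rho_map_eq_zero`;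
  `tw` preserves the support of representatives, so `res (tw (rho d k)) = 0`: lemma `res_tw_eq_zero`).
* `zs = []`: `off - r = δ - r > 0` is constant, the restriction is faithful, `D` and `tw D` are
  contractible, `neutral_of_contr`, both signatures vanish.
* `z :: zs`: `ϱ = rho d k` vanishing off `(z :: zs, r)`; `r < r₁ < r₂ < δ/2`; `Q` = subcomplex
  (`adm_iff` for `w = -off zs`) containing `{off zs ≥ r₂}`, inside `{off zs ≥ r₁}`; `τ` = class of the
  diagonal matrix `ω (pos a) z`.  Isotropic data in `(tw D).add D.neg`: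
  `Λ = D.V, e = d Q, j = lift (τ ϱ Q) (ϱ Q), T = 0`.  The point: `ϱ Q` vanishes in
  `Γ.restrict (ρ · z - r)` (on `Q`, `off zs ≥ r₁ > r`), while in `Γ.restrict (r' - ρ · z)`
  (`r < r' < δ/2`) one has `tw f = τ f τ†`, `τ†τ = ττ† = 1` (up to points with `u ≤ 0`); check all
  identities with `restrict_faithful₂`.  `adm (d Q)`: projections commute.  `D'' = surg` is Poincaré,
  cobordant to `tw D - D` (`neutral_surg`), and trivial off `(zs, r₂)`: in `Γ' = Γ.restrict (off zs - r₂)`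
  `Q = 1`; use `contr_of_cover2` for the two restrictions of `Γ'` by `r' - ρ · z` (there
  `contr_surg_of_eqv` with `j₁ = τ ϱ`, `j₂ = ϱ` equivalences) and by `ρ · z - r` (there `D`, `tw D`, `Λ`
  are contractible: `contr_surg`).  Let `s m` be a signature of `tw^[m] D` and `c m = s (m+1) - s m`.
  Apply the construction to `D_m = tw^[m] D`: `σ D''_m = c m`, `σ (tw D''_m) = c (m+1)`
  (`Neutral.map tw`), so `P zs` gives `c (m+1) = c m`; `tw^[p] = id` gives `p * c 0 = 0`.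
* Finally cover `{u > 0}` by balls of radius `r₀ < r`: then `min u (off zs - r) ≤ 0` everywhere, every
  morphism of the restriction vanishes. -/

set_option autoImplicit false
open Filter Matrix

namespace Crest.Agent.R217

namespace Form
open DC

universe u v
variable {O : Type u} [Add O] {𝒜 ℬ 𝒞 : DC.{u, v} O} {V : O} {d φ d' φ' τ Q k : 𝒜.Hom V V}

/-- the isotropic data of the inductive step -/
@[reducible] def bt2Iso (d φ d' φ' τ Q k : 𝒜.Hom V V) :
    (Form.add ⟨V, d', φ'⟩ (Form.neg ⟨V, d, φ⟩)).Iso :=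
  ⟨V, d ⊚ Q, lift (τ ⊚ rho d k ⊚ Q) (rho d k ⊚ Q), 0⟩

theorem bt2_isIso (FA : DFun 𝒜 ℬ) (FB : DFun 𝒜 𝒞)
    (hF : ∀ f : 𝒜.Hom V V, FA.map f = 0 → FB.map f = 0 → f = 0) (hdd : d ⊚ d = 0)
    (hτ : τ† ⊚ τ = 𝒜.id V) (hQ : Q ⊚ d ⊚ Q = d ⊚ Q) (hadm : 𝒜.adm (d ⊚ Q))
    (hd : FA.map d' = FA.map (τ ⊚ d ⊚ τ†)) (hφ : FA.map φ' = FA.map (τ ⊚ φ ⊚ τ†))
    (hB : FB.map (rho d k ⊚ Q) = 0) : (bt2Iso d φ d' φ' τ Q k).IsIso := by
  have hc := rho_comm hdd k
  have hτ' : (FA.map τ)† ⊚ FA.map τ = ℬ.id V := by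
    rw [← FA.map_dag, ← FA.map_comp, hτ, FA.map_id]
  have ext : ∀ f g : 𝒜.Hom V V, FA.map f = FA.map g → FB.map f = FB.map g → f = g :=
    fun f g h1 h2 => sub_eq_zero.1 (hF _ (by rw [FA.map_sub, h1, sub_self])
      (by rw [FB.map_sub, h2, sub_self]))
  unfold bt2Iso
  generalize rho d k = ϱ at hc hB ⊢
  have h1 : τ ⊚ d ⊚ ϱ ⊚ Q = d' ⊚ τ ⊚ ϱ ⊚ Q := by
    apply ext
    · simp only [FA.map_comp, hd, FA.map_dag, comp_assoc, reassoc hτ', id_comp]
    · simp only [FB.map_comp _ (ϱ ⊚ Q), FB.map_comp _ (_ ⊚ ϱ ⊚ Q), hB, comp_zero]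
  have h2 : Q† ⊚ ϱ† ⊚ τ† ⊚ φ' ⊚ τ ⊚ ϱ ⊚ Q = Q† ⊚ ϱ† ⊚ φ ⊚ ϱ ⊚ Q := by
    apply ext
    · simp only [FA.map_comp, hφ, FA.map_dag, comp_assoc, reassoc hτ', id_comp]
    · rw [FB.map_comp] at hB
      simp only [FB.map_comp, hB, comp_zero]
  refine ⟨?_, hadm, ?_, dag_zero, ?_⟩
  · simp [hQ, reassoc hdd]
  · simp [hQ, reassoc hc, h1]
  · simp [h2]

theorem bt2_contr_near (H : DFun 𝒜 ℬ) (hD : IsForm ⟨V, d, φ⟩) (hD' : Poinc ⟨V, d', φ'⟩)
    (hτ : τ† ⊚ τ = 𝒜.id V) (hτ' : τ ⊚ τ† = 𝒜.id V) (hL : (bt2Iso d φ d' φ' τ Q k).IsIso)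
    (hQ : H.map Q = ℬ.id V) (hd : H.map d' = H.map (τ ⊚ d ⊚ τ†)) :
    Contr (H.map (surg _ (bt2Iso d φ d' φ' τ Q k)).d) := by
  have h0 : H.map d ⊚ H.map d = 0 := (hD.map H).dd
  have e1 : (H.map τ)† ⊚ H.map τ = ℬ.id V := by rw [← H.map_dag, ← H.map_comp, hτ, H.map_id]
  have e2 : H.map τ ⊚ (H.map τ)† = ℬ.id V := by rw [← H.map_dag, ← H.map_comp, hτ', H.map_id]
  have h2 : IsEqv (H.map d) (H.map d) (rho (H.map d) (H.map k)) := isEqv_rho h0 _
  have h1 : IsEqv (H.map d) (H.map d') (H.map τ ⊚ rho (H.map d) (H.map k)) :=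
    (IsEqv.of_iso (by simp [hd, e1]) e1 e2).comp h2
  have hL' : Iso.IsIso (D := Form.add (Form.map H ⟨V, d', φ'⟩) (Form.neg (Form.map H ⟨V, d, φ⟩)))
      ⟨V, H.map d, lift (H.map τ ⊚ rho (H.map d) (H.map k)) (rho (H.map d) (H.map k)), 0⟩ := by
    have := hL.map H
    refine ⟨h0, ?_, ?_, ?_, ?_⟩
    · simpa [hQ] using this.adm
    · simpa [hQ] using this.chain
    · simp
    · simpa [hQ] using this.null
  have := contr_surg_of_eqv (hD'.map H) (hD.map H) hL' h1 h2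
  convert this using 1
  simp [hQ]

theorem bt2_contr_far (H : DFun 𝒜 ℬ) (hD : IsForm ⟨V, d, φ⟩) (hD' : IsForm ⟨V, d', φ'⟩)
    (hL : (bt2Iso d φ d' φ' τ Q k).IsIso) (hQ : H.map Q = ℬ.id V)
    (h₁ : Contr (H.map d)) (h₂ : Contr (H.map d')) :
    Contr (H.map (surg _ (bt2Iso d φ d' φ' τ Q k)).d) := by
  have h3 := Contr.tri h₂ h₁ (hD'.map H).dd (hD.map H).dd (f := 0) (by simp)
  have := contr_surg ((hD'.add hD.neg).map H) (hL.map H) (by simpa using h3)
    (by simpa [hQ] using h₁)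
  rw [← map_surg] at this
  exact this

end Form

namespace Ctx
open DC
variable {ι Z : Type} {Γ : Ctx ι Z} {p : ℕ} {ω : Z → Z → ℂ} {X Y : Obj ι Z}

theorem bt2_res_zero {Γ₁ Γ₂ : Ctx ι Z} (h₁ : Le Γ Γ₁) (h₂ : Le Γ₁ Γ₂) (h : Le Γ Γ₂)
    {f : Γ.cat.Hom X Y} (hf : (res h₁).map f = 0) : (res h).map f = 0 := by
  have := res_res h₁ h₂ f
  rw [hf, DFun.map_zero] at this
  exact this.symm

theorem bt2_contr_mono {Γ₁ Γ₂ : Ctx ι Z} (h₁ : Le Γ Γ₁) (h₂ : Le Γ₁ Γ₂) (h : Le Γ Γ₂)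
    {d : Γ.cat.Hom X X} (hd : Contr ((res h₁).map d)) : Contr ((res h).map d) := by
  have := hd.map (res h₂)
  rwa [res_res] at this

theorem bt2_contr_tw (hω : Γ.Cocycle p ω) {Γ' : Ctx ι Z} (h : Le Γ Γ') (hf : (res h).Full)
    {d : Γ.cat.Hom X X} (hd : Contr ((res h).map d)) : Contr ((res h).map ((tw hω).map d)) := by
  obtain ⟨k, hk⟩ := exists_rho_map_eq_zero (res h) hf hd
  have := res_tw_eq_zero hω h hk
  rw [map_rho, map_rho] at this
  exact contr_iff_rho.2 ⟨_, this⟩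

variable (Γ) in
/-- the local trivialisation at `z` -/
noncomputable def bt2τ (ω : Z → Z → ℂ) (z : Z) (X : Obj ι Z) : Γ.cat.Hom X X :=
  Γ.cls fun i => diagonal fun a => ω (X.pos i a) z

theorem bt2_mul_conj (hω : Γ.Cocycle p ω) (x y : Z) : ω x y * star (ω x y) = 1 := by
  have h : ‖ω x y‖ = 1 := Complex.norm_eq_one_of_pow_eq_one (hω.pow x y) hω.pos.ne'
  rw [Complex.star_def, Complex.mul_conj, Complex.normSq_eq_norm_sq, h]
  simp

theorem bt2τ_dag (z : Z) (X : Obj ι Z) :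
    (Γ.bt2τ ω z X)† = Γ.cls fun i => diagonal fun a => star (ω (X.pos i a) z) := by
  rw [bt2τ, cls_dag (ctrl_diagonal _)]
  simp only [diagonal_conjTranspose]
  rfl

theorem bt2τ_dag_comp (hω : Γ.Cocycle p ω) (z : Z) (X : Obj ι Z) :
    (Γ.bt2τ ω z X)† ⊚ Γ.bt2τ ω z X = Γ.cat.id X := by
  rw [bt2τ_dag, bt2τ, cls_comp (ctrl_diagonal _) (ctrl_diagonal _), ← cls_one]
  simp only [diagonal_mul_diagonal, mul_comm (star _), bt2_mul_conj hω, diagonal_one]

theorem bt2τ_comp_dag (hω : Γ.Cocycle p ω) (z : Z) (X : Obj ι Z) :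
    Γ.bt2τ ω z X ⊚ (Γ.bt2τ ω z X)† = Γ.cat.id X := by
  rw [bt2τ_dag, bt2τ, cls_comp (ctrl_diagonal _) (ctrl_diagonal _), ← cls_one]
  simp only [diagonal_mul_diagonal, bt2_mul_conj hω, diagonal_one]

theorem bt2_lip_near (z : Z) (r : ℝ) (i : ι) (x y : Z) :
    r - Γ.ρ i x z ≤ r - Γ.ρ i y z + Γ.ρ i x y := by
  have := Γ.ρ_tri i y x z
  rw [Γ.ρ_comm i y x] at this
  linarith

theorem bt2_lip_far (z : Z) (r : ℝ) (i : ι) (x y : Z) :
    Γ.ρ i x z - r ≤ Γ.ρ i y z - r + Γ.ρ i x y := by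
  have := Γ.ρ_tri i x y z
  linarith

theorem bt2_tw_near (hω : Γ.Cocycle p ω) {δ : ℝ} (hδ : 0 < δ)
    (hm : ∀ i x y z, Γ.ρ i x y ≤ δ → Γ.ρ i y z ≤ δ →
      0 < Γ.u i x → 0 < Γ.u i y → 0 < Γ.u i z → ω x y * ω y z = ω x z)
    {z : Z} (hz : ∀ i, 0 < Γ.u i z) {r : ℝ} (hr : r ≤ δ) (f : Γ.cat.Hom X Y) :
    (res (le_restrict (bt2_lip_near z r))).map ((tw hω).map f) =
      (res (le_restrict (bt2_lip_near z r))).map (Γ.bt2τ ω z Y ⊚ f ⊚ (Γ.bt2τ ω z X)†) := by
  obtain ⟨T, hT, rfl⟩ := cls_surj f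
  have c1 := hT.mul (ctrl_diagonal (Γ := Γ) (X := X) fun i a => star (ω (X.pos i a) z))
  have c2 := (ctrl_diagonal (Γ := Γ) (X := Y) fun i a => ω (Y.pos i a) z).mul c1
  have hle := le_restrict (bt2_lip_near (Γ := Γ) z r)
  rw [tw_cls hω hT, bt2τ_dag, bt2τ, cls_comp hT (ctrl_diagonal _), cls_comp (ctrl_diagonal _) c1,
    res_cls _ (hT.twMat ω), res_cls _ c2, cls_eq_iff (hle.ctrl (hT.twMat ω)) (hle.ctrl c2)]
  refine (hle.ctrl ((hT.twMat ω).sub c2)).van_of_src fun η hη => ?_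
  filter_upwards [hT (min η δ) (lt_min hη hδ)] with i hi b a hba
  by_contra hc
  obtain ⟨h1, h2⟩ : η < Γ.u i (X.pos i a) ∧ η < r - Γ.ρ i (X.pos i a) z := lt_min_iff.1 (not_le.1 hc)
  have h3 : T i b a ≠ 0 := fun h0 => hba (by simp [twMat, h0])
  have h4 := min_le_left η δ
  have h5 := min_le_right η δ
  rcases hi b a h3 with h6 | h6
  · have h7 := Γ.u_lip i (X.pos i a) (Y.pos i b)
    rw [Γ.ρ_comm] at h7
    have h8 := hm i (Y.pos i b) (X.pos i a) z (by linarith) (by linarith) (by linarith)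
      (by linarith) (hz i)
    refine hba ?_
    simp only [twMat, Pi.sub_apply, Matrix.sub_apply, of_apply, diagonal_mul, mul_diagonal, ← h8]
    linear_combination (-(ω (Y.pos i b) (X.pos i a) * T i b a)) * bt2_mul_conj hω (X.pos i a) z
  · linarith [h6.2]

variable (Γ) in
/-- the truncated distance to a finite list of centres -/
def bt2off (δ : ℝ) : List Z → ι → Z → ℝ
  | [], _, _ => δ
  | z :: zs, i, x => min (Γ.ρ i x z) (bt2off δ zs i x)

theorem bt2off_lip (δ : ℝ) (zs : List Z) (r : ℝ) (i : ι) (x y : Z) :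
    Γ.bt2off δ zs i x - r ≤ Γ.bt2off δ zs i y - r + Γ.ρ i x y := by
  induction zs with
  | nil =>
    have := Γ.ρ_nonneg i x y
    simp only [bt2off]
    linarith
  | cons z zs ih =>
    have h1 := Γ.ρ_tri i x y z
    have h2 := min_le_left (Γ.ρ i x z) (Γ.bt2off δ zs i x)
    have h3 := min_le_right (Γ.ρ i x z) (Γ.bt2off δ zs i x)
    simp only [bt2off]
    rcases min_choice (Γ.ρ i y z) (Γ.bt2off δ zs i y) with h | h <;> rw [h] <;> linarith

theorem bt2off_le (δ : ℝ) {zs : List Z} {z : Z} (hz : z ∈ zs) (i : ι) (x : Z) :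
    Γ.bt2off δ zs i x ≤ Γ.ρ i x z := by
  induction zs with
  | nil => simp at hz
  | cons z' zs ih =>
    rcases List.mem_cons.1 hz with rfl | h
    · exact min_le_left _ _
    · exact (min_le_right _ _).trans (ih h)

/-- `d` is contractible off the `r`-neighbourhood of `zs` -/
def bt2Triv (δ : ℝ) (zs : List Z) (r : ℝ) (d : Γ.cat.Hom X X) : Prop :=
  Contr ((res (le_restrict (bt2off_lip δ zs r))).map d)

theorem bt2Triv.tw (hω : Γ.Cocycle p ω) {δ : ℝ} {zs : List Z} {r : ℝ} {d : Γ.cat.Hom X X}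
    (ht : bt2Triv δ zs r d) : bt2Triv δ zs r ((tw hω).map d) :=
  bt2_contr_tw hω (le_restrict (bt2off_lip δ zs r)) (restrict_full (bt2off_lip δ zs r)) ht

theorem bt2_step (hω : Γ.Cocycle p ω) {δ : ℝ} (hδ : 0 < δ)
    (hm : ∀ i x y z, Γ.ρ i x y ≤ δ → Γ.ρ i y z ≤ δ →
      0 < Γ.u i x → 0 < Γ.u i y → 0 < Γ.u i z → ω x y * ω y z = ω x z)
    {z : Z} (hz : ∀ i, 0 < Γ.u i z) (zs : List Z) {r r₂ : ℝ} (hr : r < r₂) (hr₂ : r₂ ≤ δ)
    {D : Form Γ.cat} (hD : D.Poinc) (ht : bt2Triv δ (z :: zs) r D.d) :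
    ∃ E : Form Γ.cat, E.Poinc ∧ bt2Triv δ zs r₂ E.d ∧
      (((D.map (tw hω)).add D.neg).add E.neg).Neutral := by
  obtain ⟨V, d, φ⟩ := D
  have hD' := hD.map (tw hω)
  have ht' : bt2Triv δ (z :: zs) r ((tw hω).map d) := ht.tw hω
  obtain ⟨k, hk⟩ := exists_rho_map_eq_zero _ (restrict_full _) ht
  obtain ⟨S, hS, hQ⟩ := (adm_iff d).1 hD.isForm.adm (fun i x => -Γ.bt2off δ zs i x)
    (fun i x y => by
      have := bt2off_lip (Γ := Γ) δ zs 0 i y x
      rw [Γ.ρ_comm i y x] at this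
      linarith) (-r₂) (-((r + r₂) / 2)) (by linarith)
  have hθ : 0 < (r₂ - r) / 2 := by linarith
  have hcov : ∀ i x, (r₂ - r) / 2 ≤ r₂ - Γ.ρ i x z ∨ (r₂ - r) / 2 ≤ Γ.ρ i x z - r := fun i x => by
    rcases le_total (Γ.ρ i x z) ((r + r₂) / 2) with h | h
    · left; linarith
    · right; linarith
  have hadm : Γ.cat.adm (d ⊚ Γ.proj V S) := by
    refine (adm_iff _).2 fun w hw s t hst => ?_
    obtain ⟨S', hS', h⟩ := (adm_iff d).1 hD.isForm.adm w hw s t hst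
    refine ⟨S', hS', ?_⟩
    have e : Γ.proj V S ⊚ Γ.proj V S' = Γ.proj V S' ⊚ Γ.proj V S := by
      simp only [proj_comp, Set.inter_comm]
    rw [comp_assoc, e, ← comp_assoc d, ← comp_assoc (Γ.proj V S'), h]
  have hB : (res (le_restrict (bt2_lip_far z r))).map (rho d k ⊚ Γ.proj V S) = 0 := by
    rw [DFun.map_comp, res_proj]
    refine comp_proj_eq_zero (Γ := Γ.restrict _ (bt2_lip_far z r)) (bt2off_lip (Γ := Γ) δ zs r) hθ
      (hS.mono fun i hi a ha => by linarith [(hi a).2 ha]) _ ?_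
    rw [DFun.map_comp, res_res, bt2_res_zero _ ?_ _ hk, zero_comp]
    refine ⟨le_rfl, Eventually.of_forall fun i x y => ⟨le_rfl, ?_⟩⟩
    change min (min _ _) _ ≤ min _ (min _ _ - r)
    rw [← min_sub_sub_right, min_assoc]
  have hL := Form.bt2_isIso (φ := φ) (d' := (tw hω).map d) (φ' := (tw hω).map φ)
    (res (le_restrict (bt2_lip_near z r₂))) (res (le_restrict (bt2_lip_far z r)))
    (restrict_faithful₂ _ _ hθ hcov) hD.isForm.dd (bt2τ_dag_comp hω z V) hQ hadm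
    (bt2_tw_near hω hδ hm hz hr₂ d) (bt2_tw_near hω hδ hm hz hr₂ φ) hB
  have hP := hD'.add hD.neg
  refine ⟨_, hP.surg hL, ?_, Form.neutral_surg hP hL⟩
  set Γ' := Γ.restrict _ (bt2off_lip δ zs r₂) with hΓ'
  have hle : Le Γ Γ' := le_restrict _
  have hQ1 : (res hle).map (Γ.proj V S) = Γ'.cat.id V := by
    rw [res_proj]
    refine proj_eq_id (hS.mono fun i hi a ha => (hi a).1 ?_)
    have : 0 < Γ.bt2off δ zs i (V.pos i a) - r₂ := (lt_min_iff.1 ha).2
    linarith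
  refine contr_of_cover2 (res (le_restrict (Γ := Γ') (bt2_lip_near (Γ := Γ) z r₂)))
    (res (le_restrict (Γ := Γ') (bt2_lip_far (Γ := Γ) z r))) (restrict_full _) (restrict_full _)
    (restrict_faithful₂ _ _ hθ hcov) ((hP.surg hL).isForm.map (res hle)).dd ?_ ?_
  · rw [res_res]
    refine Form.bt2_contr_near _ hD.isForm hD' (bt2τ_dag_comp hω z V) (bt2τ_comp_dag hω z V) hL
      (by rw [← res_res hle (le_restrict _), hQ1, DFun.map_id]) ?_
    have hle2 : Le (Γ.restrict _ (bt2_lip_near z r₂)) (Γ'.restrict _ (bt2_lip_near (Γ := Γ) z r₂)) :=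
      ⟨le_rfl, Eventually.of_forall fun i x y => ⟨le_rfl, min_le_min_right _ (min_le_left _ _)⟩⟩
    have := congrArg (res hle2).map (bt2_tw_near hω hδ hm hz hr₂ d)
    rwa [res_res, res_res] at this
  · rw [res_res]
    have hle2 : Le (Γ.restrict _ (bt2off_lip δ (z :: zs) r))
        (Γ'.restrict _ (bt2_lip_far (Γ := Γ) z r)) := by
      refine ⟨le_rfl, Eventually.of_forall fun i x y => ⟨le_rfl, ?_⟩⟩
      change min (min _ _) _ ≤ min _ (min _ _ - r)
      rw [← min_sub_sub_right, min_assoc]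
      refine min_le_min_left _ ?_
      rw [min_comm]
      exact min_le_min_left _ (by linarith)
    exact Form.bt2_contr_far _ hD.isForm hD'.isForm hL
      (by rw [← res_res hle (le_restrict _), hQ1, DFun.map_id])
      (bt2_contr_mono _ hle2 _ ht) (bt2_contr_mono _ hle2 _ ht')

theorem bt2_main (hω : Γ.Cocycle p ω) {δ : ℝ} (hδ : 0 < δ)
    (hm : ∀ i x y z, Γ.ρ i x y ≤ δ → Γ.ρ i y z ≤ δ →
      0 < Γ.u i x → 0 < Γ.u i y → 0 < Γ.u i z → ω x y * ω y z = ω x z)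
    {S : Form Γ.cat → (ι → ℤ) → Prop} (hS : SigThy Γ.cat Γ.l S) (zs : List Z)
    (hz : ∀ i, ∀ z ∈ zs, 0 < Γ.u i z) {r : ℝ} (hr : r < δ) {D : Form Γ.cat} (hD : D.Poinc)
    (ht : bt2Triv δ zs r D.d) {s s' : ι → ℤ} (h : S D s) (h' : S (D.map (tw hω)) s') :
    s =ᶠ[Γ.l] s' := by
  induction zs generalizing r D s s' with
  | nil =>
    have key : ∀ {E : Form Γ.cat} {t : ι → ℤ}, E.Poinc → bt2Triv δ [] r E.d → S E t →
        t =ᶠ[Γ.l] 0 := by
      intro E t hE hc hs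
      have hl := bt2off_lip (Γ := Γ) δ [] r
      refine hS.neutral hE (Form.neutral_of_contr hE.isForm ?_) hs
      exact contr_of_cover2 (res (le_restrict hl)) (res (le_restrict hl)) (restrict_full hl)
        (restrict_full hl)
        (fun f => restrict_faithful₂ hl hl (sub_pos.2 hr) (fun _ _ => Or.inl le_rfl) f)
        hE.isForm.dd hc hc
    exact (key hD ht h).trans
      (key (hD.map (tw hω)) (ht.tw hω) h').symm
  | cons z zs ih =>
    have hDm : ∀ m : ℕ, ((Form.map (tw hω))^[m] D).Poinc ∧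
        bt2Triv δ (z :: zs) r ((Form.map (tw hω))^[m] D).d := by
      intro m
      induction m with
      | zero => exact ⟨hD, ht⟩
      | succ m ihm =>
        rw [Function.iterate_succ_apply']
        exact ⟨ihm.1.map (tw hω), ihm.2.tw hω⟩
    choose σ hσ using fun m => hS.ex (hDm m).1
    have hσ' : ∀ m, S (((Form.map (tw hω))^[m] D).map (tw hω)) (σ (m + 1)) := fun m => by
      have := hσ (m + 1)
      rwa [Function.iterate_succ_apply'] at this
    have hσ'' : ∀ m, S ((((Form.map (tw hω))^[m] D).map (tw hω)).map (tw hω)) (σ (m + 2)) :=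
      fun m => by
        have := hσ' (m + 1)
        rwa [Function.iterate_succ_apply'] at this
    have hc : ∀ m, σ (m + 1) + -σ m =ᶠ[Γ.l] σ (m + 2) + -σ (m + 1) := by
      intro m
      obtain ⟨E, hE, hEt, hn⟩ := bt2_step hω hδ hm (fun i => hz i z List.mem_cons_self) zs
        (r₂ := (r + δ) / 2) (by linarith) (by linarith) (hDm m).1 (hDm m).2
      obtain ⟨t, ht⟩ := hS.ex hE
      obtain ⟨t', ht'⟩ := hS.ex (hE.map (tw hω))
      have p0 := (hDm m).1
      have p1 := p0.map (tw hω)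
      have p2 := p1.map (tw hω)
      have hn' := hn.map (tw hω)
      rw [Form.map_add, Form.map_add, Form.map_neg, Form.map_neg] at hn'
      exact (hS.eq_of_neutral (p1.add p0.neg) hE hn
        (hS.add p1 p0.neg (hσ' m) (hS.neg p0 (hσ m))) ht).trans
        ((ih (fun i z' hz' => hz i z' (List.mem_cons_of_mem _ hz')) (by linarith) hE hEt ht
          ht').trans (hS.eq_of_neutral (p2.add p1.neg) (hE.map (tw hω)) hn'
            (hS.add p2 p1.neg (hσ'' m) (hS.neg p1 (hσ' m))) ht').symm)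
    have hlin : ∀ m : ℕ, ∀ᶠ i in Γ.l, σ (m + 1) i - σ m i = σ 1 i - σ 0 i ∧
        σ m i = σ 0 i + m * (σ 1 i - σ 0 i) := by
      intro m
      induction m with
      | zero => exact Eventually.of_forall fun i => ⟨by simp, by simp⟩
      | succ m ihm =>
        filter_upwards [ihm, hc m] with i h1 h2
        simp only [Pi.add_apply, Pi.neg_apply] at h2
        refine ⟨by linarith [h1.1], ?_⟩
        push_cast
        linarith [h1.1, h1.2]
    have hp : σ p =ᶠ[Γ.l] σ 0 := by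
      have := hσ p
      rw [tw_iterate] at this
      exact hS.unique hD this (hσ 0)
    filter_upwards [hlin p, hp, hS.unique hD h (hσ 0), hS.unique (hD.map (tw hω)) h' (hσ' 0)]
      with i h1 h2 h3 h4
    have h5 : (p : ℤ) * (σ 1 i - σ 0 i) = 0 := by linarith [h1.2]
    have h6 := (mul_eq_zero.1 h5).resolve_left (by exact_mod_cast hω.pos.ne')
    rw [h3, h4, zero_add]
    linarith

theorem twist_invariant (hω : Γ.Cocycle p ω) {S : Form Γ.cat → (ι → ℤ) → Prop}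
    (hS : SigThy Γ.cat Γ.l S) {D : Form Γ.cat} (hD : D.Poinc) {s s' : ι → ℤ}
    (h : S D s) (h' : S (D.map (tw hω)) s') : s =ᶠ[Γ.l] s' := by
  obtain ⟨δ, hδ, hm⟩ := hω.mul
  obtain ⟨zs, hz, hc⟩ := hω.cover (δ / 2) (half_pos hδ)
  refine bt2_main hω hδ hm hS zs hz (half_lt_self hδ) hD ⟨0, ?_⟩ h h'
  rw [comp_zero, zero_comp, add_zero, eq_comm, ← cls_one, cls_eq_zero_iff ctrl_one]
  refine ctrl_one.van_of_src fun η hη => Eventually.of_forall fun i b a _ => ?_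
  by_cases hu : 0 < Γ.u i (D.V.pos i a)
  · obtain ⟨z, hz', h1⟩ := hc i _ hu
    have := bt2off_le (Γ := Γ) δ hz' i (D.V.pos i a)
    exact (min_le_right _ _).trans (by linarith)
  · exact (min_le_left _ _).trans (by linarith)

end Ctx
end Crest.Agent.R217
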