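import Mathlib

/-! # Row 217, part C3b: unique continuation for the fixed point set (auxiliary lemmas) -/

set_option autoImplicit false
open Filter Topology Set Metric

namespace Crest.Agent.R217

/-- a slowly varying staircase -/
theorem C3b_ramp {Rel : ℝ → ℝ → Prop} {r : ℝ} (hsymm : ∀ a b, Rel a b → Rel b a)
    (hR : ∀ δ, 0 < δ → ∃ δ', 0 < δ' ∧ ∀ a b, Rel a b → a ≤ r + δ' → b ≤ r + δ) {δ : ℝ} (hδ : 0 < δ)
    (I : ℕ) : ∃ (μ : ℝ → ℝ) (δ' : ℝ), 0 < δ' ∧ δ' ≤ δ ∧ Continuous μ ∧ Monotone μ ∧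
      (∀ t, t ≤ r + δ' → μ t = 0) ∧ (∀ t, r + δ ≤ t → μ t = I) ∧
      ∀ a b, Rel a b → |μ a - μ b| ≤ 1 := by
  induction I with
  | zero => exact ⟨fun _ => 0, δ, hδ, le_rfl, continuous_const, monotone_const, fun _ _ => rfl,
      fun _ _ => by simp, fun _ _ _ => by simp⟩
  | succ I ih =>
    obtain ⟨μ, δ', h1, h2, h3, h4, h5, h6, h7⟩ := ih
    obtain ⟨δ₁, h8, h9⟩ := hR δ' h1
    set d := min δ₁ δ' / 2 with hd
    have hd0 : 0 < d := by positivity
    have hd1 : 2 * d ≤ δ₁ := by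
      have := min_le_left δ₁ δ'
      linarith
    have hd2 : 2 * d ≤ δ' := by
      have := min_le_right δ₁ δ'
      linarith
    let β : ℝ → ℝ := fun t => max 0 (min 1 ((t - (r + d)) / d))
    have b0 : ∀ t, 0 ≤ β t := fun t => le_max_left _ _
    have b1 : ∀ t, β t ≤ 1 := fun t => max_le zero_le_one (min_le_left _ _)
    have b2 : ∀ t, r + 2 * d ≤ t → β t = 1 := fun t ht => by
      have : 1 ≤ (t - (r + d)) / d := by
        rw [le_div_iff₀ hd0]
        linarith
      simp only [β, min_eq_left this, max_eq_right zero_le_one]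
    have b3 : Monotone β := fun a b hab =>
      max_le_max le_rfl (min_le_min le_rfl (div_le_div_of_nonneg_right (by linarith) hd0.le))
    have small : ∀ a b, Rel a b → a ≤ r + 2 * d → |μ a + β a - (μ b + β b)| ≤ 1 := by
      intro a b hab ha
      rw [h5 a (by linarith), h5 b (h9 a b hab (by linarith)), abs_le]
      constructor <;> linarith [b0 a, b0 b, b1 a, b1 b]
    refine ⟨fun t => μ t + β t, d, hd0, by linarith, h3.add (by fun_prop), h4.add b3,
      fun t ht => ?_, fun t ht => ?_, fun a b hab => ?_⟩ <;> beta_reduce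
    · have : (t - (r + d)) / d ≤ 0 := div_nonpos_of_nonpos_of_nonneg (by linarith) hd0.le
      rw [h5 t (by linarith), zero_add]
      exact max_eq_left ((min_le_right _ _).trans this)
    · rw [h6 t ht, b2 t (by linarith)]
      push_cast
      ring
    · rcases le_total a (r + 2 * d) with ha | ha
      · exact small a b hab ha
      rcases le_total b (r + 2 * d) with hb | hb
      · rw [abs_sub_comm]
        exact small b a (hsymm a b hab) hb
      · rw [b2 a ha, b2 b hb, add_sub_add_right_eq_sub]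
        exact h7 a b hab

section radial
variable {Z : Type*} [NormedAddCommGroup Z] [NormedSpace ℝ Z] {lam : ℝ → ℝ}

theorem C3b_inj (hm : Monotone lam) (h1 : ∀ t, 1 ≤ lam t) :
    Function.Injective (fun v : Z => lam ‖v‖ • v) := by
  intro v w h
  have h' : lam ‖v‖ • v = lam ‖w‖ • w := h
  have e : lam ‖v‖ * ‖v‖ = lam ‖w‖ * ‖w‖ := by
    have := congrArg norm h'
    rwa [norm_smul, norm_smul, Real.norm_of_nonneg (by linarith [h1 ‖v‖]),
      Real.norm_of_nonneg (by linarith [h1 ‖w‖])] at this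
  have key : ∀ a b : ℝ, 0 ≤ a → a < b → lam a * a < lam b * b := fun a b ha hab =>
    (mul_le_mul_of_nonneg_right (hm hab.le) ha).trans_lt
      (mul_lt_mul_of_pos_left hab (by linarith [h1 b]))
  have e2 : ‖v‖ = ‖w‖ := by
    rcases lt_trichotomy ‖v‖ ‖w‖ with h2 | h2 | h2
    · exact absurd e (key _ _ (norm_nonneg _) h2).ne
    · exact h2
    · exact absurd e (key _ _ (norm_nonneg _) h2).ne'
  rw [e2] at h'
  exact smul_right_injective Z (by linarith [h1 ‖w‖] : lam ‖w‖ ≠ 0) h'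

theorem C3b_surj (hc : Continuous lam) {R : ℝ} (hR : 0 ≤ R) (h3 : lam R = 3) {c : Z}
    (h : ‖c‖ ≤ 3 * R) : ∃ v : Z, ‖v‖ ≤ R ∧ lam ‖v‖ • v = c := by
  by_cases h0 : c = 0
  · exact ⟨0, by simpa using hR, by simp [h0]⟩
  have hn : 0 < ‖c‖ := norm_pos_iff.2 h0
  obtain ⟨t, ht, e⟩ := intermediate_value_Icc hR (f := fun t => lam t * t) (by fun_prop)
    (show ‖c‖ ∈ Icc (lam 0 * 0) (lam R * R) from ⟨by simp, by rwa [h3]⟩)
  have e1 : ‖(t / ‖c‖) • c‖ = t := by
    rw [norm_smul, Real.norm_of_nonneg (div_nonneg ht.1 hn.le), div_mul_cancel₀ _ hn.ne']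
  refine ⟨(t / ‖c‖) • c, e1.le.trans ht.2, ?_⟩
  have e' : lam t * t = ‖c‖ := e
  rw [e1, smul_smul, ← mul_div_assoc, e', div_self hn.ne', one_smul]

theorem C3b_diff (h1 : ∀ t, 1 ≤ lam t) (h3 : ∀ t, lam t ≤ 3) (v w : Z) :
    ‖lam ‖w‖ • w - lam ‖v‖ • v‖ ≤ 3 * ‖w - v‖ + |lam ‖w‖ - lam ‖v‖| * ‖v‖ := by
  have e : lam ‖w‖ • w - lam ‖v‖ • v = lam ‖w‖ • (w - v) + (lam ‖w‖ - lam ‖v‖) • v := by
    rw [smul_sub, sub_smul]
    abel
  rw [e]
  refine (norm_add_le _ _).trans ?_
  rw [norm_smul, norm_smul, Real.norm_of_nonneg (by linarith [h1 ‖w‖]), Real.norm_eq_abs]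
  exact add_le_add (mul_le_mul_of_nonneg_right (h3 _) (norm_nonneg _)) le_rfl

end radial

section main
variable {Z : Type*} [NormedAddCommGroup Z] [NormedSpace ℝ Z] [ProperSpace Z]
  {M : Type*} [TopologicalSpace M] [T2Space M]
  {G : Type*} [Group G] [TopologicalSpace G] [IsTopologicalGroup G]
  [MulAction G M] [ContinuousSMul G M]

/-- the local rigidity property of `g` -/
def C3bRigid (Z : Type*) [NormedAddCommGroup Z] (M : Type*) [TopologicalSpace M] {G : Type*}
    [Group G] [MulAction G M] (g : G) (ε : ℝ) : Prop :=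
  ∀ (X : Set M), IsCompact X → (∀ x ∈ X, g • x ∈ X) →
    ∀ (e : M → Z), ContinuousOn e X → InjOn e X →
    ∀ (c : Z) (s : ℝ), 0 < s → closedBall c (2 * s) ⊆ e '' X →
    (∀ a : ℕ, ∀ x ∈ X, ‖e (g ^ a • x) - e x‖ ≤ ε * s) →
    ∀ x ∈ X, e x = c → g • x = x

/-- the saturation of a coordinate ball -/
def C3bSat (L : Subgroup G) (φ : OpenPartialHomeomorph M Z) (y : Z) (R : ℝ) : Set M :=
  (fun p : G × Z => p.1 • φ.symm p.2) '' ((L : Set G) ×ˢ closedBall y R)

omit [NormedSpace ℝ Z] [T2Space M] [IsTopologicalGroup G] in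
theorem C3bSat_compact {L : Subgroup G} (hL : IsCompact (L : Set G)) {φ : OpenPartialHomeomorph M Z}
    {y : Z} {R : ℝ} (hB : closedBall y R ⊆ φ.target) : IsCompact (C3bSat L φ y R) :=
  (hL.prod (isCompact_closedBall y R)).image_of_continuousOn
    (continuousOn_fst.smul (φ.continuousOn_symm.comp continuousOn_snd fun _ hp => hB hp.2))

omit [NormedSpace ℝ Z] [ProperSpace Z] [T2Space M] [TopologicalSpace G] [IsTopologicalGroup G]
  [ContinuousSMul G M] in
theorem C3bSat_smul {L : Subgroup G} {φ : OpenPartialHomeomorph M Z} {y : Z} {R : ℝ} {k : G}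
    (hk : k ∈ L) {x : M} (hx : x ∈ C3bSat L φ y R) : k • x ∈ C3bSat L φ y R := by
  obtain ⟨p, hp, rfl⟩ := hx
  exact ⟨(k * p.1, p.2), ⟨L.mul_mem hk hp.1, hp.2⟩, mul_smul _ _ _⟩

omit [IsTopologicalGroup G] in
theorem C3b_step {L : Subgroup G} (hL : IsCompact (L : Set G)) (hLc : IsClosed (L : Set G)) {g : G}
    (hg : g ∈ L) (hfix : ∀ x : M, g • x = x → ∀ k ∈ L, k • x = x) {ε : ℝ} (hε : 0 < ε)
    (hrig : C3bRigid Z M g ε) (φ : OpenPartialHomeomorph M Z) {y : Z} {r R : ℝ} (hr : 0 < r)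
    (hrR : r < R) (hB : closedBall y R ⊆ φ.target) (hS : C3bSat L φ y R ⊆ φ.source)
    (hF : ∀ v ∈ closedBall y r, g • φ.symm v = φ.symm v) :
    ∃ r', r < r' ∧ ∀ v ∈ closedBall y r', g • φ.symm v = φ.symm v := by
  set X₁ := C3bSat L φ y R with hX₁
  have hX₁c : IsCompact X₁ := C3bSat_compact hL hB
  -- orbits close to the fixed ball are small
  have A : ∀ η, 0 < η → ∃ δ, 0 < δ ∧ ∀ x ∈ X₁, ‖φ x - y‖ ≤ r + δ → ∀ k ∈ L,
      ‖φ (k • x) - φ x‖ ≤ η := by
    intro η hη
    have c1 : ContinuousOn (fun p : G × M => φ p.2) ((L : Set G) ×ˢ X₁) :=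
      φ.continuousOn.comp continuousOn_snd fun _ hp => hS hp.2
    have c2 : ContinuousOn (fun p : G × M => ‖φ (p.1 • p.2) - φ p.2‖) ((L : Set G) ×ˢ X₁) :=
      ((φ.continuousOn.comp (continuous_fst.smul continuous_snd).continuousOn
        fun _ hp => hS (C3bSat_smul hp.1 hp.2)).sub c1).norm
    have hC := (hL.prod hX₁c).of_isClosed_subset
      (c2.preimage_isClosed_of_isClosed (hLc.prod hX₁c.isClosed) (isClosed_Ici (a := η)))
      inter_subset_left
    obtain ⟨a, ha, ha'⟩ := hC.exists_forall_le' (f := fun p : G × M => ‖φ p.2 - y‖)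
      ((c1.mono inter_subset_left).sub continuousOn_const).norm (a := r) fun p hp => by
        by_contra hle
        have h1 := hF (φ p.2) (mem_closedBall_iff_norm.2 (not_lt.1 hle))
        rw [φ.left_inv (hS hp.1.2)] at h1
        have h2 : η ≤ ‖φ (p.1 • p.2) - φ p.2‖ := hp.2
        rw [hfix _ h1 _ hp.1.1, sub_self, norm_zero] at h2
        linarith
    refine ⟨(a - r) / 2, by linarith, fun x hx hx' k hk => ?_⟩
    by_contra hlt
    have := ha' (k, x) ⟨⟨hk, hx⟩, (not_le.1 hlt).le⟩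
    simp only at this
    linarith
  obtain ⟨δ₁, hδ₁, hA⟩ := A (ε * r / 24) (by positivity)
  set δ := min δ₁ (min r (R - r)) with hδ
  have hδ0 : 0 < δ := lt_min hδ₁ (lt_min hr (by linarith))
  have hδ1 : δ ≤ δ₁ := min_le_left _ _
  have hδ2 : δ ≤ r := (min_le_right _ _).trans (min_le_left _ _)
  have hδ3 : δ ≤ R - r := (min_le_right _ _).trans (min_le_right _ _)
  obtain ⟨I, hI⟩ := exists_nat_gt (32 / ε)
  have hI0 : (0 : ℝ) < I := lt_trans (by positivity) hI
  obtain ⟨μ, δ', m1, m2, m3, m4, m5, m6, m7⟩ := C3b_ramp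
    (Rel := fun a b => ∃ x ∈ X₁, ∃ k ∈ L, a = ‖φ x - y‖ ∧ b = ‖φ (k • x) - y‖) (r := r)
    (by
      rintro a b ⟨x, hx, k, hk, rfl, rfl⟩
      exact ⟨k • x, C3bSat_smul hk hx, k⁻¹, L.inv_mem hk, rfl, by rw [inv_smul_smul]⟩)
    (by
      intro d hd
      obtain ⟨d', hd', h⟩ := A (d / 2) (by positivity)
      refine ⟨min d' (d / 2), lt_min hd' (by positivity), ?_⟩
      rintro a b ⟨x, hx, k, hk, rfl, rfl⟩ ha
      have h1 := h x hx (ha.trans (by linarith [min_le_left d' (d / 2)])) k hk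
      have h2 := norm_sub_le_norm_sub_add_norm_sub (φ (k • x)) (φ x) y
      linarith [min_le_right d' (d / 2)]) hδ0 I
  let lam : ℝ → ℝ := fun t => 1 + 2 / I * μ t
  have μ0 : ∀ t, 0 ≤ μ t := fun t => by
    rw [← m5 (min t (r + δ')) (min_le_right _ _)]
    exact m4 (min_le_left _ _)
  have μI : ∀ t, μ t ≤ I := fun t => by
    rw [← m6 (max t (r + δ)) (le_max_right _ _)]
    exact m4 (le_max_left _ _)
  have l1 : ∀ t, 1 ≤ lam t := fun t => le_add_of_nonneg_right (mul_nonneg (by positivity) (μ0 t))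
  have e2 : 2 / (I : ℝ) * I = 2 := by field_simp
  have l3 : ∀ t, lam t ≤ 3 := fun t => by
    have := mul_le_mul_of_nonneg_left (μI t) (by positivity : (0 : ℝ) ≤ 2 / I)
    simp only [lam]
    linarith
  have lm : Monotone lam := fun a b hab =>
    add_le_add le_rfl (mul_le_mul_of_nonneg_left (m4 hab) (by positivity))
  have lc : Continuous lam := by fun_prop
  have lR : lam (r + δ) = 3 := by
    simp only [lam, m6 _ le_rfl]
    linarith
  have hball : closedBall y (r + δ) ⊆ closedBall y R := closedBall_subset_closedBall (by linarith)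
  have hXX : C3bSat L φ y (r + δ) ⊆ X₁ := image_mono (prod_mono subset_rfl hball)
  have hmem : ∀ v ∈ closedBall y (r + δ), φ.symm v ∈ C3bSat L φ y (r + δ) := fun v hv =>
    ⟨(1, v), ⟨L.one_mem, hv⟩, one_smul _ _⟩
  let e : M → Z := fun x => lam ‖φ x - y‖ • (φ x - y)
  have cφ : ContinuousOn (fun x => φ x - y) (C3bSat L φ y (r + δ)) :=
    (φ.continuousOn.mono (hXX.trans hS)).sub continuousOn_const
  have orb : ∀ v ∈ closedBall y (r + δ), ∀ k ∈ L, ‖e (k • φ.symm v) - e (φ.symm v)‖ ≤ ε * r / 4 := by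
    intro v hv k hk
    have hx := hXX (hmem v hv)
    have hn : ‖φ (φ.symm v) - y‖ ≤ r + δ := by
      rw [φ.right_inv (hB (hball hv))]
      exact mem_closedBall_iff_norm.1 hv
    have h1 := hA _ hx (by linarith) k hk
    have h2 := m7 _ _ ⟨_, hx, k, hk, rfl, rfl⟩
    have h3 := C3b_diff l1 l3 (φ (φ.symm v) - y) (φ (k • φ.symm v) - y)
    rw [sub_sub_sub_cancel_right] at h3
    have h4 : |lam ‖φ (k • φ.symm v) - y‖ - lam ‖φ (φ.symm v) - y‖| ≤ ε / 16 := by
      simp only [lam]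
      rw [add_sub_add_left_eq_sub, ← mul_sub, abs_mul, abs_of_nonneg (by positivity), abs_sub_comm]
      refine (mul_le_of_le_one_right (by positivity) h2).trans ?_
      rw [div_lt_iff₀ hε] at hI
      rw [div_le_iff₀ hI0]
      linarith
    have h5 := mul_le_mul h4 (hn.trans (by linarith : r + δ ≤ 2 * r)) (norm_nonneg _)
      (by positivity)
    refine h3.trans ?_
    linarith
  refine ⟨r + δ', by linarith, fun v hv => ?_⟩
  have hv' : v ∈ closedBall y (r + δ) := closedBall_subset_closedBall (by linarith) hv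
  refine hrig (C3bSat L φ y (r + δ)) (C3bSat_compact hL (hball.trans hB))
    (fun x hx => C3bSat_smul hg hx) e ((lc.comp_continuousOn cφ.norm).smul cφ) ?_ (v - y) (r / 2)
    (by positivity) ?_ ?_ _ (hmem v hv') ?_
  · intro a ha b hb hab
    exact φ.injOn (hS (hXX ha)) (hS (hXX hb)) (sub_left_injective (C3b_inj lm l1 hab))
  · intro c hc
    have h1 := mem_closedBall_iff_norm.1 hc
    have h2 := mem_closedBall_iff_norm.1 hv'
    have h3 := norm_le_norm_add_norm_sub' c (v - y)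
    obtain ⟨w, hw, hw'⟩ := C3b_surj lc (by linarith) lR (c := c) (by linarith)
    have hw2 : w + y ∈ closedBall y (r + δ) := mem_closedBall_iff_norm.2 (by simpa using hw)
    refine ⟨φ.symm (w + y), hmem _ hw2, ?_⟩
    simp only [e, φ.right_inv (hB (hball hw2)), add_sub_cancel_right, hw']
  · rintro a _ ⟨p, hp, rfl⟩
    have h1 := orb p.2 hp.2 _ (L.mul_mem (L.pow_mem hg a) hp.1)
    have h2 := orb p.2 hp.2 _ hp.1
    have h3 := norm_sub_le_norm_sub_add_norm_sub (e ((g ^ a * p.1) • φ.symm p.2)) (e (φ.symm p.2))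
      (e (p.1 • φ.symm p.2))
    rw [norm_sub_rev (e (φ.symm p.2))] at h3
    simp only [← mul_smul]
    linarith
  · simp only [e, lam, φ.right_inv (hB (hball hv')), m5 _ (mem_closedBall_iff_norm.1 hv), mul_zero,
      add_zero, one_smul]

theorem C3b_main (hch : ∀ x : M, ∃ φ : OpenPartialHomeomorph M Z, x ∈ φ.source) {K : Subgroup G}
    (hK : IsCompact (K : Set G)) {g : G} (hg : g ∈ K) {ε : ℝ} (hε : 0 < ε)
    (hrig : C3bRigid Z M g ε) : IsClosed (interior {x : M | g • x = x}) := by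
  set L := (Subgroup.zpowers g).topologicalClosure with hLdef
  have hLc : IsClosed (L : Set G) := Subgroup.isClosed_topologicalClosure _
  have hL : IsCompact (L : Set G) := hK.closure.of_isClosed_subset hLc
    (closure_mono (SetLike.coe_subset_coe.2 ((Subgroup.zpowers_le (G := G)).2 hg)))
  have hgL : g ∈ L := Subgroup.le_topologicalClosure _ (Subgroup.mem_zpowers g)
  have hfix : ∀ x : M, g • x = x → ∀ k ∈ L, k • x = x := fun x hx k hk =>
    Subgroup.topologicalClosure_minimal _ (t := MulAction.stabilizer G x)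
      ((Subgroup.zpowers_le (G := G)).2 hx)
      (isClosed_eq (f := fun k : G => k • x) (by fun_prop) continuous_const) hk
  have hFc : IsClosed {x : M | g • x = x} := isClosed_eq (by fun_prop) continuous_id
  refine isClosed_of_closure_subset fun x₁ hx₁ => ?_
  have hx₁F : g • x₁ = x₁ := closure_minimal interior_subset hFc hx₁
  obtain ⟨φ, hφ⟩ := hch x₁
  have t1 : ∀ᶠ x in 𝓝 x₁, ∀ k ∈ (L : Set G), k • x ∈ φ.source :=
    hL.eventually_forall_of_forall_eventually (P := fun (x : M) (k : G) => k • x ∈ φ.source)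
      fun k hk => (continuous_snd.smul continuous_fst).continuousAt.preimage_mem_nhds
        (φ.open_source.mem_nhds (by simpa [hfix x₁ hx₁F k hk] using hφ))
  have t2 : ∀ᶠ v in 𝓝 (φ x₁), v ∈ φ.target ∧ ∀ k ∈ (L : Set G), k • φ.symm v ∈ φ.source :=
    (φ.open_target.eventually_mem (φ.map_source hφ)).and ((φ.tendsto_symm hφ).eventually t1)
  obtain ⟨ρ, hρ, hρ'⟩ := nhds_basis_closedBall.eventually_iff.1 t2
  obtain ⟨y₀, ⟨hy₀, hy₁⟩, hy₂⟩ := mem_closure_iff_nhds.1 hx₁ (φ.source ∩ φ ⁻¹' ball (φ x₁) (ρ / 4))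
    ((φ.isOpen_inter_preimage isOpen_ball).mem_nhds ⟨hφ, mem_ball_self (by positivity)⟩)
  have hd : dist (φ y₀) (φ x₁) < ρ / 4 := hy₁
  obtain ⟨r₀, hr₀, hr₀'⟩ := nhds_basis_closedBall.eventually_iff.1
    ((φ.tendsto_symm hy₀).eventually (mem_interior_iff_mem_nhds.1 hy₂))
  set y := φ y₀
  have hsub : closedBall y (ρ / 2) ⊆ closedBall (φ x₁) ρ :=
    closedBall_subset_closedBall' (by linarith)
  have hB : closedBall y (ρ / 2) ⊆ φ.target := fun v hv => (hρ' (hsub hv)).1
  have hS : C3bSat L φ y (ρ / 2) ⊆ φ.source := by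
    rintro _ ⟨p, hp, rfl⟩
    exact (hρ' (hsub hp.2)).2 _ hp.1
  let T : Set ℝ := {r | r ≤ ρ / 2 ∧ ∀ v ∈ closedBall y r, g • φ.symm v = φ.symm v}
  have hT0 : min r₀ (ρ / 2) ∈ T :=
    ⟨min_le_right _ _, fun v hv => hr₀' (closedBall_subset_closedBall (min_le_left _ _) hv)⟩
  have hTb : BddAbove T := ⟨ρ / 2, fun r hr => hr.1⟩
  have hpos : 0 < sSup T := lt_of_lt_of_le (lt_min hr₀ (by positivity)) (le_csSup hTb hT0)
  have hle : sSup T ≤ ρ / 2 := csSup_le ⟨_, hT0⟩ fun r hr => hr.1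
  have hsup : ∀ v ∈ closedBall y (sSup T), g • φ.symm v = φ.symm v := by
    have hcl : IsClosed (closedBall y (ρ / 2) ∩ φ.symm ⁻¹' {x : M | g • x = x}) :=
      (φ.continuousOn_symm.mono hB).preimage_isClosed_of_isClosed isClosed_closedBall hFc
    rw [← closure_ball y hpos.ne']
    refine fun v hv => (closure_minimal (fun w hw => ?_) hcl hv).2
    obtain ⟨r, hr, hr'⟩ := exists_lt_of_lt_csSup ⟨_, hT0⟩ (mem_ball.1 hw)
    exact ⟨mem_closedBall.2 (hr'.le.trans hr.1), hr.2 w (mem_closedBall.2 hr'.le)⟩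
  have heq : sSup T = ρ / 2 := by
    by_contra hne
    have hlt := lt_of_le_of_ne hle hne
    obtain ⟨r', h1, h2⟩ := C3b_step hL hLc hgL hfix hε hrig φ hpos hlt hB hS hsup
    have : min r' (ρ / 2) ∈ T :=
      ⟨min_le_right _ _, fun v hv => h2 v (closedBall_subset_closedBall (min_le_left _ _) hv)⟩
    exact absurd (le_csSup hTb this) (not_le.2 (lt_min h1 hlt))
  rw [heq] at hsup
  refine mem_interior_iff_mem_nhds.2 (mem_of_superset
    ((φ.isOpen_inter_preimage (isOpen_ball (x := y) (ε := ρ / 2))).mem_nhds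
      ⟨hφ, mem_ball'.2 (by linarith)⟩) fun x hx => ?_)
  have := hsup (φ x) (ball_subset_closedBall hx.2)
  rwa [φ.left_inv hx.1] at this

end main

end Crest.Agent.R217
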