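import Mathlib

/-! # Row 217 (Hilbert–Smith): top-level definitions.  FIXED STATEMENTS, do not edit. -/

set_option autoImplicit false
open Filter Topology Metric Set

namespace Crest.Agent.R217

/-- No small subgroups. -/
def NSS (G : Type*) [Group G] [TopologicalSpace G] : Prop :=
  ∃ U ∈ 𝓝 (1 : G), ∀ H : Subgroup G, (H : Set G) ⊆ U → H = ⊥

/-- The local theorem for `p`-adic (and `Z/p^k`) actions with small orbits, sup norm on `Fin n → ℝ`: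
there is `ε = ε(n) > 0` such that a self-map `g` of a compact `W ⊇ [-2,2]^n` whose iterates move points
by at most `ε`, are uniformly equicontinuous on `W`, and satisfy `g^[p^k a] → id` uniformly in `a`
as `k → ∞`, fixes the origin. -/
def ThmS (n : ℕ) : Prop :=
  ∃ ε : ℝ, 0 < ε ∧ ∀ (p : ℕ), p.Prime → ∀ (W : Set (Fin n → ℝ)), IsCompact W →
    closedBall (0 : Fin n → ℝ) 2 ⊆ W → ∀ g : (Fin n → ℝ) → (Fin n → ℝ), MapsTo g W W →
    (∀ a : ℕ, ∀ x ∈ W, ‖g^[a] x - x‖ ≤ ε) →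
    (∀ η : ℝ, 0 < η → ∃ δ : ℝ, 0 < δ ∧ ∀ a : ℕ, ∀ x ∈ W, ∀ y ∈ W,
      ‖x - y‖ ≤ δ → ‖g^[a] x - g^[a] y‖ ≤ η) →
    (∀ η : ℝ, 0 < η → ∃ k : ℕ, ∀ a : ℕ, ∀ x ∈ W, ‖g^[p ^ k * a] x - x‖ ≤ η) →
    g 0 = 0

end Crest.Agent.R217
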