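import Crest.Agent.R217.GCell

/-! # Row 217, part B, geometry: algebra of the cubical complex.
One-dimensional identities by `ext` and evaluating sums over `Fin (2N+1)` (it helps to write
`dI, φI, φ0I` through the truncated shift `S b a = if b = a + 1 then 1 else 0` and `gI`);
higher-dimensional ones by induction with `Matrix.mul_kronecker_mul`, `add_kronecker`,
`conjTranspose_kronecker`.  For `cubΦ0_htp`: `φ0I - φI = -(I/2) (dI + dIᴴ)` and
`K_{k+1} = -I • K_k ⊗ (φ0I * gI) + cubΦ k ⊗ (-(I/2) • 1)`. -/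

set_option autoImplicit false
set_option linter.unusedSectionVars false
set_option linter.unusedSimpArgs false
open Matrix Complex
open scoped Kronecker

namespace Crest.Agent.R217
variable (N : ℕ)

theorem GAlg_neg_one_pow (a : ℕ) : (-1 : ℂ) ^ a = if a % 2 = 0 then 1 else -1 := by
  rcases Nat.even_or_odd a with h | h
  · rw [h.neg_one_pow, if_pos (Nat.even_iff.1 h)]
  · rw [h.neg_one_pow, if_neg (by have := Nat.odd_iff.1 h; omega)]

theorem GAlg_sum_one (F : ℕ → ℂ) (c : ℕ) :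
    ∑ x : Iv N, (if x.val = c then F x.val else 0) = if c ≤ 2 * N then F c else 0 := by
  split_ifs with h
  · rw [Finset.sum_eq_single (⟨c, by omega⟩ : Iv N)]
    · simp
    · intro b _ hb
      rw [if_neg fun e => hb (Fin.ext e)]
    · simp
  · refine Finset.sum_eq_zero fun x _ => if_neg ?_
    have := x.2
    omega

theorem GAlg_sum_two (F : ℕ → ℂ) (a : ℕ) (ha : a ≤ 2 * N)
    (h : ∀ x, x ≠ a + 1 → x + 1 ≠ a → F x = 0) :
    ∑ x : Iv N, F x.val = (if a + 1 ≤ 2 * N then F (a + 1) else 0) +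
      (if 1 ≤ a then F (a - 1) else 0) := by
  have h1 : ∀ x : Iv N, F x.val = (if x.val = a + 1 then F x.val else 0) +
      (if x.val = (if 1 ≤ a then a - 1 else 2 * N + 1) then F x.val else 0) := by
    intro x
    have := x.2
    split_ifs <;> first | omega | simp
    all_goals exact h _ (by omega) (by omega)
  rw [Finset.sum_congr rfl fun x _ => h1 x, Finset.sum_add_distrib, GAlg_sum_one, GAlg_sum_one]
  congr 1
  split_ifs <;> first | omega | rfl

/-- entries as functions of natural numbers -/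
def GAlg_d (b a : ℕ) : ℂ :=
  if a % 2 = 1 then (if b = a + 1 then 1 else if b + 1 = a then -1 else 0) else 0
noncomputable def GAlg_φ (b a : ℕ) : ℂ :=
  if b = a + 1 ∨ b + 1 = a then -(I / 2) * (if a % 2 = 0 then 1 else -1) else 0
def GAlg_φ0 (b a : ℕ) : ℂ := if b + 1 = a then -I * (if a % 2 = 0 then 1 else -1) else 0

theorem GAlg_dI (b a : Iv N) : dI N b a = GAlg_d b.val a.val := by
  simp only [dI, GAlg_d, of_apply, Nat.odd_iff]
theorem GAlg_φI (b a : Iv N) : φI N b a = GAlg_φ b.val a.val := by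
  simp only [φI, GAlg_φ, of_apply, GAlg_neg_one_pow]
theorem GAlg_φ0I (b a : Iv N) : φ0I N b a = GAlg_φ0 b.val a.val := by
  simp only [φ0I, GAlg_φ0, of_apply, GAlg_neg_one_pow]
theorem GAlg_star_d (b a : ℕ) : star (GAlg_d b a) = GAlg_d b a := by
  unfold GAlg_d
  split_ifs <;> simp

theorem dI_mul_dI : dI N * dI N = 0 := by
  ext b a
  rw [mul_apply]
  refine Finset.sum_eq_zero fun x _ => ?_
  simp only [GAlg_dI, GAlg_d]
  split_ifs <;> first | omega | simp

theorem gI_mul_gI : gI N * gI N = 1 := by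
  rw [gI, diagonal_mul_diagonal, ← diagonal_one]
  congr 1
  ext a
  rw [← mul_pow]
  simp

theorem gI_ct : (gI N)ᴴ = gI N := by
  rw [gI, diagonal_conjTranspose]
  congr 1
  ext a
  simp

theorem gI_mul_dI : gI N * dI N = dI N := by
  ext b a
  rw [gI, diagonal_mul, GAlg_dI, GAlg_neg_one_pow, GAlg_d]
  split_ifs <;> first | omega | simp

theorem dI_mul_gI : dI N * gI N = -dI N := by
  ext b a
  rw [gI, mul_diagonal, neg_apply, GAlg_dI, GAlg_neg_one_pow, GAlg_d]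
  split_ifs <;> first | omega | simp

theorem φI_ct : (φI N)ᴴ = φI N := by
  ext b a
  rw [conjTranspose_apply, GAlg_φI, GAlg_φI, GAlg_φ, GAlg_φ]
  split_ifs <;> first | omega | simp [neg_div]

theorem gI_mul_φI : gI N * φI N = -(φI N * gI N) := by
  ext b a
  rw [gI, diagonal_mul, neg_apply, mul_diagonal, GAlg_φI, GAlg_neg_one_pow, GAlg_neg_one_pow, GAlg_φ]
  split_ifs <;> first | omega | simp

theorem gI_mul_φ0I : gI N * φ0I N = -(φ0I N * gI N) := by
  ext b a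
  rw [gI, diagonal_mul, neg_apply, mul_diagonal, GAlg_φ0I, GAlg_neg_one_pow, GAlg_neg_one_pow,
    GAlg_φ0]
  split_ifs <;> first | omega | simp

theorem φI_mul_dI : φI N * dI N = (dI N)ᴴ * φI N := by
  ext b a
  have ha := a.2
  have hb := b.2
  simp only [mul_apply, conjTranspose_apply, GAlg_dI, GAlg_φI, GAlg_star_d]
  rw [GAlg_sum_two N (fun x => GAlg_φ b x * GAlg_d x a) a (by omega)
      (fun x h1 h2 => by simp [GAlg_d, h1, h2]),
    GAlg_sum_two N (fun x => GAlg_d x b * GAlg_φ x a) b (by omega)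
      (fun x h1 h2 => by simp [GAlg_d, h1, h2])]
  simp only [GAlg_d, GAlg_φ]
  split_ifs <;> first | omega | ring

theorem φ0I_mul_dI : φ0I N * dI N = (dI N)ᴴ * φ0I N := by
  ext b a
  have ha := a.2
  have hb := b.2
  simp only [mul_apply, conjTranspose_apply, GAlg_dI, GAlg_φ0I, GAlg_star_d]
  rw [GAlg_sum_two N (fun x => GAlg_φ0 b x * GAlg_d x a) a (by omega)
      (fun x h1 h2 => by simp [GAlg_d, h1, h2]),
    GAlg_sum_two N (fun x => GAlg_d x b * GAlg_φ0 x a) b (by omega)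
      (fun x h1 h2 => by simp [GAlg_d, h1, h2])]
  simp only [GAlg_d, GAlg_φ0]
  split_ifs <;> first | omega | ring

theorem φ0I_sub_φI : φ0I N - φI N = -(I / 2) • (dI N + (dI N)ᴴ) := by
  ext b a
  simp only [Matrix.sub_apply, Matrix.smul_apply, Matrix.add_apply, conjTranspose_apply, GAlg_dI, GAlg_φ0I, GAlg_φI,
    GAlg_star_d, smul_eq_mul]
  simp only [GAlg_d, GAlg_φ0, GAlg_φ]
  split_ifs <;> first | omega | ring


section kron
variable {α : Type} [Fintype α] [DecidableEq α]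

theorem GAlg_neg_kron (A : Matrix α α ℂ) (B : Matrix (Iv N) (Iv N) ℂ) :
    A ⊗ₖ (-B) = -(A ⊗ₖ B) := by
  ext ⟨a, b⟩ ⟨c, d⟩
  simp

theorem GAlg_D_ct (D : Matrix α α ℂ) :
    (I • (D ⊗ₖ gI N) + (1 : Matrix α α ℂ) ⊗ₖ dI N)ᴴ =
      -I • (Dᴴ ⊗ₖ gI N) + (1 : Matrix α α ℂ) ⊗ₖ (dI N)ᴴ := by
  rw [conjTranspose_add, conjTranspose_smul, conjTranspose_kronecker, conjTranspose_kronecker,
    gI_ct, conjTranspose_one]
  simp

theorem GAlg_DD (D : Matrix α α ℂ) (h : D * D = 0) :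
    (I • (D ⊗ₖ gI N) + (1 : Matrix α α ℂ) ⊗ₖ dI N) *
      (I • (D ⊗ₖ gI N) + (1 : Matrix α α ℂ) ⊗ₖ dI N) = 0 := by
  simp only [Matrix.add_mul, Matrix.mul_add, Matrix.smul_mul, Matrix.mul_smul,
    ← mul_kronecker_mul, h, gI_mul_dI, dI_mul_gI, dI_mul_dI, Matrix.one_mul, Matrix.mul_one,
    zero_kronecker, kronecker_zero, GAlg_neg_kron]
  simp

theorem GAlg_ΦD (D Φ : Matrix α α ℂ) (φ : Matrix (Iv N) (Iv N) ℂ) (h : Φ * D = Dᴴ * Φ)
    (h1 : gI N * φ = -(φ * gI N)) (h2 : φ * dI N = (dI N)ᴴ * φ) :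
    (Φ ⊗ₖ φ) * (I • (D ⊗ₖ gI N) + (1 : Matrix α α ℂ) ⊗ₖ dI N) =
      (I • (D ⊗ₖ gI N) + (1 : Matrix α α ℂ) ⊗ₖ dI N)ᴴ * (Φ ⊗ₖ φ) := by
  rw [GAlg_D_ct]
  simp only [Matrix.add_mul, Matrix.mul_add, Matrix.smul_mul, Matrix.mul_smul,
    ← mul_kronecker_mul, h, h1, h2, Matrix.one_mul, Matrix.mul_one, GAlg_neg_kron]
  simp

theorem GAlg_vecMul (u : α → ℂ) (v : Iv N → ℂ) (A : Matrix α α ℂ) (B : Matrix (Iv N) (Iv N) ℂ)
    (p : α × Iv N) :
    ((fun q : α × Iv N => u q.1 * v q.2) ᵥ* (A ⊗ₖ B)) p = (u ᵥ* A) p.1 * (v ᵥ* B) p.2 := by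
  simp only [vecMul, dotProduct, Fintype.sum_prod_type, Finset.sum_mul_sum, kroneckerMap_apply]
  refine Finset.sum_congr rfl fun _ _ => Finset.sum_congr rfl fun _ _ => ?_
  ring

theorem GAlg_mulVec (u : α → ℂ) (v : Iv N → ℂ) (A : Matrix α α ℂ) (B : Matrix (Iv N) (Iv N) ℂ)
    (p : α × Iv N) :
    ((A ⊗ₖ B) *ᵥ (fun q : α × Iv N => u q.1 * v q.2)) p = (A *ᵥ u) p.1 * (B *ᵥ v) p.2 := by
  simp only [mulVec, dotProduct, Fintype.sum_prod_type, Finset.sum_mul_sum, kroneckerMap_apply]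
  refine Finset.sum_congr rfl fun _ _ => Finset.sum_congr rfl fun _ _ => ?_
  ring

theorem GAlg_htp (D Φ Φ0 K : Matrix α α ℂ) (h : Φ * D = Dᴴ * Φ)
    (hK : Φ0 - Φ = Dᴴ * K + K * D) :
    Φ0 ⊗ₖ φ0I N - Φ ⊗ₖ φI N =
      (I • (D ⊗ₖ gI N) + (1 : Matrix α α ℂ) ⊗ₖ dI N)ᴴ *
        (-I • (K ⊗ₖ (φ0I N * gI N)) + -(I / 2) • (Φ ⊗ₖ (1 : Matrix (Iv N) (Iv N) ℂ))) +
      (-I • (K ⊗ₖ (φ0I N * gI N)) + -(I / 2) • (Φ ⊗ₖ (1 : Matrix (Iv N) (Iv N) ℂ))) *
        (I • (D ⊗ₖ gI N) + (1 : Matrix α α ℂ) ⊗ₖ dI N) := by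
  have e1 : gI N * (φ0I N * gI N) = -φ0I N := by
    rw [← Matrix.mul_assoc, gI_mul_φ0I, Matrix.neg_mul, Matrix.mul_assoc, gI_mul_gI, Matrix.mul_one]
  have e2 : φ0I N * gI N * gI N = φ0I N := by
    rw [Matrix.mul_assoc, gI_mul_gI, Matrix.mul_one]
  have e3 : (dI N)ᴴ * (φ0I N * gI N) = -(φ0I N * dI N) := by
    rw [← Matrix.mul_assoc, ← φ0I_mul_dI, Matrix.mul_assoc, dI_mul_gI, Matrix.mul_neg]
  have e4 : φ0I N * gI N * dI N = φ0I N * dI N := by
    rw [Matrix.mul_assoc, gI_mul_dI]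
  have e5 : Φ0 = Φ + (Dᴴ * K + K * D) := by rw [← hK]; abel
  have e6 : φI N = φ0I N + (I / 2) • (dI N + (dI N)ᴴ) := by
    have := φ0I_sub_φI N
    rw [neg_smul, sub_eq_iff_eq_add] at this
    rw [this]; abel
  rw [GAlg_D_ct]
  simp only [Matrix.add_mul, Matrix.mul_add, Matrix.smul_mul, Matrix.mul_smul,
    ← mul_kronecker_mul, h, e1, e2, e3, e4, Matrix.one_mul, Matrix.mul_one, GAlg_neg_kron]
  rw [e5, e6]
  simp only [add_kronecker, kronecker_add, kronecker_smul, smul_add, smul_smul, smul_neg, mul_neg,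
    neg_mul, neg_neg, I_mul_I, neg_smul, one_smul]
  rw [mul_comm (I / 2) I]
  abel

end kron

theorem GAlg_ε_d : εI N ᵥ* dI N = 0 := by
  ext a
  have ha := a.2
  simp only [vecMul, dotProduct, GAlg_dI, εI, Nat.even_iff, Pi.zero_apply]
  rw [GAlg_sum_two N (fun x => (if x % 2 = 0 then 1 else 0) * GAlg_d x a) a (by omega)
      (fun x h1 h2 => by simp [GAlg_d, h1, h2])]
  simp only [GAlg_d]
  split_ifs <;> first | omega | ring

theorem GAlg_φ0_ε (b : Iv N) : (φ0I N *ᵥ εI N) b = -I * μI N b := by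
  have hb := b.2
  simp only [mulVec, dotProduct, GAlg_φ0I, εI, μI, Nat.even_iff, Nat.odd_iff]
  rw [GAlg_sum_two N (fun x => GAlg_φ0 b x * (if x % 2 = 0 then 1 else 0)) b (by omega)
      (fun x h1 h2 => by simp [GAlg_φ0, h1.symm])]
  simp only [GAlg_φ0]
  split_ifs <;> first | omega | ring

theorem GAlg_d_μ (b : Iv N) (h1 : 0 < b.val) (h2 : b.val < 2 * N) : (dI N *ᵥ μI N) b = 0 := by
  simp only [mulVec, dotProduct, GAlg_dI, μI, Nat.odd_iff]
  rw [GAlg_sum_two N (fun x => GAlg_d b x * (if x % 2 = 1 then 1 else 0)) b (by omega)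
      (fun x h1 h2 => by simp [GAlg_d, h1.symm, h2.symm])]
  simp only [GAlg_d]
  split_ifs <;> first | omega | ring

theorem GAlg_star_φ0 (b a : ℕ) : star (GAlg_φ0 b a) = -GAlg_φ0 b a := by
  unfold GAlg_φ0
  split_ifs <;> simp

theorem GAlg_φ0_ct_mul (b a : Iv N) (h1 : 0 < a.val) :
    ((φ0I N)ᴴ * φ0I N) b a = (1 : Matrix (Iv N) (Iv N) ℂ) b a := by
  have ha := a.2
  simp only [mul_apply, conjTranspose_apply, GAlg_φ0I, GAlg_star_φ0, one_apply, Fin.ext_iff]
  rw [GAlg_sum_two N (fun x => -GAlg_φ0 x b * GAlg_φ0 x a) a (by omega)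
      (fun x h1 h2 => by simp [GAlg_φ0, h2])]
  simp only [GAlg_φ0]
  split_ifs <;> first | omega | simp

theorem GAlg_φ0_mul_ct (b a : Iv N) (h1 : a.val < 2 * N) :
    (φ0I N * (φ0I N)ᴴ) b a = (1 : Matrix (Iv N) (Iv N) ℂ) b a := by
  simp only [mul_apply, conjTranspose_apply, GAlg_φ0I, GAlg_star_φ0, one_apply, Fin.ext_iff]
  rw [GAlg_sum_two N (fun x => GAlg_φ0 b x * -GAlg_φ0 a x) a (by omega)
      (fun x h1 h2 => by simp [GAlg_φ0, h1.symm])]
  simp only [GAlg_φ0]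
  split_ifs <;> first | omega | simp

variable (k : ℕ)

theorem cubD_mul_cubD : cubD N k * cubD N k = 0 := by
  induction k with
  | zero => exact Matrix.zero_mul _
  | succ k ih => exact GAlg_DD N _ ih

theorem cubΦ_ct : (cubΦ N k)ᴴ = cubΦ N k := by
  induction k with
  | zero => exact conjTranspose_one
  | succ k ih =>
    show (cubΦ N k ⊗ₖ φI N)ᴴ = cubΦ N k ⊗ₖ φI N
    rw [conjTranspose_kronecker, ih, φI_ct]

theorem cubΦ_mul_cubD : cubΦ N k * cubD N k = (cubD N k)ᴴ * cubΦ N k := by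
  induction k with
  | zero => simp [cubD]
  | succ k ih => exact GAlg_ΦD N _ _ _ ih (gI_mul_φI N) (φI_mul_dI N)

theorem cubΦ0_mul_cubD : cubΦ0 N k * cubD N k = (cubD N k)ᴴ * cubΦ0 N k := by
  induction k with
  | zero => simp [cubD]
  | succ k ih => exact GAlg_ΦD N _ _ _ ih (gI_mul_φ0I N) (φ0I_mul_dI N)

theorem cubε_vecMul_cubD : cubε N k ᵥ* cubD N k = 0 := by
  induction k with
  | zero => simp [cubD]
  | succ k ih =>
    show (fun q : Cell N k × Iv N => cubε N k q.1 * εI N q.2) ᵥ*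
      (I • (cubD N k ⊗ₖ gI N) + (1 : Matrix (Cell N k) (Cell N k) ℂ) ⊗ₖ dI N) = 0
    ext p
    rw [vecMul_add, vecMul_smul, Pi.add_apply, Pi.smul_apply, GAlg_vecMul, GAlg_vecMul, ih,
      GAlg_ε_d]
    simp

theorem cubΦ0_mulVec_cubε : cubΦ0 N k *ᵥ cubε N k = (-I) ^ k • cubμ N k := by
  induction k with
  | zero =>
    ext p
    simp [cubΦ0, cubε, cubμ]
  | succ k ih =>
    show (cubΦ0 N k ⊗ₖ φ0I N) *ᵥ (fun q : Cell N k × Iv N => cubε N k q.1 * εI N q.2) =
      (-I) ^ (k + 1) • (fun q : Cell N k × Iv N => cubμ N k q.1 * μI N q.2)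
    ext p
    rw [GAlg_mulVec, ih, GAlg_φ0_ε]
    simp only [Pi.smul_apply, smul_eq_mul]
    ring

theorem star_cubε : star (cubε N k) = cubε N k := by
  induction k with
  | zero =>
    ext p
    simp [cubε]
  | succ k ih =>
    ext p
    have := congrFun ih p.1
    simp only [Pi.star_apply] at this ⊢
    rw [cubε, star_mul', this, εI]
    split_ifs <;> simp


variable {N k}

theorem Cell.ix_le (a : Cell N k) (m : ℕ) : a.ix m ≤ 2 * N := by
  induction k with
  | zero => simp [Cell.ix]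
  | succ k ih =>
    rw [Cell.ix]
    split_ifs
    · have := a.2.2
      omega
    · exact ih _

theorem Cell.ext_ix {a b : Cell N k} (h : ∀ m < k, a.ix m = b.ix m) : a = b := by
  induction k with
  | zero => rfl
  | succ k ih =>
    refine Prod.ext (ih fun m hm => ?_) (Fin.ext ?_)
    · have := h m (by omega)
      rwa [Cell.ix, Cell.ix, if_neg hm.ne, if_neg hm.ne] at this
    · have := h k (by omega)
      rwa [Cell.ix, Cell.ix, if_pos rfl, if_pos rfl] at this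

theorem Cell.exists_ix (x : ℕ → ℕ) (hx : ∀ m < k, x m ≤ 2 * N) :
    ∃ a : Cell N k, ∀ m < k, a.ix m = x m := by
  induction k with
  | zero => exact ⟨(), fun m hm => absurd hm (Nat.not_lt_zero _)⟩
  | succ k ih =>
    obtain ⟨a, ha⟩ := ih fun m hm => hx m (by omega)
    refine ⟨(a, ⟨x k, by have := hx k (by omega); omega⟩), fun m hm => ?_⟩
    rw [Cell.ix]
    split_ifs with h
    · rw [h]
    · exact ha m (by omega)

theorem Cell.dim_le (a : Cell N k) : a.dim ≤ k := by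
  induction k with
  | zero => simp [Cell.dim]
  | succ k ih =>
    rw [Cell.dim]
    have := ih a.1
    split_ifs <;> omega

theorem Cell.norm_pt_le (hN : 0 < N) (a : Cell N k) : ‖a.pt‖ ≤ 2 := by
  refine (pi_norm_le_iff_of_nonneg (by norm_num)).2 fun m => ?_
  have h1 : (a.ix m : ℝ) ≤ 2 * N := by exact_mod_cast a.ix_le m
  have h2 : (0 : ℝ) < N := by exact_mod_cast hN
  have h3 : 2 * (a.ix m : ℝ) / N ≤ 4 := by rw [div_le_iff₀ h2]; linarith
  have h4 : 0 ≤ 2 * (a.ix m : ℝ) / N := by positivity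
  rw [Cell.pt, Real.norm_eq_abs, abs_le]
  constructor <;> linarith

/-- faces: lower dimension; coordinates move by at most one, and even coordinates do not move -/
theorem cubD_ne_zero {a b : Cell N k} (h : cubD N k b a ≠ 0) :
    b.dim < a.dim ∧ ∀ m, b.ix m = a.ix m ∨
      (Odd (a.ix m) ∧ (b.ix m = a.ix m + 1 ∨ b.ix m + 1 = a.ix m)) := by
  induction k with
  | zero => exact absurd rfl h
  | succ k ih =>
    obtain ⟨a1, a2⟩ := a
    obtain ⟨b1, b2⟩ := b
    have h' : I * (cubD N k b1 a1 * gI N b2 a2) +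
        (1 : Matrix (Cell N k) (Cell N k) ℂ) b1 a1 * dI N b2 a2 ≠ 0 := h
    by_cases h1 : cubD N k b1 a1 * gI N b2 a2 = 0
    · rw [h1, mul_zero, zero_add] at h'
      obtain rfl : b1 = a1 := by
        by_contra hne
        exact h' (by rw [one_apply_ne hne, zero_mul])
      have h2 := right_ne_zero_of_mul h'
      rw [GAlg_dI, GAlg_d] at h2
      have h3 : a2.val % 2 = 1 ∧ (b2.val = a2.val + 1 ∨ b2.val + 1 = a2.val) := by
        split_ifs at h2 <;> first | omega | exact absurd rfl h2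
      constructor
      · simp only [Cell.dim, Nat.odd_iff]
        split_ifs <;> omega
      · intro m
        simp only [Cell.ix, Nat.odd_iff]
        split_ifs
        · exact Or.inr h3
        · exact Or.inl rfl
    · obtain rfl : b2 = a2 := by
        by_contra hne
        exact h1 (by rw [gI, diagonal_apply_ne _ hne, mul_zero])
      obtain ⟨h2, h3⟩ := ih (left_ne_zero_of_mul h1)
      constructor
      · simp only [Cell.dim]
        omega
      · intro m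
        simp only [Cell.ix]
        split_ifs
        · exact Or.inl rfl
        · exact h3 m


/-- integer version of `Near` -/
def GAlg_Adj (T : Matrix (Cell N k) (Cell N k) ℂ) : Prop :=
  ∀ b a, T b a ≠ 0 → ∀ m, b.ix m ≤ a.ix m + 1 ∧ a.ix m ≤ b.ix m + 1

theorem GAlg_near (hN : 0 < N) {T : Matrix (Cell N k) (Cell N k) ℂ} (h : GAlg_Adj T) :
    Near Cell.pt (2 / N) T := by
  intro b a hba
  have h2 : (0 : ℝ) < N := by exact_mod_cast hN
  refine (pi_norm_le_iff_of_nonneg (by positivity)).2 fun m => ?_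
  obtain ⟨h3, h4⟩ := h b a hba m
  have h3' : (b.ix m : ℝ) ≤ a.ix m + 1 := by exact_mod_cast h3
  have h4' : (a.ix m : ℝ) ≤ b.ix m + 1 := by exact_mod_cast h4
  have : (b.pt - a.pt) m = 2 * ((b.ix m : ℝ) - a.ix m) / N := by
    simp only [Pi.sub_apply, Cell.pt]
    ring
  rw [this, Real.norm_eq_abs, abs_div, abs_of_pos h2, div_le_div_iff_of_pos_right h2, abs_le]
  constructor <;> linarith

theorem GAlg_adj_kron {T : Matrix (Cell N k) (Cell N k) ℂ} (h : GAlg_Adj T)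
    {B : Matrix (Iv N) (Iv N) ℂ} (hB : ∀ b a, B b a ≠ 0 → b.val ≤ a.val + 1 ∧ a.val ≤ b.val + 1) :
    GAlg_Adj (k := k + 1) (T ⊗ₖ B : Matrix (Cell N k × Iv N) (Cell N k × Iv N) ℂ) := by
  rintro ⟨b1, b2⟩ ⟨a1, a2⟩ hba m
  have h' : T b1 a1 * B b2 a2 ≠ 0 := hba
  simp only [Cell.ix]
  split_ifs
  · exact hB _ _ (right_ne_zero_of_mul h')
  · exact h _ _ (left_ne_zero_of_mul h') m

theorem GAlg_adj_φ : GAlg_Adj (cubΦ N k) := by
  induction k with
  | zero => intro b a _ m; simp [Cell.ix]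
  | succ k ih =>
    refine GAlg_adj_kron ih fun b a h => ?_
    rw [GAlg_φI, GAlg_φ] at h
    split_ifs at h <;> first | omega | exact absurd rfl h

theorem GAlg_adj_φ0 : GAlg_Adj (cubΦ0 N k) := by
  induction k with
  | zero => intro b a _ m; simp [Cell.ix]
  | succ k ih =>
    refine GAlg_adj_kron ih fun b a h => ?_
    rw [GAlg_φ0I, GAlg_φ0] at h
    split_ifs at h <;> first | omega | exact absurd rfl h

theorem GAlg_adj_comb {S T : Matrix (Cell N k) (Cell N k) ℂ} (hS : GAlg_Adj S) (hT : GAlg_Adj T)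
    (c d : ℂ) : GAlg_Adj (c • S + d • T) := by
  intro b a h
  by_cases h1 : S b a = 0
  · refine hT b a fun h2 => h ?_
    simp [h1, h2]
  · exact hS b a h1

theorem GAlg_interior (hN : 0 < N) (a : Cell N k) (ha : ‖a.pt‖ < 2) (m : ℕ) (hm : m < k) :
    0 < a.ix m ∧ a.ix m < 2 * N := by
  have h1 := (norm_le_pi_norm a.pt ⟨m, hm⟩).trans_lt ha
  have h2 : (0 : ℝ) < N := by exact_mod_cast hN
  rw [Cell.pt, Real.norm_eq_abs, abs_lt] at h1
  dsimp only at h1
  have h3 : 0 < 2 * (a.ix m : ℝ) / N := by linarith [h1.1]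
  have h4 : 2 * (a.ix m : ℝ) / N < 4 := by linarith [h1.2]
  rw [div_lt_iff₀ h2] at h4
  rw [lt_div_iff₀ h2] at h3
  have h5 : (0 : ℝ) < a.ix m := by linarith
  have h6 : (a.ix m : ℝ) < 2 * N := by linarith
  exact ⟨by exact_mod_cast h5, by exact_mod_cast h6⟩

theorem GAlg_int_succ {a : Cell N (k + 1)} (h : ∀ m < k + 1, 0 < a.ix m ∧ a.ix m < 2 * N) :
    (∀ m < k, 0 < Cell.ix a.1 m ∧ Cell.ix a.1 m < 2 * N) ∧ 0 < a.2.val ∧ a.2.val < 2 * N := by
  constructor
  · intro m hm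
    have := h m (by omega)
    rwa [Cell.ix, if_neg hm.ne] at this
  · have := h k (by omega)
    rwa [Cell.ix, if_pos rfl] at this

theorem near_cubD (hN : 0 < N) : Near Cell.pt (2 / N) (cubD N k) := by
  refine GAlg_near hN fun b a h m => ?_
  have := (cubD_ne_zero h).2 m
  omega

theorem near_cubΦ (hN : 0 < N) : Near Cell.pt (2 / N) (cubΦ N k) := by
  exact GAlg_near hN GAlg_adj_φ

theorem near_cubΦ0 (hN : 0 < N) : Near Cell.pt (2 / N) (cubΦ0 N k) := by
  exact GAlg_near hN GAlg_adj_φ0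

theorem cubΦ0_htp (hN : 0 < N) : ∃ K : Matrix (Cell N k) (Cell N k) ℂ, Near Cell.pt (2 / N) K ∧
    cubΦ0 N k - cubΦ N k = (cubD N k)ᴴ * K + K * cubD N k := by
  suffices h : ∃ K : Matrix (Cell N k) (Cell N k) ℂ, GAlg_Adj K ∧
      cubΦ0 N k - cubΦ N k = (cubD N k)ᴴ * K + K * cubD N k by
    obtain ⟨K, h1, h2⟩ := h
    exact ⟨K, GAlg_near hN h1, h2⟩
  induction k with
  | zero => exact ⟨0, fun b a h => absurd rfl h, by simp [cubΦ0, cubΦ]⟩
  | succ k ih =>
    obtain ⟨K, h1, h2⟩ := ih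
    refine ⟨_, GAlg_adj_comb (GAlg_adj_kron h1 (B := φ0I N * gI N) fun b a h => ?_)
      (GAlg_adj_kron GAlg_adj_φ (B := 1) fun b a h => ?_) (-I) (-(I / 2)),
      GAlg_htp N _ _ _ K (cubΦ_mul_cubD N k) h2⟩
    · rw [gI, mul_diagonal] at h
      have h := left_ne_zero_of_mul h
      rw [GAlg_φ0I, GAlg_φ0] at h
      split_ifs at h <;> first | omega | exact absurd rfl h
    · obtain rfl : b = a := by
        by_contra hne
        exact h (one_apply_ne hne)
      omega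

/-- `cubΦ0` is unitary away from the boundary -/
theorem cubΦ0_ct_mul (hN : 0 < N) (b a : Cell N k) (ha : ‖a.pt‖ < 2) :
    ((cubΦ0 N k)ᴴ * cubΦ0 N k) b a = (1 : Matrix (Cell N k) (Cell N k) ℂ) b a := by
  have h := GAlg_interior hN a ha
  clear ha
  induction k with
  | zero => simp [cubΦ0]
  | succ k ih =>
    obtain ⟨h1, h2, h3⟩ := GAlg_int_succ h
    show ((cubΦ0 N k ⊗ₖ φ0I N)ᴴ * (cubΦ0 N k ⊗ₖ φ0I N)) (b.1, b.2) (a.1, a.2) =
      (1 : Matrix (Cell N k × Iv N) (Cell N k × Iv N) ℂ) (b.1, b.2) (a.1, a.2)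
    rw [conjTranspose_kronecker, ← mul_kronecker_mul, ← one_kronecker_one, kroneckerMap_apply,
      kroneckerMap_apply, ih _ _ h1, GAlg_φ0_ct_mul N _ _ h2]

theorem cubΦ0_mul_ct (hN : 0 < N) (b a : Cell N k) (ha : ‖a.pt‖ < 2) :
    (cubΦ0 N k * (cubΦ0 N k)ᴴ) b a = (1 : Matrix (Cell N k) (Cell N k) ℂ) b a := by
  have h := GAlg_interior hN a ha
  clear ha
  induction k with
  | zero => simp [cubΦ0]
  | succ k ih =>
    obtain ⟨h1, h2, h3⟩ := GAlg_int_succ h
    show ((cubΦ0 N k ⊗ₖ φ0I N) * (cubΦ0 N k ⊗ₖ φ0I N)ᴴ) (b.1, b.2) (a.1, a.2) =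
      (1 : Matrix (Cell N k × Iv N) (Cell N k × Iv N) ℂ) (b.1, b.2) (a.1, a.2)
    rw [conjTranspose_kronecker, ← mul_kronecker_mul, ← one_kronecker_one, kroneckerMap_apply,
      kroneckerMap_apply, ih _ _ h1, GAlg_φ0_mul_ct N _ _ h3]

/-- the boundary of the fundamental chain lies on the boundary -/
theorem cubD_mulVec_cubμ (hN : 0 < N) (b : Cell N k) (hb : ‖b.pt‖ < 2) :
    (cubD N k *ᵥ cubμ N k) b = 0 := by
  have h := GAlg_interior hN b hb
  clear hb
  induction k with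
  | zero => simp [cubD]
  | succ k ih =>
    obtain ⟨h1, h2, h3⟩ := GAlg_int_succ h
    show ((I • (cubD N k ⊗ₖ gI N) + (1 : Matrix (Cell N k) (Cell N k) ℂ) ⊗ₖ dI N) *ᵥ
      (fun q : Cell N k × Iv N => cubμ N k q.1 * μI N q.2)) (b.1, b.2) = 0
    rw [add_mulVec, smul_mulVec, Pi.add_apply, Pi.smul_apply, GAlg_mulVec, GAlg_mulVec, ih _ h1,
      GAlg_d_μ N _ h2 h3]
    simp


end Crest.Agent.R217
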