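import Crest.Agent.R217.GAlg

/-! # Row 217, part B, geometry: boxes are acyclic; the acyclic carrier lemma.
* `box_contraction`: induction on `k`.  On the sub-interval `[2 lo, 2 hi]`: `hI` sends the vertex
  `v_t` (`2 lo ≤ t ≤ 2 hi`) to the sum of the edges between `2 lo` and `t` (everything else to `0`),
  `PI = v_{2 lo} εIᵀ`; `dI hI + hI dI = 1 - PI` on columns in the sub-interval.
  `H_{k+1} = 1 ⊗ hI + (-I) • H_k ⊗ PI`, `v_{k+1} = v_k ⊗ v_{2 lo}` (use `gI hI + hI gI = 0`,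
  `gI PI = PI = PI gI`, `dI PI = 0 = PI dI`).  Alternatively take `hI` defined for all `t`
  (minus the edges between `t` and `2 lo` if `t < 2 lo`): then the identity holds on all columns and only
  the support statement needs the box.
* `carrier_abstract`: induction on the dimension bound `m`: build `h` on the columns of dimension `< m`;
  for `dim a = m`, `a ∈ A`, `z = F a - s h (d a)` is a cycle with `ε z = 0` supported in `K a`; choose
  `y` with `d y = z` in `K a` and put `h a = y + (κ a - ε y) v`.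
* `carrier`: `K a` = cells `b` with `2 lo m ≤ ix b m ≤ 2 hi m` where `lo, hi` are the (monotone) roundings
  `⌊·⌋`, `⌈·⌉`, clipped to `[0, N]`, of `(γ a m ∓ (dim a + 1) r + 2) N / 4`. -/

set_option autoImplicit false
open Matrix Complex
open scoped Kronecker

namespace Crest.Agent.R217
variable {N k : ℕ}

def InBox (lo hi : ℕ → ℕ) (a : Cell N k) : Prop := ∀ m < k, 2 * lo m ≤ a.ix m ∧ a.ix m ≤ 2 * hi m

theorem InBox.face {lo hi : ℕ → ℕ} {a b : Cell N k} (ha : InBox lo hi a) (h : cubD N k b a ≠ 0) :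
    InBox lo hi b := by
  intro m hm
  have h1 := ha m hm
  rcases (cubD_ne_zero h).2 m with e | ⟨ho, e⟩
  · rw [e]; exact h1
  · rw [Nat.odd_iff] at ho
    omega

theorem GBox_inBox_succ {lo hi : ℕ → ℕ} (a : Cell N k) (t : Iv N) :
    InBox lo hi (k := k + 1) (a, t) ↔ InBox lo hi a ∧ 2 * lo k ≤ t.val ∧ t.val ≤ 2 * hi k := by
  have e1 : ∀ m, m < k → Cell.ix (k := k + 1) (a, t) m = a.ix m := fun m hm => by
    simp [Cell.ix, hm.ne]
  have e2 : Cell.ix (k := k + 1) (a, t) k = t.val := by simp [Cell.ix]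
  constructor
  · intro h
    refine ⟨fun m hm => ?_, ?_⟩
    · rw [← e1 m hm]; exact h m (by omega)
    · rw [← e2]; exact h k (by omega)
  · rintro ⟨h1, h2⟩ m hm
    rcases Nat.lt_succ_iff_lt_or_eq.1 hm with hm | rfl
    · rw [e1 m hm]; exact h1 m hm
    · rw [e2]; exact h2

theorem GBox_sum_ite (n t : ℕ) (g : ℕ → ℂ) :
    ∑ x : Fin n, (if x.val = t then g x.val else 0) = if t < n then g t else 0 := by
  rw [Fin.sum_univ_eq_sum_range (fun x => if x = t then g x else 0), Finset.sum_ite_eq']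
  simp

theorem GBox_dI_mul (f : ℕ → ℂ) (b : Iv N) :
    ∑ x : Iv N, dI N b x * f x.val = (if b.val % 2 = 0 ∧ 1 ≤ b.val then f (b.val - 1) else 0) -
      (if b.val % 2 = 0 ∧ b.val < 2 * N then f (b.val + 1) else 0) := by
  have h : ∀ x : Iv N, dI N b x * f x.val =
      (if x.val = b.val - 1 then (if b.val % 2 = 0 ∧ 1 ≤ b.val then f x.val else 0) else 0) -
      (if x.val = b.val + 1 then (if b.val % 2 = 0 then f x.val else 0) else 0) := by
    intro x
    simp only [dI, Matrix.of_apply, Nat.odd_iff]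
    split_ifs <;> first | omega | simp
  have hb := b.isLt
  rw [Finset.sum_congr rfl fun x _ => h x, Finset.sum_sub_distrib,
    GBox_sum_ite _ _ fun x => if b.val % 2 = 0 ∧ 1 ≤ b.val then f x else 0,
    GBox_sum_ite _ _ fun x => if b.val % 2 = 0 then f x else 0]
  split_ifs <;> first | omega | simp

theorem GBox_mul_dI (f : ℕ → ℂ) (a : Iv N) :
    ∑ x : Iv N, f x.val * dI N x a =
      if a.val % 2 = 1 then f (a.val + 1) - f (a.val - 1) else 0 := by
  have h : ∀ x : Iv N, f x.val * dI N x a =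
      (if x.val = a.val + 1 then (if a.val % 2 = 1 then f x.val else 0) else 0) -
      (if x.val = a.val - 1 then (if a.val % 2 = 1 then f x.val else 0) else 0) := by
    intro x
    simp only [dI, Matrix.of_apply, Nat.odd_iff]
    split_ifs <;> first | omega | simp
  have ha := a.isLt
  rw [Finset.sum_congr rfl fun x _ => h x, Finset.sum_sub_distrib,
    GBox_sum_ite _ _ fun x => if a.val % 2 = 1 then f x else 0,
    GBox_sum_ite _ _ fun x => if a.val % 2 = 1 then f x else 0]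
  split_ifs <;> first | omega | simp

/-- entries of the one-dimensional contraction to the vertex `2 c` -/
noncomputable def GBox_hf (c b a : ℕ) : ℂ :=
  if a % 2 = 0 ∧ b % 2 = 1 ∧ 2 * c < b ∧ b < a then 1
  else if a % 2 = 0 ∧ b % 2 = 1 ∧ a < b ∧ b < 2 * c then -1 else 0

noncomputable def GBox_hI (N c : ℕ) : Matrix (Iv N) (Iv N) ℂ :=
  Matrix.of fun b a => GBox_hf c b.val a.val

noncomputable def GBox_vI (N c : ℕ) : Iv N → ℂ := fun b => if b.val = 2 * c then 1 else 0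

theorem GBox_PI_apply (c : ℕ) (b a : Iv N) : vecMulVec (GBox_vI N c) (εI N) b a =
    if b.val = 2 * c ∧ a.val % 2 = 0 then 1 else 0 := by
  simp only [vecMulVec_apply, GBox_vI, εI, Nat.even_iff]
  split_ifs <;> first | omega | simp

theorem GBox_htp {c : ℕ} (hc : c ≤ N) :
    dI N * GBox_hI N c + GBox_hI N c * dI N = 1 - vecMulVec (GBox_vI N c) (εI N) := by
  ext b a
  have hb := b.isLt
  have ha := a.isLt
  rw [Matrix.add_apply, Matrix.mul_apply, Matrix.mul_apply, Matrix.sub_apply, GBox_PI_apply,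
    Matrix.one_apply]
  simp only [GBox_hI, Matrix.of_apply, Fin.ext_iff]
  rw [GBox_dI_mul (fun x => GBox_hf c x a.val), GBox_mul_dI (fun x => GBox_hf c b.val x)]
  simp only [GBox_hf]
  split_ifs <;> first | omega | simp

theorem GBox_g_h (c : ℕ) : gI N * GBox_hI N c + GBox_hI N c * gI N = 0 := by
  ext b a
  simp only [gI, Matrix.add_apply, diagonal_mul, mul_diagonal, GBox_hI, Matrix.of_apply, GBox_hf,
    Matrix.zero_apply]
  split_ifs with h1 h2
  · rw [(Nat.even_iff.2 h1.1).neg_one_pow, (Nat.odd_iff.2 h1.2.1).neg_one_pow]; simp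
  · rw [(Nat.even_iff.2 h2.1).neg_one_pow, (Nat.odd_iff.2 h2.2.1).neg_one_pow]; simp
  · simp

theorem GBox_g_P (c : ℕ) :
    gI N * vecMulVec (GBox_vI N c) (εI N) = vecMulVec (GBox_vI N c) (εI N) := by
  ext b a
  simp only [gI, diagonal_mul, GBox_PI_apply]
  split_ifs with h1
  · rw [h1.1, pow_mul]; simp
  · simp

theorem GBox_P_g (c : ℕ) :
    vecMulVec (GBox_vI N c) (εI N) * gI N = vecMulVec (GBox_vI N c) (εI N) := by
  ext b a
  simp only [gI, mul_diagonal, GBox_PI_apply]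
  split_ifs with h1
  · rw [(Nat.even_iff.2 h1.2).neg_one_pow]; simp
  · simp

theorem GBox_d_P (c : ℕ) : dI N * vecMulVec (GBox_vI N c) (εI N) = 0 := by
  ext b a
  simp only [Matrix.mul_apply, GBox_PI_apply, Matrix.zero_apply]
  rw [GBox_dI_mul (fun x => if x = 2 * c ∧ a.val % 2 = 0 then 1 else 0)]
  split_ifs <;> first | omega | simp

theorem GBox_P_d (c : ℕ) : vecMulVec (GBox_vI N c) (εI N) * dI N = 0 := by
  ext b a
  simp only [Matrix.mul_apply, GBox_PI_apply, Matrix.zero_apply]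
  rw [GBox_mul_dI (fun x => if b.val = 2 * c ∧ x % 2 = 0 then 1 else 0)]
  split_ifs <;> first | omega | simp

theorem GBox_ε_v {c : ℕ} (hc : c ≤ N) : εI N ⬝ᵥ GBox_vI N c = 1 := by
  have h : ∀ x : Iv N, εI N x * GBox_vI N c x = if x.val = 2 * c then (fun _ => (1 : ℂ)) x.val
      else 0 := by
    intro x
    simp only [εI, GBox_vI, Nat.even_iff]
    split_ifs <;> first | omega | simp
  rw [dotProduct, Finset.sum_congr rfl fun x _ => h x, GBox_sum_ite _ _ fun _ => (1 : ℂ),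
    if_pos (by omega)]

theorem GBox_kron {α β : Type} [Fintype α] [DecidableEq α] [Fintype β] [DecidableEq β]
    (D H P : Matrix α α ℂ) (d g h p : Matrix β β ℂ) (hDH : D * H + H * D = 1 - P)
    (h1 : d * h + h * d = 1 - p) (h2 : g * h + h * g = 0) (h3 : g * p = p) (h4 : p * g = p)
    (h5 : d * p = 0) (h6 : p * d = 0) :
    (I • (D ⊗ₖ g) + (1 : Matrix α α ℂ) ⊗ₖ d) * ((1 : Matrix α α ℂ) ⊗ₖ h + (-I) • (H ⊗ₖ p)) +
      ((1 : Matrix α α ℂ) ⊗ₖ h + (-I) • (H ⊗ₖ p)) * (I • (D ⊗ₖ g) + (1 : Matrix α α ℂ) ⊗ₖ d) =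
      1 - P ⊗ₖ p := by
  have e1 : h * g = -(g * h) := eq_neg_of_add_eq_zero_right h2
  have e2 : h * d = 1 - p - d * h := by rw [← h1]; abel
  have e3 : H * D = 1 - P - D * H := by rw [← hDH]; abel
  simp only [Matrix.add_mul, Matrix.mul_add, Matrix.smul_mul, Matrix.mul_smul,
    ← Matrix.mul_kronecker_mul, Matrix.mul_one, Matrix.one_mul, h3, h4, h5, h6, e1, e2, e3,
    ← Matrix.one_kronecker_one]
  ext ⟨b1, b2⟩ ⟨a1, a2⟩
  simp only [Matrix.add_apply, Matrix.sub_apply, Matrix.smul_apply, Matrix.neg_apply,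
    kroneckerMap_apply, Matrix.zero_apply, smul_eq_mul]
  linear_combination (-((1 : Matrix α α ℂ) b1 a1 - P b1 a1) * p b2 a2) * I_mul_I

theorem GBox_aux (lo hi : ℕ → ℕ) : ∀ k : ℕ, (∀ m < k, lo m ≤ hi m ∧ hi m ≤ N) →
    ∃ (v : Cell N k → ℂ) (H : Matrix (Cell N k) (Cell N k) ℂ),
      (∀ b, v b ≠ 0 → InBox lo hi b) ∧ cubε N k ⬝ᵥ v = 1 ∧
      (∀ b a, InBox lo hi a → H b a ≠ 0 → InBox lo hi b) ∧
      cubD N k * H + H * cubD N k = 1 - vecMulVec v (cubε N k)
  | 0, _ => by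
    refine ⟨fun _ => 1, 0, fun b _ m hm => absurd hm (Nat.not_lt_zero m), ?_,
      fun b _ _ _ m hm => absurd hm (Nat.not_lt_zero m), ?_⟩
    · change ∑ _ : Unit, (1 : ℂ) * 1 = 1
      simp
    · ext b a
      have : b = a := Subsingleton.elim (α := Unit) b a
      subst this
      simp [vecMulVec_apply, cubε]
  | k + 1, h => by
    obtain ⟨v, H, hv, hε, hH, hD⟩ := GBox_aux lo hi k fun m hm => h m (by omega)
    obtain ⟨hk1, hk2⟩ := h k (by omega)
    have hc : lo k ≤ N := hk1.trans hk2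
    refine ⟨fun b => v b.1 * GBox_vI N (lo k) b.2,
      ((1 : Matrix (Cell N k) (Cell N k) ℂ) ⊗ₖ GBox_hI N (lo k) +
        (-I) • (H ⊗ₖ vecMulVec (GBox_vI N (lo k)) (εI N)) :
        Matrix (Cell N k × Iv N) (Cell N k × Iv N) ℂ), ?_, ?_, ?_, ?_⟩
    · rintro ⟨b1, b2⟩ hb
      rw [GBox_inBox_succ]
      refine ⟨hv b1 (left_ne_zero_of_mul hb), ?_⟩
      have h2 : GBox_vI N (lo k) b2 ≠ 0 := right_ne_zero_of_mul hb
      simp only [GBox_vI, ne_eq, ite_eq_right_iff, one_ne_zero, imp_false, not_not] at h2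
      omega
    · change ∑ b : Cell N k × Iv N, cubε N k b.1 * εI N b.2 * (v b.1 * GBox_vI N (lo k) b.2) = 1
      have h2 := GBox_ε_v hc
      rw [dotProduct] at hε h2
      rw [Fintype.sum_prod_type, ← mul_one (1 : ℂ)]
      nth_rewrite 1 [← hε]
      rw [← h2, Finset.sum_mul_sum]
      exact Finset.sum_congr rfl fun _ _ => Finset.sum_congr rfl fun _ _ => by ring
    · rintro ⟨b1, b2⟩ ⟨a1, a2⟩ ha hb
      rw [GBox_inBox_succ] at ha ⊢
      change (1 : Matrix (Cell N k) (Cell N k) ℂ) b1 a1 * GBox_hI N (lo k) b2 a2 +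
        (-I) * (H b1 a1 * vecMulVec (GBox_vI N (lo k)) (εI N) b2 a2) ≠ 0 at hb
      by_cases h1 : (1 : Matrix (Cell N k) (Cell N k) ℂ) b1 a1 * GBox_hI N (lo k) b2 a2 = 0
      · rw [h1, zero_add] at hb
        have hb' := right_ne_zero_of_mul hb
        refine ⟨hH b1 a1 ha.1 (left_ne_zero_of_mul hb'), ?_⟩
        have h2 := right_ne_zero_of_mul hb'
        rw [GBox_PI_apply] at h2
        simp only [ne_eq, ite_eq_right_iff, one_ne_zero, imp_false, not_not] at h2
        omega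
      · have h2 : b1 = a1 := by
          by_contra hne
          exact h1 (by rw [Matrix.one_apply_ne hne, zero_mul])
        have h3 : GBox_hf (lo k) b2.val a2.val ≠ 0 := right_ne_zero_of_mul h1
        refine ⟨h2 ▸ ha.1, ?_⟩
        unfold GBox_hf at h3
        split_ifs at h3
        · omega
        · omega
        · exact absurd rfl h3
    · have key := GBox_kron (cubD N k) H (vecMulVec v (cubε N k)) (dI N) (gI N) (GBox_hI N (lo k))
        (vecMulVec (GBox_vI N (lo k)) (εI N)) hD (GBox_htp hc) (GBox_g_h _) (GBox_g_P _)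
        (GBox_P_g _) (GBox_d_P _) (GBox_P_d _)
      refine key.trans ?_
      congr 1
      ext ⟨b1, b2⟩ ⟨a1, a2⟩
      simp only [kroneckerMap_apply, vecMulVec_apply, cubε]
      ring

theorem box_contraction (lo hi : ℕ → ℕ) (h : ∀ m < k, lo m ≤ hi m ∧ hi m ≤ N) :
    ∃ (v : Cell N k → ℂ) (H : Matrix (Cell N k) (Cell N k) ℂ),
      (∀ b, v b ≠ 0 → InBox lo hi b) ∧ cubD N k *ᵥ v = 0 ∧ cubε N k ⬝ᵥ v = 1 ∧
      (∀ b a, InBox lo hi a → H b a ≠ 0 → InBox lo hi b) ∧
      ∀ b a, InBox lo hi a →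
        (cubD N k * H + H * cubD N k) b a = (1 - vecMulVec v (cubε N k)) b a := by
  obtain ⟨v, H, hv, hε, hH, hD⟩ := GBox_aux lo hi k h
  refine ⟨v, H, hv, ?_, hε, hH, fun b a _ => by rw [hD]⟩
  have h1 : cubD N k * (1 - vecMulVec v (cubε N k)) = (1 - vecMulVec v (cubε N k)) * cubD N k := by
    rw [← hD, Matrix.mul_add, Matrix.add_mul, ← Matrix.mul_assoc, Matrix.mul_assoc H,
      cubD_mul_cubD, Matrix.mul_assoc]
    simp
  rw [Matrix.mul_sub, Matrix.sub_mul, Matrix.mul_one, Matrix.one_mul, sub_right_inj,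
    Matrix.vecMulVec_mul, cubε_vecMul_cubD, Matrix.vecMulVec_zero] at h1
  have h2 : vecMulVec v (cubε N k) *ᵥ v = v := by
    rw [Matrix.vecMulVec_mulVec, hε]; simp
  rw [← h2, Matrix.mulVec_mulVec, h1, Matrix.zero_mulVec]

theorem GBox_col_congr {α β : Type} [Fintype α] {X Y : Matrix β α ℂ} {d : Matrix α α ℂ} {b : β}
    {a : α} (h : ∀ a', d a' a ≠ 0 → X b a' = Y b a') : (X * d) b a = (Y * d) b a := by
  rw [Matrix.mul_apply, Matrix.mul_apply]
  refine Finset.sum_congr rfl fun a' _ => ?_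
  by_cases h0 : d a' a = 0
  · rw [h0, mul_zero, mul_zero]
  · rw [h a' h0]

theorem GBox_vec_congr {α : Type} [Fintype α] {x y : α → ℂ} {d : Matrix α α ℂ}
    {a : α} (h : ∀ a', d a' a ≠ 0 → x a' = y a') : (x ᵥ* d) a = (y ᵥ* d) a := by
  simp only [vecMul, dotProduct]
  refine Finset.sum_congr rfl fun a' _ => ?_
  by_cases h0 : d a' a = 0
  · rw [h0, mul_zero, mul_zero]
  · rw [h a' h0]

theorem carrier_abstract {α β : Type} [Fintype α] [DecidableEq α] [Fintype β] [DecidableEq β]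
    (dα : Matrix α α ℂ) (dβ : Matrix β β ℂ) (ε : β → ℂ) (dim : α → ℕ) (K : α → Set β) (A : Set α)
    (s : ℂ) (F : Matrix β α ℂ) (κ : α → ℂ)
    (hαα : dα * dα = 0) (hββ : dβ * dβ = 0) (hε : ε ᵥ* dβ = 0)
    (hface : ∀ a ∈ A, ∀ a', dα a' a ≠ 0 → a' ∈ A ∧ dim a' < dim a ∧ K a' ⊆ K a)
    (hv : ∀ a ∈ A, ∃ v : β → ℂ, (∀ b, v b ≠ 0 → b ∈ K a) ∧ dβ *ᵥ v = 0 ∧ ε ⬝ᵥ v = 1)
    (hacyc : ∀ a ∈ A, ∀ z : β → ℂ, (∀ b, z b ≠ 0 → b ∈ K a) → dβ *ᵥ z = 0 → ε ⬝ᵥ z = 0 →
      ∃ y : β → ℂ, (∀ b, y b ≠ 0 → b ∈ K a) ∧ dβ *ᵥ y = z)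
    (hF : ∀ a ∈ A, ∀ b, F b a ≠ 0 → b ∈ K a)
    (hdF : ∀ a ∈ A, ∀ b, (dβ * F) b a = (s • (F * dα)) b a)
    (hεF : ∀ a ∈ A, (ε ᵥ* F) a = s * (κ ᵥ* dα) a) :
    ∃ h : Matrix β α ℂ, (∀ b a, h b a ≠ 0 → a ∈ A ∧ b ∈ K a) ∧ (∀ a ∈ A, (ε ᵥ* h) a = κ a) ∧
      ∀ a ∈ A, ∀ b, (dβ * h + s • (h * dα)) b a = F b a := by
  classical
  have key : ∀ m : ℕ, ∃ h : Matrix β α ℂ, (∀ b a, h b a ≠ 0 → a ∈ A ∧ b ∈ K a) ∧
      (∀ a ∈ A, dim a < m → (ε ᵥ* h) a = κ a) ∧
      ∀ a ∈ A, dim a < m → ∀ b, (dβ * h + s • (h * dα)) b a = F b a := by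
    intro m
    induction m with
    | zero => exact ⟨0, fun b a h => absurd rfl h, fun a _ h => absurd h (Nat.not_lt_zero _),
        fun a _ h => absurd h (Nat.not_lt_zero _)⟩
    | succ m ih =>
      obtain ⟨h, h1, h2, h3⟩ := ih
      have hw : ∀ a ∈ A, dim a = m → ∃ w : β → ℂ, (∀ b, w b ≠ 0 → b ∈ K a) ∧
          ε ⬝ᵥ w = κ a ∧ dβ *ᵥ w = fun b => (F - s • (h * dα)) b a := by
        intro a ha hm
        obtain ⟨v, hv1, hv2, hv3⟩ := hv a ha
        obtain ⟨y, hy1, hy2⟩ := hacyc a ha (fun b => (F - s • (h * dα)) b a) (fun b hb => by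
          by_contra hbK
          apply hb
          have e1 : F b a = 0 := by
            by_contra h0
            exact hbK (hF a ha b h0)
          have e2 : (h * dα) b a = 0 := by
            rw [Matrix.mul_apply]
            refine Finset.sum_eq_zero fun a' _ => ?_
            by_contra h0
            exact hbK ((hface a ha a' (right_ne_zero_of_mul h0)).2.2
              (h1 b a' (left_ne_zero_of_mul h0)).2)
          simp [e1, e2]) (by
          funext b
          change (dβ * (F - s • (h * dα))) b a = 0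
          have e : (dβ * h * dα) b a = ((F - s • (h * dα)) * dα) b a :=
            GBox_col_congr fun a' h0 => by
              have := h3 a' (hface a ha a' h0).1 (hm ▸ (hface a ha a' h0).2.1) b
              rw [Matrix.add_apply] at this
              rw [Matrix.sub_apply, ← this]
              ring
          rw [Matrix.sub_mul, Matrix.smul_mul, Matrix.mul_assoc h, hαα, Matrix.mul_zero, smul_zero,
            sub_zero] at e
          rw [Matrix.mul_sub, Matrix.mul_smul, ← Matrix.mul_assoc, Matrix.sub_apply, hdF a ha b,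
            Matrix.smul_apply, Matrix.smul_apply, e, sub_self]) (by
          change (ε ᵥ* (F - s • (h * dα))) a = 0
          have e : ((ε ᵥ* h) ᵥ* dα) a = (κ ᵥ* dα) a :=
            GBox_vec_congr fun a' h0 =>
              h2 a' (hface a ha a' h0).1 (hm ▸ (hface a ha a' h0).2.1)
          rw [Matrix.vecMul_sub, Matrix.vecMul_smul, ← Matrix.vecMul_vecMul, Pi.sub_apply,
            hεF a ha, Pi.smul_apply, e, smul_eq_mul, sub_self])
        refine ⟨y + (κ a - ε ⬝ᵥ y) • v, fun b hb => ?_, ?_, ?_⟩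
        · by_contra hbK
          apply hb
          have e1 : y b = 0 := by
            by_contra h0
            exact hbK (hy1 b h0)
          have e2 : v b = 0 := by
            by_contra h0
            exact hbK (hv1 b h0)
          simp [e1, e2]
        · rw [dotProduct_add, dotProduct_smul, hv3]
          simp
        · rw [Matrix.mulVec_add, Matrix.mulVec_smul, hv2, hy2]
          simp
      choose! w hw1 hw2 hw3 using hw
      let h' : Matrix β α ℂ := Matrix.of fun b a => if a ∈ A ∧ dim a = m then w a b else h b a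
      have c1 : ∀ a ∈ A, dim a = m → ∀ b, h' b a = w a b := fun a ha hm b => if_pos ⟨ha, hm⟩
      have c2 : ∀ a, dim a < m → ∀ b, h' b a = h b a := fun a hm b =>
        if_neg fun h0 => hm.ne h0.2
      have c3 : ∀ a ∈ A, dim a < m + 1 → ∀ b, (h' * dα) b a = (h * dα) b a := fun a ha hm b =>
        GBox_col_congr fun a' h0 => c2 a' (by have := (hface a ha a' h0).2.1; omega) b
      refine ⟨h', fun b a hb => ?_, fun a ha hm => ?_, fun a ha hm b => ?_⟩
      · by_cases hc : a ∈ A ∧ dim a = m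
        · rw [c1 a hc.1 hc.2] at hb
          exact ⟨hc.1, hw1 a hc.1 hc.2 b hb⟩
        · exact h1 b a (by simpa only [h', Matrix.of_apply, if_neg hc] using hb)
      · rcases Nat.lt_succ_iff_lt_or_eq.1 hm with hm' | hm'
        · rw [← h2 a ha hm']
          simp only [vecMul, dotProduct, c2 a hm']
        · rw [← hw2 a ha hm']
          simp only [vecMul, dotProduct, c1 a ha hm']
      · rw [Matrix.add_apply, Matrix.smul_apply, c3 a ha hm]
        rcases Nat.lt_succ_iff_lt_or_eq.1 hm with hm' | hm'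
        · rw [← h3 a ha hm' b, Matrix.add_apply, Matrix.smul_apply]
          simp only [Matrix.mul_apply, c2 a hm']
        · have e := congrFun (hw3 a ha hm') b
          rw [Matrix.sub_apply, Matrix.smul_apply] at e
          have e' : (dβ * h') b a = (dβ *ᵥ w a) b := by
            simp only [Matrix.mul_apply, mulVec, dotProduct, c1 a ha hm']
          rw [e', e, sub_add_cancel]
  obtain ⟨h, h1, h2, h3⟩ := key (Finset.univ.sup dim + 1)
  have hd : ∀ a, dim a < Finset.univ.sup dim + 1 := fun a =>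
    Nat.lt_succ_of_le (Finset.le_sup (f := dim) (Finset.mem_univ a))
  exact ⟨h, h1, fun a ha => h2 a ha (hd a), fun a ha => h3 a ha (hd a)⟩

theorem GBox_L1 (hN : 0 < N) {x : ℝ} {t : ℕ} (h : x ≤ -2 + 2 * (t : ℝ) / N) :
    2 * ⌊(x + 2) * N / 4⌋₊ ≤ t := by
  have hN' : (0 : ℝ) < N := Nat.cast_pos.2 hN
  have h1 : (x + 2) * N ≤ 2 * t := by
    rw [← le_div_iff₀ hN']; linarith
  by_cases h0 : 0 ≤ (x + 2) * N / 4
  · have h2 := Nat.floor_le h0
    have : ((2 * ⌊(x + 2) * N / 4⌋₊ : ℕ) : ℝ) ≤ t := by push_cast; linarith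
    exact_mod_cast this
  · rw [Nat.floor_of_nonpos (le_of_not_ge h0)]; omega

theorem GBox_L2 (hN : 0 < N) {y : ℝ} {t : ℕ} (h : -2 + 2 * (t : ℝ) / N ≤ y) :
    t ≤ 2 * ⌈(y + 2) * N / 4⌉₊ := by
  have hN' : (0 : ℝ) < N := Nat.cast_pos.2 hN
  have h1 : 2 * t ≤ (y + 2) * N := by
    rw [← div_le_iff₀ hN']; linarith
  have h2 := Nat.le_ceil ((y + 2) * N / 4)
  have : (t : ℝ) ≤ ((2 * ⌈(y + 2) * N / 4⌉₊ : ℕ) : ℝ) := by push_cast; linarith
  exact_mod_cast this

theorem GBox_L3 (hN : 0 < N) {x : ℝ} {t : ℕ} (h : 2 * ⌊(x + 2) * N / 4⌋₊ ≤ t) :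
    x - 4 / N ≤ -2 + 2 * (t : ℝ) / N := by
  have hN' : (0 : ℝ) < N := Nat.cast_pos.2 hN
  have h1 := Nat.lt_floor_add_one ((x + 2) * N / 4)
  have h2 : ((2 * ⌊(x + 2) * N / 4⌋₊ : ℕ) : ℝ) ≤ t := by exact_mod_cast h
  push_cast at h2
  have h3 : x + 2 ≤ (2 * t + 4) / N := by
    rw [le_div_iff₀ hN']; linarith
  rw [add_div] at h3
  linarith

theorem GBox_L4 (hN : 0 < N) {y : ℝ} (hy : -2 ≤ y) {t : ℕ} (h : t ≤ 2 * ⌈(y + 2) * N / 4⌉₊) :
    -2 + 2 * (t : ℝ) / N ≤ y + 4 / N := by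
  have hN' : (0 : ℝ) < N := Nat.cast_pos.2 hN
  have h0 : 0 ≤ (y + 2) * N / 4 := by
    have : 0 ≤ y + 2 := by linarith
    positivity
  have h1 := Nat.ceil_lt_add_one h0
  have h2 : (t : ℝ) ≤ ((2 * ⌈(y + 2) * N / 4⌉₊ : ℕ) : ℝ) := by exact_mod_cast h
  push_cast at h2
  have h3 : (2 * t - 4) / N ≤ y + 2 := by
    rw [div_le_iff₀ hN']; linarith
  rw [sub_div] at h3
  linarith

/-- the carrier lemma for the cubical complex -/
theorem carrier (hN : 0 < N) (A : Set (Cell N k)) (hA : ∀ a ∈ A, ∀ a', cubD N k a' a ≠ 0 → a' ∈ A)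
    (γ : Cell N k → Fin k → ℝ) (r : ℝ) (hr : 2 / N ≤ r) (hγ : ∀ a ∈ A, ‖γ a‖ ≤ 2)
    (hγ' : ∀ a ∈ A, ∀ a', cubD N k a' a ≠ 0 → ‖γ a' - γ a‖ ≤ r)
    (s : ℂ) (F : Matrix (Cell N k) (Cell N k) ℂ) (κ : Cell N k → ℂ)
    (hF : ∀ a ∈ A, ∀ b, F b a ≠ 0 → ‖b.pt - γ a‖ ≤ r)
    (hdF : ∀ a ∈ A, ∀ b, (cubD N k * F) b a = (s • (F * cubD N k)) b a)
    (hεF : ∀ a ∈ A, (cubε N k ᵥ* F) a = s * (κ ᵥ* cubD N k) a) :
    ∃ h : Matrix (Cell N k) (Cell N k) ℂ,
      (∀ b a, h b a ≠ 0 → a ∈ A ∧ ‖b.pt - γ a‖ ≤ (k + 3) * r) ∧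
      (∀ a ∈ A, (cubε N k ᵥ* h) a = κ a) ∧
      ∀ a ∈ A, ∀ b, (cubD N k * h + s • (h * cubD N k)) b a = F b a := by
  have hN' : (0 : ℝ) < N := Nat.cast_pos.2 hN
  have hr0 : 0 < r := lt_of_lt_of_le (by positivity) hr
  let g : Cell N k → ℕ → ℝ := fun a m => if h : m < k then γ a ⟨m, h⟩ else 0
  have hg : ∀ a m (h : m < k), g a m = γ a ⟨m, h⟩ := fun a m h => dif_pos h
  let lo : Cell N k → ℕ → ℕ := fun a m => ⌊(g a m - (a.dim + 1) * r + 2) * N / 4⌋₊
  let hi : Cell N k → ℕ → ℕ := fun a m => min N ⌈(g a m + (a.dim + 1) * r + 2) * N / 4⌉₊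
  have hdr : ∀ a : Cell N k, r ≤ (a.dim + 1) * r := fun a => by
    have : (0 : ℝ) ≤ a.dim * r := by positivity
    linarith
  have hg2 : ∀ a ∈ A, ∀ m < k, |g a m| ≤ 2 := fun a ha m hm => by
    rw [hg a m hm]
    exact (norm_le_pi_norm (γ a) ⟨m, hm⟩).trans (hγ a ha)
  have hlh : ∀ a ∈ A, ∀ m < k, lo a m ≤ hi a m ∧ hi a m ≤ N := fun a ha m hm => by
    have h1 := abs_le.1 (hg2 a ha m hm)
    have h2 := hdr a
    refine ⟨le_min ?_ ?_, min_le_left _ _⟩
    · refine Nat.floor_le_of_le ?_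
      have : (g a m - (a.dim + 1) * r + 2) * N ≤ 4 * N :=
        mul_le_mul_of_nonneg_right (by linarith) hN'.le
      linarith
    · refine (Nat.floor_le_ceil _).trans (Nat.ceil_mono ?_)
      gcongr
      linarith
  obtain ⟨h, h1, h2, h3⟩ := carrier_abstract (cubD N k) (cubD N k) (cubε N k) Cell.dim
    (fun a => {b | InBox (lo a) (hi a) b}) A s F κ (cubD_mul_cubD N k) (cubD_mul_cubD N k)
    (cubε_vecMul_cubD N k)
    (fun a ha a' h0 => by
      have hd := (cubD_ne_zero h0).1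
      refine ⟨hA a ha a' h0, hd, fun b hb m hm => ?_⟩
      have e1 : |g a' m - g a m| ≤ r := by
        rw [hg a m hm, hg a' m hm]
        exact (norm_le_pi_norm (γ a' - γ a) ⟨m, hm⟩).trans (hγ' a ha a' h0)
      have e2 : ((a'.dim : ℝ) + 1) * r ≤ a.dim * r :=
        mul_le_mul_of_nonneg_right (by exact_mod_cast hd) hr0.le
      have e3 := abs_le.1 e1
      have l1 : lo a m ≤ lo a' m := by
        refine Nat.floor_mono ?_
        gcongr (?_ + 2) * N / 4
        linarith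
      have l2 : hi a' m ≤ hi a m := by
        refine min_le_min le_rfl (Nat.ceil_mono ?_)
        gcongr (?_ + 2) * N / 4
        linarith
      have := hb m hm
      omega)
    (fun a ha => by
      obtain ⟨v, H, b1, b2, b3, -, -⟩ := box_contraction (lo a) (hi a) (hlh a ha)
      exact ⟨v, b1, b2, b3⟩)
    (fun a ha z z1 z2 z3 => by
      obtain ⟨v, H, -, -, -, b4, b5⟩ := box_contraction (lo a) (hi a) (hlh a ha)
      refine ⟨H *ᵥ z, fun b hb => ?_, ?_⟩
      · obtain ⟨c, -, hc⟩ := Finset.exists_ne_zero_of_sum_ne_zero hb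
        exact b4 b c (z1 c (right_ne_zero_of_mul hc)) (left_ne_zero_of_mul hc)
      · have e : (cubD N k * H + H * cubD N k) *ᵥ z = (1 - vecMulVec v (cubε N k)) *ᵥ z := by
          funext b
          simp only [mulVec, dotProduct]
          refine Finset.sum_congr rfl fun c _ => ?_
          by_cases h0 : z c = 0
          · rw [h0, mul_zero, mul_zero]
          · rw [b5 b c (z1 c h0)]
        rw [Matrix.add_mulVec, ← Matrix.mulVec_mulVec, ← Matrix.mulVec_mulVec, z2,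
          Matrix.mulVec_zero, add_zero, Matrix.sub_mulVec, Matrix.one_mulVec,
          Matrix.vecMulVec_mulVec, z3] at e
        simpa using e)
    (fun a ha b h0 m hm => by
      have e1 : |b.pt ⟨m, hm⟩ - g a m| ≤ r := by
        rw [hg a m hm]
        exact (norm_le_pi_norm (b.pt - γ a) ⟨m, hm⟩).trans (hF a ha b h0)
      have e2 := abs_le.1 e1
      have e3 := hdr a
      simp only [Cell.pt] at e2
      have l1 : 2 * lo a m ≤ b.ix m := GBox_L1 hN (by linarith)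
      have l2 : b.ix m ≤ 2 * ⌈(g a m + (a.dim + 1) * r + 2) * N / 4⌉₊ := GBox_L2 hN (by linarith)
      have l3 := b.ix_le m
      refine ⟨l1, ?_⟩
      simp only [hi]
      omega)
    hdF hεF
  refine ⟨h, fun b a h0 => ⟨(h1 b a h0).1, ?_⟩, h2, h3⟩
  obtain ⟨ha, hb⟩ := h1 b a h0
  refine (pi_norm_le_iff_of_nonneg (by positivity)).2 fun m => ?_
  obtain ⟨l1, l2⟩ := hb m.val m.isLt
  have e0 := abs_le.1 (hg2 a ha m.val m.isLt)
  have e3 := hdr a
  have e1 := GBox_L3 hN l1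
  have e2 := GBox_L4 hN (y := g a m + (a.dim + 1) * r) (by linarith)
    (l2.trans (Nat.mul_le_mul_left 2 (min_le_right _ _)))
  have e4 : ((a.dim : ℝ) + 1) * r ≤ (k + 1) * r :=
    mul_le_mul_of_nonneg_right (by exact_mod_cast Nat.succ_le_succ a.dim_le) hr0.le
  have e5 : (4 : ℝ) / N = 2 * (2 / N) := by ring
  rw [hg a m.val m.isLt] at e1 e2
  rw [Real.norm_eq_abs, Pi.sub_apply, abs_le]
  simp only [Cell.pt, Fin.eta] at e1 e2 ⊢
  constructor <;> linarith

/-- a face-closed set of cells between two concentric cubes -/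
theorem exists_faceClosed (hN : 0 < N) (ρ : ℝ) (hρ : 0 ≤ ρ) :
    ∃ A : Set (Cell N k), (∀ a ∈ A, ∀ a', cubD N k a' a ≠ 0 → a' ∈ A) ∧
      (∀ a : Cell N k, ‖a.pt‖ ≤ ρ → a ∈ A) ∧ ∀ a ∈ A, ‖a.pt‖ ≤ ρ + 4 / N := by
  refine ⟨{a | InBox (fun _ => ⌊(-ρ + 2) * N / 4⌋₊) (fun _ => ⌈(ρ + 2) * N / 4⌉₊) a},
    fun a ha a' h => InBox.face ha h, fun a ha m hm => ?_, fun a ha => ?_⟩
  · have e := abs_le.1 ((norm_le_pi_norm a.pt ⟨m, hm⟩).trans ha)
    exact ⟨GBox_L1 hN e.1, GBox_L2 hN e.2⟩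
  · refine (pi_norm_le_iff_of_nonneg (by positivity)).2 fun m => ?_
    obtain ⟨l1, l2⟩ := ha m.val m.isLt
    have e1 := GBox_L3 hN l1
    have e2 := GBox_L4 hN (by linarith) l2
    rw [Real.norm_eq_abs, abs_le]
    simp only [Cell.pt]
    constructor <;> linarith

end Crest.Agent.R217
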