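import Mathlib

/-! # Row 217, part B, geometry: the cubical chain complex of `[-2,2]^k`.  FIXED DEFINITIONS.
`Iv N = {0, …, 2N}`: even = vertex, odd = edge, the point `t` sits at `-2 + 2t/N`.
`Cell N (k+1) = Cell N k × Iv N`.  On `ℓ²(ℤ)` with shift `S` and parity `γ`:
`dI = (S - S⁻¹) P_odd`, `φI = -(i/2)(S + S⁻¹) γ`, `φ0I = -i S⁻¹ γ`, all compressed to `Iv N`. -/

set_option autoImplicit false
open Matrix Complex
open scoped Kronecker

namespace Crest.Agent.R217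

abbrev Iv (N : ℕ) : Type := Fin (2 * N + 1)

variable (N : ℕ)

def dI : Matrix (Iv N) (Iv N) ℂ := Matrix.of fun b a =>
  if Odd a.val then (if b.val = a.val + 1 then 1 else if b.val + 1 = a.val then -1 else 0) else 0
def gI : Matrix (Iv N) (Iv N) ℂ := diagonal fun a => (-1) ^ a.val
noncomputable def φI : Matrix (Iv N) (Iv N) ℂ := Matrix.of fun b a =>
  if b.val = a.val + 1 ∨ b.val + 1 = a.val then -(I / 2) * (-1) ^ a.val else 0
def φ0I : Matrix (Iv N) (Iv N) ℂ := Matrix.of fun b a =>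
  if b.val + 1 = a.val then -I * (-1) ^ a.val else 0
/-- augmentation -/
def εI : Iv N → ℂ := fun a => if Even a.val then 1 else 0
/-- fundamental chain -/
def μI : Iv N → ℂ := fun a => if Odd a.val then 1 else 0

def Cell : ℕ → Type
  | 0 => Unit
  | k + 1 => Cell k × Iv N

instance Cell.fintype : ∀ k, Fintype (Cell N k)
  | 0 => inferInstanceAs (Fintype Unit)
  | k + 1 => haveI := Cell.fintype k; inferInstanceAs (Fintype (Cell N k × Iv N))

instance Cell.decEq : ∀ k, DecidableEq (Cell N k)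
  | 0 => inferInstanceAs (DecidableEq Unit)
  | k + 1 => haveI := Cell.decEq k; inferInstanceAs (DecidableEq (Cell N k × Iv N))

variable {N}

/-- integer coordinates (`0` beyond the dimension) -/
def Cell.ix : ∀ {k : ℕ}, Cell N k → ℕ → ℕ
  | 0, _, _ => 0
  | k + 1, a, m => if m = k then a.2.val else Cell.ix a.1 m

/-- the number of odd coordinates -/
def Cell.dim : ∀ {k : ℕ}, Cell N k → ℕ
  | 0, _ => 0
  | _ + 1, a => Cell.dim a.1 + if Odd a.2.val then 1 else 0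

/-- the centre of a cell -/
noncomputable def Cell.pt {k : ℕ} (a : Cell N k) : Fin k → ℝ :=
  fun m => -2 + 2 * (a.ix m : ℝ) / N

variable (N)

noncomputable def cubD : ∀ k, Matrix (Cell N k) (Cell N k) ℂ
  | 0 => 0
  | k + 1 => (I • (cubD k ⊗ₖ gI N) + (1 : Matrix (Cell N k) (Cell N k) ℂ) ⊗ₖ dI N :
      Matrix (Cell N k × Iv N) (Cell N k × Iv N) ℂ)
noncomputable def cubΦ : ∀ k, Matrix (Cell N k) (Cell N k) ℂ
  | 0 => 1
  | k + 1 => (cubΦ k ⊗ₖ φI N : Matrix (Cell N k × Iv N) (Cell N k × Iv N) ℂ)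
noncomputable def cubΦ0 : ∀ k, Matrix (Cell N k) (Cell N k) ℂ
  | 0 => 1
  | k + 1 => (cubΦ0 k ⊗ₖ φ0I N : Matrix (Cell N k × Iv N) (Cell N k × Iv N) ℂ)
noncomputable def cubε : ∀ k, Cell N k → ℂ
  | 0, _ => 1
  | k + 1, a => cubε k a.1 * εI N a.2
noncomputable def cubμ : ∀ k, Cell N k → ℂ
  | 0, _ => 1
  | k + 1, a => cubμ k a.1 * μI N a.2

variable {N}

/-- `T` sends the cell `a` to cells within `r` of `γ a` -/
def Near {k : ℕ} (γ : Cell N k → Fin k → ℝ) (r : ℝ) (T : Matrix (Cell N k) (Cell N k) ℂ) : Prop :=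
  ∀ b a, T b a ≠ 0 → ‖b.pt - γ a‖ ≤ r

/-- the columns of `S` and `T` at cells with centre in `[-ρ, ρ]^k` agree -/
def EqIn {k : ℕ} (ρ : ℝ) (S T : Matrix (Cell N k) (Cell N k) ℂ) : Prop :=
  ∀ b a, ‖a.pt‖ ≤ ρ → S b a = T b a

end Crest.Agent.R217
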