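import Crest.Agent.R217.GBox

/-! # Row 217, part B, geometry: chain approximations of an approximate `ZMod q`-action.
All by `carrier` (`d = cubD`, `ε = cubε`, `Φ0 = cubΦ0`, mesh `= 2/N`; faces are within the mesh):
* `G a`: `A = univ`, `F = 0`, `s = -1`, `κ = ε`, centre `γ a (pt ·)`, `r = δ₁`: a chain map with `ε G = ε`.
* `G a - 1`: `A = univ`, `s = 1`, `κ = 0`, centre `pt`, `r = (n+4) ε`.
* `G a * G b - G (a+b)`: `A` from `exists_faceClosed` with `ρ = 3/2`, `s = 1`, `κ = 0`, centre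
  `γ (a+b) (pt ·)`, `r` a multiple of `δ₂`.
* `G' = Φ0ᴴ (G a)ᴴ Φ0` satisfies `d G' = G' d` on columns in `A`: `Φ0 d = dᴴ Φ0` and (conjugate
  transpose) `dᴴ Φ0ᴴ = Φ0ᴴ d`... precisely: `G' d = Φ0ᴴ Gᴴ dᴴ Φ0 = Φ0ᴴ dᴴ Gᴴ Φ0`, and `Φ0ᴴ dᴴ = d Φ0ᴴ`
  holds on columns of interior cells (multiply `dᴴ Φ0 = Φ0 d` by `Φ0ᴴ` on both sides and use
  `cubΦ0_ct_mul`, `cubΦ0_mul_ct` and locality).  Its support is near `γ (-a)` on columns in `A`
  (`γ (-a) (γ a x) ≈ γ 0 x ≈ x`).  Augmentation: `G'ᴴ ε = Φ0ᴴ G Φ0 ε = (-I)^n Φ0ᴴ G μ`, and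
  `G μ = μ + d H μ + H d μ` with `H` from the second item; `d μ` lives on the boundary so `H d μ` vanishes
  on `‖pt‖ < 2 - C ε`; `(-I)^n Φ0ᴴ μ = Φ0ᴴ Φ0 ε = ε` inside; `Φ0ᴴ d = dᴴ Φ0ᴴ`.  Hence
  `ε G' = ε + κ d` on `A` with `κ = star ((-I)^n Φ0ᴴ H μ)`; apply `carrier` to `F = G' - G (-a)`, `s = 1`.
* `chain_idem`: average the homotopies (`E E = q⁻² ∑ χ (a+b) G a G b`, `Eᴴ = q⁻¹ ∑ χ (-a) (G a)ᴴ`). -/

set_option autoImplicit false
open Matrix Complex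

namespace Crest.Agent.R217

/-- quantitative hypotheses on an approximate action `γ` of `ZMod q` on `[-2,2]^n` -/
structure ApproxAction {n : ℕ} (C : ℝ) (N q : ℕ) (γ : ZMod q → (Fin n → ℝ) → Fin n → ℝ)
    (ε δ₁ δ₂ : ℝ) : Prop where
  N_pos : 0 < N
  mesh : 2 / N ≤ δ₁
  le₁₂ : δ₁ ≤ δ₂
  le₂ : δ₂ ≤ ε
  small : C * ε ≤ 1 / 8
  maps : ∀ a x, ‖x‖ ≤ 2 → ‖γ a x‖ ≤ 2
  near : ∀ a x, ‖x‖ ≤ 2 → ‖γ a x - x‖ ≤ ε
  cont₁ : ∀ a x y, ‖x‖ ≤ 2 → ‖y‖ ≤ 2 → ‖x - y‖ ≤ 2 / N → ‖γ a x - γ a y‖ ≤ δ₁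
  cont₂ : ∀ a x y, ‖x‖ ≤ 2 → ‖y‖ ≤ 2 → ‖x - y‖ ≤ C * δ₁ → ‖γ a x - γ a y‖ ≤ δ₂
  add : ∀ a b x, ‖x‖ ≤ 7 / 4 → ‖γ a (γ b x) - γ (a + b) x‖ ≤ δ₂
  zero : ∀ x, ‖x‖ ≤ 7 / 4 → ‖γ 0 x - x‖ ≤ δ₂

/-! ### column calculus -/
section Aux
variable {α : Type} [Fintype α]

theorem gch_mul_ne {S T : Matrix α α ℂ} {b a : α} (h : (S * T) b a ≠ 0) :
    ∃ y, S b y ≠ 0 ∧ T y a ≠ 0 := by
  rw [Matrix.mul_apply] at h
  obtain ⟨y, -, hy⟩ := Finset.exists_ne_zero_of_sum_ne_zero h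
  exact ⟨y, left_ne_zero_of_mul hy, right_ne_zero_of_mul hy⟩

omit [Fintype α] in
theorem gch_ct_ne {S : Matrix α α ℂ} {b a : α} (h : Sᴴ b a ≠ 0) : S a b ≠ 0 := by
  intro h0
  apply h
  rw [conjTranspose_apply, h0, star_zero]

omit [Fintype α] in
theorem gch_sub_ne {S T : Matrix α α ℂ} {b a : α} (h : (S - T) b a ≠ 0) :
    S b a ≠ 0 ∨ T b a ≠ 0 := by
  by_contra hh
  push Not at hh
  apply h
  rw [Matrix.sub_apply, hh.1, hh.2, sub_zero]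

theorem gch_col_left (V : Matrix α α ℂ) {S T : Matrix α α ℂ} {a : α} (h : ∀ b, S b a = T b a)
    (b : α) : (V * S) b a = (V * T) b a := by
  simp only [Matrix.mul_apply, h]

theorem gch_col_right {S T : Matrix α α ℂ} (U : Matrix α α ℂ) {a : α}
    (h : ∀ y, U y a ≠ 0 → ∀ b, S b y = T b y) (b : α) : (S * U) b a = (T * U) b a := by
  simp only [Matrix.mul_apply]
  refine Finset.sum_congr rfl fun y _ => ?_
  by_cases hy : U y a = 0
  · rw [hy, mul_zero, mul_zero]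
  · rw [h y hy b]

theorem gch_vec_left (v : α → ℂ) {S T : Matrix α α ℂ} {a : α} (h : ∀ b, S b a = T b a) :
    (v ᵥ* S) a = (v ᵥ* T) a := by
  simp only [Matrix.vecMul, dotProduct, h]

theorem gch_vec_right {v : α → ℂ} (U : Matrix α α ℂ) {a : α}
    (h : ∀ y, U y a ≠ 0 → v y = 0) : (v ᵥ* U) a = 0 := by
  simp only [Matrix.vecMul, dotProduct]
  refine Finset.sum_eq_zero fun y _ => ?_
  by_cases hy : U y a = 0
  · rw [hy, mul_zero]
  · rw [h y hy, zero_mul]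

end Aux

theorem gch_near_mono {N k : ℕ} {γ : Cell N k → Fin k → ℝ} {r r' : ℝ}
    {T : Matrix (Cell N k) (Cell N k) ℂ} (h : Near γ r T) (hr : r ≤ r') : Near γ r' T :=
  fun b a hba => (h b a hba).trans hr

/-- `Φ0ᴴ dᴴ = d Φ0ᴴ` on interior columns -/
theorem gch_ct_comm {N k : ℕ} (hN : 0 < N) (y : Cell N k) (hy : ‖y.pt‖ + 2 * (2 / N) < 2)
    (b : Cell N k) :
    ((cubΦ0 N k)ᴴ * (cubD N k)ᴴ) b y = (cubD N k * (cubΦ0 N k)ᴴ) b y := by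
  have hm : (0 : ℝ) < 2 / N := by
    have : (0 : ℝ) < N := by exact_mod_cast hN
    positivity
  have h1 : ((cubΦ0 N k)ᴴ * (cubD N k)ᴴ) * (cubΦ0 N k * (cubΦ0 N k)ᴴ) =
      ((cubΦ0 N k)ᴴ * cubΦ0 N k) * (cubD N k * (cubΦ0 N k)ᴴ) := by
    have := cubΦ0_mul_cubD N k
    calc ((cubΦ0 N k)ᴴ * (cubD N k)ᴴ) * (cubΦ0 N k * (cubΦ0 N k)ᴴ)
        = (cubΦ0 N k)ᴴ * ((cubD N k)ᴴ * cubΦ0 N k) * (cubΦ0 N k)ᴴ := by
          simp only [Matrix.mul_assoc]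
      _ = (cubΦ0 N k)ᴴ * (cubΦ0 N k * cubD N k) * (cubΦ0 N k)ᴴ := by rw [this]
      _ = _ := by simp only [Matrix.mul_assoc]
  have h2 : (((cubΦ0 N k)ᴴ * (cubD N k)ᴴ) * (cubΦ0 N k * (cubΦ0 N k)ᴴ)) b y =
      (((cubΦ0 N k)ᴴ * (cubD N k)ᴴ) * (1 : Matrix (Cell N k) (Cell N k) ℂ)) b y :=
    gch_col_left _ (fun b' => cubΦ0_mul_ct hN b' y (by linarith)) b
  have h3 : (((cubΦ0 N k)ᴴ * cubΦ0 N k) * (cubD N k * (cubΦ0 N k)ᴴ)) b y =
      ((1 : Matrix (Cell N k) (Cell N k) ℂ) * (cubD N k * (cubΦ0 N k)ᴴ)) b y := by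
    refine gch_col_right _ (fun z hz b' => cubΦ0_ct_mul hN b' z ?_) b
    obtain ⟨w, hw1, hw2⟩ := gch_mul_ne hz
    have e1 := near_cubD hN z w hw1
    have e2 := near_cubΦ0 hN y w (gch_ct_ne hw2)
    have e3 : ‖z.pt‖ ≤ ‖z.pt - w.pt‖ + ‖y.pt - w.pt‖ + ‖y.pt‖ := by
      have : z.pt = (z.pt - w.pt) - (y.pt - w.pt) + y.pt := by abel
      calc ‖z.pt‖ = ‖(z.pt - w.pt) - (y.pt - w.pt) + y.pt‖ := by rw [← this]
        _ ≤ ‖(z.pt - w.pt) - (y.pt - w.pt)‖ + ‖y.pt‖ := norm_add_le _ _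
        _ ≤ _ := by gcongr; exact norm_sub_le _ _
    linarith
  rw [Matrix.mul_one] at h2
  rw [Matrix.one_mul] at h3
  rw [← h2, h1, h3]

section Steps
variable {n N q : ℕ} {C : ℝ} {γ : ZMod q → (Fin n → ℝ) → Fin n → ℝ} {ε δ₁ δ₂ : ℝ}

theorem gch_mesh_pos (hA : ApproxAction C N q γ ε δ₁ δ₂) : (0 : ℝ) < 2 / N := by
  have : (0 : ℝ) < N := by exact_mod_cast hA.N_pos
  positivity

theorem gch_face (hA : ApproxAction C N q γ ε δ₁ δ₂) (a : ZMod q) (c c' : Cell N n)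
    (h : cubD N n c' c ≠ 0) : ‖γ a c'.pt - γ a c.pt‖ ≤ δ₁ :=
  hA.cont₁ a _ _ (Cell.norm_pt_le hA.N_pos _) (Cell.norm_pt_le hA.N_pos _)
    (near_cubD hA.N_pos c' c h)

/-- Step 1: the chain maps -/
theorem gch_step1 (hA : ApproxAction C N q γ ε δ₁ δ₂) (a : ZMod q) :
    ∃ G : Matrix (Cell N n) (Cell N n) ℂ, G * cubD N n = cubD N n * G ∧
      Near (fun c => γ a c.pt) ((n + 3) * δ₁) G ∧ cubε N n ᵥ* G = cubε N n := by
  obtain ⟨G, h1, h2, h3⟩ := carrier (k := n) hA.N_pos Set.univ (fun _ _ _ _ => Set.mem_univ _)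
    (fun c => γ a c.pt) δ₁ hA.mesh (fun c _ => hA.maps a _ (Cell.norm_pt_le hA.N_pos _))
    (fun c _ c' h => gch_face hA a c c' h) (-1) 0 (cubε N n)
    (fun c _ b h => absurd rfl h) (fun c _ b => by simp)
    (fun c _ => by rw [cubε_vecMul_cubD]; simp)
  refine ⟨G, ?_, fun b c h => (h1 b c h).2, funext fun c => h2 c (Set.mem_univ _)⟩
  ext b c
  have := h3 c (Set.mem_univ _) b
  simp only [Matrix.add_apply, Matrix.smul_apply, smul_eq_mul, Matrix.zero_apply] at this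
  linear_combination -this

/-- Step 2: homotopy to the identity -/
theorem gch_step2 (hA : ApproxAction C N q γ ε δ₁ δ₂) (a : ZMod q)
    {G : Matrix (Cell N n) (Cell N n) ℂ} (hd : G * cubD N n = cubD N n * G)
    (hG : Near (fun c => γ a c.pt) ((n + 3) * δ₁) G) (he : cubε N n ᵥ* G = cubε N n) :
    ∃ H, Near Cell.pt ((n + 3) * ((n + 4) * ε)) H ∧ G - 1 = cubD N n * H + H * cubD N n := by
  have hm := gch_mesh_pos hA
  have h1 := hA.mesh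
  have h2 := hA.le₁₂
  have h3 := hA.le₂
  have hn : (0 : ℝ) ≤ n := Nat.cast_nonneg n
  have hε : 0 ≤ ε := by linarith
  have hr : 2 / (N : ℝ) ≤ (n + 4) * ε := by nlinarith
  obtain ⟨H, k1, -, k3⟩ := carrier (k := n) hA.N_pos Set.univ (fun _ _ _ _ => Set.mem_univ _)
    Cell.pt ((n + 4) * ε) hr (fun c _ => Cell.norm_pt_le hA.N_pos _)
    (fun c _ c' h => (near_cubD hA.N_pos c' c h).trans hr) 1 (G - 1) 0
    (fun c _ b h => by
      rcases gch_sub_ne h with h | h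
      · have e1 := hG b c h
        have e2 := hA.near a c.pt (Cell.norm_pt_le hA.N_pos _)
        have e3 := norm_sub_le_norm_sub_add_norm_sub b.pt (γ a c.pt) c.pt
        have e4 : ((n : ℝ) + 3) * δ₁ ≤ (n + 3) * ε := by gcongr; linarith
        linarith
      · have : b = c := by
          by_contra hbc
          exact h (Matrix.one_apply_ne hbc)
        rw [this, sub_self, norm_zero]
        positivity)
    (fun c _ b => by
      rw [one_smul, Matrix.mul_sub, Matrix.sub_mul, hd, Matrix.mul_one, Matrix.one_mul])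
    (fun c _ => by rw [Matrix.vecMul_sub, he]; simp)
  refine ⟨H, fun b c h => (k1 b c h).2, ?_⟩
  ext b c
  have := k3 c (Set.mem_univ _) b
  rw [one_smul] at this
  exact this.symm

/-- Step 3: multiplicativity up to homotopy -/
theorem gch_step3 (hC : ((n : ℝ) + 7) ^ 2 ≤ C) (hA : ApproxAction C N q γ ε δ₁ δ₂)
    (a b : ZMod q) {Ga Gb Gab : Matrix (Cell N n) (Cell N n) ℂ}
    (hda : Ga * cubD N n = cubD N n * Ga) (hdb : Gb * cubD N n = cubD N n * Gb)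
    (hdab : Gab * cubD N n = cubD N n * Gab)
    (hGa : Near (fun c => γ a c.pt) ((n + 3) * δ₁) Ga)
    (hGb : Near (fun c => γ b c.pt) ((n + 3) * δ₁) Gb)
    (hGab : Near (fun c => γ (a + b) c.pt) ((n + 3) * δ₁) Gab)
    (hea : cubε N n ᵥ* Ga = cubε N n) (heb : cubε N n ᵥ* Gb = cubε N n)
    (heab : cubε N n ᵥ* Gab = cubε N n) :
    ∃ H, Near (fun c => γ (a + b) c.pt) (C * δ₂) H ∧
      EqIn (3 / 2) (Ga * Gb - Gab) (cubD N n * H + H * cubD N n) := by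
  have hm := gch_mesh_pos hA
  have h1 := hA.mesh
  have h2 := hA.le₁₂
  have h3 := hA.le₂
  have h4 := hA.small
  have hn : (0 : ℝ) ≤ n := Nat.cast_nonneg n
  have hδ₁ : 0 ≤ δ₁ := by linarith
  have hδ₂ : 0 ≤ δ₂ := by linarith
  have hε : 0 ≤ ε := by linarith
  have hCε : ε ≤ C * ε := le_mul_of_one_le_left hε (by nlinarith)
  have hLδ : ((n : ℝ) + 3) * δ₁ ≤ (n + 3) * δ₂ := by gcongr
  have hLC : ((n : ℝ) + 3) * δ₁ ≤ C * δ₁ := by gcongr; nlinarith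
  have hr1 : δ₁ ≤ ((n : ℝ) + 5) * δ₂ := by nlinarith
  obtain ⟨A, hA1, hA2, hA3⟩ := exists_faceClosed (k := n) hA.N_pos (3 / 2) (by norm_num)
  have hA4 : ∀ c ∈ A, ‖c.pt‖ ≤ 7 / 4 := fun c hc => by
    have := hA3 c hc
    have e : (4 : ℝ) / N = 2 * (2 / N) := by ring
    linarith
  obtain ⟨H, k1, -, k3⟩ := carrier (k := n) hA.N_pos A hA1
    (fun c => γ (a + b) c.pt) ((n + 5) * δ₂) (h1.trans hr1)
    (fun c _ => hA.maps _ _ (Cell.norm_pt_le hA.N_pos _))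
    (fun c _ c' h => (gch_face hA _ c c' h).trans hr1) 1 (Ga * Gb - Gab) 0
    (fun c hc x h => by
      rcases gch_sub_ne h with h | h
      · obtain ⟨y, hy1, hy2⟩ := gch_mul_ne h
        have e1 := hGa x y hy1
        have e2 := hGb y c hy2
        have e3 := hA.cont₂ a y.pt (γ b c.pt) (Cell.norm_pt_le hA.N_pos _)
          (hA.maps _ _ (Cell.norm_pt_le hA.N_pos _)) (e2.trans hLC)
        have e4 := hA.add a b c.pt (hA4 c hc)
        have e5 := norm_sub_le_norm_sub_add_norm_sub x.pt (γ a y.pt) (γ (a + b) c.pt)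
        have e6 := norm_sub_le_norm_sub_add_norm_sub (γ a y.pt) (γ a (γ b c.pt)) (γ (a + b) c.pt)
        linarith
      · have e1 := hGab x c h
        linarith)
    (fun c _ x => by
      rw [one_smul, Matrix.mul_sub, Matrix.sub_mul, hdab, Matrix.mul_assoc, hdb,
        ← Matrix.mul_assoc, ← Matrix.mul_assoc, hda])
    (fun c _ => by rw [Matrix.vecMul_sub, ← Matrix.vecMul_vecMul, hea, heb, heab]; simp)
  refine ⟨H, fun x c h => (k1 x c h).2.trans ?_, fun x c hc => ?_⟩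
  · rw [← mul_assoc]; gcongr; nlinarith
  · have := k3 c (hA2 c hc) x
    rw [one_smul] at this
    exact this.symm

/-- Step 4: the adjoint -/
theorem gch_step4 (hC : ((n : ℝ) + 7) ^ 2 ≤ C) (hA : ApproxAction C N q γ ε δ₁ δ₂)
    (a : ZMod q) {G G' H : Matrix (Cell N n) (Cell N n) ℂ}
    (hd : G * cubD N n = cubD N n * G) (hd' : G' * cubD N n = cubD N n * G')
    (hG : Near (fun c => γ a c.pt) ((n + 3) * δ₁) G)
    (hG' : Near (fun c => γ (-a) c.pt) ((n + 3) * δ₁) G')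
    (he' : cubε N n ᵥ* G' = cubε N n)
    (hH : Near Cell.pt ((n + 3) * ((n + 4) * ε)) H)
    (hGH : G - 1 = cubD N n * H + H * cubD N n) :
    ∃ K, Near (fun c => γ (-a) c.pt) (C * δ₂) K ∧
      EqIn (3 / 2) ((cubΦ0 N n)ᴴ * Gᴴ * cubΦ0 N n - G') (cubD N n * K + K * cubD N n) := by
  have hm := gch_mesh_pos hA
  have h1 := hA.mesh
  have h2 := hA.le₁₂
  have h3 := hA.le₂
  have h4 := hA.small
  have hn : (0 : ℝ) ≤ n := Nat.cast_nonneg n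
  have hδ₁ : 0 ≤ δ₁ := by linarith
  have hδ₂ : 0 ≤ δ₂ := by linarith
  have hε : 0 ≤ ε := by linarith
  have hC2 : 2 * ε ≤ C * ε := by gcongr; nlinarith
  have hC3 : ((n : ℝ) + 7) * ε ≤ C * ε := by gcongr; nlinarith
  have hC4 : (((n : ℝ) + 3) * (n + 4) + 3) * ε ≤ C * ε := by gcongr; nlinarith
  have hLδ : ((n : ℝ) + 3) * δ₁ ≤ (n + 3) * δ₂ := by gcongr
  have hLε : ((n : ℝ) + 3) * δ₁ ≤ (n + 3) * ε := by gcongr; linarith
  have hLC : ((n : ℝ) + 4) * δ₁ ≤ C * δ₁ := by gcongr; nlinarith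
  have hr1 : δ₁ ≤ ((n : ℝ) + 7) * δ₂ := by nlinarith
  have hnδ : 0 ≤ (n : ℝ) * δ₂ := by positivity
  obtain ⟨A, hA1, hA2, hA3⟩ := exists_faceClosed (k := n) hA.N_pos (3 / 2) (by norm_num)
  have hA4 : ∀ c ∈ A, ‖c.pt‖ ≤ 3 / 2 + 2 * (2 / N) := fun c hc => by
    have := hA3 c hc
    have e : (4 : ℝ) / N = 2 * (2 / N) := by ring
    linarith
  -- the support of `Gᴴ Φ0`
  have hsupp : ∀ c ∈ A, ∀ y, (Gᴴ * cubΦ0 N n) y c ≠ 0 →
      ‖c.pt - γ a y.pt‖ ≤ (n + 4) * δ₁ ∧ ‖y.pt‖ ≤ 7 / 4 := by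
    intro c hc y h
    obtain ⟨z, hz1, hz2⟩ := gch_mul_ne h
    have e1 := hG z y (gch_ct_ne hz1)
    have e2 := near_cubΦ0 hA.N_pos z c hz2
    have e3 := norm_sub_le_norm_sub_add_norm_sub c.pt z.pt (γ a y.pt)
    rw [norm_sub_rev c.pt z.pt] at e3
    have e4 : ‖c.pt - γ a y.pt‖ ≤ (n + 4) * δ₁ := by linarith
    refine ⟨e4, ?_⟩
    have e5 := hA.near a y.pt (Cell.norm_pt_le hA.N_pos _)
    have e6 := norm_sub_le_norm_sub_add_norm_sub c.pt (γ a y.pt) y.pt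
    have e7 : ‖y.pt‖ ≤ ‖c.pt‖ + ‖c.pt - y.pt‖ := norm_le_insert _ _
    have e8 := hA4 c hc
    linarith
  obtain ⟨K, k1, -, k3⟩ := carrier (k := n) hA.N_pos A hA1
    (fun c => γ (-a) c.pt) ((n + 7) * δ₂) (h1.trans hr1)
    (fun c _ => hA.maps _ _ (Cell.norm_pt_le hA.N_pos _))
    (fun c _ c' h => (gch_face hA _ c c' h).trans hr1) 1
    ((cubΦ0 N n)ᴴ * Gᴴ * cubΦ0 N n - G')
    ((cubε N n ᵥ* (cubΦ0 N n)ᴴ) ᵥ* (Hᴴ * cubΦ0 N n))
    (fun c hc x h => by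
      rcases gch_sub_ne h with h | h
      · rw [Matrix.mul_assoc] at h
        obtain ⟨y, hy1, hy2⟩ := gch_mul_ne h
        obtain ⟨e1, e2⟩ := hsupp c hc y hy2
        have e3 := near_cubΦ0 hA.N_pos y x (gch_ct_ne hy1)
        have e4 := hA.cont₂ (-a) c.pt (γ a y.pt) (Cell.norm_pt_le hA.N_pos _)
          (hA.maps _ _ (Cell.norm_pt_le hA.N_pos _)) (e1.trans hLC)
        have e5 := hA.add (-a) a y.pt e2
        rw [neg_add_cancel] at e5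
        have e6 := hA.zero y.pt e2
        have e7 := norm_sub_le_norm_sub_add_norm_sub (γ (-a) c.pt) (γ (-a) (γ a y.pt)) x.pt
        have e8 := norm_sub_le_norm_sub_add_norm_sub (γ (-a) (γ a y.pt)) (γ 0 y.pt) x.pt
        have e9 := norm_sub_le_norm_sub_add_norm_sub (γ 0 y.pt) y.pt x.pt
        rw [norm_sub_rev]
        linarith
      · have e1 := hG' x c h
        linarith)
    (fun c hc x => by
      have e1 : (cubΦ0 N n)ᴴ * Gᴴ * cubΦ0 N n * cubD N n =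
          ((cubΦ0 N n)ᴴ * (cubD N n)ᴴ) * (Gᴴ * cubΦ0 N n) := by
        calc (cubΦ0 N n)ᴴ * Gᴴ * cubΦ0 N n * cubD N n
            = (cubΦ0 N n)ᴴ * Gᴴ * (cubΦ0 N n * cubD N n) := by rw [Matrix.mul_assoc]
          _ = (cubΦ0 N n)ᴴ * (cubD N n * G)ᴴ * cubΦ0 N n := by
            rw [cubΦ0_mul_cubD, conjTranspose_mul]; simp only [Matrix.mul_assoc]
          _ = _ := by rw [← hd, conjTranspose_mul]; simp only [Matrix.mul_assoc]
      have e2 : cubD N n * ((cubΦ0 N n)ᴴ * Gᴴ * cubΦ0 N n) =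
          (cubD N n * (cubΦ0 N n)ᴴ) * (Gᴴ * cubΦ0 N n) := by simp only [Matrix.mul_assoc]
      rw [one_smul, Matrix.mul_sub, Matrix.sub_mul, hd', e1, e2, Matrix.sub_apply,
        Matrix.sub_apply]
      congr 1
      refine (gch_col_right _ (fun y hy b => gch_ct_comm hA.N_pos y ?_ b) x).symm
      have := (hsupp c hc y hy).2
      linarith)
    (fun c hc => by
      have e1 : Gᴴ = 1 + Hᴴ * (cubD N n)ᴴ + (cubD N n)ᴴ * Hᴴ := by
        have : G = 1 + cubD N n * H + H * cubD N n := by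
          rw [add_assoc, ← hGH]; abel
        rw [this]
        simp only [conjTranspose_add, conjTranspose_mul, conjTranspose_one]
      have e2 : (cubΦ0 N n)ᴴ * Gᴴ * cubΦ0 N n = (cubΦ0 N n)ᴴ * cubΦ0 N n +
          (cubΦ0 N n)ᴴ * ((Hᴴ * cubΦ0 N n) * cubD N n) +
          ((cubΦ0 N n)ᴴ * (cubD N n)ᴴ) * (Hᴴ * cubΦ0 N n) := by
        rw [e1, Matrix.mul_assoc Hᴴ, cubΦ0_mul_cubD]
        simp only [Matrix.mul_add, Matrix.add_mul, Matrix.mul_assoc, Matrix.mul_one]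
      have e8 := hA4 c hc
      have e3 : (cubε N n ᵥ* ((cubΦ0 N n)ᴴ * cubΦ0 N n)) c = cubε N n c := by
        rw [gch_vec_left (cubε N n) (T := 1)
          (fun b => cubΦ0_ct_mul hA.N_pos b c (by linarith)), Matrix.vecMul_one]
      have e4 : (cubε N n ᵥ* (((cubΦ0 N n)ᴴ * (cubD N n)ᴴ) * (Hᴴ * cubΦ0 N n))) c = 0 := by
        rw [← Matrix.vecMul_vecMul]
        refine gch_vec_right _ fun y hy => ?_
        obtain ⟨z, hz1, hz2⟩ := gch_mul_ne hy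
        have f1 := hH z y (gch_ct_ne hz1)
        have f2 := near_cubΦ0 hA.N_pos z c hz2
        have f3 : ‖y.pt‖ ≤ ‖z.pt‖ + ‖z.pt - y.pt‖ := norm_le_insert _ _
        have f4 : ‖z.pt‖ ≤ ‖c.pt‖ + ‖z.pt - c.pt‖ := norm_le_insert' _ _
        have f5 : ‖y.pt‖ < 2 := by linarith
        have f6 : cubε N n ᵥ* ((cubΦ0 N n)ᴴ * (cubD N n)ᴴ) =
            star ((-I) ^ n • (cubD N n *ᵥ cubμ N n)) := by
          rw [← conjTranspose_mul, ← Matrix.mulVec_smul, ← cubΦ0_mulVec_cubε,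
            Matrix.mulVec_mulVec, Matrix.star_mulVec, star_cubε]
        rw [f6, Pi.star_apply, Pi.smul_apply, cubD_mulVec_cubμ hA.N_pos y f5, smul_zero, star_zero]
      rw [Matrix.vecMul_sub, he', e2, Matrix.vecMul_add, Matrix.vecMul_add, Pi.sub_apply,
        Pi.add_apply, Pi.add_apply, e3, e4, one_mul, Matrix.vecMul_vecMul, Matrix.vecMul_vecMul]
      ring)
  refine ⟨K, fun x c h => (k1 x c h).2.trans ?_, fun x c hc => ?_⟩
  · rw [← mul_assoc]; gcongr; nlinarith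
  · have := k3 c (hA2 c hc) x
    rw [one_smul] at this
    exact this.symm

end Steps

theorem chain_data (n : ℕ) : ∃ C : ℝ, 1 ≤ C ∧ ∀ (N q : ℕ) [NeZero q]
    (γ : ZMod q → (Fin n → ℝ) → Fin n → ℝ) (ε δ₁ δ₂ : ℝ), ApproxAction C N q γ ε δ₁ δ₂ →
    ∃ G : ZMod q → Matrix (Cell N n) (Cell N n) ℂ,
      (∀ a, G a * cubD N n = cubD N n * G a) ∧
      (∀ a, Near (fun c => γ a c.pt) (C * δ₂) (G a)) ∧
      (∀ a b, ∃ H, Near (fun c => γ (a + b) c.pt) (C * δ₂) H ∧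
        EqIn (3 / 2) (G a * G b - G (a + b)) (cubD N n * H + H * cubD N n)) ∧
      (∀ a, ∃ H, Near (fun c => γ (-a) c.pt) (C * δ₂) H ∧
        EqIn (3 / 2) ((cubΦ0 N n)ᴴ * (G a)ᴴ * cubΦ0 N n - G (-a)) (cubD N n * H + H * cubD N n)) ∧
      (∀ a, ∃ H, Near Cell.pt (C * ε) H ∧ G a - 1 = cubD N n * H + H * cubD N n) := by
  refine ⟨((n : ℝ) + 7) ^ 2, ?_, fun N q _ γ ε δ₁ δ₂ hA => ?_⟩
  · have hn : (0 : ℝ) ≤ n := Nat.cast_nonneg n
    nlinarith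
  have hm := gch_mesh_pos hA
  have h1 := hA.mesh
  have h2 := hA.le₁₂
  have h3 := hA.le₂
  have hn : (0 : ℝ) ≤ n := Nat.cast_nonneg n
  have hδ₁ : 0 ≤ δ₁ := by linarith
  have hε : 0 ≤ ε := by linarith
  choose G hG1 hG2 hG3 using gch_step1 hA
  choose H hH1 hH2 using fun a => gch_step2 hA a (hG1 a) (hG2 a) (hG3 a)
  refine ⟨G, hG1, fun a => gch_near_mono (hG2 a) ?_, fun a b => ?_, fun a => ?_,
    fun a => ⟨H a, gch_near_mono (hH1 a) ?_, hH2 a⟩⟩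
  · gcongr
    nlinarith
  · exact gch_step3 le_rfl hA a b (hG1 a) (hG1 b) (hG1 _) (hG2 a) (hG2 b) (hG2 _) (hG3 a) (hG3 b)
      (hG3 _)
  · exact gch_step4 le_rfl hA a (hG1 a) (hG1 _) (hG2 a) (hG2 _) (hG3 _) (hH1 a) (hH2 a)
  · rw [← mul_assoc]
    gcongr
    nlinarith

/-- `T` sends each cell to cells within `r` of its `γ`-orbit -/
def NearOrb {n N q : ℕ} (γ : ZMod q → (Fin n → ℝ) → Fin n → ℝ) (r : ℝ)
    (T : Matrix (Cell N n) (Cell N n) ℂ) : Prop :=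
  ∀ b c, T b c ≠ 0 → ∃ a, ‖b.pt - γ a c.pt‖ ≤ r

/-- the `χ`-isotypic average -/
noncomputable def avg {α : Type} {q : ℕ} [NeZero q] (χ : ZMod q → ℂ) (G : ZMod q → Matrix α α ℂ) :
    Matrix α α ℂ := (q : ℂ)⁻¹ • ∑ a, χ a • G a

/-- linear combinations of homotopies -/
theorem gch_comb {α ι : Type} [Fintype α] [Fintype ι] (d : Matrix α α ℂ) (c : ℂ) (w : ι → ℂ)
    (H : ι → Matrix α α ℂ) :
    d * (c • ∑ i, w i • H i) + (c • ∑ i, w i • H i) * d = c • ∑ i, w i • (d * H i + H i * d) := by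
  simp only [Matrix.mul_smul, Matrix.smul_mul, Matrix.mul_sum, Matrix.sum_mul, smul_add,
    Finset.sum_add_distrib]

theorem gch_comb_ne {α ι : Type} [Fintype ι] {c : ℂ} {w : ι → ℂ} {H : ι → Matrix α α ℂ} {b a : α}
    (h : (c • ∑ i, w i • H i) b a ≠ 0) : ∃ i, H i b a ≠ 0 := by
  by_contra hh
  push Not at hh
  apply h
  simp [Matrix.sum_apply, hh]

theorem gch_comb_congr {α ι : Type} [Fintype ι] (c : ℂ) (w : ι → ℂ) {S T : ι → Matrix α α ℂ}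
    {b a : α} (h : ∀ i, S i b a = T i b a) :
    (c • ∑ i, w i • S i) b a = (c • ∑ i, w i • T i) b a := by
  simp only [Matrix.smul_apply, Matrix.sum_apply, h]

theorem gch_avg_mul {α : Type} [Fintype α] {q : ℕ} [NeZero q] (χ : ZMod q → ℂ)
    (hχ : ∀ a b, χ (a + b) = χ a * χ b) (G : ZMod q → Matrix α α ℂ) :
    avg χ G * avg χ G - avg χ G = ((q : ℂ)⁻¹ * (q : ℂ)⁻¹) •
      ∑ p : ZMod q × ZMod q, χ (p.1 + p.2) • (G p.1 * G p.2 - G (p.1 + p.2)) := by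
  have hq : (q : ℂ) ≠ 0 := Nat.cast_ne_zero.2 (NeZero.ne q)
  have e1 : ∑ p : ZMod q × ZMod q, χ (p.1 + p.2) • G (p.1 + p.2) = (q : ℂ) • ∑ a, χ a • G a := by
    rw [Fintype.sum_prod_type]
    have : ∀ a : ZMod q, ∑ b, χ (a + b) • G (a + b) = ∑ b, χ b • G b := fun a =>
      Equiv.sum_comp (Equiv.addLeft a) (fun b => χ b • G b)
    simp only [this, Finset.sum_const, Finset.card_univ, ZMod.card, Nat.cast_smul_eq_nsmul]
  have e2 : ∑ p : ZMod q × ZMod q, χ (p.1 + p.2) • (G p.1 * G p.2) =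
      (∑ a, χ a • G a) * ∑ a, χ a • G a := by
    rw [Fintype.sum_prod_type, Finset.sum_mul_sum]
    simp only [hχ, Matrix.mul_smul, Matrix.smul_mul, smul_smul, mul_comm]
  simp only [smul_sub, Finset.sum_sub_distrib]
  rw [e1, e2, avg, Matrix.smul_mul, Matrix.mul_smul, smul_smul, smul_smul, mul_assoc,
    inv_mul_cancel₀ hq, mul_one]

theorem gch_avg_ct {α : Type} [Fintype α] {q : ℕ} [NeZero q] (χ : ZMod q → ℂ)
    (hχ : ∀ a, star (χ a) = χ (-a)) (G : ZMod q → Matrix α α ℂ) (Φ : Matrix α α ℂ) :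
    Φᴴ * (avg χ G)ᴴ * Φ - avg χ G =
      (q : ℂ)⁻¹ • ∑ a, χ (-a) • (Φᴴ * (G a)ᴴ * Φ - G (-a)) := by
  have e1 : ∑ a, χ (-a) • G (-a) = ∑ a, χ a • G a :=
    Equiv.sum_comp (Equiv.neg (ZMod q)) (fun b => χ b • G b)
  simp only [smul_sub, Finset.sum_sub_distrib]
  rw [e1, avg, conjTranspose_smul, conjTranspose_sum]
  simp only [conjTranspose_smul, hχ, Matrix.mul_smul, Matrix.smul_mul, Matrix.mul_sum,
    Matrix.sum_mul, star_inv₀, star_natCast]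

theorem chain_idem (n : ℕ) : ∃ C : ℝ, 1 ≤ C ∧ ∀ (N q : ℕ) [NeZero q]
    (γ : ZMod q → (Fin n → ℝ) → Fin n → ℝ) (ε δ₁ δ₂ : ℝ), ApproxAction C N q γ ε δ₁ δ₂ →
    ∃ G : ZMod q → Matrix (Cell N n) (Cell N n) ℂ,
      (∀ a, Near (fun c => γ a c.pt) (C * δ₂) (G a)) ∧
      ∀ χ : ZMod q → ℂ, (∀ a b, χ (a + b) = χ a * χ b) → (∀ a, star (χ a) = χ (-a)) →
        avg χ G * cubD N n = cubD N n * avg χ G ∧
        (∃ K, NearOrb γ (C * δ₂) K ∧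
          EqIn (3 / 2) (avg χ G * avg χ G - avg χ G) (cubD N n * K + K * cubD N n)) ∧
        (∃ K, NearOrb γ (C * δ₂) K ∧
          EqIn (3 / 2) ((cubΦ0 N n)ᴴ * (avg χ G)ᴴ * cubΦ0 N n - avg χ G)
            (cubD N n * K + K * cubD N n)) ∧
        (∃ K, Near Cell.pt (C * ε) K ∧
          avg χ G - ((q : ℂ)⁻¹ * ∑ a, χ a) • (1 : Matrix (Cell N n) (Cell N n) ℂ) =
            cubD N n * K + K * cubD N n) := by
  obtain ⟨C, hC, hdata⟩ := chain_data n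
  refine ⟨C, hC, fun N q _ γ ε δ₁ δ₂ hA => ?_⟩
  obtain ⟨G, h1, h2, h3, h4, h5⟩ := hdata N q γ ε δ₁ δ₂ hA
  choose H3 h3a h3b using h3
  choose H4 h4a h4b using h4
  choose H5 h5a h5b using h5
  refine ⟨G, h2, fun χ hχ1 hχ2 => ⟨?_, ?_, ?_, ?_⟩⟩
  · simp only [avg, Matrix.mul_smul, Matrix.smul_mul, Matrix.mul_sum, Matrix.sum_mul, h1]
  · refine ⟨((q : ℂ)⁻¹ * (q : ℂ)⁻¹) • ∑ p : ZMod q × ZMod q, χ (p.1 + p.2) • H3 p.1 p.2,
      fun b c h => ?_, fun b c hc => ?_⟩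
    · obtain ⟨p, hp⟩ := gch_comb_ne h
      exact ⟨_, h3a p.1 p.2 b c hp⟩
    · rw [gch_avg_mul χ hχ1, gch_comb]
      exact gch_comb_congr _ _ fun p => h3b p.1 p.2 b c hc
  · refine ⟨(q : ℂ)⁻¹ • ∑ a, χ (-a) • H4 a, fun b c h => ?_, fun b c hc => ?_⟩
    · obtain ⟨a, ha⟩ := gch_comb_ne h
      exact ⟨_, h4a a b c ha⟩
    · rw [gch_avg_ct χ hχ2, gch_comb]
      exact gch_comb_congr _ _ fun a => h4b a b c hc
  · refine ⟨(q : ℂ)⁻¹ • ∑ a, χ a • H5 a, fun b c h => ?_, ?_⟩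
    · obtain ⟨a, ha⟩ := gch_comb_ne h
      exact h5a a b c ha
    · rw [gch_comb]
      simp only [← h5b, smul_sub, Finset.sum_sub_distrib, avg, mul_smul, Finset.sum_smul]

end Crest.Agent.R217
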