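import Crest.Agent.R217.Defs

/-! # Row 217, part B, dynamics: orbit average, orbit pseudo-metric and the cocycle.
Work on `W`, and precompose everything with the clamp `π : ℝⁿ → [-2,2]ⁿ ⊆ W`
(`π x m = max (-2) (min 2 (x m))`).
* `f₀ x = lim_k p^{-k} ∑_{a < p^k} g^[a] x` (Cauchy: write `a = a₀ + p^k b`); `f₀ ∘ g = f₀`,
  `‖f₀ x - x‖ ≤ ε`, uniformly continuous on `W`, `f₀ x = x` if `g x = x`.
* `ρ₀ x y = max (hausdorffDist (orbit x) (orbit y)) ‖f₀ x - f₀ y‖`, `orbit x = {g^[a] x}`; `orbit (g^[a] x)`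
  is dense in `orbit x` (recurrence), equicontinuity makes `ρ₀` small for close points, and
  `ρ₀ x y < δ` gives `a` with `‖g^[a] y - x‖ < δ`.
* `g 0 ≠ 0` and continuity: no fixed point in `closedBall 0 (2r)`, hence none in the compact set
  `K = {x ∈ W | ‖f₀ x‖ ≤ r}`; so `‖g x - x‖ ≥ δ₀` on `K`, and there is `δ₁ > 0` with `‖g^[a] x - x‖ > δ₁`
  whenever `x ∈ K`, `p ∤ a` (choose `k` with `g^[p^k b] ≈ id`, `b < p^k` with `a b ≡ 1 mod p^k`, telescope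
  `g^[a b] x - x` using equicontinuity).
* `ω x y = ζ ^ a` for a chosen `a` with `‖g^[a] y - x‖ ≤ δ₁ / 2`-ish if there is one, else `1`; for
  `y ∈ K` the class of `a` mod `p` is unique.  Cocycle identity by equicontinuity.
* total boundedness of `{‖f x‖ < r}`: it is a subset of a compact box (use `TotallyBounded.subset` and
  `Metric.finite_approx_of_totallyBounded`, centres inside the set, applied to the image under `π`). -/

set_option autoImplicit false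
open Metric Set

namespace Crest.Agent.R217

/-- the hypotheses of `ThmS` -/
structure SmallAction {n : ℕ} (ε : ℝ) (p : ℕ) (W : Set (Fin n → ℝ))
    (g : (Fin n → ℝ) → Fin n → ℝ) : Prop where
  prime : p.Prime
  compact : IsCompact W
  box : closedBall (0 : Fin n → ℝ) 2 ⊆ W
  maps : MapsTo g W W
  near : ∀ a : ℕ, ∀ x ∈ W, ‖g^[a] x - x‖ ≤ ε
  equi : ∀ η : ℝ, 0 < η → ∃ δ : ℝ, 0 < δ ∧ ∀ a : ℕ, ∀ x ∈ W, ∀ y ∈ W,
    ‖x - y‖ ≤ δ → ‖g^[a] x - g^[a] y‖ ≤ η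
  lim : ∀ η : ℝ, 0 < η → ∃ k : ℕ, ∀ a : ℕ, ∀ x ∈ W, ‖g^[p ^ k * a] x - x‖ ≤ η

/-- the output of the dynamical construction -/
structure OrbitData {n : ℕ} (ε : ℝ) (p : ℕ) (ζ : ℂ) (g : (Fin n → ℝ) → Fin n → ℝ)
    (f : (Fin n → ℝ) → Fin n → ℝ) (ρ : (Fin n → ℝ) → (Fin n → ℝ) → ℝ)
    (ω : (Fin n → ℝ) → (Fin n → ℝ) → ℂ) (r : ℝ) : Prop where
  r_pos : 0 < r
  r_le : r ≤ 1
  ρ_self : ∀ x, ρ x x = 0
  ρ_comm : ∀ x y, ρ x y = ρ y x
  ρ_tri : ∀ x y z, ρ x z ≤ ρ x y + ρ y z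
  f_lip : ∀ x y, ‖f x - f y‖ ≤ ρ x y
  f_near : ∀ x, ‖x‖ ≤ 2 → ‖f x - x‖ ≤ ε
  close : ∀ η : ℝ, 0 < η → ∃ δ : ℝ, 0 < δ ∧ ∀ (a : ℕ) (x y : Fin n → ℝ), ‖x‖ ≤ 2 → ‖y‖ ≤ 2 →
    ‖y - g^[a] x‖ ≤ δ → ρ y x ≤ η
  ω_eq : ∃ δ : ℝ, 0 < δ ∧ ∀ (a : ℕ) (x y : Fin n → ℝ), ‖x‖ ≤ 2 → ‖y‖ ≤ 2 →
    ‖y - g^[a] x‖ ≤ δ → ‖f x‖ < r → ω y x = ζ ^ a
  ω_pow : ∀ x y, ω x y ^ p = 1
  ω_self : ∀ x, ‖f x‖ < r → ω x x = 1
  ω_mul : ∃ δ : ℝ, 0 < δ ∧ ∀ x y z, ρ x y ≤ δ → ρ y z ≤ δ →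
    ‖f x‖ < r → ‖f y‖ < r → ‖f z‖ < r → ω x y * ω y z = ω x z
  cover : ∀ η : ℝ, 0 < η → ∃ zs : List (Fin n → ℝ), (∀ z ∈ zs, ‖f z‖ < r) ∧
    ∀ x, ‖f x‖ < r → ∃ z ∈ zs, ρ x z ≤ η

section aux

open Filter Topology

variable {n : ℕ} {ε : ℝ} {p : ℕ} {W : Set (Fin n → ℝ)} {g : (Fin n → ℝ) → Fin n → ℝ}

/-- average of the first `k + 1` terms -/
noncomputable def gdynAvg (u : ℕ → Fin n → ℝ) (k : ℕ) : Fin n → ℝ :=
  ((k : ℝ) + 1)⁻¹ • ∑ a ∈ Finset.range (k + 1), u a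

lemma gdynAvg_const (x : Fin n → ℝ) (k : ℕ) : gdynAvg (fun _ => x) k = x := by
  unfold gdynAvg
  rw [Finset.sum_const, Finset.card_range, ← Nat.cast_smul_eq_nsmul ℝ, smul_smul]
  push_cast
  rw [inv_mul_cancel₀ (by positivity), one_smul]

lemma gdynAvg_sub_le {u v : ℕ → Fin n → ℝ} {η : ℝ} (h : ∀ a, ‖u a - v a‖ ≤ η) (k : ℕ) :
    ‖gdynAvg u k - gdynAvg v k‖ ≤ η := by
  unfold gdynAvg
  rw [← smul_sub, ← Finset.sum_sub_distrib, norm_smul, Real.norm_of_nonneg (by positivity),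
    inv_mul_le_iff₀ (by positivity)]
  refine (norm_sum_le _ _).trans ((Finset.sum_le_sum fun a _ => h a).trans ?_)
  simp

lemma gdyn_mem (h : SmallAction ε p W g) (a : ℕ) {x : Fin n → ℝ} (hx : x ∈ W) : g^[a] x ∈ W :=
  h.maps.iterate a hx

/-- the orbit average (limit along an ultrafilter) -/
lemma gdyn_exists_avg (h : SmallAction ε p W g) : ∃ f₀ : (Fin n → ℝ) → Fin n → ℝ,
    (∀ x ∈ W, ‖f₀ x - x‖ ≤ ε) ∧ (∀ a : ℕ, ∀ x ∈ W, f₀ (g^[a] x) = f₀ x) ∧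
    (∀ x ∈ W, g x = x → f₀ x = x) ∧
    ∀ η : ℝ, 0 < η → ∃ δ : ℝ, 0 < δ ∧ ∀ x ∈ W, ∀ y ∈ W, ‖x - y‖ ≤ δ → ‖f₀ x - f₀ y‖ ≤ η := by
  have hb : ∀ x ∈ W, ∀ k, ‖gdynAvg (fun a => g^[a] x) k - x‖ ≤ ε := fun x hx k => by
    have := gdynAvg_sub_le (u := fun a => g^[a] x) (v := fun _ => x) (fun a => h.near a x hx) k
    rwa [gdynAvg_const] at this
  have hex : ∀ x ∈ W, ∃ y, Tendsto (gdynAvg fun a => g^[a] x) (hyperfilter ℕ) (𝓝 y) := by
    intro x hx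
    obtain ⟨y, -, hy⟩ := (isCompact_closedBall x ε).ultrafilter_le_nhds
      ((hyperfilter ℕ).map (gdynAvg fun a => g^[a] x)) (by
        rw [Ultrafilter.coe_map, le_principal_iff, mem_map]
        exact Eventually.of_forall fun k => mem_closedBall_iff_norm.2 (hb x hx k))
    exact ⟨y, hy⟩
  choose! f₀ hf using hex
  have hstep : ∀ x ∈ W, f₀ (g x) = f₀ x := by
    intro x hx
    have h1 : Tendsto (fun k => gdynAvg (fun a => g^[a] (g x)) k - gdynAvg (fun a => g^[a] x) k)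
        atTop (𝓝 0) := by
      refine squeeze_zero_norm (a := fun k : ℕ => 1 / ((k : ℝ) + 1) * ε) (fun k => ?_) ?_
      · unfold gdynAvg
        rw [← smul_sub, ← Finset.sum_sub_distrib, norm_smul, Real.norm_of_nonneg (by positivity),
          one_div]
        have := Finset.sum_range_sub (fun a => g^[a] x) (k + 1)
        simp only [Function.iterate_succ_apply g _ x] at this
        rw [this]
        gcongr
        exact h.near (k + 1) x hx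
      · simpa using (tendsto_one_div_add_atTop_nhds_zero_nat (𝕜 := ℝ)).mul_const ε
    exact sub_eq_zero.1 (tendsto_nhds_unique ((hf _ (h.maps hx)).sub (hf x hx))
      (h1.mono_left Nat.hyperfilter_le_atTop))
  refine ⟨f₀, fun x hx => ?_, fun a => ?_, fun x hx hfix => ?_, fun η hη => ?_⟩
  · exact le_of_tendsto' ((hf x hx).sub_const x).norm (hb x hx)
  · induction a with
    | zero => exact fun x _ => rfl
    | succ a ih =>
      intro x hx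
      rw [Function.iterate_succ_apply, ih _ (h.maps hx), hstep x hx]
  · have h1 : (gdynAvg fun a => g^[a] x) = fun _ => x := by
      funext k
      simp only [Function.iterate_fixed hfix, gdynAvg_const]
    have h2 := hf x hx
    rw [h1] at h2
    exact tendsto_nhds_unique h2 tendsto_const_nhds
  · obtain ⟨δ, hδ, hd⟩ := h.equi η hη
    exact ⟨δ, hδ, fun x hx y hy hxy => le_of_tendsto' ((hf x hx).sub (hf y hy)).norm
      (gdynAvg_sub_le fun a => hd a x hx y hy hxy)⟩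

/-- the orbit -/
def gdynOrb (g : (Fin n → ℝ) → Fin n → ℝ) (x : Fin n → ℝ) : Set (Fin n → ℝ) :=
  range fun a : ℕ => g^[a] x

lemma gdyn_fin (h : SmallAction ε p W g) {x y : Fin n → ℝ} (hx : x ∈ W) (hy : y ∈ W) :
    hausdorffEDist (gdynOrb g x) (gdynOrb g y) ≠ ⊤ := by
  have hb : ∀ x ∈ W, Bornology.IsBounded (gdynOrb g x) := fun x hx =>
    h.compact.isBounded.subset (range_subset_iff.2 fun a => gdyn_mem h a hx)
  exact hausdorffEDist_ne_top_of_nonempty_of_bounded (range_nonempty _) (range_nonempty _)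
    (hb x hx) (hb y hy)

lemma gdyn_exists (h : SmallAction ε p W g) {x y : Fin n → ℝ} (hx : x ∈ W) (hy : y ∈ W) {δ : ℝ}
    (hd : hausdorffDist (gdynOrb g x) (gdynOrb g y) < δ) : ∃ a : ℕ, ‖x - g^[a] y‖ < δ := by
  obtain ⟨_, ⟨a, rfl⟩, ha⟩ :=
    exists_dist_lt_of_hausdorffDist_lt (show x ∈ gdynOrb g x from ⟨0, rfl⟩) hd (gdyn_fin h hx hy)
  exact ⟨a, by rwa [dist_eq_norm] at ha⟩

lemma gdyn_close (h : SmallAction ε p W g) {η : ℝ} (hη : 0 < η) : ∃ δ : ℝ, 0 < δ ∧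
    ∀ a : ℕ, ∀ x ∈ W, ∀ y ∈ W, ‖y - g^[a] x‖ ≤ δ →
      hausdorffDist (gdynOrb g y) (gdynOrb g x) ≤ η := by
  obtain ⟨δ, hδ, hd⟩ := h.equi (η / 2) (by positivity)
  obtain ⟨k, hk⟩ := h.lim (η / 2) (by positivity)
  refine ⟨δ, hδ, fun a x hx y hy hxy => hausdorffDist_le_of_mem_dist hη.le ?_ ?_⟩
  · rintro _ ⟨b, rfl⟩
    refine ⟨_, ⟨b + a, rfl⟩, ?_⟩
    have := hd b y hy _ (gdyn_mem h a hx) hxy
    rw [← Function.iterate_add_apply] at this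
    rw [dist_eq_norm]
    exact this.trans (by linarith)
  · rintro _ ⟨c, rfl⟩
    have h1 : a ≤ p ^ k * a := Nat.le_mul_of_pos_left _ (pow_pos h.prime.pos k)
    refine ⟨_, ⟨p ^ k * a - a + c, rfl⟩, ?_⟩
    have h2 := hd (p ^ k * a - a + c) y hy _ (gdyn_mem h a hx) hxy
    have h3 := hk a _ (gdyn_mem h c hx)
    rw [← Function.iterate_add_apply,
      show p ^ k * a - a + c + a = p ^ k * a + c by omega] at h2
    rw [← Function.iterate_add_apply] at h3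
    rw [← dist_eq_norm] at h2 h3
    have h4 := dist_triangle (g^[p ^ k * a - a + c] y) (g^[p ^ k * a + c] x) (g^[c] x)
    rw [dist_comm]
    linarith

/-- small displacements have an exponent divisible by `p` -/
lemma gdyn_sep (h : SmallAction ε p W g) {δ₀ : ℝ} (h0 : 0 < δ₀) : ∃ δ₁ : ℝ, 0 < δ₁ ∧
    ∀ x ∈ W, δ₀ ≤ ‖g x - x‖ → ∀ a : ℕ, ‖g^[a] x - x‖ ≤ δ₁ → p ∣ a := by
  obtain ⟨k, hk⟩ := h.lim (δ₀ / 3) (by positivity)
  have hN : 1 < p ^ (k + 1) := Nat.one_lt_pow (by omega) h.prime.one_lt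
  have hN' : (0 : ℝ) < (p ^ (k + 1) : ℕ) := by exact_mod_cast (by omega : 0 < p ^ (k + 1))
  obtain ⟨δ₁, hδ, hd⟩ := h.equi (δ₀ / 3 / (p ^ (k + 1) : ℕ)) (by positivity)
  refine ⟨δ₁, hδ, fun x hx hg a ha => ?_⟩
  by_contra hpa
  have hc : a.Coprime (p ^ (k + 1)) :=
    Nat.Coprime.pow_right _ ((Nat.Prime.coprime_iff_not_dvd h.prime).2 hpa).symm
  obtain ⟨b, hb, hab⟩ := Nat.exists_mul_mod_eq_one_of_coprime hc hN
  have h1 : ∀ j : ℕ, ‖g^[a * j] x - x‖ ≤ j * (δ₀ / 3 / (p ^ (k + 1) : ℕ)) := by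
    intro j
    induction j with
    | zero => simp
    | succ j ih =>
      have h2 := hd (a * j) _ (gdyn_mem h a hx) x hx ha
      rw [← Function.iterate_add_apply, ← mul_add_one] at h2
      rw [← dist_eq_norm] at h2 ih ⊢
      have := dist_triangle (g^[a * (j + 1)] x) (g^[a * j] x) x
      push_cast at *
      linarith
  have h2 : ‖g^[a * b] x - x‖ ≤ δ₀ / 3 := by
    refine (h1 b).trans ?_
    rw [mul_div_assoc', div_le_iff₀ hN', mul_comm]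
    gcongr
  have h3 : a * b = p ^ k * (p * (a * b / p ^ (k + 1))) + 1 := by
    have := Nat.div_add_mod (a * b) (p ^ (k + 1))
    rw [hab] at this
    rw [← mul_assoc, ← pow_succ, this]
  have h4 := hk (p * (a * b / p ^ (k + 1))) _ (h.maps hx)
  rw [← Function.iterate_succ_apply, Nat.succ_eq_add_one, ← h3] at h4
  rw [← dist_eq_norm] at h2 h4 hg
  have := dist_triangle_left (g x) x (g^[a * b] x)
  linarith

end aux

theorem exists_orbitData {n : ℕ} {ε : ℝ} {p : ℕ} {W : Set (Fin n → ℝ)}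
    {g : (Fin n → ℝ) → Fin n → ℝ} (h : SmallAction ε p W g) (h0 : g 0 ≠ 0) (ζ : ℂ)
    (hζ : ζ ^ p = 1) : ∃ f ρ ω r, OrbitData ε p ζ g f ρ ω r := by
  classical
  obtain ⟨f₀, hf1, hf2, hf3, hf4⟩ := gdyn_exists_avg h
  have hbox : ∀ x : Fin n → ℝ, ‖x‖ ≤ 2 → x ∈ W := fun x hx => h.box (mem_closedBall_zero_iff.2 hx)
  have h0W : (0 : Fin n → ℝ) ∈ W := hbox 0 (by simp)
  -- the radius
  obtain ⟨r, hr0, hr1, hr⟩ : ∃ r : ℝ, 0 < r ∧ r ≤ 1 ∧ ∀ x ∈ W, ‖f₀ x‖ ≤ r → 0 < ‖g x - x‖ := by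
    have hg : 0 < ‖g 0‖ := norm_pos_iff.2 h0
    obtain ⟨δ, hδ, hd⟩ := h.equi (‖g 0‖ / 3) (by positivity)
    refine ⟨min 1 (min δ (‖g 0‖ / 3)), by positivity, min_le_left _ _, fun x hx hfx => ?_⟩
    rw [norm_pos_iff, sub_ne_zero]
    intro hfix
    rw [hf3 x hx hfix, le_min_iff, le_min_iff] at hfx
    have h1 := hd 1 x hx 0 h0W (by simpa using hfx.2.1)
    simp only [Function.iterate_one, hfix] at h1
    have h2 := norm_sub_norm_le (g 0) x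
    rw [norm_sub_rev] at h2
    linarith [hfx.2.2]
  have hcont : ∀ F : (Fin n → ℝ) → Fin n → ℝ, (∀ η : ℝ, 0 < η → ∃ δ : ℝ, 0 < δ ∧ ∀ x ∈ W, ∀ y ∈ W,
      ‖x - y‖ ≤ δ → ‖F x - F y‖ ≤ η) → ContinuousOn F W := fun F hF =>
    (Metric.uniformContinuousOn_iff_le.2 fun η hη => by
      obtain ⟨δ, hδ, hd⟩ := hF η hη
      exact ⟨δ, hδ, fun x hx y hy hxy => by
        rw [dist_eq_norm] at hxy ⊢; exact hd x hx y hy hxy⟩).continuousOn
  have cg : ContinuousOn g W := hcont g fun η hη => by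
    obtain ⟨δ, hδ, hd⟩ := h.equi η hη
    exact ⟨δ, hδ, hd 1⟩
  have hK : IsCompact (W ∩ f₀ ⁻¹' closedBall 0 r) :=
    h.compact.of_isClosed_subset ((hcont f₀ hf4).preimage_isClosed_of_isClosed h.compact.isClosed
      isClosed_closedBall) inter_subset_left
  obtain ⟨δ₀, hδ₀, hd₀⟩ := hK.exists_forall_le' (f := fun x => ‖g x - x‖) (a := 0)
    (((cg.sub continuousOn_id).norm).mono inter_subset_left)
    (fun x hx => hr x hx.1 (mem_closedBall_zero_iff.1 hx.2))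
  obtain ⟨δ₁, hδ₁, hd₁⟩ := gdyn_sep h hδ₀
  -- uniqueness of the exponent
  have huniq : ∀ y ∈ W, ‖f₀ y‖ < r → ∀ a a' : ℕ, ‖g^[a'] y - g^[a] y‖ ≤ δ₁ → ζ ^ a' = ζ ^ a := by
    intro y hy hfy
    have key : ∀ a c : ℕ, ‖g^[c + a] y - g^[a] y‖ ≤ δ₁ → ζ ^ (c + a) = ζ ^ a := by
      intro a c hac
      rw [Function.iterate_add_apply] at hac
      obtain ⟨c', rfl⟩ := hd₁ _ (gdyn_mem h a hy) (hd₀ _ ⟨gdyn_mem h a hy,
        mem_closedBall_zero_iff.2 (by rw [hf2 a y hy]; exact hfy.le)⟩) c hac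
      rw [pow_add, pow_mul, hζ, one_pow, one_mul]
    intro a a' haa
    rcases le_total a a' with hle | hle
    · obtain ⟨c, rfl⟩ := Nat.exists_eq_add_of_le' hle
      exact key a c haa
    · obtain ⟨c, rfl⟩ := Nat.exists_eq_add_of_le' hle
      exact (key a' c (by rwa [norm_sub_rev])).symm
  obtain ⟨ω₀, hω1, hω2⟩ : ∃ ω₀ : (Fin n → ℝ) → (Fin n → ℝ) → ℂ, (∀ x y, ω₀ x y ^ p = 1) ∧
      ∀ x, ∀ y ∈ W, ‖f₀ y‖ < r → ∀ a : ℕ, ‖x - g^[a] y‖ ≤ δ₁ / 2 → ω₀ x y = ζ ^ a := by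
    refine ⟨fun x y => if hex : ∃ a : ℕ, ‖x - g^[a] y‖ ≤ δ₁ / 2 then ζ ^ hex.choose else 1,
      fun x y => ?_, fun x y hy hfy a ha => ?_⟩
    · beta_reduce
      split_ifs
      · rw [← pow_mul, mul_comm, pow_mul, hζ, one_pow]
      · exact one_pow _
    · have hex : ∃ a : ℕ, ‖x - g^[a] y‖ ≤ δ₁ / 2 := ⟨a, ha⟩
      beta_reduce
      rw [dif_pos hex]
      refine huniq y hy hfy _ _ ?_
      have h1 := hex.choose_spec
      rw [← dist_eq_norm] at h1 ha ⊢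
      have := dist_triangle_left (g^[hex.choose] y) (g^[a] y) x
      linarith
  set ρ₀ : (Fin n → ℝ) → (Fin n → ℝ) → ℝ := fun x y =>
    max (hausdorffDist (gdynOrb g x) (gdynOrb g y)) ‖f₀ x - f₀ y‖ with hρ₀
  have hclose : ∀ η : ℝ, 0 < η → ∃ δ : ℝ, 0 < δ ∧ ∀ a : ℕ, ∀ x ∈ W, ∀ y ∈ W,
      ‖y - g^[a] x‖ ≤ δ → ρ₀ y x ≤ η := by
    intro η hη
    obtain ⟨δ, hδ, hd⟩ := gdyn_close h hη
    obtain ⟨δ', hδ', hd'⟩ := hf4 η hη
    refine ⟨min δ δ', lt_min hδ hδ', fun a x hx y hy hxy => max_le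
      (hd a x hx y hy (hxy.trans (min_le_left _ _))) ?_⟩
    rw [← hf2 a x hx]
    exact hd' y hy _ (gdyn_mem h a hx) (hxy.trans (min_le_right _ _))
  -- the retraction onto the box
  obtain ⟨π, hπ1, hπ2⟩ : ∃ π : (Fin n → ℝ) → Fin n → ℝ, (∀ x, ‖π x‖ ≤ 2) ∧
      ∀ x, ‖x‖ ≤ 2 → π x = x := by
    refine ⟨fun x => if ‖x‖ ≤ 2 then x else 0, fun x => ?_, fun x hx => if_pos hx⟩
    beta_reduce
    split_ifs with hx
    · exact hx
    · simp
  have hπW : ∀ x, π x ∈ W := fun x => hbox _ (hπ1 x)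
  refine ⟨fun x => f₀ (π x), fun x y => ρ₀ (π x) (π y), fun x y => ω₀ (π x) (π y), r, hr0, hr1,
    fun x => by simp [hρ₀], fun x y => ?_, fun x y z => ?_, fun x y => le_max_right _ _,
    fun x hx => ?_, fun η hη => ?_, ⟨δ₁ / 2, by positivity, fun a x y hx hy hxy hfx => ?_⟩,
    fun x y => hω1 _ _, fun x hx => ?_, ?_, fun η hη => ?_⟩
  · simp only [hρ₀]
    rw [hausdorffDist_comm, norm_sub_rev]
  · refine max_le ((hausdorffDist_triangle (gdyn_fin h (hπW x) (hπW y))).trans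
      (add_le_add (le_max_left _ _) (le_max_left _ _))) ?_
    refine le_trans ?_ (add_le_add (le_max_right _ _) (le_max_right _ _))
    exact norm_sub_le_norm_sub_add_norm_sub _ _ _
  · rw [hπ2 x hx]
    exact hf1 x (hbox x hx)
  · obtain ⟨δ, hδ, hd⟩ := hclose η hη
    refine ⟨δ, hδ, fun a x y hx hy hxy => ?_⟩
    rw [hπ2 x hx, hπ2 y hy]
    exact hd a x (hbox x hx) y (hbox y hy) hxy
  · rw [hπ2 x hx] at hfx
    rw [hπ2 x hx, hπ2 y hy]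
    exact hω2 y x (hbox x hx) hfx a hxy
  · rw [hω2 _ _ (hπW x) hx 0 (by simp; positivity), pow_zero]
  · obtain ⟨δ', hδ', hd'⟩ := h.equi (δ₁ / 4) (by positivity)
    have hm : 0 < min δ' (δ₁ / 4) := by positivity
    refine ⟨min δ' (δ₁ / 4) / 2, by positivity, fun x y z hxy hyz _ hy hz => ?_⟩
    obtain ⟨a, ha⟩ := gdyn_exists h (hπW x) (hπW y)
      (((le_max_left _ _).trans hxy).trans_lt (half_lt_self hm))
    obtain ⟨b, hb⟩ := gdyn_exists h (hπW y) (hπW z)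
      (((le_max_left _ _).trans hyz).trans_lt (half_lt_self hm))
    rw [lt_min_iff] at ha hb
    have h1 := hd' a _ (hπW y) _ (gdyn_mem h b (hπW z)) hb.1.le
    rw [← Function.iterate_add_apply] at h1
    have h2 := norm_sub_le_norm_sub_add_norm_sub (π x) (g^[a] (π y)) (g^[a + b] (π z))
    rw [hω2 _ _ (hπW y) hy a (by linarith [ha.2]), hω2 _ _ (hπW z) hz b (by linarith [hb.2]),
      hω2 _ _ (hπW z) hz (a + b) (by linarith [ha.2]), pow_add]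
  · obtain ⟨δ, hδ, hd⟩ := hclose η hη
    obtain ⟨t, hts, htf, hcov⟩ := finite_approx_of_totallyBounded
      (s := {x : Fin n → ℝ | ‖x‖ ≤ 2 ∧ ‖f₀ x‖ < r})
      (h.compact.totallyBounded.subset fun x hx => hbox x hx.1) δ hδ
    refine ⟨htf.toFinset.toList, fun z hz => ?_, fun x hx => ?_⟩
    · have hz' := hts (htf.mem_toFinset.1 (Finset.mem_toList.1 hz))
      rw [hπ2 z hz'.1]
      exact hz'.2
    · obtain ⟨z, hz, hxz⟩ := mem_iUnion₂.1 (hcov (show π x ∈ _ from ⟨hπ1 x, hx⟩))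
      refine ⟨z, Finset.mem_toList.2 (htf.mem_toFinset.2 hz), ?_⟩
      rw [hπ2 z (hts hz).1]
      exact hd 0 z (hbox z (hts hz).1) _ (hπW x) (mem_ball_iff_norm.1 hxz).le

end Crest.Agent.R217
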