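import Crest.Agent.R217.GAlg

/-! # Row 217: matrix identities for `GStd` -/

set_option autoImplicit false
set_option linter.unusedSectionVars false
open Matrix Complex
open scoped Kronecker

namespace Crest.Agent.R217

section col
variable {C P : Type} [Fintype C] [DecidableEq C] [Fintype P] [DecidableEq P]

/-- `y ↦ y ⊗ v` -/
def gcol (C : Type) [DecidableEq C] (v : P → ℂ) : Matrix (C × P) C ℂ :=
  Matrix.of fun b a => if b.1 = a then v b.2 else 0

theorem gcol_ne_zero {v : P → ℂ} {b : C × P} {a : C} (h : gcol C v b a ≠ 0) :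
    b.1 = a ∧ v b.2 ≠ 0 := by
  by_cases e : b.1 = a
  · exact ⟨e, by simpa [gcol, e] using h⟩
  · exact absurd (by simp [gcol, e]) h

theorem kron_mul_gcol (S : Matrix C C ℂ) (M : Matrix P P ℂ) (v : P → ℂ) :
    (S ⊗ₖ M) * gcol C v = gcol C (M *ᵥ v) * S := by
  ext ⟨c, t⟩ a
  simp [gcol, Matrix.mul_apply, Fintype.sum_prod_type, Matrix.mulVec, dotProduct,
    mul_comm, mul_left_comm, Finset.mul_sum]

theorem gcol_ct_mul (w v : P → ℂ) :
    (gcol C w)ᴴ * gcol C v = (star w ⬝ᵥ v) • (1 : Matrix C C ℂ) := by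
  ext c a
  by_cases e : c = a
  · subst e
    simp [gcol, Matrix.mul_apply, Fintype.sum_prod_type, dotProduct, apply_ite]
  · simp [gcol, Matrix.mul_apply, Fintype.sum_prod_type, apply_ite, e, Ne.symm e]

theorem gcol_mul_ct (v w : P → ℂ) :
    gcol C v * (gcol C w)ᴴ = (1 : Matrix C C ℂ) ⊗ₖ vecMulVec v (star w) := by
  ext ⟨c, t⟩ ⟨c', t'⟩
  by_cases e : c = c'
  · subst e
    simp [gcol, Matrix.mul_apply, apply_ite, vecMulVec_apply]
  · simp [gcol, Matrix.mul_apply, apply_ite, e]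

theorem gcol_add (v w : P → ℂ) : gcol C (v + w) = gcol C v + gcol C w := by
  ext b a; by_cases e : b.1 = a <;> simp [gcol, e]
theorem gcol_sub (v w : P → ℂ) : gcol C (v - w) = gcol C v - gcol C w := by
  ext b a; by_cases e : b.1 = a <;> simp [gcol, e]
theorem gcol_neg (v : P → ℂ) : gcol C (-v) = -gcol C v := by
  ext b a; by_cases e : b.1 = a <;> simp [gcol, e]
theorem gcol_smul (z : ℂ) (v : P → ℂ) : gcol C (z • v) = z • gcol C v := by
  ext b a; by_cases e : b.1 = a <;> simp [gcol, e]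
theorem gcol_zero : gcol C (0 : P → ℂ) = 0 := by
  ext b a; simp [gcol]

end col

variable (N : ℕ)

/-- first vertex -/
def v0I : Iv N → ℂ := fun a => if a.val = 0 then 1 else 0
/-- last vertex -/
def v1I : Iv N → ℂ := fun a => if a.val = 2 * N then 1 else 0
/-- contraction onto the last vertex -/
def hI : Matrix (Iv N) (Iv N) ℂ := Matrix.of fun b a =>
  if Odd b.val ∧ Even a.val ∧ a.val < b.val then -1 else 0

theorem gstd_sum_eq (m : ℕ) (F : ℕ → ℂ) :
    ∑ a : Iv N, (if a.val = m then F a else 0) = if m ≤ 2 * N then F m else 0 := by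
  rw [Fin.sum_univ_eq_sum_range (fun a => if a = m then F a else 0), Finset.sum_ite_eq']
  simp

theorem gstd_sum_up (b : Iv N) (F : ℕ → ℂ) :
    ∑ a : Iv N, (if b.val = a.val + 1 then F a else 0) = if b.val = 0 then 0 else F (b - 1) := by
  have hb := b.2
  split_ifs with h
  · exact Finset.sum_eq_zero fun a _ => if_neg (by omega)
  · rw [← if_pos (c := b.val - 1 ≤ 2 * N) (e := (0 : ℂ)) (t := F (b - 1)) (by omega),
      ← gstd_sum_eq]
    exact Finset.sum_congr rfl fun a _ => if_congr (by omega) rfl rfl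

theorem gstd_sum_dn (b : Iv N) (F : ℕ → ℂ) :
    ∑ a : Iv N, (if b.val + 1 = a.val then F a else 0) =
      if b.val = 2 * N then 0 else F (b + 1) := by
  have hb := b.2
  split_ifs with h
  · exact Finset.sum_eq_zero fun a _ => if_neg (by have := a.2; omega)
  · rw [← if_pos (c := b.val + 1 ≤ 2 * N) (e := (0 : ℂ)) (t := F (b + 1)) (by omega),
      ← gstd_sum_eq]
    exact Finset.sum_congr rfl fun a _ => if_congr (by omega) rfl rfl

theorem gstd_dI_sum (b : Iv N) (F : ℕ → ℂ) : ∑ a : Iv N, dI N b a * F a =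
    (if b.val = 0 then 0 else if Odd (b.val - 1) then F (b - 1) else 0) -
      (if b.val = 2 * N then 0 else if Odd (b.val + 1) then F (b + 1) else 0) := by
  rw [← gstd_sum_up N b fun a => if Odd a then F a else 0,
    ← gstd_sum_dn N b fun a => if Odd a then F a else 0, ← Finset.sum_sub_distrib]
  refine Finset.sum_congr rfl fun a _ => ?_
  simp only [dI, of_apply]
  split_ifs <;> first | contradiction | omega | simp

theorem gstd_sum_dI (a : Iv N) (F : ℕ → ℂ) : ∑ b : Iv N, F b * dI N b a =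
    if Odd a.val then F (a + 1) - F (a - 1) else 0 := by
  split_ifs with h
  · have ha := a.2
    have h1 := gstd_sum_up N a F
    have h2 := gstd_sum_dn N a F
    rw [Nat.odd_iff] at h
    rw [if_neg (by omega)] at h1 h2
    rw [← h1, ← h2, ← Finset.sum_sub_distrib]
    refine Finset.sum_congr rfl fun b _ => ?_
    simp only [dI, of_apply, Nat.odd_iff]
    split_ifs <;> first | contradiction | omega | simp
  · exact Finset.sum_eq_zero fun b _ => by simp [dI, h]

theorem gstd_φI_sum (b : Iv N) (F : ℕ → ℂ) : ∑ a : Iv N, φI N b a * F a =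
    (if b.val = 0 then 0 else -(I / 2) * (-1) ^ (b.val - 1) * F (b - 1)) +
      (if b.val = 2 * N then 0 else -(I / 2) * (-1) ^ (b.val + 1) * F (b + 1)) := by
  rw [← gstd_sum_up N b fun a => -(I / 2) * (-1) ^ a * F a,
    ← gstd_sum_dn N b fun a => -(I / 2) * (-1) ^ a * F a, ← Finset.sum_add_distrib]
  refine Finset.sum_congr rfl fun a _ => ?_
  simp only [φI, of_apply]
  split_ifs <;> first | contradiction | omega | simp

theorem gstd_dI_ct_sum (a : Iv N) (F : ℕ → ℂ) : ∑ b : Iv N, (dI N)ᴴ a b * F b =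
    if Odd a.val then F (a + 1) - F (a - 1) else 0 := by
  rw [← gstd_sum_dI]
  refine Finset.sum_congr rfl fun b _ => ?_
  simp only [dI, of_apply, conjTranspose_apply]
  split_ifs <;> simp

theorem gstd_pow (n : ℕ) : (-1 : ℂ) ^ n = if n % 2 = 0 then 1 else -1 := by
  split_ifs with h
  · exact (Nat.even_iff.2 h).neg_one_pow
  · exact (Nat.odd_iff.2 (by omega)).neg_one_pow

theorem gI_v1 : gI N *ᵥ v1I N = v1I N := by
  ext b
  simp only [gI, mulVec_diagonal, v1I, gstd_pow]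
  split_ifs <;> first | contradiction | omega | simp
theorem gI_v0 : gI N *ᵥ v0I N = v0I N := by
  ext b
  simp only [gI, mulVec_diagonal, v0I, gstd_pow]
  split_ifs <;> first | contradiction | omega | simp
theorem gI_μ : gI N *ᵥ μI N = -μI N := by
  ext b
  simp only [gI, mulVec_diagonal, μI, gstd_pow, Pi.neg_apply, Nat.odd_iff]
  split_ifs <;> first | contradiction | omega | simp
theorem gI_ε : gI N *ᵥ εI N = εI N := by
  ext b
  simp only [gI, mulVec_diagonal, εI, gstd_pow, Nat.even_iff]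
  split_ifs <;> first | contradiction | omega | simp
theorem dI_v1 : dI N *ᵥ v1I N = 0 := by
  ext b
  have := gstd_dI_sum N b fun a => if a = 2 * N then 1 else 0
  simp only [mulVec, dotProduct, v1I, this, Nat.odd_iff, Pi.zero_apply]
  split_ifs <;> first | contradiction | omega | simp
theorem dI_v0 : dI N *ᵥ v0I N = 0 := by
  ext b
  have := gstd_dI_sum N b fun a => if a = 0 then 1 else 0
  simp only [mulVec, dotProduct, v0I, this, Nat.odd_iff, Pi.zero_apply]
  split_ifs <;> first | contradiction | omega | simp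
theorem dI_μ : dI N *ᵥ μI N = v1I N - v0I N := by
  ext b
  have hb := b.2
  have := gstd_dI_sum N b fun a => if Odd a then 1 else 0
  simp only [mulVec, dotProduct, μI, v0I, v1I, this, Pi.sub_apply]
  simp only [Nat.odd_iff]
  split_ifs <;> first | contradiction | omega | simp
theorem dI_ct_ε : (dI N)ᴴ *ᵥ εI N = 0 := by
  ext b
  have := gstd_dI_ct_sum N b fun a => if Even a then 1 else 0
  simp only [mulVec, dotProduct, εI, this, Pi.zero_apply]
  simp only [Nat.odd_iff, Nat.even_iff]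
  split_ifs <;> first | contradiction | omega | simp
theorem φI_v1 : φI N *ᵥ v1I N = -(I / 2) • ((dI N)ᴴ *ᵥ v1I N) := by
  ext b
  have hb := b.2
  have h1 := gstd_φI_sum N b fun a => if a = 2 * N then 1 else 0
  have h2 := gstd_dI_ct_sum N b fun a => if a = 2 * N then 1 else 0
  simp only [mulVec, dotProduct, v1I, h1, h2, Pi.smul_apply, Nat.odd_iff, gstd_pow, smul_eq_mul]
  split_ifs <;> first | contradiction | omega | simp
theorem φI_v0 : φI N *ᵥ v0I N = (I / 2) • ((dI N)ᴴ *ᵥ v0I N) := by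
  ext b
  have hb := b.2
  have h1 := gstd_φI_sum N b fun a => if a = 0 then 1 else 0
  have h2 := gstd_dI_ct_sum N b fun a => if a = 0 then 1 else 0
  simp only [mulVec, dotProduct, v0I, h1, h2, Pi.smul_apply, Nat.odd_iff, gstd_pow, smul_eq_mul]
  split_ifs <;> first | contradiction | omega | simp
theorem φI_μ : φI N *ᵥ μI N = I • εI N - (I / 2) • (v0I N + v1I N) := by
  ext b
  have hb := b.2
  have h1 := gstd_φI_sum N b fun a => if Odd a then 1 else 0
  simp only [mulVec, dotProduct, μI, εI, v0I, v1I, h1, Pi.smul_apply, Pi.sub_apply, Pi.add_apply,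
    gstd_pow, smul_eq_mul]
  simp only [Nat.odd_iff, Nat.even_iff]
  split_ifs <;> first | omega | ring
theorem gstd_dot_v1 (F : ℕ → ℂ) : star (fun a : Iv N => F a) ⬝ᵥ v1I N = star (F (2 * N)) := by
  have := gstd_sum_eq N (2 * N) fun a => star (F a)
  rw [if_pos le_rfl] at this
  rw [← this]
  refine Finset.sum_congr rfl fun a _ => ?_
  simp [v1I]
theorem gstd_dot_v0 (F : ℕ → ℂ) : star (fun a : Iv N => F a) ⬝ᵥ v0I N = star (F 0) := by
  have := gstd_sum_eq N 0 fun a => star (F a)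
  rw [if_pos (Nat.zero_le _)] at this
  rw [← this]
  refine Finset.sum_congr rfl fun a _ => ?_
  simp [v0I]
theorem ε_dot_v1 : star (εI N) ⬝ᵥ v1I N = 1 := by
  exact (gstd_dot_v1 N fun a => if Even a then 1 else 0).trans (by simp)
theorem v1_dot_v1 : star (v1I N) ⬝ᵥ v1I N = 1 := by
  exact (gstd_dot_v1 N fun a => if a = 2 * N then 1 else 0).trans (by simp)
theorem v0_dot_v0 : star (v0I N) ⬝ᵥ v0I N = 1 := by
  exact (gstd_dot_v0 N fun a => if a = 0 then 1 else 0).trans (by simp)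
theorem v1_dot_v0 (hN : 0 < N) : star (v1I N) ⬝ᵥ v0I N = 0 := by
  have := gstd_dot_v0 N fun a => if a = 2 * N then 1 else 0
  rw [if_neg (by omega), star_zero] at this
  exact this
theorem gI_hI : gI N * hI N + hI N * gI N = 0 := by
  ext b a
  simp only [gI, hI, Matrix.add_apply, diagonal_mul, mul_diagonal, of_apply, gstd_pow,
    Nat.odd_iff, Nat.even_iff, Matrix.zero_apply]
  split_ifs <;> first | contradiction | omega | simp
theorem dI_hI : dI N * hI N + hI N * dI N = 1 - vecMulVec (v1I N) (star (εI N)) := by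
  ext b a
  have hb := b.2
  have ha := a.2
  have h1 := gstd_dI_sum N b fun c => if Odd c ∧ Even a.val ∧ a.val < c then -1 else 0
  have h2 := gstd_sum_dI N a fun c => if Odd b.val ∧ Even c ∧ c < b.val then -1 else 0
  simp only [hI, Matrix.add_apply, Matrix.mul_apply, of_apply, h1, h2, Matrix.sub_apply,
    Matrix.one_apply, vecMulVec_apply, v1I, εI, Pi.star_apply, Fin.ext_iff]
  simp only [Nat.odd_iff, Nat.even_iff]
  split_ifs <;> first | contradiction | omega | simp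

/-! ### one dimension up -/

variable (k : ℕ)

def ccol (v : Iv N → ℂ) : Matrix (Cell N (k + 1)) (Cell N k) ℂ := gcol (Cell N k) v
def ckr (S : Matrix (Cell N k) (Cell N k) ℂ) (M : Matrix (Iv N) (Iv N) ℂ) :
    Matrix (Cell N (k + 1)) (Cell N (k + 1)) ℂ := (S ⊗ₖ M : Matrix (_ × _) (_ × _) ℂ)

variable {N k}

theorem ccol_ne_zero {v : Iv N → ℂ} {b : Cell N (k + 1)} {a : Cell N k} (h : ccol N k v b a ≠ 0) :
    b.1 = a ∧ v b.2 ≠ 0 := gcol_ne_zero h
theorem ckr_one_ne_zero {M : Matrix (Iv N) (Iv N) ℂ} {b a : Cell N (k + 1)}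
    (h : ckr N k 1 M b a ≠ 0) : b.1 = a.1 := by
  by_contra hc
  apply h
  change (1 : Matrix (Cell N k) (Cell N k) ℂ) b.1 a.1 * M b.2 a.2 = 0
  rw [Matrix.one_apply_ne hc, zero_mul]
theorem ckr_mul_ccol (S : Matrix (Cell N k) (Cell N k) ℂ) (M : Matrix (Iv N) (Iv N) ℂ)
    (v : Iv N → ℂ) : ckr N k S M * ccol N k v = ccol N k (M *ᵥ v) * S := kron_mul_gcol S M v
theorem ccol_ct_mul (w v : Iv N → ℂ) : (ccol N k w)ᴴ * ccol N k v =
    (star w ⬝ᵥ v) • (1 : Matrix (Cell N k) (Cell N k) ℂ) := gcol_ct_mul w v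
theorem ccol_mul_ct (v w : Iv N → ℂ) :
    ccol N k v * (ccol N k w)ᴴ = ckr N k 1 (vecMulVec v (star w)) := gcol_mul_ct v w
theorem ccol_add (v w : Iv N → ℂ) : ccol N k (v + w) = ccol N k v + ccol N k w := gcol_add v w
theorem ccol_sub (v w : Iv N → ℂ) : ccol N k (v - w) = ccol N k v - ccol N k w := gcol_sub v w
theorem ccol_neg (v : Iv N → ℂ) : ccol N k (-v) = -ccol N k v := gcol_neg v
theorem ccol_smul (z : ℂ) (v : Iv N → ℂ) : ccol N k (z • v) = z • ccol N k v := gcol_smul z v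
theorem ccol_zero : ccol N k 0 = 0 := gcol_zero
theorem ckr_mul (S S' : Matrix (Cell N k) (Cell N k) ℂ) (M M' : Matrix (Iv N) (Iv N) ℂ) :
    ckr N k S M * ckr N k S' M' = ckr N k (S * S') (M * M') := (mul_kronecker_mul _ _ _ _).symm
theorem ckr_ct (S : Matrix (Cell N k) (Cell N k) ℂ) (M : Matrix (Iv N) (Iv N) ℂ) :
    (ckr N k S M)ᴴ = ckr N k Sᴴ Mᴴ := conjTranspose_kronecker _ _
theorem ckr_add (S : Matrix (Cell N k) (Cell N k) ℂ) (M M' : Matrix (Iv N) (Iv N) ℂ) :
    ckr N k S (M + M') = ckr N k S M + ckr N k S M' := kronecker_add _ _ _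
theorem ckr_zero (S : Matrix (Cell N k) (Cell N k) ℂ) : ckr N k S 0 = 0 := kronecker_zero _
theorem ckr_one : ckr N k 1 1 = 1 := one_kronecker_one
theorem cubD_succ : cubD N (k + 1) = I • ckr N k (cubD N k) (gI N) + ckr N k 1 (dI N) := rfl
theorem cubΦ_succ : cubΦ N (k + 1) = ckr N k (cubΦ N k) (φI N) := rfl

theorem gstd_d_col (v : Iv N → ℂ) : cubD N (k + 1) * ccol N k v =
    I • (ccol N k (gI N *ᵥ v) * cubD N k) + ccol N k (dI N *ᵥ v) := by
  rw [cubD_succ, Matrix.add_mul, Matrix.smul_mul, ckr_mul_ccol, ckr_mul_ccol, Matrix.mul_one]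
theorem gstd_dct_col (v : Iv N → ℂ) : (cubD N (k + 1))ᴴ * ccol N k v =
    -I • (ccol N k (gI N *ᵥ v) * (cubD N k)ᴴ) + ccol N k ((dI N)ᴴ *ᵥ v) := by
  rw [cubD_succ, conjTranspose_add, conjTranspose_smul, ckr_ct, ckr_ct, Matrix.add_mul,
    Matrix.smul_mul, ckr_mul_ccol, ckr_mul_ccol, conjTranspose_one, Matrix.mul_one, gI_ct]
  simp

theorem gstd_d_r : cubD N (k + 1) * ccol N k (v1I N) = I • (ccol N k (v1I N) * cubD N k) := by
  rw [gstd_d_col, gI_v1, dI_v1, ccol_zero, add_zero]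
theorem gstd_d_l : cubD N (k + 1) * ccol N k (v0I N) = I • (ccol N k (v0I N) * cubD N k) := by
  rw [gstd_d_col, gI_v0, dI_v0, ccol_zero, add_zero]
theorem gstd_Φ_r : cubΦ N (k + 1) * ccol N k (v1I N) =
    -(I / 2) • ((cubD N (k + 1))ᴴ * (ccol N k (v1I N) * cubΦ N k)) +
      (1 / 2 : ℂ) • (ccol N k (v1I N) * ((cubD N k)ᴴ * cubΦ N k)) := by
  rw [← Matrix.mul_assoc, gstd_dct_col, cubΦ_succ, ckr_mul_ccol, φI_v1, gI_v1, ccol_smul]
  simp only [Matrix.add_mul, Matrix.smul_mul, Matrix.mul_assoc]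
  match_scalars
  · ring
  · linear_combination (-1 / 2 : ℂ) * I_mul_I
theorem gstd_Φ_l : cubΦ N (k + 1) * ccol N k (v0I N) =
    (I / 2) • ((cubD N (k + 1))ᴴ * (ccol N k (v0I N) * cubΦ N k)) -
      (1 / 2 : ℂ) • (ccol N k (v0I N) * ((cubD N k)ᴴ * cubΦ N k)) := by
  rw [← Matrix.mul_assoc, gstd_dct_col, cubΦ_succ, ckr_mul_ccol, φI_v0, gI_v0, ccol_smul]
  simp only [Matrix.add_mul, Matrix.smul_mul, Matrix.mul_assoc]
  match_scalars
  · ring
  · linear_combination (1 / 2 : ℂ) * I_mul_I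
theorem gstd_d_μ : cubD N (k + 1) * ccol N k (μI N) =
    -I • (ccol N k (μI N) * cubD N k) +
      (ccol N k (v1I N) * (1 : Matrix (Cell N k) (Cell N k) ℂ) - ccol N k (v0I N)) := by
  rw [gstd_d_col, gI_μ, dI_μ, ccol_neg, ccol_sub]
  simp
theorem gstd_Φ_μ : cubΦ N (k + 1) * ccol N k (μI N) = I • (ccol N k (εI N) * cubΦ N k) -
    (I / 2) • (ccol N k (v0I N) * cubΦ N k + ccol N k (v1I N) * (1 * cubΦ N k)) := by
  rw [cubΦ_succ, ckr_mul_ccol, φI_μ, ccol_sub, ccol_smul, ccol_smul, ccol_add]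
  simp only [Matrix.sub_mul, Matrix.add_mul, Matrix.smul_mul, Matrix.one_mul]
theorem gstd_dct_ε : (cubD N (k + 1))ᴴ * ccol N k (εI N) =
    -I • (ccol N k (εI N) * (cubD N k)ᴴ) := by
  rw [gstd_dct_col, gI_ε, dI_ct_ε, ccol_zero, add_zero]
theorem gstd_d_H : cubD N (k + 1) * ckr N k 1 (hI N) + ckr N k 1 (hI N) * cubD N (k + 1) =
    1 - ccol N k (v1I N) * ((1 : Matrix (Cell N k) (Cell N k) ℂ) * (ccol N k (εI N))ᴴ) := by
  have h1 := congrArg (ckr N k (cubD N k)) (gI_hI N)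
  have h2 := congrArg (ckr N k 1) (eq_sub_iff_add_eq.1 (dI_hI N))
  rw [ckr_add, ckr_zero] at h1
  rw [ckr_add, ckr_add, ckr_one] at h2
  rw [Matrix.one_mul, ccol_mul_ct, cubD_succ, ← h2]
  simp only [Matrix.add_mul, Matrix.mul_add, Matrix.smul_mul, Matrix.mul_smul, ckr_mul,
    Matrix.mul_one, Matrix.one_mul]
  rw [eq_neg_of_add_eq_zero_left h1]
  module

theorem gstd_pt_last (a : Cell N (k + 1)) :
    a.pt ⟨k, Nat.lt_succ_self k⟩ = -2 + 2 * (a.2.val : ℝ) / N := by
  simp [Cell.pt, Cell.ix]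
theorem gstd_pt_lt (a : Cell N (k + 1)) (m : Fin k) :
    a.pt ⟨m, Nat.lt_succ_of_lt m.2⟩ = Cell.pt (k := k) a.1 m := by
  simp [Cell.pt, Cell.ix, m.2.ne]
theorem gstd_pt_sub (a b : Cell N k) (v : Iv N) :
    ‖Cell.pt (k := k + 1) (b, v) - Cell.pt (k := k + 1) (a, v)‖ ≤ ‖b.pt - a.pt‖ := by
  refine (pi_norm_le_iff_of_nonneg (norm_nonneg _)).2 fun m => ?_
  rcases Nat.lt_succ_iff_lt_or_eq.1 m.2 with h | h
  · have h1 := gstd_pt_lt (k := k) (b, v) ⟨m, h⟩
    have h2 := gstd_pt_lt (k := k) (a, v) ⟨m, h⟩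
    rw [Pi.sub_apply, h1, h2]
    exact norm_le_pi_norm (b.pt - a.pt) ⟨m, h⟩
  · obtain rfl : m = ⟨k, Nat.lt_succ_self k⟩ := Fin.ext h
    rw [Pi.sub_apply, gstd_pt_last, gstd_pt_last, sub_self, norm_zero]
    exact norm_nonneg _

end Crest.Agent.R217
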