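import Crest.Agent.R217.BAlg3

/-! # Row 217: the algebra of the induction step of `GStd` -/

set_option autoImplicit false
open Complex

namespace Crest.Agent.R217
open DC Form

universe u v
variable {O : Type u} [Add O] {𝒜 ℬ : DC.{u, v} O} {V A B : O}

/-- the identities between the cube, its two faces and their inclusions -/
structure GstdFace (d Φ : 𝒜.Hom V V) (dA ΦA : 𝒜.Hom A A) (dB ΦB : 𝒜.Hom B B) (r : 𝒜.Hom A V)
    (l : 𝒜.Hom B V) : Prop where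
  hA : ΦA† = ΦA
  hB : ΦB† = ΦB
  cA : ΦA ⊚ dA = dA† ⊚ ΦA
  cB : ΦB ⊚ dB = dB† ⊚ ΦB
  dr : d ⊚ r = I • (r ⊚ dA)
  dl : d ⊚ l = I • (l ⊚ dB)
  Φr : Φ ⊚ r = -(I / 2) • (d† ⊚ r ⊚ ΦA) + (1 / 2 : ℂ) • (r ⊚ dA† ⊚ ΦA)
  Φl : Φ ⊚ l = (I / 2) • (d† ⊚ l ⊚ ΦB) - (1 / 2 : ℂ) • (l ⊚ dB† ⊚ ΦB)
  rr : r† ⊚ r = 𝒜.id A
  ll : l† ⊚ l = 𝒜.id B
  rl : r† ⊚ l = 0

variable {d Φ : 𝒜.Hom V V} {dA ΦA : 𝒜.Hom A A} {dB ΦB : 𝒜.Hom B B} {r : 𝒜.Hom A V}
  {l : 𝒜.Hom B V} {s : ℂ}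

theorem GstdFace.map (h : GstdFace d Φ dA ΦA dB ΦB r l) (G : DFun 𝒜 ℬ) :
    GstdFace (G.map d) (G.map Φ) (G.map dA) (G.map ΦA) (G.map dB) (G.map ΦB) (G.map r)
      (G.map l) where
  hA := by simpa using congrArg G.map h.hA
  hB := by simpa using congrArg G.map h.hB
  cA := by simpa using congrArg G.map h.cA
  cB := by simpa using congrArg G.map h.cB
  dr := by simpa using congrArg G.map h.dr
  dl := by simpa using congrArg G.map h.dl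
  Φr := by simpa only [G.map_comp, G.map_add, G.map_smul, G.map_dag] using congrArg G.map h.Φr
  Φl := by simpa only [G.map_comp, G.map_sub, G.map_smul, G.map_dag] using congrArg G.map h.Φl
  rr := by simpa using congrArg G.map h.rr
  ll := by simpa using congrArg G.map h.ll
  rl := by simpa using congrArg G.map h.rl

theorem GstdFace.chainα (h : GstdFace d Φ dA ΦA dB ΦB r l) (hs : s = 1 ∨ s = -1) :
    lift r (-(s / 2) • (r ⊚ ΦA)) ⊚ (-s • dA) =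
      blk (I • s • d) 0 Φ (-I • (s • d)†) ⊚ lift r (-(s / 2) • (r ⊚ ΦA)) := by
  rcases hs with rfl | rfl <;> simp [h.dr, h.Φr, h.cA, smul_smul] <;> match_scalars <;> ring

theorem GstdFace.chainβ (h : GstdFace d Φ dA ΦA dB ΦB r l) (hs : s = 1 ∨ s = -1) :
    lift l ((s / 2) • (l ⊚ ΦB)) ⊚ (-s • dB) =
      blk (I • s • d) 0 Φ (-I • (s • d)†) ⊚ lift l ((s / 2) • (l ⊚ ΦB)) := by
  rcases hs with rfl | rfl <;> simp [h.dl, h.Φl, h.cB, smul_smul] <;> match_scalars <;> ring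

theorem GstdFace.pull (h : GstdFace d Φ dA ΦA dB ΦB r l) (hs : s = 1 ∨ s = -1)
    {sg : ∀ X : O, 𝒜.Hom X X} (C : Cover3 𝒜 sg) (hD : IsForm ⟨V, s • d, Φ⟩)
    {k : 𝒜.Hom (V + V) (V + V)} (hk : C.FM.map (rho (Form.bd ⟨V, s • d, Φ⟩).d k) = 0)
    (hr : C.FL.map r = 0) (hl : C.FR.map l = 0) :
    Htp (blk (-s • dA) 0 0 (-s • dB)) (blk (-s • dA) 0 0 (-s • dB))†
      ((desc (lift r (-(s / 2) • (r ⊚ ΦA))) (lift l ((s / 2) • (l ⊚ ΦB))))† ⊚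
        (Form.cut sg ⟨V, s • d, Φ⟩ k).φ ⊚
        desc (lift r (-(s / 2) • (r ⊚ ΦA))) (lift l ((s / 2) • (l ⊚ ΦB))))
      (blk (-s • ΦA) 0 0 (-s • ΦB)) := by
  refine cut_pull C hD hk (A := ⟨A, -s • dA, -s • ΦA⟩) (B := ⟨B, -s • dB, -s • ΦB⟩)
    (h.chainα hs) (h.chainβ hs) (by simp [hr]) (by simp [hl]) ?_ ?_ ?_
  · rcases hs with rfl | rfl <;> simp [h.hA, h.rr, reassoc h.rr, map_ofNat] <;> match_scalars <;>
      ring
  · rcases hs with rfl | rfl <;> simp [h.hB, h.ll, reassoc h.ll, map_ofNat] <;> match_scalars <;>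
      ring
  · simp [h.rl, reassoc h.rl]

theorem GstdFace.eqv (h : GstdFace d Φ dA ΦA dB ΦB r l) (hs : s = 1 ∨ s = -1)
    (hD : IsForm ⟨V, s • d, Φ⟩) (hAA : dA ⊚ dA = 0) (hBB : dB ⊚ dB = 0)
    (hB : IsEqv dB dB† ΦB) {J : 𝒜.Hom B A} {μ ε : 𝒜.Hom B V} {H : 𝒜.Hom V V}
    (J1 : J† ⊚ J = 𝒜.id B) (J2 : J ⊚ J† = 𝒜.id A) (Jd : J ⊚ dB = dA ⊚ J) (JΦ : ΦA ⊚ J = J ⊚ ΦB)
    (dμ : d ⊚ μ = -I • (μ ⊚ dB) + (r ⊚ J - l))
    (Φμ : Φ ⊚ μ = I • (ε ⊚ ΦB) - (I / 2) • (l ⊚ ΦB + r ⊚ J ⊚ ΦB))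
    (εr : ε† ⊚ r = J†) (dε : d† ⊚ ε = -I • (ε ⊚ dB†))
    (dH : d ⊚ H + H ⊚ d = 𝒜.id V - r ⊚ J ⊚ ε†) :
    IsEqv (blk (-s • dA) 0 0 (-s • dB)) (blk (I • s • d) 0 Φ (-I • (s • d)†))
      (desc (lift r (-(s / 2) • (r ⊚ ΦA))) (lift l ((s / 2) • (l ⊚ ΦB)))) := by
  have hs0 : -s ≠ 0 := by rcases hs with rfl | rfl <;> simp
  have hsc : (starRingEnd ℂ) s = s := by rcases hs with rfl | rfl <;> simp
  have hss : s * s = 1 := by rcases hs with rfl | rfl <;> simp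
  have εd : ε† ⊚ d = I • (dB ⊚ ε†) := by simpa using dag_congr dε
  have Jd' : J† ⊚ dA = dB ⊚ J† := by
    have := congrArg (fun x => J† ⊚ x ⊚ J†) Jd
    simpa [reassoc J1, J2] using this.symm
  have hδ : blk (I • s • d) 0 Φ (-I • (s • d)†) ⊚ blk (I • s • d) 0 Φ (-I • (s • d)†) = 0 :=
    hD.bd.dd
  have he : blk (-s • dA) 0 0 (-s • dB) ⊚ blk (-s • dA) 0 0 (-s • dB) = 0 := by simp [hAA, hBB]
  have h₁ : IsEqv (-s • dA) (I • s • d) r := by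
    refine ⟨?_, J ⊚ ε†, ?_, Htp.of_eq (by simp [εr, J2]), (I * s) • H, ?_⟩
    · simp [h.dr, smul_smul, mul_assoc, mul_left_comm I s I]
    · simp [εd, smul_smul, reassoc Jd, mul_assoc, mul_left_comm I s I]
    · have e : r ⊚ J ⊚ ε† - 𝒜.id V = -(d ⊚ H + H ⊚ d) := by rw [dH]; abel
      rw [e]
      simp only [smul_comp, comp_smul]
      match_scalars <;> linear_combination (-(s * s)) * I_mul_I + hss
  have h₂ : IsEqv (I • s • d) (-s • dB) ε† := by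
    refine h₁.cancel_right ?_ ?_
    · rw [εr]
      exact IsEqv.of_iso (by simp [Jd']) J2 J1
    · simp [εd, smul_smul, mul_assoc, mul_left_comm I s I]
  have h₃ : IsEqv (-s • dB) (-I • (s • d)†) (-s • (ε ⊚ ΦB)) := by
    have a1 := h₂.dag
    have a2 := hB.scale hs0
    simp only [dag_smul, _root_.map_neg, hsc, dag_dag, conj_I] at a1 ⊢
    exact (a1.comp a2).smul hs0
  have hu : IsEqv (blk (-s • dA) 0 0 (-s • dB)) (blk (-s • dA) 0 0 (-s • dB))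
      (blk (𝒜.id A) J 0 (-𝒜.id B)) :=
    IsEqv.of_iso (by simp [Jd]) (k := blk (𝒜.id A) J 0 (-𝒜.id B)) (by rw [id_sum]; simp)
      (by rw [id_sum]; simp)
  have hf : desc (lift r (-(s / 2) • (r ⊚ ΦA))) (lift l ((s / 2) • (l ⊚ ΦB))) ⊚
      blk (-s • dA) 0 0 (-s • dB) = blk (I • s • d) 0 Φ (-I • (s • d)†) ⊚
      desc (lift r (-(s / 2) • (r ⊚ ΦA))) (lift l ((s / 2) • (l ⊚ ΦB))) := by
    rw [comp_desc, ← h.chainα hs, ← h.chainβ hs, blk, desc_comp_lift, comp_desc, comp_desc,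
      desc_add, comp_zero, comp_zero, add_zero, zero_add]
  have h₄ : IsEqv (blk (-s • dA) 0 0 (-s • dB)) (blk (I • s • d) 0 Φ (-I • (s • d)†))
      (blk r 0 (-(s / 2) • (r ⊚ ΦA)) (-s • (ε ⊚ ΦB))) := by
    refine IsEqv.tri he hδ ?_ h₁ h₃
    have a1 := h.chainα hs
    have a2 := h₃.1
    rw [blk, blk, blk] at *
    simp only [lift_comp, desc_comp_lift, comp_desc, desc_add, comp_zero, zero_comp, add_zero,
      zero_add, lift_inj, desc_inj] at a1 ⊢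
    exact ⟨⟨a1.1, trivial⟩, a1.2, a2⟩
  refine hu.cancel_right (h₄.of_htp ?_ ⟨desc 0 (lift (-(I * s) • μ) 0), ?_⟩) hf
  · rw [comp_assoc, hu.1, ← comp_assoc, hf, comp_assoc]
  · rcases hs with rfl | rfl <;> simp [dμ, Φμ, JΦ, smul_smul, desc_zero] <;>
      refine ⟨?_, ?_⟩ <;> match_scalars <;> ring_nf <;> simp <;> norm_num

end Crest.Agent.R217
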