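import Crest.Agent.R217.GTame
import Crest.Agent.R217.BSig
import Crest.Agent.R217.GStdAux
import Crest.Agent.R217.GStdAux2

/-! # Row 217, part B: the signature of the standard cube is a nonzero constant.
Induction on `k`; `k = 0` is `hasSig_zero_cls` and `sig0.point`.  Step, `D = cubForm (ctx (k+1)) (k+1) pos s`,
`V = D.V`, `d = cubD (k+1)`, `d' = cubD k`, `Φ' = cubΦ k`, `v₀, v₁` the first and last vertex of `Iv N`:
* cut data: `t = R/2`, the same matrices as classes in `σ.strip k` (`Loc.isForm`, `Std.loc`,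
  `Loc.map_res`), `h` from `Poinc.contr_bd` in the middle and `exists_rho_map_eq_zero`.
* `A = ⟨cubObj k N posR, cls (-s • d'), cls (-s • Φ')⟩`, `posR y = pos (y, v₁)`; `B` likewise with
  `posL y = pos (y, v₀)` (forms in the strip; `Std σ k N posR`, `Std σ k N posL` hold).
  `inR : y ↦ y ⊗ v₁`, `inL : y ↦ y ⊗ v₀` (matrices `fun (c,t) y => if c = y ∧ t = v then 1 else 0`),
  `α = lift inR (-(s/2) • inR Φ')`, `β = lift inL ((s/2) • inL Φ')`.  Identities:
  `d inR = I • inR d'`, `cubΦ (k+1) inR = Φ' ⊗ (φI v₁) = -(I/2) Φ' ⊗ e_{last}`,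
  `dᴴ inR = -I • inR d'ᴴ + 1 ⊗ e_{last}`, and for `v₀`: `φI v₀ = -(I/2) e_{first}`, `dIᴴ v₀ = -e_{first}`.
  `Form.cut_pull` (cover `σ.cover k (a := t/2) (t := t)`): `α` vanishes on the left since its last
  coordinate is near `2`, `β` on the right.
* `desc α β` is an equivalence in `σ.ctx k` (no control in the last coordinate): with `J : B.V → A.V` the
  identity matrix, `desc α β ⊚ blk 1 J 0 (-1) = desc α (α J - β)`, and with
  `η y = (-(I s) y ⊗ μI, 0)`: `α J - β - (δ η + η (-s d')) = (0, -s Φ' y ⊗ εI)`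
  (`dI μI = v₁ - v₀`, `gI μI = -μI`, `φI μI = I εI - (I/2)(v₀ + v₁)`).  So up to homotopy the map is
  `blk inR 0 (-(s/2) inR Φ') (-s • πᴴ Φ')` with `π = 1 ⊗ εIᵀ : V → B.V`.  `inR` and `π` are equivalences
  (`π inR = 1`, `inR π ≃ 1` by `1 ⊗ hI`, `dI hI + hI dI = 1 - v₁ εIᵀ`, `hI v_t = -(edges between t and 2N)`,
  `gI hI + hI gI = 0`), `Φ'` is one by `Tame.poinc`; `IsEqv.tri`, `IsEqv.of_htp`, `IsEqv.cancel_right`.
* `neutral_of_eqv` (`j₁ = 1`, `j₂ = desc α β`), `SigThy.transfer`; the signature is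
  `c_{k+1}(s) = 2 (-s) c_k(-s)`. -/

set_option autoImplicit false
open Filter Matrix

namespace Crest.Agent.R217
open DC
variable {ι Z : Type}

section rep
variable {Γ Γ' : Ctx ι Z} {W X Y : Obj ι Z}

/-- `T` is a controlled representative of `f` -/
def GRep (Γ : Ctx ι Z) {X Y : Obj ι Z} (f : Γ.cat.Hom X Y) (T : Mat X Y) : Prop :=
  Γ.Ctrl T ∧ Γ.cls T = f

theorem GRep.mk' {T : Mat X Y} (h : Γ.Ctrl T) : GRep Γ (Γ.cls T) T := ⟨h, rfl⟩
theorem GRep.comp {g : Γ.cat.Hom X Y} {f : Γ.cat.Hom W X} {S : Mat X Y} {T : Mat W X}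
    (hg : GRep Γ g S) (hf : GRep Γ f T) : GRep Γ (g ⊚ f) fun i => S i * T i :=
  ⟨hg.1.mul hf.1, by rw [← hg.2, ← hf.2, Ctx.cls_comp hg.1 hf.1]⟩
theorem GRep.dag {f : Γ.cat.Hom X Y} {T : Mat X Y} (hf : GRep Γ f T) :
    GRep Γ f† fun i => (T i)ᴴ := ⟨hf.1.ct, by rw [← hf.2, Ctx.cls_dag hf.1]⟩
theorem GRep.add {f g : Γ.cat.Hom X Y} {S T : Mat X Y} (hf : GRep Γ f S) (hg : GRep Γ g T) :
    GRep Γ (f + g) fun i => S i + T i :=
  ⟨hf.1.add hg.1, by rw [← hf.2, ← hg.2, ← Ctx.cls_add hf.1 hg.1]; rfl⟩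
theorem GRep.sub {f g : Γ.cat.Hom X Y} {S T : Mat X Y} (hf : GRep Γ f S) (hg : GRep Γ g T) :
    GRep Γ (f - g) fun i => S i - T i :=
  ⟨hf.1.sub hg.1, by rw [← hf.2, ← hg.2, ← Ctx.cls_sub hf.1 hg.1]; rfl⟩
theorem GRep.smul {f : Γ.cat.Hom X Y} {T : Mat X Y} (hf : GRep Γ f T) (c : ℂ) :
    GRep Γ (c • f) fun i => c • T i :=
  ⟨hf.1.smul c, by rw [← hf.2, ← Ctx.cls_smul c hf.1]; rfl⟩
theorem GRep.id (X : Obj ι Z) : GRep Γ (Γ.cat.id X) fun _ => 1 := ⟨Ctx.ctrl_one, rfl⟩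
theorem GRep.zero : GRep Γ (0 : Γ.cat.Hom X Y) fun _ => 0 := ⟨Ctx.ctrl_zero, Ctx.cls_zero⟩
theorem GRep.eq {f g : Γ.cat.Hom X Y} {S T : Mat X Y} (hf : GRep Γ f S) (hg : GRep Γ g T)
    (h : ∀ i, S i = T i) : f = g := by rw [← hf.2, ← hg.2, funext h]
theorem GRep.res {f : Γ.cat.Hom X Y} {T : Mat X Y} (hf : GRep Γ f T) (h : Ctx.Le Γ Γ') :
    GRep Γ' ((Ctx.res h).map f) T := ⟨h.ctrl hf.1, by rw [← hf.2, Ctx.res_cls h hf.1]⟩

end rep

section step
variable {σ : SCtx ι Z} {k : ℕ} {N : ι → ℕ} {pos : ∀ i, Cell (N i) (k + 1) → Z}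

/-- positions on a face -/
def gstdFace (pos : ∀ i, Cell (N i) (k + 1) → Z) (v : ∀ i, Iv (N i)) :
    ∀ i, Cell (N i) k → Z := fun i y => pos i (y, v i)

theorem Loc.face {Γ : Ctx ι Z} (h : Loc Γ (k + 1) N pos) (v : ∀ i, Iv (N i)) :
    Loc Γ k N (gstdFace pos v) :=
  ⟨h.N_pos, fun η hη => (h.loc η hη).mono fun i hi a b hab =>
    hi (a, v i) (b, v i) ((gstd_pt_sub a b (v i)).trans hab)⟩

theorem Std.close_fst (h : Std σ (k + 1) N pos) (η : ℝ) (hη : 0 < η) :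
    ∀ᶠ i in σ.l, ∀ a : Cell (N i) (k + 1), ‖σ.co k i (pos i a) - Cell.pt (k := k) a.1‖ ≤ η := by
  filter_upwards [h.close η hη] with i hi a
  refine (pi_norm_le_iff_of_nonneg hη.le).2 fun m => ?_
  rw [Pi.sub_apply, ← gstd_pt_lt a m]
  exact (norm_le_pi_norm (σ.co (k + 1) i (pos i a) - a.pt) ⟨m, Nat.lt_succ_of_lt m.2⟩).trans (hi a)

theorem Std.face (h : Std σ (k + 1) N pos) (v : ∀ i, Iv (N i)) : Std σ k N (gstdFace pos v) :=
  ⟨h.N_pos, h.tendsto, h.R_le, fun η hη => (h.close_fst η hη).mono fun i hi a => hi (a, v i)⟩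

theorem Std.close_last (h : Std σ (k + 1) N pos) :
    ∀ᶠ i in σ.l, ∀ a : Cell (N i) (k + 1),
      |σ.c i (pos i a) k - (-2 + 2 * (a.2.val : ℝ) / N i)| ≤ 1 := by
  filter_upwards [h.close 1 one_pos] with i hi a
  rw [← gstd_pt_last a]
  exact (norm_le_pi_norm (σ.co (k + 1) i (pos i a) - a.pt) ⟨k, Nat.lt_succ_self k⟩).trans (hi a)

/-- matrices over the identity of the `k`-cube are controlled in the first `k` coordinates -/
theorem gstd_ctrl {X Y : Obj ι Z} (p : ∀ i, X.V i → Cell (N i) k) (q : ∀ i, Y.V i → Cell (N i) k)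
    (hp : ∀ η : ℝ, 0 < η → ∀ᶠ i in σ.l, ∀ a, ‖σ.co k i (X.pos i a) - (p i a).pt‖ ≤ η)
    (hq : ∀ η : ℝ, 0 < η → ∀ᶠ i in σ.l, ∀ a, ‖σ.co k i (Y.pos i a) - (q i a).pt‖ ≤ η)
    {T : Mat X Y} (hT : ∀ i b a, T i b a ≠ 0 → q i b = p i a) : (σ.ctx k).Ctrl T := by
  intro η hη
  filter_upwards [hp (η / 2) (half_pos hη), hq (η / 2) (half_pos hη)] with i h1 h2 b a hba
  left
  have h3 := h1 a
  have h4 := h2 b
  rw [hT i b a hba] at h4
  change ‖σ.co k i (Y.pos i b) - σ.co k i (X.pos i a)‖ ≤ η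
  have := norm_sub_le_norm_sub_add_norm_sub (σ.co k i (Y.pos i b)) (p i a).pt (σ.co k i (X.pos i a))
  rw [norm_sub_rev (p i a).pt] at this
  linarith

theorem gstd_form_pos {Γ : Ctx ι Z} {p : ∀ i, Cell (N i) k → Z} (hp : Loc Γ k N p) :
    (⟨cubObj k N p, -(1 : ℂ) • Γ.cls fun i => cubD (N i) k,
      -(1 : ℂ) • Γ.cls fun i => cubΦ (N i) k⟩ : Form Γ.cat) = (cubForm Γ k N p (-1)).neg :=
  congrArg₂ (Form.mk (cubObj k N p))
    ((GRep.mk' (hp.ctrl fun i => near_cubD (hp.N_pos i))).smul _).2.symm (neg_one_smul _ _)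

theorem gstd_form_neg {Γ : Ctx ι Z} {p : ∀ i, Cell (N i) k → Z} (hp : Loc Γ k N p) :
    (⟨cubObj k N p, -(-1 : ℂ) • Γ.cls fun i => cubD (N i) k,
      -(-1 : ℂ) • Γ.cls fun i => cubΦ (N i) k⟩ : Form Γ.cat) = cubForm Γ k N p (- -1) :=
  congrArg₂ (Form.mk (cubObj k N p))
    ((GRep.mk' (hp.ctrl fun i => near_cubD (hp.N_pos i))).smul _).2.symm
    (by rw [neg_neg, one_smul])

theorem gstd_step (h : Std σ (k + 1) N pos) {s : ℂ} (hs : s = 1 ∨ s = -1) {c : ℤ}
    (hc : ∀ p : ∀ i, Cell (N i) k → Z, Std σ k N p → σ.HasSig k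
      ⟨cubObj k N p, -s • (σ.ctx k).cls fun i => cubD (N i) k,
        -s • (σ.ctx k).cls fun i => cubΦ (N i) k⟩ fun _ => c) :
    σ.HasSig (k + 1) (cubForm (σ.ctx (k + 1)) (k + 1) N pos s) fun _ => c + c := by
  have hS := σ.sigThy k
  have hR := σ.R_pos
  set v1 : ∀ i, Iv (N i) := fun i => Fin.last _
  set v0 : ∀ i, Iv (N i) := fun i => 0
  set V := cubObj (k + 1) N pos
  set A := cubObj k N (gstdFace pos v1)
  set B := cubObj k N (gstdFace pos v0)
  have hV : Loc (σ.strip k) (k + 1) N pos := h.loc k (Nat.le_succ k)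
  have hA := hV.face v1
  have hB := hV.face v0
  have d := GRep.mk' (hV.ctrl fun i => near_cubD (h.N_pos i))
  have Φ := GRep.mk' (hV.ctrl fun i => near_cubΦ (h.N_pos i))
  have dA := GRep.mk' (hA.ctrl fun i => near_cubD (h.N_pos i))
  have ΦA := GRep.mk' (hA.ctrl fun i => near_cubΦ (h.N_pos i))
  have dB := GRep.mk' (hB.ctrl fun i => near_cubD (h.N_pos i))
  have ΦB := GRep.mk' (hB.ctrl fun i => near_cubΦ (h.N_pos i))
  have r := GRep.mk' (Γ := σ.strip k) (X := A) (Y := V) (T := fun i => ccol (N i) k (v1I (N i)))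
    (Ctx.ctrl_of_pos_eq fun i b a hba => by
      obtain ⟨h1, h2⟩ := ccol_ne_zero hba
      have h3 : b.2 = v1 i := Fin.ext (by by_contra hc; exact h2 (if_neg hc))
      change pos i b = pos i (a, v1 i)
      rw [← h1, ← h3]; rfl)
  have l := GRep.mk' (Γ := σ.strip k) (X := B) (Y := V) (T := fun i => ccol (N i) k (v0I (N i)))
    (Ctx.ctrl_of_pos_eq fun i b a hba => by
      obtain ⟨h1, h2⟩ := ccol_ne_zero hba
      have h3 : b.2 = v0 i := Fin.ext (by by_contra hc; exact h2 (if_neg hc))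
      change pos i b = pos i (a, v0 i)
      rw [← h1, ← h3]; rfl)
  have hF : GstdFace _ _ _ _ _ _ _ _ :=
    { hA := ΦA.dag.eq ΦA fun i => cubΦ_ct _ _
      hB := ΦB.dag.eq ΦB fun i => cubΦ_ct _ _
      cA := (ΦA.comp dA).eq (dA.dag.comp ΦA) fun i => cubΦ_mul_cubD _ _
      cB := (ΦB.comp dB).eq (dB.dag.comp ΦB) fun i => cubΦ_mul_cubD _ _
      dr := (d.comp r).eq ((r.comp dA).smul _) fun i => gstd_d_r
      dl := (d.comp l).eq ((l.comp dB).smul _) fun i => gstd_d_l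
      Φr := (Φ.comp r).eq (((d.dag.comp (r.comp ΦA)).smul _).add
        ((r.comp (dA.dag.comp ΦA)).smul _)) fun i => gstd_Φ_r
      Φl := (Φ.comp l).eq (((d.dag.comp (l.comp ΦB)).smul _).sub
        ((l.comp (dB.dag.comp ΦB)).smul _)) fun i => gstd_Φ_l
      rr := (r.dag.comp r).eq (GRep.id A) fun i => by
        rw [ccol_ct_mul, v1_dot_v1, one_smul]
      ll := (l.dag.comp l).eq (GRep.id B) fun i => by
        rw [ccol_ct_mul, v0_dot_v0, one_smul]
      rl := (r.dag.comp l).eq GRep.zero fun i => by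
        rw [ccol_ct_mul, v1_dot_v0 _ (h.N_pos i), zero_smul] }
  have hd : ((σ.strip k).cls (X := V) (Y := V) fun i => s • cubD (N i) (k + 1)) =
      s • (σ.strip k).cls (X := V) (Y := V) fun i => cubD (N i) (k + 1) := (d.smul s).2
  have hD : Form.IsForm ⟨V, s • (σ.strip k).cls (X := V) (Y := V) fun i => cubD (N i) (k + 1),
      (σ.strip k).cls fun i => cubΦ (N i) (k + 1)⟩ := hd ▸ hV.isForm hs
  have ht : σ.R / 2 ≤ σ.R := by linarith
  have hV' := h.loc (k + 1) le_rfl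
  have d' := (GRep.mk' (hV'.ctrl fun i => near_cubD (h.N_pos i))).smul s
  have d'' := GRep.mk' d'.1
  have Φ' := GRep.mk' (hV'.ctrl fun i => near_cubΦ (h.N_pos i))
  have e1 := ((d.smul s).res (σ.strip_le_mid k (σ.R / 2))).eq (d''.res (σ.ctx_le_mid k ht))
    fun _ => rfl
  have e2 := (Φ.res (σ.strip_le_mid k (σ.R / 2))).eq (Φ'.res (σ.ctx_le_mid k ht)) fun _ => rfl
  let C := σ.cover k (a := σ.R / 4) (t := σ.R / 2) (by positivity) (by linarith)
  obtain ⟨m, hm⟩ : ∃ m, C.FM.map (rho (Form.bd ⟨V, s • (σ.strip k).cls (X := V) (Y := V)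
      fun i => cubD (N i) (k + 1), (σ.strip k).cls fun i => cubΦ (N i) (k + 1)⟩).d m) = 0 := by
    refine exists_rho_map_eq_zero _ C.fullM ?_
    have := ((h.tame.poinc hs).map (Ctx.res (σ.ctx_le_mid k ht))).contr_bd
    simp only [blk, DFun.map_lift, DFun.map_desc, DFun.map_zero] at this ⊢
    rw [C.FM.map_smul, C.FM.map_smul (-Complex.I), C.FM.map_dag]
    erw [e1, e2]
    exact this
  have hcut : σ.IsCut k (cubForm (σ.ctx (k + 1)) (k + 1) N pos s) (σ.R / 2) _ _ m :=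
    ⟨half_pos hR, ht, hD, e1, e2, hm⟩
  refine ⟨σ.R / 2, _, _, m, hcut, ?_⟩
  have hrL : C.FL.map ((σ.strip k).cls (X := A) (Y := V) fun i => ccol (N i) k (v1I (N i))) = 0 := by
    have r' := r.res (Ctx.le_restrict (σ.lipL k (σ.R / 4)))
    refine r'.2.symm.trans ((Ctx.cls_eq_zero_iff r'.1).2 (r'.1.van_of_src fun η hη => ?_))
    filter_upwards [h.close_last] with i hi b a _
    have h1 := (abs_le.1 (hi (a, v1 i))).1
    have h2 : (0 : ℝ) < N i := by exact_mod_cast h.N_pos i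
    have h3 : 2 * (((v1 i).val : ℕ) : ℝ) / N i = 4 := by
      simp only [v1, Fin.val_last]; push_cast; field_simp; ring
    refine (min_le_right _ _).trans ?_
    change -σ.c i (pos i (a, v1 i)) k - σ.R / 4 ≤ η
    simp only [h3] at h1
    linarith
  have hlR : C.FR.map ((σ.strip k).cls (X := B) (Y := V) fun i => ccol (N i) k (v0I (N i))) = 0 := by
    have l' := l.res (Ctx.le_restrict (σ.lipR k (σ.R / 4)))
    refine l'.2.symm.trans ((Ctx.cls_eq_zero_iff l'.1).2 (l'.1.van_of_src fun η hη => ?_))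
    filter_upwards [h.close_last] with i hi b a _
    have h1 := (abs_le.1 (hi (a, v0 i))).2
    have h3 : 2 * (((v0 i).val : ℕ) : ℝ) / N i = 0 := by simp [v0]
    refine (min_le_right _ _).trans ?_
    change σ.c i (pos i (a, v0 i)) k - σ.R / 4 ≤ η
    simp only [h3] at h1
    linarith
  have hle := σ.strip_le_ctx k
  have hpull := (hF.pull hs C hD hm hrL hlR).map (Ctx.res hle)
  have cV := h.close_fst
  have cA := (h.face v1).close
  have cB := (h.face v0).close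
  have J := GRep.mk' (gstd_ctrl (X := B) (Y := A) (fun _ a => a) (fun _ a => a) cB cA
    (T := fun i => (1 : Matrix (Cell (N i) k) (Cell (N i) k) ℂ)) fun i b a hba => by
      by_contra hc; exact hba (Matrix.one_apply_ne hc))
  have μ := GRep.mk' (gstd_ctrl (X := B) (Y := V) (fun _ a => a) (fun _ a => a.1) cB cV
    (T := fun i => ccol (N i) k (μI (N i))) fun i b a hba => (ccol_ne_zero hba).1)
  have ε := GRep.mk' (gstd_ctrl (X := B) (Y := V) (fun _ a => a) (fun _ a => a.1) cB cV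
    (T := fun i => ccol (N i) k (εI (N i))) fun i b a hba => (ccol_ne_zero hba).1)
  have H := GRep.mk' (gstd_ctrl (X := V) (Y := V) (fun _ a => a.1) (fun _ a => a.1) cV cV
    (T := fun i => ckr (N i) k 1 (hI (N i))) fun i b a hba => ckr_one_ne_zero hba)
  replace d := d.res hle
  replace Φ := Φ.res hle
  replace dA := dA.res hle
  replace ΦA := ΦA.res hle
  replace dB := dB.res hle
  replace ΦB := ΦB.res hle
  replace r := r.res hle
  replace l := l.res hle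
  have hs' : -s = 1 ∨ -s = -1 := by rcases hs with rfl | rfl <;> simp
  have PB1 := ((h.face v0).tame.poinc (Or.inl rfl)).eqv
  have hD' := hD.map (Ctx.res hle)
  simp only [Form.map, DFun.map_smul] at hD'
  have heqv := (hF.map (Ctx.res hle)).eqv hs hD'
    ((dA.comp dA).eq GRep.zero fun i => cubD_mul_cubD _ _)
    ((dB.comp dB).eq GRep.zero fun i => cubD_mul_cubD _ _)
    (by rw [← dB.2, ← ΦB.2]; simpa only [one_smul] using PB1)
    ((J.dag.comp J).eq (GRep.id B) fun i => by simp)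
    ((J.comp J.dag).eq (GRep.id A) fun i => by simp)
    ((J.comp dB).eq (dA.comp J) fun i => by simp)
    ((ΦA.comp J).eq (J.comp ΦB) fun i => by simp)
    ((d.comp μ).eq (((μ.comp dB).smul _).add ((r.comp J).sub l)) fun i => gstd_d_μ)
    ((Φ.comp μ).eq (((ε.comp ΦB).smul _).sub
      (((l.comp ΦB).add (r.comp (J.comp ΦB))).smul _)) fun i => gstd_Φ_μ)
    ((ε.dag.comp r).eq J.dag fun i => by rw [ccol_ct_mul, ε_dot_v1]; simp)
    ((d.dag.comp ε).eq ((ε.comp dB.dag).smul _) fun i => gstd_dct_ε)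
    (((d.comp H).add (H.comp d)).eq ((GRep.id V).sub (r.comp (J.comp ε.dag))) fun i => gstd_d_H)
  have key : ∀ (p : ∀ i, Cell (N i) k → Z) (hp : Std σ k N p), Form.Poinc (𝒜 := (σ.ctx k).cat)
      ⟨cubObj k N p, -s • (σ.ctx k).cls fun i => cubD (N i) k,
        -s • (σ.ctx k).cls fun i => cubΦ (N i) k⟩ := by
    intro p hp
    have P := hp.tame.poinc hs'
    rcases hs with rfl | rfl
    · rw [gstd_form_pos hp.tame.toLoc]; exact P.neg
    · rw [gstd_form_neg hp.tame.toLoc]; exact P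
  have hAB := (key _ (h.face v1)).add (key _ (h.face v0))
  refine hS.transfer hAB hcut.poinc ?_
    (hS.add (key _ (h.face v1)) (key _ (h.face v0)) (hc _ (h.face v1)) (hc _ (h.face v0)))
  simp only [blk, DFun.map_lift, DFun.map_desc, DFun.map_zero, DFun.map_dag, DFun.map_smul,
    DFun.map_comp] at hpull
  rw [← dA.2, ← dB.2] at heqv hpull
  refine Form.neutral_of_eqv hAB hcut.poinc.isForm hAB.isForm.dd hAB.isForm.adm (IsEqv.id _)
    (by simpa only [blk, DFun.map_lift, DFun.map_desc, DFun.map_zero, DFun.map_dag,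
      DFun.map_smul] using heqv) ?_
  rw [ΦA.2, ΦB.2]
  simpa only [blk, DFun.map_lift, DFun.map_desc, DFun.map_zero, DFun.map_dag, DFun.map_smul,
    DFun.map_comp, dag_id, id_comp, comp_id] using hpull.symm

end step

theorem hasSig_cub (σ : SCtx ι Z) (N : ι → ℕ) (k : ℕ) {s : ℂ} (hs : s = 1 ∨ s = -1) :
    ∃ c : ℤ, c ≠ 0 ∧ ∀ pos : ∀ i, Cell (N i) k → Z, Std σ k N pos →
      σ.HasSig k (cubForm (σ.ctx k) k N pos s) fun _ => c := by
  induction k generalizing s with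
  | zero =>
    refine ⟨_, sig0.point, fun pos _ => (σ.hasSig_zero_cls _ _ _).2 ?_⟩
    refine Eventually.of_forall fun i => ?_
    have : s • cubD (N i) 0 = (0 : Matrix Unit Unit ℂ) := smul_zero s
    rw [this]
    rfl
  | succ k ih =>
    have hs' : -s = 1 ∨ -s = -1 := by rcases hs with rfl | rfl <;> simp
    obtain ⟨c, hc0, hc⟩ := ih hs'
    rcases hs with rfl | rfl
    · refine ⟨-c + -c, by omega, fun pos hpos => gstd_step hpos (Or.inl rfl) fun p hp => ?_⟩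
      rw [gstd_form_pos hp.tame.toLoc]
      exact (σ.sigThy k).neg (hp.tame.poinc hs') (hc p hp)
    · refine ⟨c + c, by omega, fun pos hpos => gstd_step hpos (Or.inr rfl) fun p hp => ?_⟩
      rw [gstd_form_neg hp.tame.toLoc]
      exact hc p hp

end Crest.Agent.R217
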