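import Crest.Agent.R217.GAlg
import Crest.Agent.R217.BSigDefs

/-! # Row 217, part B: the cubical complex as a controlled Poincaré complex.
* `cubForm_isForm`: exact matrix identities of `GAlg` through `cls_comp`, `cls_dag`; `adm_of_level` with
  `lev = Cell.dim`.
* `Tame.poinc`: `cls cubΦ0` is unitary in `Γ.cat` (`cubΦ0_ct_mul`, `cubΦ0_mul_ct`, `cls_eq_of_eqIn`), so an
  equivalence (`IsEqv.of_iso`), and `cubΦ ≃ cubΦ0` (`cubΦ0_htp`; for `s = -1` use `-K`).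
* `Tame.idem_poinc`: `Poinc.idem`; `P† φ ≃ P† φ₀ = φ₀ (φ₀† P† φ₀) ≃ φ₀ P ≃ φ P`. -/

set_option autoImplicit false
open Filter Matrix

namespace Crest.Agent.R217
open DC
variable {ι Z : Type}

@[reducible] def cubObj (k : ℕ) (N : ι → ℕ) (pos : ∀ i, Cell (N i) k → Z) : Obj ι Z where
  V i := Cell (N i) k
  fin _ := inferInstance
  dec _ := inferInstance
  pos := pos

@[reducible] noncomputable def cubForm (Γ : Ctx ι Z) (k : ℕ) (N : ι → ℕ)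
    (pos : ∀ i, Cell (N i) k → Z) (s : ℂ) : Form Γ.cat :=
  ⟨cubObj k N pos, Γ.cls fun i => s • cubD (N i) k, Γ.cls fun i => cubΦ (N i) k⟩

/-- neighbouring cells have close positions -/
structure Loc (Γ : Ctx ι Z) (k : ℕ) (N : ι → ℕ) (pos : ∀ i, Cell (N i) k → Z) : Prop where
  N_pos : ∀ i, 0 < N i
  loc : ∀ η : ℝ, 0 < η → ∀ᶠ i in Γ.l, ∀ a b : Cell (N i) k, ‖b.pt - a.pt‖ ≤ 2 / N i →
    Γ.ρ i (pos i b) (pos i a) ≤ η

/-- moreover, cells near the boundary of the box are outside -/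
structure Tame (Γ : Ctx ι Z) (k : ℕ) (N : ι → ℕ) (pos : ∀ i, Cell (N i) k → Z) : Prop
    extends Loc Γ k N pos where
  bd : ∀ᶠ i in Γ.l, ∀ a : Cell (N i) k, 3 / 2 < ‖a.pt‖ → Γ.u i (pos i a) ≤ 0

variable {Γ : Ctx ι Z} {k : ℕ} {N : ι → ℕ} {pos : ∀ i, Cell (N i) k → Z}

theorem Loc.ctrl (h : Loc Γ k N pos) {T : Mat (cubObj k N pos) (cubObj k N pos)}
    (hT : ∀ i, Near Cell.pt (2 / N i) (T i)) : Γ.Ctrl T :=
  fun η hη => (h.loc η hη).mono fun i hi b a hb => Or.inl (hi a b (hT i b a hb))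

variable (k N pos) in
/-- the differential as a family -/
noncomputable abbrev gtD : Mat (cubObj k N pos) (cubObj k N pos) := fun i => cubD (N i) k
variable (k N pos) in
/-- the form as a family -/
noncomputable abbrev gtΦ : Mat (cubObj k N pos) (cubObj k N pos) := fun i => cubΦ (N i) k
variable (k N pos) in
/-- the unitary form as a family -/
noncomputable abbrev gtΦ0 : Mat (cubObj k N pos) (cubObj k N pos) := fun i => cubΦ0 (N i) k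

theorem Loc.gt_D (h : Loc Γ k N pos) : Γ.Ctrl (gtD k N pos) :=
  h.ctrl fun i => near_cubD (h.N_pos i)
theorem Loc.gt_Φ (h : Loc Γ k N pos) : Γ.Ctrl (gtΦ k N pos) :=
  h.ctrl fun i => near_cubΦ (h.N_pos i)
theorem Loc.gt_Φ0 (h : Loc Γ k N pos) : Γ.Ctrl (gtΦ0 k N pos) :=
  h.ctrl fun i => near_cubΦ0 (h.N_pos i)

theorem Loc.gt_d (h : Loc Γ k N pos) (s : ℂ) :
    (cubForm Γ k N pos s).d = s • Γ.cls (gtD k N pos) := Ctx.cls_smul s h.gt_D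
theorem Loc.gt_d1 (h : Loc Γ k N pos) : (cubForm Γ k N pos 1).d = Γ.cls (gtD k N pos) := by
  rw [h.gt_d, one_smul]

theorem Loc.gt_dd (h : Loc Γ k N pos) : Γ.cls (gtD k N pos) ⊚ Γ.cls (gtD k N pos) = 0 := by
  rw [Ctx.cls_comp h.gt_D h.gt_D, ← Ctx.cls_zero]
  exact congrArg _ (funext fun i => cubD_mul_cubD (N i) k)
theorem Loc.gt_herm (h : Loc Γ k N pos) : (Γ.cls (gtΦ k N pos))† = Γ.cls (gtΦ k N pos) := by
  rw [Ctx.cls_dag h.gt_Φ]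
  exact congrArg _ (funext fun i => cubΦ_ct (N i) k)
theorem Loc.gt_comm (h : Loc Γ k N pos) :
    Γ.cls (gtΦ k N pos) ⊚ Γ.cls (gtD k N pos) = (Γ.cls (gtD k N pos))† ⊚ Γ.cls (gtΦ k N pos) := by
  rw [Ctx.cls_comp h.gt_Φ h.gt_D, Ctx.cls_dag h.gt_D, Ctx.cls_comp h.gt_D.ct h.gt_Φ]
  exact congrArg _ (funext fun i => cubΦ_mul_cubD (N i) k)
theorem Loc.gt_comm0 (h : Loc Γ k N pos) :
    Γ.cls (gtΦ0 k N pos) ⊚ Γ.cls (gtD k N pos) =
      (Γ.cls (gtD k N pos))† ⊚ Γ.cls (gtΦ0 k N pos) := by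
  rw [Ctx.cls_comp h.gt_Φ0 h.gt_D, Ctx.cls_dag h.gt_D, Ctx.cls_comp h.gt_D.ct h.gt_Φ0]
  exact congrArg _ (funext fun i => cubΦ0_mul_cubD (N i) k)
theorem Loc.gt_adm (h : Loc Γ k N pos) : Γ.cat.adm (Γ.cls (gtD k N pos)) :=
  Ctx.adm_of_level h.gt_D k (fun _ a => Cell.dim a) (fun _ a => Cell.dim_le a)
    fun _ _ _ hb => (cubD_ne_zero hb).1
theorem Loc.gt_htp (h : Loc Γ k N pos) : Htp (Γ.cls (gtD k N pos)) (Γ.cls (gtD k N pos))†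
    (Γ.cls (gtΦ0 k N pos)) (Γ.cls (gtΦ k N pos)) := by
  choose K hK hK' using fun i => cubΦ0_htp (k := k) (h.N_pos i)
  have hc : Γ.Ctrl (X := cubObj k N pos) (Y := cubObj k N pos) K := h.ctrl hK
  refine ⟨Γ.cls (X := cubObj k N pos) (Y := cubObj k N pos) K, ?_⟩
  rw [← Ctx.cls_sub h.gt_Φ0 h.gt_Φ, Ctx.cls_dag h.gt_D, Ctx.cls_comp h.gt_D.ct hc,
    Ctx.cls_comp hc h.gt_D, ← Ctx.cls_add (h.gt_D.ct.mul hc) (hc.mul h.gt_D)]
  exact congrArg _ (funext hK')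

theorem gt_conj {s : ℂ} (hs : s = 1 ∨ s = -1) : starRingEnd ℂ s = s := by
  rcases hs with rfl | rfl <;> simp

theorem Loc.isForm (h : Loc Γ k N pos) {s : ℂ} (hs : s = 1 ∨ s = -1) :
    (cubForm Γ k N pos s).IsForm := by
  refine ⟨?_, h.gt_herm, ?_, ?_⟩
  · rw [h.gt_d, smul_comp, comp_smul, h.gt_dd, smul_zero, smul_zero]
  · rw [h.gt_d, dag_smul, gt_conj hs, smul_comp, comp_smul]
    exact congrArg _ h.gt_comm
  · rw [h.gt_d]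
    exact adm_smul s h.gt_adm
theorem Tame.cls_eq_of_eqIn (h : Tame Γ k N pos) {S T : Mat (cubObj k N pos) (cubObj k N pos)}
    (hS : Γ.Ctrl S) (hT : Γ.Ctrl T) (hST : ∀ᶠ i in Γ.l, EqIn (3 / 2) (S i) (T i)) :
    Γ.cls S = Γ.cls T := by
  refine (Ctx.cls_eq_iff hS hT).2 ((hS.sub hT).van_of_src fun η hη => ?_)
  filter_upwards [hST, h.bd] with i h1 h2 b a hb
  refine (h2 a (not_le.1 fun h3 => hb ?_)).trans hη.le
  rw [Pi.sub_apply, Matrix.sub_apply, h1 b a h3, sub_self]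

theorem Tame.gt_unit₁ (h : Tame Γ k N pos) :
    (Γ.cls (gtΦ0 k N pos))† ⊚ Γ.cls (gtΦ0 k N pos) = Γ.cat.id (cubObj k N pos) := by
  have h0 := h.toLoc.gt_Φ0
  rw [Ctx.cls_dag h0, Ctx.cls_comp h0.ct h0, ← Ctx.cls_one]
  exact h.cls_eq_of_eqIn (h0.ct.mul h0) Ctx.ctrl_one (Eventually.of_forall fun i b a ha =>
    cubΦ0_ct_mul (h.N_pos i) b a (ha.trans_lt (by norm_num)))
theorem Tame.gt_unit₂ (h : Tame Γ k N pos) :
    Γ.cls (gtΦ0 k N pos) ⊚ (Γ.cls (gtΦ0 k N pos))† = Γ.cat.id (cubObj k N pos) := by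
  have h0 := h.toLoc.gt_Φ0
  rw [Ctx.cls_dag h0, Ctx.cls_comp h0 h0.ct, ← Ctx.cls_one]
  exact h.cls_eq_of_eqIn (h0.mul h0.ct) Ctx.ctrl_one (Eventually.of_forall fun i b a ha =>
    cubΦ0_mul_ct (h.N_pos i) b a (ha.trans_lt (by norm_num)))

theorem Tame.poinc (h : Tame Γ k N pos) {s : ℂ} (hs : s = 1 ∨ s = -1) :
    (cubForm Γ k N pos s).Poinc := by
  refine ⟨h.toLoc.isForm hs, ?_⟩
  have h1 := (IsEqv.of_iso h.toLoc.gt_comm0 h.gt_unit₁ h.gt_unit₂).of_htp h.toLoc.gt_comm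
    h.toLoc.gt_htp.symm
  rw [h.toLoc.gt_d, dag_smul, gt_conj hs]
  exact h1.scale (by rcases hs with rfl | rfl <;> simp)

theorem Loc.chain (h : Loc Γ k N pos) {E : Mat (cubObj k N pos) (cubObj k N pos)} (hE : Γ.Ctrl E)
    (hc : ∀ᶠ i in Γ.l, E i * cubD (N i) k = cubD (N i) k * E i) :
    Γ.cls E ⊚ (cubForm Γ k N pos 1).d = (cubForm Γ k N pos 1).d ⊚ Γ.cls E := by
  rw [h.gt_d1, Ctx.cls_comp hE h.gt_D, Ctx.cls_comp h.gt_D hE]
  exact Ctx.cls_congr (hE.mul h.gt_D) hc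

theorem Tame.gt_htp_of_eqIn (h : Tame Γ k N pos) {S T K : Mat (cubObj k N pos) (cubObj k N pos)}
    (hS : Γ.Ctrl S) (hT : Γ.Ctrl T) (hK : Γ.Ctrl K)
    (e : ∀ᶠ i in Γ.l, EqIn (3 / 2) (S i - T i) (cubD (N i) k * K i + K i * cubD (N i) k)) :
    Htp (Γ.cls (gtD k N pos)) (Γ.cls (gtD k N pos)) (Γ.cls S) (Γ.cls T) := by
  have hD := h.toLoc.gt_D
  refine ⟨Γ.cls K, ?_⟩
  rw [← Ctx.cls_sub hS hT, Ctx.cls_comp hD hK, Ctx.cls_comp hK hD,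
    ← Ctx.cls_add (hD.mul hK) (hK.mul hD)]
  exact h.cls_eq_of_eqIn (hS.sub hT) ((hD.mul hK).add (hK.mul hD)) e

theorem Tame.idem_poinc (h : Tame Γ k N pos) {E K₁ K₂ : Mat (cubObj k N pos) (cubObj k N pos)}
    (hE : Γ.Ctrl E) (h₁ : Γ.Ctrl K₁) (h₂ : Γ.Ctrl K₂)
    (hc : ∀ᶠ i in Γ.l, E i * cubD (N i) k = cubD (N i) k * E i)
    (e₁ : ∀ᶠ i in Γ.l, EqIn (3 / 2) (E i * E i - E i) (cubD (N i) k * K₁ i + K₁ i * cubD (N i) k))
    (e₂ : ∀ᶠ i in Γ.l, EqIn (3 / 2) ((cubΦ0 (N i) k)ᴴ * (E i)ᴴ * cubΦ0 (N i) k - E i)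
      (cubD (N i) k * K₂ i + K₂ i * cubD (N i) k)) :
    ((cubForm Γ k N pos 1).idem (Γ.cls E)).Poinc := by
  have hc1 := h.toLoc.chain hE hc
  have h0 := h.toLoc.gt_Φ0
  refine (h.poinc (Or.inl rfl)).idem hc1 ?_ ?_
  · rw [h.toLoc.gt_d1, Ctx.cls_comp hE hE]
    exact h.gt_htp_of_eqIn (hE.mul hE) hE h₁ e₁
  · rw [h.toLoc.gt_d1] at hc1 ⊢
    have hc2 : (Γ.cls E)† ⊚ (Γ.cls (gtD k N pos))† = (Γ.cls (gtD k N pos))† ⊚ (Γ.cls E)† := by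
      rw [← dag_comp, ← dag_comp, hc1]
    have a1 := h.gt_htp_of_eqIn ((h0.ct.mul hE.ct).mul h0) hE h₂ e₂
    rw [← Ctx.cls_comp (h0.ct.mul hE.ct) h0, ← Ctx.cls_comp h0.ct hE.ct, ← Ctx.cls_dag h0,
      ← Ctx.cls_dag hE] at a1
    have a2 := a1.comp_left h.toLoc.gt_comm0
    rw [comp_assoc, reassoc h.gt_unit₂, id_comp] at a2
    exact (h.toLoc.gt_htp.comp_left hc2).symm.trans (a2.trans (h.toLoc.gt_htp.comp_right hc1))

theorem Loc.htp_smul (h : Loc Γ k N pos) {E K : Mat (cubObj k N pos) (cubObj k N pos)}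
    (hE : Γ.Ctrl E) (hK : Γ.Ctrl K) (z : ℂ)
    (e : ∀ᶠ i in Γ.l, E i - z • (1 : Matrix (Cell (N i) k) (Cell (N i) k) ℂ) =
      cubD (N i) k * K i + K i * cubD (N i) k) :
    Htp (cubForm Γ k N pos 1).d (cubForm Γ k N pos 1).d (Γ.cls E)
      (z • Γ.cat.id (cubObj k N pos)) := by
  have hD := h.gt_D
  refine ⟨Γ.cls K, ?_⟩
  rw [h.gt_d1, ← Ctx.cls_one, ← Ctx.cls_smul z Ctx.ctrl_one, ← Ctx.cls_sub hE (Ctx.ctrl_one.smul z),
    Ctx.cls_comp hD hK, Ctx.cls_comp hK hD, ← Ctx.cls_add (hD.mul hK) (hK.mul hD)]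
  exact Ctx.cls_congr (hE.sub (Ctx.ctrl_one.smul z)) e

theorem Loc.map_res (h : Loc Γ k N pos) {Γ' : Ctx ι Z} (hle : Ctx.Le Γ Γ') (s : ℂ) :
    (cubForm Γ k N pos s).map (Ctx.res hle) = cubForm Γ' k N pos s := by
  have h1 := Ctx.res_cls hle (h.gt_D.smul s)
  have h2 := Ctx.res_cls hle h.gt_Φ
  exact congrArg₂ (Form.mk (cubObj k N pos)) h1 h2

/-- the positions have asymptotically the coordinates of the cell centres -/
structure Std (σ : SCtx ι Z) (k : ℕ) (N : ι → ℕ) (pos : ∀ i, Cell (N i) k → Z) : Prop where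
  N_pos : ∀ i, 0 < N i
  tendsto : Tendsto N σ.l atTop
  R_le : σ.R ≤ 1
  close : ∀ η : ℝ, 0 < η → ∀ᶠ i in σ.l, ∀ a : Cell (N i) k, ‖σ.co k i (pos i a) - a.pt‖ ≤ η

theorem Std.loc {σ : SCtx ι Z} (h : Std σ k N pos) (m : ℕ) (hm : m ≤ k) :
    Loc (σ.ctx₂ k m hm) k N pos := by
  refine ⟨h.N_pos, fun η hη => ?_⟩
  have h1 : Tendsto (fun i => (2 : ℝ) / N i) σ.l (nhds 0) :=
    (tendsto_const_div_atTop_nhds_zero_nat 2).comp h.tendsto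
  have h2 := h1.eventually (ge_mem_nhds (show (0 : ℝ) < η / 3 by positivity))
  change ∀ᶠ i in σ.l, _
  filter_upwards [h.close (η / 3) (by positivity), h2] with i h3 h4 a b hab
  change ‖σ.co k i (pos i b) - σ.co k i (pos i a)‖ ≤ η
  have t1 := norm_sub_le_norm_sub_add_norm_sub (σ.co k i (pos i b)) b.pt (σ.co k i (pos i a))
  have t2 := norm_sub_le_norm_sub_add_norm_sub b.pt a.pt (σ.co k i (pos i a))
  have t3 := h3 a
  rw [norm_sub_rev] at t3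
  linarith [h3 b]
theorem Std.tame {σ : SCtx ι Z} (h : Std σ k N pos) : Tame (σ.ctx k) k N pos := by
  refine ⟨h.loc k le_rfl, ?_⟩
  change ∀ᶠ i in σ.l, _
  filter_upwards [h.close (1 / 2) (by norm_num)] with i h1 a ha
  change σ.R - ‖σ.co k i (pos i a)‖ ≤ 0
  have t1 := norm_sub_norm_le a.pt (σ.co k i (pos i a))
  rw [norm_sub_rev] at t1
  linarith [h1 a, h.R_le]

end Crest.Agent.R217
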