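import Crest.Agent.R217.A2d

/-! # Row 217, part A2: Gleason norm ⇒ exponential chart (Tao, §1.3). -/

set_option autoImplicit false

namespace Crest.Agent.R217

theorem expChart_of_gleason (G : Type*) [Group G] [TopologicalSpace G] [IsTopologicalGroup G]
    [T2Space G] [SecondCountableTopology G] [LocallyCompactSpace G]
    (ν : G → ℝ) (C : ℝ) (h : Gleason ν C) :
    ∃ (d : ℕ) (exp : EuclideanSpace ℝ (Fin d) → G) (log : G → EuclideanSpace ℝ (Fin d)) (r C' : ℝ),
      ExpChart exp log r C' := by
  obtain ⟨ρ, M, H⟩ := (a2_pre h).transfer h (toEuclidean (E := A2OP h)).symm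
  obtain ⟨log, r, C', H'⟩ := H.chart h
  exact ⟨_, _, log, r, C', H'⟩

end Crest.Agent.R217
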