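import Crest.Agent.R217.A3Mul

/-! # Row 217, part A3: exponential chart with the `C^{1,1}` estimate ⇒ smooth Lie group (Tao, §1.2). -/

set_option autoImplicit false
open scoped Manifold ContDiff

namespace Crest.Agent.R217

section

open Filter Topology Metric Set

variable {G V : Type*} [Group G] [TopologicalSpace G] [IsTopologicalGroup G]
  [NormedAddCommGroup V] [NormedSpace ℝ V] [CompleteSpace V] {ex : V → G} {lg : G → V} {r C : ℝ}

theorem a3_lie (h : ExpChart ex lg r C) :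
    ∃ c : ChartedSpace V G, @LieGroup ℝ _ V _ V _ _ 𝓘(ℝ, V) ∞ G _ _ c := by
  obtain ⟨ρ, hρ, hρr, hμ⟩ := h.a3_mu_smooth
  have hc := h.cont_exp
  have h0 : (0 : V) ∈ ball (0 : V) ρ := mem_ball_self hρ
  have hsrc : ∀ g : G, g ∈ (h.a3chart hρr g).source := fun g =>
    ⟨0, h0, by simp [h.a3_exp_zero]⟩
  letI c : ChartedSpace V G :=
    { atlas := range (h.a3chart hρr)
      chartAt := h.a3chart hρr
      mem_chart_source := hsrc
      chart_mem_atlas := fun g => ⟨g, rfl⟩ }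
  haveI hM : IsManifold 𝓘(ℝ, V) ∞ G := by
    refine isManifold_of_contDiffOn _ _ _ ?_
    rintro _ _ ⟨g, rfl⟩ ⟨k, rfl⟩ x ⟨⟨hx, z, hz, e⟩, -⟩
    change x ∈ ball 0 ρ at hx
    change ex z = k⁻¹ * (g * ex x) at e
    change ContDiffWithinAt ℝ ∞ (fun y => lg (k⁻¹ * (g * ex y))) _ x
    refine ContDiffAt.contDiffWithinAt ?_
    have h1 : ContDiffAt ℝ ∞ (fun y => lg (ex (-x) * ex y)) x :=
      (hμ (-x) (by simpa using hx) x hx).comp x (f := fun y => (-x, y)) (by fun_prop)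
    have h2 : ContDiffAt ℝ ∞ (fun y => lg (ex z * ex (lg (ex (-x) * ex y)))) x := by
      refine ContDiffAt.comp x (g := fun q : V × V => lg (ex q.1 * ex q.2))
        (f := fun y => (z, lg (ex (-x) * ex y))) ?_ (contDiffAt_const.prodMk h1)
      simpa [h.a3_exp_neg, h.a3_log_one] using hμ z hz 0 h0
    refine h2.congr_of_eventuallyEq ?_
    have t1 : Tendsto (fun y => ex (-x) * ex y) (𝓝 x) (𝓝 1) :=
      Continuous.tendsto' (by fun_prop) _ _ (by simp [h.a3_exp_neg])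
    filter_upwards [h.a3_ev_exp_log t1] with y hy
    rw [hy, e, h.a3_exp_neg]
    congr 1
    group
  have hch : ∀ g : G, ContMDiffAt 𝓘(ℝ, V) 𝓘(ℝ, V) ∞ (fun k => lg (g⁻¹ * k)) g := fun g =>
    contMDiffAt_of_mem_maximalAtlas (IsManifold.chart_mem_maximalAtlas g) (hsrc g)
  have hsy : ∀ g : G, ContMDiffAt 𝓘(ℝ, V) 𝓘(ℝ, V) ∞ (fun x => g * ex x) 0 := fun g =>
    contMDiffAt_symm_of_mem_maximalAtlas (IsManifold.chart_mem_maximalAtlas g) h0
  have hev : ∀ g : G, ∀ᶠ k in 𝓝 g, ex (lg (g⁻¹ * k)) = g⁻¹ * k := fun g =>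
    h.a3_ev_exp_log (Continuous.tendsto' (by fun_prop) _ _ (inv_mul_cancel g))
  refine ⟨c, { contMDiff_mul := fun p => ?_, contMDiff_inv := fun g => ?_ }⟩
  · obtain ⟨g, k⟩ := p
    have h1 : ContMDiffAt (𝓘(ℝ, V).prod 𝓘(ℝ, V)) 𝓘(ℝ, V × V) ∞
        (fun p : G × G => (lg (g⁻¹ * p.1), lg (k⁻¹ * p.2))) (g, k) :=
      ((hch g).comp (g, k) contMDiffAt_fst).prodMk_space ((hch k).comp (g, k) contMDiffAt_snd)
    have h2 : ContDiffAt ℝ ∞ (fun q : V × V => lg (ex (h.a3Ad k⁻¹ q.1) * ex q.2))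
        (lg (g⁻¹ * g), lg (k⁻¹ * k)) := by
      refine ContDiffAt.comp _ (g := fun q : V × V => lg (ex q.1 * ex q.2))
        (f := fun q : V × V => (h.a3Ad k⁻¹ q.1, q.2)) ?_ (by fun_prop)
      simpa [h.a3_log_one] using hμ 0 h0 0 h0
    have h3 := (hsy (g * k)).comp_of_eq (ContDiffAt.comp_contMDiffAt (x := (g, k))
      (f := fun p : G × G => (lg (g⁻¹ * p.1), lg (k⁻¹ * p.2))) h2 h1) (by
      simp [h.a3_log_one, h.a3_exp_zero])
    refine h3.congr_of_eventuallyEq ?_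
    have t1 : Tendsto (fun p : G × G => (g * k)⁻¹ * (p.1 * p.2)) (𝓝 (g, k)) (𝓝 1) :=
      Continuous.tendsto' (by fun_prop) _ _ (inv_mul_cancel _)
    filter_upwards [h.a3_ev_exp_log t1, (continuous_fst.tendsto (g, k)).eventually (hev g),
      (continuous_snd.tendsto (g, k)).eventually (hev k)] with p e1 e2 e3
    simp only [Function.comp_apply]
    have e4 : ex (h.a3Ad k⁻¹ (lg (g⁻¹ * p.1))) * ex (lg (k⁻¹ * p.2)) = (g * k)⁻¹ * (p.1 * p.2) := by
      rw [← h.a3Ad_spec, e2, e3]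
      group
    rw [e4, e1, mul_inv_cancel_left]
  · have h2 : ContDiffAt ℝ ∞ (fun x : V => -h.a3Ad g x) (lg (g⁻¹ * g)) := by fun_prop
    have h3 := (hsy g⁻¹).comp_of_eq (ContDiffAt.comp_contMDiffAt (x := g)
      (f := fun k => lg (g⁻¹ * k)) h2 (hch g)) (by simp [h.a3_log_one])
    refine h3.congr_of_eventuallyEq ?_
    filter_upwards [hev g] with k e
    simp only [Function.comp_apply]
    rw [h.a3_exp_neg, ← h.a3Ad_spec, e]
    group

end

theorem lie_of_expChart (G : Type*) [Group G] [TopologicalSpace G] [IsTopologicalGroup G]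
    (d : ℕ) (exp : EuclideanSpace ℝ (Fin d) → G) (log : G → EuclideanSpace ℝ (Fin d)) (r C : ℝ)
    (h : ExpChart exp log r C) :
    ∃ c : ChartedSpace (EuclideanSpace ℝ (Fin d)) G,
      @LieGroup ℝ _ (EuclideanSpace ℝ (Fin d)) _ (EuclideanSpace ℝ (Fin d)) _ _
        𝓘(ℝ, EuclideanSpace ℝ (Fin d)) ∞ G _ _ c :=
  a3_lie h

end Crest.Agent.R217
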