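import Crest.Agent.R217.PartA1
import Crest.Agent.R217.PartA2
import Crest.Agent.R217.PartA3

/-! # Row 217, part A: a locally compact NSS group is a Lie group (Gleason, Montgomery–Zippin, Yamabe). -/

set_option autoImplicit false
open scoped Manifold ContDiff

namespace Crest.Agent.R217

theorem lie_of_nss (G : Type*) [Group G] [TopologicalSpace G] [IsTopologicalGroup G] [T2Space G]
    [SecondCountableTopology G] [LocallyCompactSpace G] (h : NSS G) :
    ∃ (d : ℕ) (c : ChartedSpace (EuclideanSpace ℝ (Fin d)) G),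
      @LieGroup ℝ _ (EuclideanSpace ℝ (Fin d)) _ (EuclideanSpace ℝ (Fin d)) _ _
        𝓘(ℝ, EuclideanSpace ℝ (Fin d)) ∞ G _ _ c := by
  obtain ⟨ν, C, hν⟩ := gleason_of_nss G h
  obtain ⟨d, exp, log, r, C', he⟩ := expChart_of_gleason G ν C hν
  exact ⟨d, lie_of_expChart G d exp log r C' he⟩

end Crest.Agent.R217
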