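import Crest.Agent.R217.A1Conv

/-! # Row 217, part A1: NSS ⇒ Gleason norm (Tao, Hilbert's fifth problem, §1.5). -/

set_option autoImplicit false
open Filter Topology Set

namespace Crest.Agent.R217

section
variable {G : Type*} [Group G] [TopologicalSpace G] [IsTopologicalGroup G] [T2Space G]

/-- the data used in both convolution arguments -/
structure a1_Data (K U : Set G) (c : ℝ) : Prop where
  cpt : IsCompact K
  one : (1 : G) ∈ U
  nhds : U ∈ 𝓝 (1 : G)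
  symm : ∀ x ∈ U, x⁻¹ ∈ U
  c_pos : 0 < c
  comp : ∀ V ∈ 𝓝 (1 : G), ∃ m : ℝ, 1 ≤ m ∧ ∀ g, a1_esc V g ≤ m * a1_esc U g
  conv : ∀ N N' : G → ℝ, a1_SN N → a1_SN N' → (∀ g, N g < 1 → g ∈ U) →
    (∀ g, N' g < 1 → g ∈ U) → ∃ φ : G → ℝ, (∀ x y, |φ x - φ y| ≤ 1) ∧
      (∀ g a, (∀ x, |φ (g * x) - φ x| ≤ a) → a1_esc U g ≤ c * a) ∧ ∀ g ∈ U, ∀ (h : G) (b : ℝ),
        (∀ y ∈ K, N' (y⁻¹ * h * y) ≤ b) →
        ∀ x, |φ (g * (h * x)) - φ (h * x) - (φ (g * x) - φ x)| ≤ N g * b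

lemma a1_exists_data [LocallyCompactSpace G] (h : NSS G) :
    ∃ (K U : Set G) (c : ℝ), a1_Data K U c := by
  obtain ⟨W, hW, hn⟩ := h
  obtain ⟨K₀, hK₀, hKW, hc⟩ := LocallyCompactSpace.local_compact_nhds 1 W hW
  have hKn : K₀ ∩ K₀⁻¹ ∈ 𝓝 (1 : G) := inter_mem hK₀ (inv_mem_nhds_one G hK₀)
  have hK : IsCompact (K₀ ∩ K₀⁻¹) := hc.inter hc.inv
  have hcomp := fun V (hV : V ∈ 𝓝 (1 : G)) => a1_compare hK (mem_of_mem_nhds hKn)
    (fun x hx => ⟨hx.2, by simpa using hx.1⟩)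
    (fun H hH => hn H fun x hx => hKW (hH hx).1) hV
  obtain ⟨V, hV, h4⟩ := exists_nhds_one_split4 hKn
  obtain ⟨U, hU, h1, hUV, hs⟩ := a1_symm hV
  have h4' : ∀ a ∈ U, ∀ b ∈ U, ∀ c ∈ U, ∀ d ∈ U, a * b * c * d ∈ K₀ ∩ K₀⁻¹ :=
    fun a ha b hb c hc d hd => h4 (hUV ha) (hUV hb) (hUV hc) (hUV hd)
  have hUK : U ⊆ K₀ ∩ K₀⁻¹ := fun x hx => by simpa using h4' x hx 1 h1 1 h1 1 h1
  obtain ⟨κ, hκ, hconv⟩ := a1_conv hK hU h1 hs h4'
  obtain ⟨m, hm, hmU⟩ := hcomp U (hU.mem_nhds h1)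
  refine ⟨_, U, m / κ, hK, h1, hU.mem_nhds h1, hs, by positivity, fun V hV => ?_,
    fun N N' hN hN' hNU hNU' => ?_⟩
  · obtain ⟨m', hm', h'⟩ := hcomp V hV
    exact ⟨m', hm', fun g => (h' g).trans
      (mul_le_mul_of_nonneg_left (a1_esc_mono h1 hUK g) (by linarith))⟩
  · obtain ⟨φ, a1, a2, a3⟩ := hconv N N' hN hN' hNU hNU'
    refine ⟨φ, a1, fun g a ha => (hmU g).trans ?_, a3⟩
    rw [div_mul_eq_mul_div, mul_div_assoc]
    exact mul_le_mul_of_nonneg_left (a1_lip_esc hκ a2 ha) (by linarith)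

variable {K U : Set G} {c : ℝ}

/-- the bootstrap step -/
lemma a1_Data.step (D : a1_Data K U c) : ∃ C : ℝ, 0 < C ∧ ∀ f : G → ℝ, (∀ g, a1_esc U g ≤ f g) →
    (∀ g, f g⁻¹ = f g) → ∀ M : ℝ, 0 < M → (∀ g, a1_esc U g ≤ M * a1_star f g) →
      ∀ g, a1_esc U g ≤ (M / 2 + C) * a1_star f g := by
  have hc := D.c_pos
  obtain ⟨N', hN', hNU', hsm⟩ := a1_exists_SN D.nhds (δ := 1 / (2 * c)) (by positivity)
  have hV := a1_tube D.cpt hsm
  obtain ⟨m, hm, hmV⟩ := D.comp _ hV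
  refine ⟨c * m, by positivity, fun f hf hi M hM hMf g => ?_⟩
  have hf0 : ∀ g, 0 ≤ f g := fun g => (a1_esc_nonneg U g).trans (hf g)
  obtain ⟨φ, a1, a2, a3⟩ := D.conv (fun g => M * a1_star f g) N'
    ((a1_star_SN hf0 hi).const_mul hM.le) hN'
    (fun g hg => a1_mem_of_lt D.one ((hMf g).trans_lt hg)) hNU'
  have key : ∀ g x, |φ (g * x) - φ x| ≤ (m + M / (2 * c)) * f g := fun g x => by
    have b0 : 0 ≤ M / (2 * c) * f g := mul_nonneg (by positivity) (hf0 g)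
    have b1 := mul_le_mul_of_nonneg_left (hf g) (by linarith : 0 ≤ m)
    by_cases hg : g ∈ U
    · have b2 := a1_first_diff a1 (mem_of_mem_nhds hV) (fun k hk => a3 g hg k _ hk) x
      have b3 : M * a1_star f g * (1 / (2 * c)) ≤ M / (2 * c) * f g := by
        rw [show M * a1_star f g * (1 / (2 * c)) = M / (2 * c) * a1_star f g by ring]
        exact mul_le_mul_of_nonneg_left (a1_star_le hf0 g) (by positivity)
      linarith [hmV g]
    · have b2 : 1 ≤ a1_esc U g := not_lt.1 fun h => hg (a1_mem_of_lt D.one h)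
      have b3 := mul_le_mul hm b2 zero_le_one (by linarith)
      linarith [a1 (g * x) x]
  refine a1_le_mul_star (by positivity) fun l hl => ?_
  have b4 := a2 _ _ (a1_lip_list key l)
  rw [hl, List.sum_map_mul_left, ← mul_assoc] at b4
  refine b4.trans (le_of_eq ?_)
  congr 1
  field_simp
  ring

/-- the approximate triangle inequality -/
lemma a1_Data.triangle (D : a1_Data K U c) :
    ∃ M : ℝ, 1 ≤ M ∧ ∀ g, a1_esc U g ≤ M * a1_star (a1_esc U) g := by
  obtain ⟨C, hC, hstep⟩ := D.step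
  have main : ∀ ε : ℝ, 0 < ε →
      ∀ g, a1_esc U g ≤ (2 * C + 1) * a1_star (fun g => a1_esc U g + ε) g := fun ε hε => by
    have hf0 : ∀ g, 0 ≤ a1_esc U g + ε := fun g => by linarith [a1_esc_nonneg U g]
    have hi : ∀ g, a1_esc U g⁻¹ + ε = a1_esc U g + ε := fun g => by rw [a1_esc_inv D.symm]
    obtain ⟨A, hA⟩ : ∃ A : Set ℝ, A = {M | 0 < M ∧
      ∀ g, a1_esc U g ≤ M * a1_star (fun g => a1_esc U g + ε) g} := ⟨_, rfl⟩
    have hne : A.Nonempty := ⟨1 / ε, hA ▸ ⟨by positivity, fun g =>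
      a1_le_mul_star (by positivity) fun l hl => by
        rcases l with _ | ⟨x, l⟩
        · simp [← hl, a1_esc_one D.one]
        · rw [List.map_cons, List.sum_cons, one_div, le_inv_mul_iff₀ hε]
          have b1 := mul_le_mul_of_nonneg_left (a1_esc_le_one D.one g) hε.le
          linarith [a1_sum_nonneg hf0 l, a1_esc_nonneg U x]⟩⟩
    have hbd : BddBelow A := ⟨0, fun M hM => (hA ▸ hM : M ∈ {M : ℝ | 0 < M ∧ _}).1.le⟩
    have h1 : 2 * (sInf A - C) ≤ sInf A := le_csInf hne fun M hM => by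
      have hM' := hA ▸ hM
      have : M / 2 + C ∈ A := hA ▸ ⟨by linarith [hM'.1],
        hstep _ (fun g => by linarith) hi M hM'.1 hM'.2⟩
      linarith [csInf_le hbd this]
    obtain ⟨M, hM, hlt⟩ := exists_lt_of_csInf_lt hne (show sInf A < 2 * C + 1 by linarith)
    rw [hA] at hM
    exact fun g => (hM.2 g).trans
      (mul_le_mul_of_nonneg_right hlt.le ((a1_star_SN hf0 hi).nonneg g))
  refine ⟨2 * C + 1, by linarith, fun g => a1_le_mul_star (by positivity) fun l hl => ?_⟩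
  refine le_of_forall_pos_le_add fun δ hδ => ?_
  have hp : (0 : ℝ) < (2 * C + 1) * (l.length + 1) := by positivity
  have b1 := main (δ / ((2 * C + 1) * (l.length + 1))) (by positivity) g
  have b2 := a1_star_le_sum (f := fun g => a1_esc U g + δ / ((2 * C + 1) * (l.length + 1)))
    (fun g => add_nonneg (a1_esc_nonneg U g) (by positivity)) l
  rw [hl, List.sum_map_add] at b2
  simp only [List.map_const', List.sum_replicate, nsmul_eq_mul] at b2
  have b3 := mul_le_mul_of_nonneg_left b2 (by positivity : 0 ≤ 2 * C + 1)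
  have b4 : (2 * C + 1) * (l.length * (δ / ((2 * C + 1) * (l.length + 1)))) ≤ δ := by
    rw [← mul_assoc, ← mul_div_assoc, div_le_iff₀ hp, mul_comm δ]
    gcongr
    linarith
  exact b1.trans (b3.trans ((mul_add _ _ _).trans_le (add_le_add le_rfl b4)))

/-- the commutator estimate -/
lemma a1_Data.commutator (D : a1_Data K U c) {ν : G → ℝ} (hν : a1_SN ν) {M : ℝ} (hM : 1 ≤ M)
    (h1 : ∀ g, ν g ≤ a1_esc U g) (h2 : ∀ g, a1_esc U g ≤ M * ν g) :
    ∃ C : ℝ, 0 < C ∧ ∀ g ∈ U, ∀ h ∈ U, ν (g⁻¹ * h⁻¹ * g * h) ≤ C * ν g * ν h := by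
  have hc := D.c_pos
  have hM0 : 0 < M := by linarith
  have hV := a1_tube D.cpt D.nhds
  obtain ⟨m, hm, hmV⟩ := D.comp _ hV
  have hU : ∀ g, M * ν g < 1 → g ∈ U := fun g hg => a1_mem_of_lt D.one ((h2 g).trans_lt hg)
  obtain ⟨φ, -, a2, a3⟩ := D.conv _ _ (hν.const_mul hM0.le) (hν.const_mul hM0.le) hU hU
  have key : ∀ g ∈ U, ∀ h x, |φ (g * (h * x)) - φ (h * x) - (φ (g * x) - φ x)| ≤
      M ^ 3 * m * ν g * ν h := fun g hg h x => by
    refine (a3 g hg h (M * (m * (M * ν h))) (fun y hy => ?_) x).trans (le_of_eq (by ring))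
    refine mul_le_mul_of_nonneg_left ((h1 _).trans ?_) hM0.le
    exact (a1_esc_conj (mem_of_mem_nhds hV) (fun k hk => hk y hy) h).trans
      ((hmV h).trans (mul_le_mul_of_nonneg_left (h2 h) (by linarith)))
  refine ⟨c * (2 * (M ^ 3 * m)), by positivity, fun g hg h hh => (h1 _).trans ?_⟩
  refine (a2 _ (2 * (M ^ 3 * m * ν g * ν h)) fun x => ?_).trans (le_of_eq (by ring))
  have b1 := abs_le.1 (key _ (D.symm g hg) h⁻¹ (g * h * x))
  have b2 := abs_le.1 (key _ (D.symm h hh) g⁻¹ (g * h * x))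
  rw [hν.map_inv, hν.map_inv] at b1 b2
  rw [show h⁻¹ * (g⁻¹ * (g * h * x)) = x by group] at b2
  rw [show g⁻¹ * h⁻¹ * g * h * x = g⁻¹ * (h⁻¹ * (g * h * x)) by group, abs_le]
  constructor <;> linarith [b1.1, b1.2, b2.1, b2.2]

end

theorem gleason_of_nss (G : Type*) [Group G] [TopologicalSpace G] [IsTopologicalGroup G] [T2Space G]
    [SecondCountableTopology G] [LocallyCompactSpace G] (h : NSS G) :
    ∃ (ν : G → ℝ) (C : ℝ), Gleason ν C := by
  obtain ⟨K, U, c, D⟩ := a1_exists_data h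
  obtain ⟨M, hM, h2⟩ := D.triangle
  have hν := a1_star_SN (a1_esc_nonneg U) (a1_esc_inv D.symm)
  have h1 := a1_star_le (a1_esc_nonneg U)
  generalize a1_star (a1_esc U) = ν at h1 h2 hν
  obtain ⟨C, hC, hcomm⟩ := D.commutator hν hM h1 h2
  obtain ⟨V, hV, hVU⟩ := exists_nhds_one_split D.nhds
  obtain ⟨m, hm, hmV⟩ := D.comp V hV
  have hmM : M ≤ m * M := le_mul_of_one_le_left (by linarith) hm
  have hC' : 0 < m * M + C := by linarith
  have hU : ∀ g, ν g ≤ 1 / (m * M + C) → g ∈ U := fun g hg => by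
    refine a1_mem_of_lt D.one ((h2 g).trans_lt
      ((mul_le_mul_of_nonneg_left hg (by linarith)).trans_lt ?_))
    rw [mul_one_div, div_lt_one hC']
    linarith
  refine ⟨ν, m * M + C, by linarith, hν.nonneg, hν.map_one, hν.map_inv, hν.mul_le,
    fun r hr => ?_, fun W hW => ?_, fun g n hn => ?_, fun g k hg hk => ?_⟩
  · filter_upwards [a1_esc_small D.nhds (half_pos hr)] with g hg
    exact ((h1 g).trans hg).trans_lt (half_lt_self hr)
  · obtain ⟨m', hm', h'⟩ := D.comp W hW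
    have hp : 0 < m' * M := mul_pos (by linarith) (by linarith)
    refine ⟨1 / (m' * M), by positivity, fun g hg => a1_mem_of_lt (mem_of_mem_nhds hW) ?_⟩
    have b1 : ν g < 1 / (m' * M) := hg
    rw [lt_div_iff₀ hp] at b1
    have b2 := mul_le_mul_of_nonneg_left (h2 g) (by linarith : 0 ≤ m')
    linarith [h' g]
  · have b0 : ∀ g, a1_esc V g ≤ m * M * ν g := fun g => by
      rw [mul_assoc]
      exact (hmV g).trans (mul_le_mul_of_nonneg_left (h2 g) (by linarith))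
    have b1 : (n : ℝ) * a1_esc V g < 1 := by
      refine (mul_le_mul_of_nonneg_left (b0 g) (Nat.cast_nonneg n)).trans_lt ?_
      rw [mul_left_comm]
      refine (mul_le_mul_of_nonneg_left hn (by linarith)).trans_lt ?_
      rw [mul_one_div, div_lt_one hC']
      linarith
    have b2 := a1_esc_pow (mem_of_mem_nhds hV) hVU b1
    have b3 := mul_le_mul_of_nonneg_left (h1 g) (Nat.cast_nonneg (α := ℝ) n)
    have b4 := mul_nonneg hC.le (hν.nonneg (g ^ n))
    linarith [b0 (g ^ n)]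
  · refine (hcomm g (hU g hg) k (hU k hk)).trans ?_
    have := hν.nonneg g
    have := hν.nonneg k
    gcongr
    linarith

end Crest.Agent.R217
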