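import Crest.Agent.R217.PartBAux
import Crest.Agent.R217.GStd
import Crest.Agent.R217.BTwist2

/-! # Row 217, part B: the local theorem `ThmS`. -/

set_option autoImplicit false
open Filter Metric Set Matrix

namespace Crest.Agent.R217
open DC Ctx

/-- a sequence of counterexamples with all the chain-level data -/
structure Fam (n : ℕ) : Type where
  ε : ℕ → ℝ
  ε' : ℕ → ℝ
  p : ℕ → ℕ
  ζ : ℕ → ℂ
  W : ℕ → Set (Fin n → ℝ)
  g : ℕ → (Fin n → ℝ) → Fin n → ℝ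
  f : ℕ → (Fin n → ℝ) → Fin n → ℝ
  ρ : ℕ → (Fin n → ℝ) → (Fin n → ℝ) → ℝ
  ω : ℕ → (Fin n → ℝ) → (Fin n → ℝ) → ℂ
  r : ℕ → ℝ
  N : ℕ × ℕ → ℕ
  q : ℕ × ℕ → ℕ
  qne : ∀ i, NeZero (q i)
  δ : ℕ × ℕ → ℝ
  G : ∀ i, ZMod (q i) → Matrix (Cell (N i) n) (Cell (N i) n) ℂ
  K₁ : ℕ → ∀ i, Matrix (Cell (N i) n) (Cell (N i) n) ℂ
  K₂ : ℕ → ∀ i, Matrix (Cell (N i) n) (Cell (N i) n) ℂ
  K₃ : ℕ → ∀ i, Matrix (Cell (N i) n) (Cell (N i) n) ℂ
  ε_le : ∀ j, ε j ≤ 1 / 8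
  ε_lim : Tendsto ε atTop (nhds 0)
  ε'_lim : Tendsto ε' atTop (nhds 0)
  act : ∀ j, SmallAction (ε j) (p j) (W j) (g j)
  orb : ∀ j, OrbitData (ε j) (p j) (ζ j) (g j) (f j) (ρ j) (ω j) (r j)
  N_pos : ∀ i, 0 < N i
  N_ge : ∀ j m, m ≤ N (j, m)
  δ_lim : ∀ j, Tendsto (fun m => δ (j, m)) atTop (nhds 0)
  G_near : ∀ i a, Near (fun c => pbγ (g i.1) (q i) a c.pt) (δ i) (G i a)
  chain : ∀ (t : ℕ) i, avg (fun a => (ζ i.1 ^ t) ^ a.val) (G i) * cubD (N i) n =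
    cubD (N i) n * avg (fun a => (ζ i.1 ^ t) ^ a.val) (G i)
  K₁_near : ∀ t i, NearOrb (pbγ (g i.1) (q i)) (δ i) (K₁ t i)
  K₁_eq : ∀ (t : ℕ) i, EqIn (3 / 2) (avg (fun a => (ζ i.1 ^ t) ^ a.val) (G i) *
    avg (fun a => (ζ i.1 ^ t) ^ a.val) (G i) - avg (fun a => (ζ i.1 ^ t) ^ a.val) (G i))
    (cubD (N i) n * K₁ t i + K₁ t i * cubD (N i) n)
  K₂_near : ∀ t i, NearOrb (pbγ (g i.1) (q i)) (δ i) (K₂ t i)
  K₂_eq : ∀ (t : ℕ) i, EqIn (3 / 2) ((cubΦ0 (N i) n)ᴴ * (avg (fun a => (ζ i.1 ^ t) ^ a.val) (G i))ᴴ *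
    cubΦ0 (N i) n - avg (fun a => (ζ i.1 ^ t) ^ a.val) (G i))
    (cubD (N i) n * K₂ t i + K₂ t i * cubD (N i) n)
  K₃_near : ∀ t i, Near Cell.pt (ε' i.1) (K₃ t i)
  K₃_zero : ∀ i, avg (fun a => (ζ i.1 ^ 0) ^ a.val) (G i) - (1 : ℂ) • 1 =
    cubD (N i) n * K₃ 0 i + K₃ 0 i * cubD (N i) n
  K₃_one : ∀ i, avg (fun a => (ζ i.1 ^ 1) ^ a.val) (G i) - (0 : ℂ) • 1 =
    cubD (N i) n * K₃ 1 i + K₃ 1 i * cubD (N i) n

theorem nonempty_fam (n : ℕ) (h : ¬ ThmS n) : Nonempty (Fam n) := by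
  obtain ⟨C, hC, hchain⟩ := chain_idem n
  have hC0 : 0 < C := by linarith
  set ε : ℕ → ℝ := fun j => 1 / (8 * C) * (1 / ((j : ℝ) + 1)) with hεdef
  have hε0 : ∀ j, 0 < ε j := fun j => by positivity
  have hCε : ∀ j, C * ε j ≤ 1 / 8 := fun j => by
    have h1 : 1 / ((j : ℝ) + 1) ≤ 1 := by
      rw [div_le_one (by positivity)]; linarith [Nat.cast_nonneg (α := ℝ) j]
    have : C * ε j = 1 / 8 * (1 / ((j : ℝ) + 1)) := by simp only [hεdef]; field_simp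
    rw [this]; linarith
  have hε8 : ∀ j, ε j ≤ 1 / 8 := fun j => by nlinarith [hCε j, hε0 j]
  have hεlim : Tendsto ε atTop (nhds 0) := by
    have := tendsto_one_div_add_atTop_nhds_zero_nat.const_mul (1 / (8 * C))
    rwa [mul_zero] at this
  have hex : ∀ j, ∃ (p : ℕ) (W : Set (Fin n → ℝ)) (g : (Fin n → ℝ) → Fin n → ℝ),
      SmallAction (ε j) p W g ∧ g 0 ≠ 0 := by
    intro j
    by_contra hc
    push Not at hc
    exact h ⟨ε j, hε0 j, fun p hp W hW hb g hm h1 h2 h3 => hc p W g ⟨hp, hW, hb, hm, h1, h2, h3⟩⟩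
  choose p W g hact hg0 using hex
  have hζ : ∀ j, ∃ ζ : ℂ, ζ ^ p j = 1 ∧ ζ ≠ 1 := fun j =>
    ⟨_, (Complex.isPrimitiveRoot_exp (p j) (hact j).prime.ne_zero).pow_eq_one,
      (Complex.isPrimitiveRoot_exp (p j) (hact j).prime.ne_zero).ne_one (hact j).prime.one_lt⟩
  choose ζ hζp hζ1 using hζ
  choose f ρ ω r horb using fun j => exists_orbitData (hact j) (hg0 j) (ζ j) (hζp j)
  choose N k δ₁ δ₂ hN hδ happ using
    fun i : ℕ × ℕ => (hact i.1).exists_approx (hε0 i.1) hC (hCε i.1) i.2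
  have hq : ∀ i : ℕ × ℕ, NeZero (p i.1 ^ (k i + 1)) :=
    fun i => ⟨pow_ne_zero _ (hact i.1).prime.ne_zero⟩
  have hζq : ∀ (t : ℕ) (i : ℕ × ℕ), (ζ i.1 ^ t) ^ (p i.1 ^ (k i + 1)) = 1 := fun t i => by
    rw [← pow_mul, pow_succ, mul_comm t, mul_comm _ (p i.1), mul_assoc, pow_mul, hζp, one_pow]
  choose G hG hGχ using fun i : ℕ × ℕ => hchain _ _ _ _ _ _ (happ i)
  have hall := fun (t : ℕ) (i : ℕ × ℕ) =>
    hGχ i (fun a => (ζ i.1 ^ t) ^ a.val) (pbχ_add (hζq t i)) (pbχ_star (hζq t i))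
  choose K₁ hK₁ hK₁' using fun t i => (hall t i).2.1
  choose K₂ hK₂ hK₂' using fun t i => (hall t i).2.2.1
  choose K₃ hK₃ hK₃' using fun t i => (hall t i).2.2.2
  refine ⟨⟨ε, fun j => C * ε j, p, ζ, W, g, f, ρ, ω, r, N, fun i => p i.1 ^ (k i + 1), hq,
    fun i => C * δ₂ i, G, K₁, K₂, K₃, hε8, hεlim, by simpa using hεlim.const_mul C, hact, horb,
    fun i => (happ i).N_pos, fun j m => hN (j, m), fun j => ?_, hG, fun t i => (hall t i).1,
    hK₁, hK₁', hK₂, hK₂', hK₃, fun i => ?_, fun i => ?_⟩⟩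
  · have h0 : ∀ m, 0 ≤ δ₂ (j, m) := fun m => by
      have h1 := (happ (j, m)).mesh
      have h2 := (happ (j, m)).le₁₂
      have : (0 : ℝ) ≤ 2 / (N (j, m) : ℝ) := by positivity
      linarith
    have : Tendsto (fun m => δ₂ (j, m)) atTop (nhds 0) :=
      squeeze_zero h0 (fun m => hδ (j, m)) tendsto_one_div_add_atTop_nhds_zero_nat
    simpa using this.const_mul C
  · rw [← hK₃' 0 i]
    have : ((p i.1 ^ (k i + 1) : ℕ) : ℂ) ≠ 0 := by exact_mod_cast (hq i).ne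
    congr 2
    simp only [pow_zero, one_pow, Finset.sum_const, Finset.card_univ, ZMod.card, nsmul_eq_mul,
      mul_one]
    exact (inv_mul_cancel₀ this).symm
  · rw [← hK₃' 1 i, pbχ_sum (hζq 1 i) (Nat.one_lt_pow (by omega) (hact i.1).prime.one_lt)
      (by simpa using hζ1 i.1), mul_zero]

namespace Fam
variable {n : ℕ} (F : Fam n)

instance (i : ℕ × ℕ) : NeZero (F.q i) := F.qne i

/-- the object: cells at their centres -/
@[reducible] noncomputable def obj : Obj (ℕ × ℕ) (Fin n → ℝ) := cubObj n F.N fun _ a => a.pt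

noncomputable def E (t : ℕ) : Mat F.obj F.obj :=
  fun i => avg (fun a => (F.ζ i.1 ^ t) ^ a.val) (F.G i)

/-- coordinates -/
noncomputable def c (i : ℕ × ℕ) (x : Fin n → ℝ) (m : ℕ) : ℝ :=
  if h : m < n then F.f i.1 x ⟨m, h⟩ else 0

def lj (j : ℕ) : Filter (ℕ × ℕ) := map (Prod.mk j) atTop

noncomputable def σ (l : Filter (ℕ × ℕ)) (R : ℝ) (hR : 0 < R) : SCtx (ℕ × ℕ) (Fin n → ℝ) :=
  ⟨l, F.c, R, hR⟩

theorem co_eq (l : Filter (ℕ × ℕ)) (R : ℝ) (hR : 0 < R) (i : ℕ × ℕ) (x : Fin n → ℝ) :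
    (F.σ l R hR).co n i x = F.f i.1 x := by
  funext m; simp [SCtx.co, σ, c]

/-- the fine context over the orbit space -/
noncomputable def fine (j : ℕ) (R : ℝ) : Ctx (ℕ × ℕ) (Fin n → ℝ) where
  l := lj j
  ρ _ := F.ρ j
  u _ x := R - ‖F.f j x‖
  ρ_self _ := (F.orb j).ρ_self
  ρ_comm _ := (F.orb j).ρ_comm
  ρ_tri _ := (F.orb j).ρ_tri
  u_lip _ x y := by
    have h1 := (F.orb j).f_lip x y
    have h2 := norm_sub_norm_le (F.f j y) (F.f j x)
    rw [norm_sub_rev] at h2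
    linarith

theorem fine_le (j : ℕ) (R : ℝ) (hR : 0 < R) : Le (F.fine j R) ((F.σ (lj j) R hR).ctx n) := by
  refine ⟨le_rfl, ?_⟩
  change ∀ᶠ i in map (Prod.mk j) atTop, _
  rw [eventually_map]
  refine Eventually.of_forall fun m x y => ⟨?_, ?_⟩
  · change ‖(F.σ (lj j) R hR).co n (j, m) x - (F.σ (lj j) R hR).co n (j, m) y‖ ≤ F.ρ j x y
    rw [co_eq, co_eq]; exact (F.orb j).f_lip x y
  · change R - ‖(F.σ (lj j) R hR).co n (j, m) x‖ ≤ R - ‖F.f j x‖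
    rw [co_eq]

theorem norm_f_ge (j : ℕ) {x : Fin n → ℝ} (hx : ‖x‖ ≤ 2) : ‖x‖ - 1 / 8 ≤ ‖F.f j x‖ := by
  have h1 := (F.orb j).f_near x hx
  have h2 := norm_le_norm_add_norm_sub' x (F.f j x)
  rw [norm_sub_rev] at h2
  linarith [F.ε_le j]

theorem ctrl_orb (j : ℕ) {R : ℝ} (hR : R ≤ 1) {T : Mat F.obj F.obj}
    (hT : ∀ i, NearOrb (pbγ (F.g i.1) (F.q i)) (F.δ i) (T i)) : (F.fine j R).Ctrl T := by
  intro η hη
  obtain ⟨δ, hδ, hclose⟩ := (F.orb j).close η hη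
  change ∀ᶠ i in map (Prod.mk j) atTop, _
  rw [eventually_map]
  filter_upwards [(F.δ_lim j).eventually (ge_mem_nhds (lt_min hδ (by norm_num : (0 : ℝ) < 1 / 8)))]
    with m hm b a hba
  obtain ⟨e, he⟩ := hT (j, m) b a hba
  have ha := Cell.norm_pt_le (F.N_pos (j, m)) a
  have hb := Cell.norm_pt_le (F.N_pos (j, m)) b
  by_cases h : ‖a.pt‖ ≤ 7 / 4
  · left
    rw [(F.act j).pbγ_eq (F.ε_le j) e h] at he
    exact hclose _ _ _ ha hb (he.trans (hm.trans (min_le_left _ _)))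
  · right
    have h1 := (F.act j).pbγ_near e ha
    have h2 := norm_sub_le_norm_sub_add_norm_sub b.pt (pbγ (F.g j) (F.q (j, m)) e a.pt) a.pt
    have h3 := norm_le_norm_add_norm_sub' a.pt b.pt
    rw [norm_sub_rev] at h3
    have h4 := F.norm_f_ge j ha
    have h5 := F.norm_f_ge j hb
    have h6 := hm.trans (min_le_right _ _)
    have h7 := F.ε_le j
    change R - ‖F.f j b.pt‖ ≤ η ∧ R - ‖F.f j a.pt‖ ≤ η
    constructor <;> linarith

theorem nearOrb_E (t : ℕ) (i : ℕ × ℕ) : NearOrb (pbγ (F.g i.1) (F.q i)) (F.δ i) (F.E t i) := by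
  intro b a h
  have h' : ∑ e, ((F.ζ i.1 ^ t) ^ e.val • F.G i e) b a ≠ 0 := by
    intro h0; apply h
    rw [E, avg, Matrix.smul_apply, Matrix.sum_apply, h0, smul_zero]
  obtain ⟨e, -, he⟩ := Finset.exists_ne_zero_of_sum_ne_zero h'
  exact ⟨e, F.G_near i e b a fun h0 => he (by simp [h0])⟩

theorem tendsto_N (j : ℕ) : Tendsto (fun m => F.N (j, m)) atTop atTop :=
  tendsto_atTop_mono (F.N_ge j) tendsto_id

theorem mesh_small (j : ℕ) {δ : ℝ} (hδ : 0 < δ) : ∀ᶠ m in atTop, (2 : ℝ) / F.N (j, m) ≤ δ :=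
  ((tendsto_const_div_atTop_nhds_zero_nat (2 : ℝ)).comp (F.tendsto_N j)).eventually
    (ge_mem_nhds hδ)

theorem tame_fine (j : ℕ) {R : ℝ} (hR : R ≤ 1) :
    Tame (F.fine j R) n F.N fun _ a => a.pt := by
  refine ⟨⟨F.N_pos, fun η hη => ?_⟩, Eventually.of_forall fun i a ha => ?_⟩
  · obtain ⟨δ, hδ, hclose⟩ := (F.orb j).close η hη
    change ∀ᶠ i in map (Prod.mk j) atTop, _
    rw [eventually_map]
    filter_upwards [F.mesh_small j hδ] with m hm a b hab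
    exact hclose 0 _ _ (Cell.norm_pt_le (F.N_pos _) a) (Cell.norm_pt_le (F.N_pos _) b)
      (hab.trans hm)
  · have := F.norm_f_ge j (Cell.norm_pt_le (F.N_pos i) a)
    change R - ‖F.f j a.pt‖ ≤ 0
    linarith

theorem cocycle (j : ℕ) : (F.fine j (F.r j)).Cocycle (F.p j) (F.ω j) where
  pos := (F.act j).prime.pos
  pow := (F.orb j).ω_pow
  self _ x hx := (F.orb j).ω_self x (sub_pos.1 hx)
  mul := by
    obtain ⟨δ, hδ, h⟩ := (F.orb j).ω_mul
    exact ⟨δ, hδ, fun _ x y z h1 h2 hx hy hz =>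
      h x y z h1 h2 (sub_pos.1 hx) (sub_pos.1 hy) (sub_pos.1 hz)⟩
  cover η hη := by
    obtain ⟨zs, h1, h2⟩ := (F.orb j).cover η hη
    exact ⟨zs, fun _ z hz => sub_pos.2 (h1 z hz), fun _ x hx => h2 x (sub_pos.1 hx)⟩

theorem tw_near (j : ℕ) {T : Mat F.obj F.obj} (hT : ∀ i, Near Cell.pt (2 / F.N i) (T i)) :
    (tw (F.cocycle j)).map ((F.fine j (F.r j)).cls T) = (F.fine j (F.r j)).cls T := by
  have hc : (F.fine j (F.r j)).Ctrl T := (F.tame_fine j (F.orb j).r_le).toLoc.ctrl hT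
  rw [tw_cls _ hc, cls_eq_iff (hc.twMat _) hc]
  refine ((hc.twMat _).sub hc).van_of_src fun η hη => ?_
  obtain ⟨δ, hδ, hω⟩ := (F.orb j).ω_eq
  change ∀ᶠ i in map (Prod.mk j) atTop, _
  rw [eventually_map]
  filter_upwards [F.mesh_small j hδ] with m hm b a hba
  change F.r j - ‖F.f j a.pt‖ ≤ η
  by_contra hcon
  apply hba
  by_cases h0 : T (j, m) b a = 0
  · simp [twMat, h0]
  · have := hω 0 a.pt b.pt (Cell.norm_pt_le (F.N_pos _) a) (Cell.norm_pt_le (F.N_pos _) b)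
      ((hT _ b a h0).trans hm) (by linarith)
    change F.ω j b.pt a.pt * T (j, m) b a - T (j, m) b a = 0
    rw [this]; simp

theorem tw_E (j : ℕ) :
    (tw (F.cocycle j)).map ((F.fine j (F.r j)).cls (F.E 0)) = (F.fine j (F.r j)).cls (F.E 1) := by
  have hc := fun t => F.ctrl_orb j (F.orb j).r_le (F.nearOrb_E t)
  rw [tw_cls _ (hc 0), cls_eq_iff ((hc 0).twMat _) (hc 1)]
  refine (((hc 0).twMat _).sub (hc 1)).van_of_src fun η hη => ?_
  obtain ⟨δ, hδ, hω⟩ := (F.orb j).ω_eq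
  change ∀ᶠ i in map (Prod.mk j) atTop, _
  rw [eventually_map]
  filter_upwards [(F.δ_lim j).eventually (ge_mem_nhds hδ)] with m hm b a hba
  change F.r j - ‖F.f j a.pt‖ ≤ η
  by_contra hcon
  apply hba
  have ha := Cell.norm_pt_le (F.N_pos (j, m)) a
  have hb := Cell.norm_pt_le (F.N_pos (j, m)) b
  have h1 := F.norm_f_ge j ha
  have h2 := (F.orb j).r_le
  change F.ω j b.pt a.pt * F.E 0 (j, m) b a - F.E 1 (j, m) b a = 0
  simp only [E, avg, Matrix.smul_apply, Matrix.sum_apply, smul_eq_mul, pow_zero, one_pow, one_mul,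
    pow_one]
  rw [mul_left_comm, ← mul_sub, Finset.mul_sum, ← Finset.sum_sub_distrib]
  refine mul_eq_zero_of_right _ (Finset.sum_eq_zero fun e _ => ?_)
  by_cases h0 : F.G (j, m) e b a = 0
  · simp [h0]
  · have h3 : ‖b.pt - pbγ (F.g j) (F.q (j, m)) e a.pt‖ ≤ F.δ (j, m) := F.G_near (j, m) e b a h0
    rw [(F.act j).pbγ_eq (F.ε_le j) e (x := a.pt) (by linarith)] at h3
    rw [hω e.val a.pt b.pt ha hb (h3.trans hm) (by linarith), sub_self]

/-- the Poincaré complex of the `t`-th isotypic component -/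
@[reducible] noncomputable def D (Γ : Ctx (ℕ × ℕ) (Fin n → ℝ)) (t : ℕ) : Form Γ.cat :=
  (cubForm Γ n F.N (fun _ a => a.pt) 1).idem (Γ.cls (F.E t))

theorem D_poinc {Γ : Ctx (ℕ × ℕ) (Fin n → ℝ)} (h : Tame Γ n F.N fun _ a => a.pt)
    (hc : ∀ T : Mat F.obj F.obj, (∀ i, NearOrb (pbγ (F.g i.1) (F.q i)) (F.δ i) (T i)) → Γ.Ctrl T)
    (t : ℕ) : (F.D Γ t).Poinc :=
  h.idem_poinc (hc _ (F.nearOrb_E t)) (hc _ (F.K₁_near t)) (hc _ (F.K₂_near t))
    (Eventually.of_forall (F.chain t)) (Eventually.of_forall (F.K₁_eq t))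
    (Eventually.of_forall (F.K₂_eq t))

theorem D_map_res {Γ Γ' : Ctx (ℕ × ℕ) (Fin n → ℝ)} (h : Loc Γ n F.N fun _ a => a.pt)
    (hle : Le Γ Γ') (t : ℕ) (hE : Γ.Ctrl (F.E t)) : (F.D Γ t).map (res hle) = F.D Γ' t := by
  have h1 := h.map_res hle 1
  simp only [Form.map, cubForm, Form.mk.injEq, heq_eq_eq, true_and] at h1
  simp only [Form.map, D, Form.idem, cubForm, DFun.map_sub, DFun.map_add, DFun.map_comp,
    DFun.map_dag, h1.1, h1.2, res_cls hle hE]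

theorem D_tw (j : ℕ) :
    (F.D (F.fine j (F.r j)) 0).map (tw (F.cocycle j)) = F.D (F.fine j (F.r j)) 1 := by
  have h1 := F.tw_near j (T := fun i => (1 : ℂ) • cubD (F.N i) n) fun i => by
    simpa using near_cubD (F.N_pos i)
  have h2 := F.tw_near j (T := fun i => cubΦ (F.N i) n) fun i => near_cubΦ (F.N_pos i)
  simp only [Form.map, D, Form.idem, cubForm, DFun.map_sub, DFun.map_add, DFun.map_comp,
    DFun.map_dag, h1, h2, F.tw_E j]

/-- the filter of the family: for every `j`, eventually in `m` -/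
def lfam : Filter (ℕ × ℕ) := ⨆ j, lj j
/-- the outer filter: eventually in `j`, eventually in `m` -/
def lout : Filter (ℕ × ℕ) := atTop.curry atTop

theorem lout_le : lout ≤ lfam := by
  intro s hs
  have h : ∀ j, ∀ᶠ m in atTop, (j, m) ∈ s := fun j => (mem_iSup.1 hs j : s ∈ lj j)
  exact eventually_curry_iff.2 (Eventually.of_forall h)

theorem ctrl_fam {T : Mat F.obj F.obj}
    (hT : ∀ i, NearOrb (pbγ (F.g i.1) (F.q i)) (F.δ i) (T i)) :
    ((F.σ lfam 1 one_pos).ctx n).Ctrl T := fun η hη =>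
  eventually_iSup.2 fun j => (F.fine_le j 1 one_pos).ctrl (F.ctrl_orb j le_rfl hT) η hη

theorem tame_fam : Tame ((F.σ lfam 1 one_pos).ctx n) n F.N fun _ a => a.pt := by
  refine ⟨⟨F.N_pos, fun η hη => eventually_iSup.2 fun j => ?_⟩, eventually_iSup.2 fun j => ?_⟩
  · filter_upwards [(F.tame_fine j le_rfl).loc η hη, (F.fine_le j 1 one_pos).2] with i h1 h2 a b hab
    exact (h2 _ _).1.trans (h1 a b hab)
  · filter_upwards [(F.tame_fine j le_rfl).bd, (F.fine_le j 1 one_pos).2] with i h1 h2 a ha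
    exact (h2 _ a.pt).2.trans (h1 a ha)

theorem std_out : Std (F.σ lout 1 one_pos) n F.N fun _ a => a.pt where
  N_pos := F.N_pos
  tendsto := by
    refine tendsto_atTop.2 fun b => eventually_curry_iff.2 (Eventually.of_forall fun j => ?_)
    exact (F.tendsto_N j).eventually_ge_atTop b
  R_le := le_rfl
  close η hη := by
    refine eventually_curry_iff.2 ?_
    filter_upwards [F.ε_lim.eventually (ge_mem_nhds hη)] with j hj
    refine Eventually.of_forall fun m a => ?_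
    rw [co_eq]
    exact ((F.orb j).f_near _ (Cell.norm_pt_le (F.N_pos _) a)).trans hj

theorem ctrl_K₃ (t : ℕ) : ((F.σ lout 1 one_pos).ctx n).Ctrl (X := F.obj) (Y := F.obj) (F.K₃ t) := by
  intro η hη
  refine eventually_curry_iff.2 ?_
  filter_upwards [F.ε_lim.eventually (ge_mem_nhds (by positivity : 0 < η / 3)),
    F.ε'_lim.eventually (ge_mem_nhds (by positivity : 0 < η / 3))] with j hj hj'
  refine Eventually.of_forall fun m b a hba => Or.inl ?_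
  change ‖(F.σ lout 1 one_pos).co n (j, m) b.pt - (F.σ lout 1 one_pos).co n (j, m) a.pt‖ ≤ η
  rw [co_eq, co_eq]
  have h1 := F.K₃_near t (j, m) b a hba
  have h2 := (F.orb j).f_near _ (Cell.norm_pt_le (F.N_pos (j, m)) a)
  have h3 := (F.orb j).f_near _ (Cell.norm_pt_le (F.N_pos (j, m)) b)
  have h4 := norm_sub_le_norm_sub_add_norm_sub (F.f j b.pt) b.pt (F.f j a.pt)
  have h5 := norm_sub_le_norm_sub_add_norm_sub b.pt a.pt (F.f j a.pt)
  rw [norm_sub_rev a.pt] at h5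
  dsimp only at h1 ⊢
  linarith

include F in
theorem false_of_fam : False := by
  set σf := F.σ lfam 1 one_pos
  set σo := F.σ lout 1 one_pos
  have hP := F.D_poinc F.tame_fam fun _ => F.ctrl_fam
  choose s hs using fun t => (σf.sigThy n).ex (hP t)
  -- the outer computation
  have hfo : SCtx.Le σf σo := ⟨lout_le, le_rfl, Eventually.of_forall fun _ => rfl⟩
  have hso : ∀ t, σo.HasSig n (F.D (σo.ctx n) t) (s t) := fun t => by
    rw [← F.D_map_res F.tame_fam.toLoc (hfo.ctx n) t (F.ctrl_fam (F.nearOrb_E t))]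
    exact SCtx.hasSig_mono hfo n (hP t) (hs t)
  have hPo : ∀ t, (F.D (σo.ctx n) t).Poinc := fun t => by
    rw [← F.D_map_res F.tame_fam.toLoc (hfo.ctx n) t (F.ctrl_fam (F.nearOrb_E t))]
    exact (hP t).map _
  have hEo : ∀ t, (σo.ctx n).Ctrl (F.E t) := fun t => (hfo.ctx n).ctrl (F.ctrl_fam (F.nearOrb_E t))
  obtain ⟨c, hc0, hc⟩ := hasSig_cub σo F.N n (s := 1) (Or.inl rfl)
  have hc := hc _ F.std_out
  have hto := F.std_out.tame
  have hcub := hto.poinc (s := 1) (Or.inl rfl)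
  have hch := fun t => hto.toLoc.chain (hEo t) (Eventually.of_forall (F.chain t))
  have h0 : (fun _ => c) =ᶠ[σo.l] s 0 :=
    (σo.sigThy n).eq_of_neutral hcub (hPo 0) (Form.neutral_idem_one hcub (hch 0) (by
      simpa using hto.toLoc.htp_smul (hEo 0) (F.ctrl_K₃ 0) 1 (Eventually.of_forall F.K₃_zero)))
      hc (hso 0)
  have h1 : (-fun _ => c) =ᶠ[σo.l] s 1 :=
    (σo.sigThy n).eq_of_neutral hcub.neg (hPo 1) (Form.neutral_idem_zero hcub (hch 1) (by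
      simpa using hto.toLoc.htp_smul (hEo 1) (F.ctrl_K₃ 1) 0 (Eventually.of_forall F.K₃_one)))
      ((σo.sigThy n).neg hcub hc) (hso 1)
  -- the inner computation
  have hin : ∀ j, s 0 =ᶠ[lj j] s 1 := by
    intro j
    set σi := F.σ (lj j) (F.r j) (F.orb j).r_pos
    have hfi : SCtx.Le σf σi := ⟨le_iSup lj j, (F.orb j).r_le, Eventually.of_forall fun _ => rfl⟩
    have hle := F.fine_le j (F.r j) (F.orb j).r_pos
    have htf := F.tame_fine j (F.orb j).r_le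
    have hsi : ∀ t, σi.HasSig n ((F.D (F.fine j (F.r j)) t).map (res hle)) (s t) := fun t => by
      rw [F.D_map_res htf.toLoc hle t (F.ctrl_orb j (F.orb j).r_le (F.nearOrb_E t)),
        ← F.D_map_res F.tame_fam.toLoc (hfi.ctx n) t (F.ctrl_fam (F.nearOrb_E t))]
      exact SCtx.hasSig_mono hfi n (hP t) (hs t)
    refine twist_invariant (F.cocycle j) ((σi.sigThy n).comap (res hle))
      (F.D_poinc htf (fun _ => F.ctrl_orb j (F.orb j).r_le) 0) (hsi 0) ?_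
    rw [F.D_tw j]
    exact hsi 1
  obtain ⟨j, hj⟩ := (eventually_curry_iff.1 (h0.and h1)).exists
  obtain ⟨m, ⟨e0, e1⟩, e2⟩ := (hj.and (eventually_map.1 (hin j))).exists
  simp only [Pi.neg_apply] at e0 e1 e2
  omega

end Fam

theorem thmS (n : ℕ) : ThmS n := by
  by_contra h
  obtain ⟨F⟩ := nonempty_fam n h
  exact F.false_of_fam

end Crest.Agent.R217
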