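import Crest.Agent.R217.GChain
import Crest.Agent.R217.GDyn

/-! # Row 217, part B: approximate `ZMod (p^k)`-actions from a small action; characters. -/

set_option autoImplicit false
open Metric Set

namespace Crest.Agent.R217

variable {n : ℕ}

/-- the clamp onto `[-2,2]^n` -/
noncomputable def pbClamp (x : Fin n → ℝ) : Fin n → ℝ := fun m => max (-2) (min 2 (x m))

theorem pbClamp_norm_le (x : Fin n → ℝ) : ‖pbClamp x‖ ≤ 2 := by
  refine (pi_norm_le_iff_of_nonneg (by norm_num)).2 fun m => ?_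
  rw [Real.norm_eq_abs, abs_le]
  exact ⟨le_max_left _ _, max_le (by norm_num) (min_le_left _ _)⟩

theorem pbClamp_eq {x : Fin n → ℝ} (h : ‖x‖ ≤ 2) : pbClamp x = x := by
  funext m
  have := (norm_le_pi_norm x m).trans h
  rw [Real.norm_eq_abs, abs_le] at this
  simp [pbClamp, this.1, this.2]

theorem pbClamp_lip (x y : Fin n → ℝ) : ‖pbClamp x - pbClamp y‖ ≤ ‖x - y‖ := by
  refine (pi_norm_le_iff_of_nonneg (norm_nonneg _)).2 fun m => ?_
  refine le_trans ?_ (norm_le_pi_norm (x - y) m)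
  simp only [Pi.sub_apply, pbClamp, Real.norm_eq_abs]
  refine (abs_max_sub_max_le_max _ _ _ _).trans (max_le (by simp) ?_)
  exact (abs_min_sub_min_le_max _ _ _ _).trans (max_le (by simp) le_rfl)

/-- the approximate action -/
noncomputable def pbγ (g : (Fin n → ℝ) → Fin n → ℝ) (q : ℕ) (a : ZMod q) (x : Fin n → ℝ) :
    Fin n → ℝ := pbClamp (g^[a.val] x)

variable {ε : ℝ} {p : ℕ} {W : Set (Fin n → ℝ)} {g : (Fin n → ℝ) → Fin n → ℝ}

theorem SmallAction.mem (h : SmallAction ε p W g) {x : Fin n → ℝ} (hx : ‖x‖ ≤ 2) : x ∈ W :=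
  h.box (by simpa using hx)

theorem SmallAction.pbγ_eq (h : SmallAction ε p W g) (hε : ε ≤ 1 / 8) {q : ℕ} (a : ZMod q)
    {x : Fin n → ℝ} (hx : ‖x‖ ≤ 7 / 4) : pbγ g q a x = g^[a.val] x := by
  apply pbClamp_eq
  have h1 := h.near a.val x (h.mem (by linarith))
  have h2 := norm_le_norm_add_norm_sub' (g^[a.val] x) x
  linarith

theorem SmallAction.pbγ_near (h : SmallAction ε p W g) {q : ℕ} (a : ZMod q)
    {x : Fin n → ℝ} (hx : ‖x‖ ≤ 2) : ‖pbγ g q a x - x‖ ≤ ε := by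
  have := pbClamp_lip (g^[a.val] x) x
  rw [pbClamp_eq hx] at this
  exact this.trans (h.near _ x (h.mem hx))

theorem SmallAction.exists_approx (h : SmallAction ε p W g) (hε : 0 < ε) {C : ℝ} (hC : 1 ≤ C)
    (hCε : C * ε ≤ 1 / 8) (m : ℕ) : ∃ (N k : ℕ) (δ₁ δ₂ : ℝ), m ≤ N ∧ δ₂ ≤ 1 / (m + 1) ∧
      ApproxAction C N (p ^ (k + 1)) (pbγ g (p ^ (k + 1))) ε δ₁ δ₂ := by
  have hε8 : ε ≤ 1 / 8 := by nlinarith
  have hC0 : 0 < C := by linarith
  set δ₂ : ℝ := min ε (1 / (m + 1)) with hδ₂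
  have hδ₂0 : 0 < δ₂ := lt_min hε (by positivity)
  obtain ⟨δ, hδ, hδe⟩ := h.equi δ₂ hδ₂0
  set δ₁ : ℝ := min δ₂ (δ / C) with hδ₁
  have hδ₁0 : 0 < δ₁ := lt_min hδ₂0 (by positivity)
  obtain ⟨δ', hδ', hδe'⟩ := h.equi δ₁ hδ₁0
  obtain ⟨k, hk⟩ := h.lim δ₂ hδ₂0
  obtain ⟨N₀, hN₀⟩ := exists_nat_ge (2 / min δ₁ δ')
  have hmin : 0 < min δ₁ δ' := lt_min hδ₁0 hδ'
  have hmesh : (2 : ℝ) / ((N₀ + m + 1 : ℕ) : ℝ) ≤ min δ₁ δ' := by
    rw [div_le_iff₀ (by positivity)]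
    rw [div_le_iff₀ hmin] at hN₀
    have : (N₀ : ℝ) ≤ ((N₀ + m + 1 : ℕ) : ℝ) := by exact_mod_cast (by omega)
    nlinarith
  haveI : NeZero (p ^ (k + 1)) := ⟨pow_ne_zero _ h.prime.ne_zero⟩
  refine ⟨N₀ + m + 1, k, δ₁, δ₂, by omega, min_le_right _ _, ⟨by omega,
    hmesh.trans (min_le_left _ _), min_le_left _ _, min_le_left _ _, hCε,
    fun a x _ => pbClamp_norm_le _, fun a x hx => h.pbγ_near a hx, ?_, ?_, ?_, ?_⟩⟩
  · intro a x y hx hy hxy
    exact (pbClamp_lip _ _).trans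
      (hδe' _ x (h.mem hx) y (h.mem hy) (hxy.trans (hmesh.trans (min_le_right _ _))))
  · intro a x y hx hy hxy
    refine (pbClamp_lip _ _).trans (hδe _ x (h.mem hx) y (h.mem hy) (hxy.trans ?_))
    have : δ₁ ≤ δ / C := min_le_right _ _
    rwa [le_div_iff₀ hC0, mul_comm] at this
  · intro a b x hx
    rw [h.pbγ_eq hε8 b hx]
    refine (pbClamp_lip _ _).trans ?_
    rw [← Function.iterate_add_apply]
    have e : a.val + b.val = p ^ k * (p * ((a.val + b.val) / p ^ (k + 1))) + (a + b).val := by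
      rw [ZMod.val_add, ← mul_assoc, ← pow_succ, Nat.div_add_mod]
    rw [e, Function.iterate_add_apply]
    exact hk _ _ (h.maps.iterate _ (h.mem (by linarith)))
  · intro x hx
    rw [h.pbγ_eq hε8 0 hx]
    simpa using hδ₂0.le

section character
variable {q : ℕ} [NeZero q] {ζ : ℂ}

theorem pbχ_add (hζ : ζ ^ q = 1) (a b : ZMod q) : ζ ^ (a + b).val = ζ ^ a.val * ζ ^ b.val := by
  rw [ZMod.val_add, ← pow_add, ← pow_eq_pow_mod _ hζ]

theorem pbχ_star (hζ : ζ ^ q = 1) (a : ZMod q) : star (ζ ^ a.val) = ζ ^ (-a).val := by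
  have h1 : ζ ^ a.val * ζ ^ (-a).val = 1 := by rw [← pbχ_add hζ]; simp
  have h2 : ‖ζ‖ = 1 := Complex.norm_eq_one_of_pow_eq_one hζ (NeZero.ne q)
  have h3 : star (ζ ^ a.val) * ζ ^ a.val = 1 := by
    rw [Complex.star_def, Complex.conj_mul', norm_pow, h2]; simp
  calc star (ζ ^ a.val) = star (ζ ^ a.val) * (ζ ^ a.val * ζ ^ (-a).val) := by rw [h1, mul_one]
    _ = ζ ^ (-a).val := by rw [← mul_assoc, h3, one_mul]

theorem pbχ_sum (hζ : ζ ^ q = 1) (hq : 1 < q) (h1 : ζ ≠ 1) : ∑ a : ZMod q, ζ ^ a.val = 0 := by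
  haveI : Fact (1 < q) := ⟨hq⟩
  have h : ∑ a : ZMod q, ζ ^ a.val = ∑ a : ZMod q, ζ ^ (a + 1).val :=
    (Equiv.sum_comp (Equiv.addRight 1) fun a : ZMod q => ζ ^ a.val).symm
  simp only [pbχ_add hζ, ZMod.val_one, pow_one, ← Finset.sum_mul] at h
  have : (∑ a : ZMod q, ζ ^ a.val) * (1 - ζ) = 0 := by rw [mul_sub, mul_one, ← h, sub_self]
  exact (mul_eq_zero.1 this).resolve_right (sub_ne_zero.2 h1.symm)

end character

end Crest.Agent.R217
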