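import Crest.Agent.R217.Defs

/-! # Row 217, part C1: continuous characters separate the points of a compact abelian group.

Gelfand theory in the commutative Banach algebra generated by the translations and one
convolution operator on `C(K, ℂ)`; the convolution operator is hermitian for the `L²` product,
hence not quasi-nilpotent. -/

set_option autoImplicit false

namespace Crest.Agent.R217

open MeasureTheory Filter Topology
open scoped InnerProductSpace

theorem C1_gelfand {B : Type*} [NormedRing B] [NormedAlgebra ℂ B] [CompleteSpace B] (s : Set B)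
    (hs : s ⊆ s.centralizer) (a : Subalgebra.centralizer ℂ s.centralizer) (c r : ℝ) (hc : 0 < c)
    (hr : 0 < r) (h : ∀ n : ℕ, c * r ^ n ≤ ‖(a : B) ^ n‖) :
    ∃ θ : Subalgebra.centralizer ℂ s.centralizer →ₐ[ℂ] ℂ,
      (∀ x, ‖θ x‖ ≤ ‖(x : B)‖ * ‖(1 : B)‖) ∧ θ a ≠ 0 := by
  have hcl : IsClosed ((Subalgebra.centralizer ℂ s.centralizer : Subalgebra ℂ B) : Set B) :=
    Set.isClosed_centralizer _
  let _ : NormedCommRing (Subalgebra.centralizer ℂ s.centralizer) :=
    { (inferInstance : NormedRing (Subalgebra.centralizer ℂ s.centralizer)) with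
      mul_comm := fun x y => Subtype.ext (x.2 y (Set.centralizer_subset hs y.2)).symm }
  have _ : CompleteSpace (Subalgebra.centralizer ℂ s.centralizer) := hcl.completeSpace_coe
  by_contra hno
  push Not at hno
  have h0 : spectralRadius ℂ a = 0 := by
    simp only [spectralRadius, ENNReal.iSup_eq_zero]
    intro z hz
    obtain ⟨f, hf⟩ := WeakDual.CharacterSpace.mem_spectrum_iff_exists.1 hz
    have h1 := hno (WeakDual.CharacterSpace.toAlgHom f) fun x =>
      AlgHom.norm_apply_le_self_mul_norm_one (WeakDual.CharacterSpace.toAlgHom f) x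
    have h2 : z = 0 := hf.symm.trans h1
    simp [h2]
  have ht := spectrum.pow_norm_pow_one_div_tendsto_nhds_spectralRadius a
  rw [h0] at ht
  have h1 := ht.eventually (gt_mem_nhds (ENNReal.ofReal_pos.2 (half_pos hr)))
  have h2 := (tendsto_pow_atTop_nhds_zero_of_lt_one (r := (1 / 2 : ℝ)) (by norm_num)
    (by norm_num)).eventually (gt_mem_nhds hc)
  obtain ⟨n, ⟨hn1, hn2⟩, hn3⟩ := ((h1.and h2).and (eventually_gt_atTop 0)).exists
  rw [ENNReal.ofReal_lt_ofReal_iff (half_pos hr), one_div,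
    Real.rpow_inv_lt_iff_of_pos (norm_nonneg _) (half_pos hr).le (Nat.cast_pos.2 hn3),
    Real.rpow_natCast] at hn1
  have h3 : c * r ^ n < (1 / 2) ^ n * r ^ n := by
    rw [← mul_pow, show 1 / 2 * r = r / 2 by ring]
    exact (h n).trans_lt hn1
  exact absurd (lt_of_mul_lt_mul_right h3 (pow_pos hr n).le) (not_lt.2 hn2.le)

theorem C1_growth {E H : Type*} [NormedAddCommGroup E] [NormedSpace ℂ E] [NormedAddCommGroup H]
    [InnerProductSpace ℂ H] (ι : E →L[ℂ] H) (hι : Function.Injective ι) (a : E →L[ℂ] E)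
    (ha : ∀ u v, ⟪ι (a u), ι v⟫_ℂ = ⟪ι u, ι (a v)⟫_ℂ) (u : E) (hu : a u ≠ 0) :
    ∃ c r : ℝ, 0 < c ∧ 0 < r ∧ ∀ n : ℕ, c * r ^ n ≤ ‖a ^ n‖ := by
  set d : ℕ → ℝ := fun n => ‖ι ((a ^ n) u)‖ with hd
  have hsq : ∀ n, d (n + 1) ^ 2 ≤ d n * d (n + 2) := by
    intro n
    have e1 : (a ^ (n + 1)) u = a ((a ^ n) u) := by rw [pow_succ']; rfl
    have e2 : (a ^ (n + 2)) u = a ((a ^ (n + 1)) u) := by rw [pow_succ']; rfl
    have h1 := ha ((a ^ n) u) ((a ^ (n + 1)) u)
    rw [← e1, ← e2, inner_self_eq_norm_sq_to_K] at h1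
    have h2 := norm_inner_le_norm (𝕜 := ℂ) (ι ((a ^ n) u)) (ι ((a ^ (n + 2)) u))
    rw [← h1, norm_pow, RCLike.norm_ofReal, abs_norm] at h2
    exact h2
  have hu0 : u ≠ 0 := fun h0 => hu (by simp [h0])
  have d0 : 0 < d 0 := by
    simp only [hd, pow_zero, one_apply_eq_self]
    exact norm_pos_iff.2 fun h0 => hu0 (hι (h0.trans (map_zero ι).symm))
  have d1 : 0 < d 1 := by
    simp only [hd, pow_one]
    exact norm_pos_iff.2 fun h0 => hu (hι (h0.trans (map_zero ι).symm))
  have hr : 0 < d 1 / d 0 := div_pos d1 d0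
  have hind : ∀ n, 0 < d n ∧ d 1 / d 0 * d n ≤ d (n + 1) := by
    intro n
    induction n with
    | zero => exact ⟨d0, le_of_eq (div_mul_cancel₀ _ d0.ne')⟩
    | succ n ih =>
      have h1 : 0 < d (n + 1) := (mul_pos hr ih.1).trans_le ih.2
      refine ⟨h1, le_of_mul_le_mul_left ?_ ih.1⟩
      have h2 := hsq n
      have h3 := mul_le_mul_of_nonneg_right ih.2 h1.le
      nlinarith
  have hpow : ∀ n, d 0 * (d 1 / d 0) ^ n ≤ d n := by
    intro n
    induction n with
    | zero => simp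
    | succ n ih =>
      refine le_trans ?_ (hind n).2
      rw [pow_succ, ← mul_assoc, mul_comm]
      exact mul_le_mul_of_nonneg_left ih hr.le
  have hup : ∀ n, d n ≤ ‖a ^ n‖ * (‖ι‖ * ‖u‖) := by
    intro n
    refine (ι.le_opNorm _).trans ?_
    rw [mul_left_comm]
    exact mul_le_mul_of_nonneg_left ((a ^ n).le_opNorm u) (norm_nonneg _)
  have hM : 0 < ‖ι‖ * ‖u‖ := by
    refine d0.trans_le ?_
    simpa [hd] using ι.le_opNorm u
  refine ⟨d 0 / (‖ι‖ * ‖u‖), d 1 / d 0, div_pos d0 hM, hr, fun n => ?_⟩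
  rw [div_mul_eq_mul_div, div_le_iff₀ hM]
  exact (hpow n).trans (hup n)

section conv

variable {K : Type*} [CommGroup K] [TopologicalSpace K] [IsTopologicalGroup K] [CompactSpace K]

/-- Translation. -/
noncomputable def C1lam (k : K) : C(K, ℂ) →L[ℂ] C(K, ℂ) :=
  LinearMap.mkContinuous
    { toFun := fun f => f.comp (ContinuousMap.mulRight k)
      map_add' := fun _ _ => rfl
      map_smul' := fun _ _ => rfl } 1 fun f => by
    rw [one_mul]
    exact (ContinuousMap.norm_le _ (norm_nonneg _)).2 fun x => f.norm_coe_le_norm _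

theorem C1lam_apply (k : K) (f : C(K, ℂ)) (x : K) : C1lam k f x = f (x * k) := rfl

theorem C1lam_norm (k : K) : ‖C1lam k‖ ≤ 1 := LinearMap.mkContinuous_norm_le _ zero_le_one _

theorem C1lam_norm_apply (k : K) (f : C(K, ℂ)) : ‖C1lam k f‖ ≤ ‖f‖ :=
  (ContinuousMap.norm_le _ (norm_nonneg _)).2 fun _ => f.norm_coe_le_norm _

theorem C1lam_mul (k k' : K) : C1lam (k * k') = C1lam k * C1lam k' := by
  ext f x
  simp only [C1lam_apply, mul_apply_eq_comp, mul_assoc]

theorem C1lam_one : C1lam (1 : K) = 1 := by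
  ext f x
  simp only [C1lam_apply, one_apply_eq_self, mul_one]

theorem C1lam_cont (f : C(K, ℂ)) : Continuous fun k : K => C1lam k f :=
  ContinuousMap.continuous_of_continuous_uncurry _
    (f.continuous.comp (continuous_snd.mul continuous_fst))

variable [MeasurableSpace K] [BorelSpace K] (μ : Measure K) [IsFiniteMeasure μ]

theorem C1_integrable (φ f : C(K, ℂ)) : Integrable (fun k => φ k • C1lam k f) μ :=
  (φ.continuous.smul (C1lam_cont f)).integrable_of_hasCompactSupport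
    (HasCompactSupport.of_compactSpace _)

/-- Convolution. -/
noncomputable def C1conv : C(K, ℂ) →L[ℂ] C(K, ℂ) →L[ℂ] C(K, ℂ) :=
  LinearMap.mkContinuous₂
    (LinearMap.mk₂ ℂ (fun φ f : C(K, ℂ) => ∫ k, φ k • C1lam k f ∂μ)
      (fun φ ψ f => by
        rw [← integral_add (C1_integrable μ φ f) (C1_integrable μ ψ f)]
        simp only [ContinuousMap.add_apply, add_smul])
      (fun c φ f => by
        rw [← integral_smul]
        simp only [ContinuousMap.smul_apply, smul_assoc])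
      (fun φ f g => by
        rw [← integral_add (C1_integrable μ φ f) (C1_integrable μ φ g)]
        simp only [map_add, smul_add])
      (fun c φ f => by
        rw [← integral_smul]
        simp only [map_smul, smul_comm c])) (μ.real Set.univ) fun φ f => by
    refine (norm_integral_le_of_norm_le_const (C := ‖φ‖ * ‖f‖)
      (Eventually.of_forall fun k => ?_)).trans (le_of_eq (by ring))
    rw [norm_smul]
    exact mul_le_mul (φ.norm_coe_le_norm k) (C1lam_norm_apply k f) (norm_nonneg _) (norm_nonneg _)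

theorem C1conv_def (φ f : C(K, ℂ)) : C1conv μ φ f = ∫ k, φ k • C1lam k f ∂μ := rfl

theorem C1conv_clm {H : Type*} [NormedAddCommGroup H] [NormedSpace ℂ H] [CompleteSpace H]
    (L : C(K, ℂ) →L[ℂ] H) (φ f : C(K, ℂ)) :
    L (C1conv μ φ f) = ∫ k, φ k • L (C1lam k f) ∂μ := by
  rw [C1conv_def, ← L.integral_comp_comm (C1_integrable μ φ f)]
  simp only [map_smul]

theorem C1conv_apply (φ f : C(K, ℂ)) (x : K) :
    C1conv μ φ f x = ∫ k, φ k * f (x * k) ∂μ :=
  C1conv_clm μ (ContinuousMap.evalCLM ℂ x) φ f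

theorem C1conv_comm (φ : C(K, ℂ)) (h : K) :
    C1lam h * C1conv μ φ = C1conv μ φ * C1lam h := by
  ext f x
  simp only [mul_apply_eq_comp, C1lam_apply, C1conv_apply, mul_right_comm x h]

theorem C1lam_conv [μ.IsMulRightInvariant] (φ : C(K, ℂ)) (h : K) :
    C1lam h * C1conv μ φ = C1conv μ (C1lam h⁻¹ φ) := by
  ext f x
  simp only [mul_apply_eq_comp, C1lam_apply, C1conv_apply]
  rw [← integral_mul_right_eq_self (fun k => φ (k * h⁻¹) * f (x * k)) h]
  simp only [mul_inv_cancel_right]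
  simp only [mul_assoc, mul_comm h]

theorem C1_inner_lam [μ.IsMulRightInvariant] (k : K) (u v : C(K, ℂ)) :
    ⟪ContinuousMap.toLp 2 μ ℂ (C1lam k u), ContinuousMap.toLp 2 μ ℂ v⟫_ℂ =
      ⟪ContinuousMap.toLp 2 μ ℂ u, ContinuousMap.toLp 2 μ ℂ (C1lam k⁻¹ v)⟫_ℂ := by
  rw [ContinuousMap.inner_toLp, ContinuousMap.inner_toLp,
    ← integral_mul_right_eq_self (fun x => C1lam k⁻¹ v x * (starRingEnd ℂ) (u x)) k]
  simp only [C1lam_apply, mul_inv_cancel_right]

theorem C1_inner_conv [μ.IsMulRightInvariant] [μ.IsInvInvariant] (φ : C(K, ℂ))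
    (hφ : ∀ k, (starRingEnd ℂ) (φ k) = φ k⁻¹) (u v : C(K, ℂ)) :
    ⟪ContinuousMap.toLp 2 μ ℂ (C1conv μ φ u), ContinuousMap.toLp 2 μ ℂ v⟫_ℂ =
      ⟪ContinuousMap.toLp 2 μ ℂ u, ContinuousMap.toLp 2 μ ℂ (C1conv μ φ v)⟫_ℂ := by
  have h1 := C1conv_clm μ (innerSL ℂ (ContinuousMap.toLp 2 μ ℂ v) ∘L ContinuousMap.toLp 2 μ ℂ) φ u
  have h2 := C1conv_clm μ (innerSL ℂ (ContinuousMap.toLp 2 μ ℂ u) ∘L ContinuousMap.toLp 2 μ ℂ) φ v
  simp only [ContinuousLinearMap.comp_apply, innerSL_apply_apply, smul_eq_mul] at h1 h2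
  rw [← inner_conj_symm, h1, h2, ← integral_conj, ← integral_inv_eq_self]
  congr 1
  funext k
  rw [map_mul, hφ, inv_inv, inner_conj_symm, C1_inner_lam, inv_inv]

end conv

theorem exists_char_ne_one (K : Type*) [CommGroup K] [TopologicalSpace K] [IsTopologicalGroup K]
    [T2Space K] [SecondCountableTopology K] [CompactSpace K] (g : K) (hg : g ≠ 1) :
    ∃ χ : K →* Circle, Continuous χ ∧ χ g ≠ 1 := by
  borelize K
  let μ : Measure K := Measure.haar
  -- a real symmetric function, `1` at `1` and `0` at `g, g⁻¹`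
  obtain ⟨ρ, hρ0, hρ1, -⟩ := exists_continuous_zero_one_of_isClosed
    (s := {g, g⁻¹}) (t := {1}) (Set.toFinite _).isClosed isClosed_singleton (by
      simp [hg.symm, hg])
  let ψ : C(K, ℂ) := ⟨fun k => ((ρ k * ρ k⁻¹ : ℝ) : ℂ), by fun_prop⟩
  have hψ1 : ψ 1 = 1 := by
    have := hρ1 (Set.mem_singleton (1 : K))
    simp only [Pi.one_apply] at this
    simp [ψ, this]
  have hψg : ψ g = 0 := by
    have := hρ0 (show g ∈ ({g, g⁻¹} : Set K) by simp)
    simp only [Pi.zero_apply] at this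
    simp [ψ, this]
  have hψs : ∀ k, ψ k⁻¹ = ψ k := fun k => by simp [ψ, mul_comm]
  have hψr : ∀ k, (starRingEnd ℂ) (ψ k) = ψ k := fun k => Complex.conj_ofReal _
  let φ : C(K, ℂ) := ψ + ψ - C1lam g ψ - C1lam g⁻¹ ψ
  have hφ : ∀ k, φ k = ψ k + ψ k - ψ (k * g) - ψ (k * g⁻¹) := fun k => rfl
  have hφr : ∀ k, (starRingEnd ℂ) (φ k) = φ k := fun k => by
    simp only [hφ, map_sub, map_add, hψr]
  have hφs : ∀ k, φ k⁻¹ = φ k := fun k => by
    rw [hφ, hφ, hψs, ← hψs (k⁻¹ * g), ← hψs (k⁻¹ * g⁻¹), mul_inv, mul_inv, inv_inv, inv_inv]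
    ring
  have hφ1 : φ 1 = 2 := by
    rw [hφ, one_mul, one_mul, hψs, hψ1, hψg]
    ring
  have hne : C1conv μ φ φ ≠ 0 := by
    intro h0
    have h1 := C1conv_apply μ φ φ 1
    have h2 := ContinuousMap.inner_toLp μ φ φ
    simp only [hφr] at h2
    simp only [one_mul] at h1
    rw [← h2, h0, ContinuousMap.zero_apply, eq_comm, inner_self_eq_zero] at h1
    have h3 : φ = 0 := ContinuousMap.toLp_injective (p := 2) (𝕜 := ℂ) μ (h1.trans (map_zero _).symm)
    rw [h3] at hφ1
    simp at hφ1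
  obtain ⟨c, r, hc, hr, hcr⟩ := C1_growth (ContinuousMap.toLp 2 μ ℂ)
    (ContinuousMap.toLp_injective μ) (C1conv μ φ)
    (C1_inner_conv μ φ fun k => by rw [hφr, hφs]) φ hne
  let s : Set (C(K, ℂ) →L[ℂ] C(K, ℂ)) := insert (C1conv μ ψ) (Set.range C1lam)
  have hs : s ⊆ s.centralizer := by
    rintro x (rfl | ⟨k, rfl⟩) y (rfl | ⟨k', rfl⟩)
    · rfl
    · exact C1conv_comm μ ψ k'
    · exact (C1conv_comm μ ψ k).symm
    · rw [← C1lam_mul, ← C1lam_mul, mul_comm]
  let A := Subalgebra.centralizer ℂ s.centralizer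
  let L : K → A := fun k => ⟨C1lam k, Set.subset_centralizer_centralizer (Or.inr ⟨k, rfl⟩)⟩
  let S : A := ⟨C1conv μ ψ, Set.subset_centralizer_centralizer (Or.inl rfl)⟩
  have hLmul : ∀ k k', L (k * k') = L k * L k' := fun k k' => Subtype.ext (C1lam_mul k k')
  have hL1 : L 1 = 1 := Subtype.ext C1lam_one
  have ha : ((S + S - L g⁻¹ * S - L g * S : A) : C(K, ℂ) →L[ℂ] C(K, ℂ)) = C1conv μ φ := by
    simp only [φ, map_sub, map_add, AddSubgroupClass.coe_sub, Subalgebra.coe_add,
      Subalgebra.coe_mul, L, S, C1lam_conv, inv_inv]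
  obtain ⟨θ, hθ, hθa⟩ := C1_gelfand s hs (S + S - L g⁻¹ * S - L g * S) c r hc hr (by
    rw [ha]; exact hcr)
  have hθc : Continuous θ := AddMonoidHomClass.continuous_of_bound θ
    ‖(1 : C(K, ℂ) →L[ℂ] C(K, ℂ))‖ fun x => by rw [mul_comm]; exact hθ x
  simp only [map_sub, map_add, map_mul] at hθa
  have hS : θ S ≠ 0 := fun h0 => hθa (by simp [h0])
  have hinv : ∀ k, θ (L k) * θ (L k⁻¹) = 1 := fun k => by
    rw [← map_mul, ← hLmul, mul_inv_cancel, hL1, map_one]
  have hle : ∀ k, ‖θ (L k)‖ ≤ 1 := fun k =>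
    (hθ (L k)).trans (mul_le_one₀ (C1lam_norm k) (norm_nonneg _) ContinuousLinearMap.norm_id_le)
  have hnorm : ∀ k, ‖θ (L k)‖ = 1 := fun k => by
    have h1 := congrArg norm (hinv k)
    rw [norm_mul, norm_one] at h1
    refine le_antisymm (hle k) ?_
    rw [← h1]
    exact mul_le_of_le_one_right (norm_nonneg _) (hle _)
  have hcont : Continuous fun k => θ (L k) := by
    have h1 : Continuous fun k => L k * S := by
      refine Continuous.subtype_mk (f := fun k => C1lam k * C1conv μ ψ) ?_ _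
      simp only [C1lam_conv]
      exact (C1conv μ).continuous.comp ((C1lam_cont ψ).comp continuous_inv)
    have h2 : (fun k => θ (L k)) = fun k => θ (L k * S) / θ S := by
      funext k
      rw [map_mul, mul_div_cancel_right₀ _ hS]
    rw [h2]
    exact (hθc.comp h1).div_const _
  refine ⟨{ toFun := fun k => ⟨θ (L k), mem_sphere_zero_iff_norm.2 (hnorm k)⟩
            map_one' := Circle.ext (by simp [hL1])
            map_mul' := fun k k' => Circle.ext (by simp [hLmul]) },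
    hcont.subtype_mk _, fun h1 => hθa ?_⟩
  have h2 : θ (L g) = 1 := congrArg Subtype.val h1
  have h3 := hinv g
  rw [h2, one_mul] at h3
  rw [h2, h3]
  ring

end Crest.Agent.R217
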