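import Crest.Agent.R217.PartC1

/-! # Row 217, part C2: a group with small subgroups has small pro-`p` elements. -/

set_option autoImplicit false
open Filter Topology

namespace Crest.Agent.R217

/-- A closed subgroup whose image under a character has an element of infinite order maps onto
the circle. -/
theorem C2_surj {K : Type*} [CommGroup K] [TopologicalSpace K] [CompactSpace K]
    (χ : K →* Circle) (hχ : Continuous χ) (H : Subgroup K) (hH : IsClosed (H : Set K)) (g : K)
    (hg : g ∈ H) (h : ¬ IsOfFinOrder (χ g)) (z : Circle) : ∃ x ∈ H, χ x = z := by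
  have _ : Fact ((0 : ℝ) < 1) := ⟨one_pos⟩
  have hs : ∀ w : Circle, ∃ a : AddCircle (1 : ℝ), AddCircle.toCircle a = w := fun w => by
    obtain ⟨a, ha⟩ := (AddCircle.homeomorphCircle (T := 1) one_ne_zero).surjective w
    exact ⟨a, by rw [← ha, AddCircle.homeomorphCircle_apply]⟩
  obtain ⟨a, ha⟩ := hs (χ g)
  obtain ⟨b, rfl⟩ := hs z
  have h0 : addOrderOf a = 0 := by
    by_contra h0
    refine h (isOfFinOrder_iff_pow_eq_one.2 ⟨addOrderOf a, Nat.pos_of_ne_zero h0, ?_⟩)
    rw [← ha, ← AddCircle.toCircle_nsmul, addOrderOf_nsmul_eq_zero, AddCircle.toCircle_zero]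
  have hd := AddCircle.denseRange_zsmul_iff.2 h0
  have hcl : IsClosed (AddCircle.toCircle ⁻¹' (χ '' (H : Set K)) : Set (AddCircle (1 : ℝ))) :=
    (hH.isCompact.image hχ).isClosed.preimage AddCircle.continuous_toCircle
  refine closure_minimal ?_ hcl (hd b)
  rintro _ ⟨n, rfl⟩
  exact ⟨g ^ n, H.zpow_mem hg n, by rw [map_zpow, ← ha, AddCircle.toCircle_zsmul]⟩

theorem C2_exists_prime {K : Type*} [CommGroup K] [TopologicalSpace K] [CompactSpace K]
    (χ : K →* Circle) (hχ : Continuous χ) (g : K) (hg : χ g ≠ 1) :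
    ∃ (p : ℕ) (x : K), p.Prime ∧ χ x ≠ 1 ∧ χ x ^ p = 1 := by
  by_cases h : IsOfFinOrder (χ g)
  · obtain ⟨p, hp, m, hm⟩ := Nat.exists_prime_and_dvd (mt orderOf_eq_one_iff.1 hg)
    have hpos := h.orderOf_pos
    refine ⟨p, g ^ m, hp, ?_, by rw [map_pow, ← pow_mul, mul_comm, ← hm, pow_orderOf_eq_one]⟩
    rw [map_pow]
    have hm0 : m ≠ 0 := by
      rintro rfl
      omega
    refine pow_ne_one_of_lt_orderOf hm0 ?_
    rw [hm]
    exact lt_mul_left (Nat.pos_of_ne_zero hm0) hp.one_lt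
  · obtain ⟨x, -, hx⟩ := C2_surj χ hχ ⊤ isClosed_univ g trivial h (-1)
    refine ⟨2, x, Nat.prime_two, ?_, by rw [hx]; simp⟩
    rw [hx]
    intro h1
    have := congrArg (fun z : Circle => (z : ℂ)) h1
    norm_num at this

/-- A minimal closed subgroup meeting a fibre of a character. -/
theorem C2_exists_min {K : Type*} [CommGroup K] [TopologicalSpace K] [IsTopologicalGroup K]
    [CompactSpace K] (π : K →* Circle) (hπ : Continuous π) (x₀ : K) :
    ∃ g : K, π g = π x₀ ∧ ∀ x ∈ (Subgroup.zpowers g).topologicalClosure, π x = π x₀ →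
      g ∈ (Subgroup.zpowers x).topologicalClosure := by
  obtain ⟨H, -, hH⟩ := zorn_le_nonempty₀ (α := (Subgroup K)ᵒᵈ)
    {H : Subgroup K | IsClosed (H : Set K) ∧ ∃ x ∈ H, π x = π x₀} (fun c hc hch y hy => by
      have _ : Nonempty c := ⟨⟨y, hy⟩⟩
      have hcl : ∀ i : c, IsClosed ((show Subgroup K from i.1 : Set K) ∩ π ⁻¹' {π x₀}) :=
        fun i => (hc i.2).1.inter (isClosed_singleton.preimage hπ)
      obtain ⟨x, hx⟩ := IsCompact.nonempty_iInter_of_directed_nonempty_isCompact_isClosed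
        (fun i : c => (show Subgroup K from i.1 : Set K) ∩ π ⁻¹' {π x₀})
        (fun i j => by
          rcases hch.total i.2 j.2 with h | h
          · exact ⟨j, Set.inter_subset_inter_left _ h, subset_rfl⟩
          · exact ⟨i, subset_rfl, Set.inter_subset_inter_left _ h⟩)
        (fun i => (hc i.2).2) (fun i => (hcl i).isCompact) hcl
      rw [Set.mem_iInter] at hx
      refine ⟨(⨅ i : c, (show Subgroup K from i.1) : Subgroup K), ⟨?_, x, ?_, (hx ⟨y, hy⟩).2⟩,
        fun z hz => iInf_le (fun i : c => (show Subgroup K from i.1)) ⟨z, hz⟩⟩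
      · rw [Subgroup.coe_iInf]
        exact isClosed_iInter fun i => (hc i.2).1
      · exact Subgroup.mem_iInf.2 fun i => (hx i).1)
    (⊤ : Subgroup K) ⟨isClosed_univ, x₀, trivial, rfl⟩
  obtain ⟨⟨hcl, g, hg, hgx⟩, hmin⟩ := hH
  refine ⟨g, hgx, fun x hx hxx => ?_⟩
  have h1 : (Subgroup.zpowers g).topologicalClosure ≤ (show Subgroup K from H) :=
    Subgroup.topologicalClosure_minimal _ (Subgroup.zpowers_le.2 hg) hcl
  have h2 : (Subgroup.zpowers x).topologicalClosure ≤ (show Subgroup K from H) :=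
    Subgroup.topologicalClosure_minimal _ (Subgroup.zpowers_le.2 (h1 hx)) hcl
  exact hmin (y := (Subgroup.zpowers x).topologicalClosure)
    ⟨Subgroup.isClosed_topologicalClosure _, x,
      Subgroup.le_topologicalClosure _ (Subgroup.mem_zpowers x), hxx⟩ h2 hg

/-- A continuous character killing `x` kills the closed subgroup generated by `x`. -/
theorem C2_ker {K : Type*} [CommGroup K] [TopologicalSpace K] [IsTopologicalGroup K]
    (χ : K →* Circle) (hχ : Continuous χ) (n : ℕ) {x y : K} (hx : χ x ^ n = 1)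
    (hy : y ∈ (Subgroup.zpowers x).topologicalClosure) : χ y ^ n = 1 := by
  have h1 : (Subgroup.zpowers x).topologicalClosure ≤ ((powMonoidHom n).comp χ).ker :=
    Subgroup.topologicalClosure_minimal _ (Subgroup.zpowers_le.2 hx)
      (isClosed_eq (hχ.pow n) continuous_const)
  exact h1 hy

/-- A nontrivial compact abelian group has an element `g ≠ 1` with `g ^ (p ^ k * a) → 1`
uniformly in `a`. -/
theorem exists_proP_of_compact (K : Type*) [CommGroup K] [TopologicalSpace K] [IsTopologicalGroup K]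
    [T2Space K] [SecondCountableTopology K] [CompactSpace K] [Nontrivial K] :
    ∃ (p : ℕ) (g : K), p.Prime ∧ g ≠ 1 ∧
      ∀ V ∈ 𝓝 (1 : K), ∃ k : ℕ, ∀ a : ℕ, g ^ (p ^ k * a) ∈ V := by
  obtain ⟨g₀, hg₀⟩ := exists_ne (1 : K)
  obtain ⟨π, hπ, hπg⟩ := exists_char_ne_one K g₀ hg₀
  obtain ⟨p, x₀, hp, hx1, hxp⟩ := C2_exists_prime π hπ g₀ hπg
  obtain ⟨g, hg, hmin⟩ := C2_exists_min π hπ x₀
  have hgp : π g ^ p = 1 := by rw [hg, hxp]
  have hgg : g ∈ (Subgroup.zpowers g).topologicalClosure :=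
    Subgroup.le_topologicalClosure _ (Subgroup.mem_zpowers g)
  have key : ∀ χ : K →* Circle, Continuous χ → ∃ k : ℕ, χ (g ^ p ^ k) = 1 := by
    intro χ hχ
    by_cases h : IsOfFinOrder (χ g)
    · obtain ⟨e, q, hq, he⟩ := Nat.exists_eq_pow_mul_and_not_dvd h.orderOf_pos.ne' p hp.ne_one
      obtain ⟨m, -, hm⟩ := Nat.exists_mul_mod_eq_one_of_coprime
        ((hp.coprime_iff_not_dvd.2 hq).symm) hp.one_lt
      have h1 := hmin (g ^ (q * m)) (Subgroup.pow_mem _ hgg _) (by
        rw [map_pow, pow_eq_pow_mod _ hgp, hm, pow_one, hg])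
      refine ⟨e, ?_⟩
      rw [map_pow]
      refine C2_ker χ hχ (p ^ e) ?_ h1
      rw [map_pow, ← pow_mul, show q * m * p ^ e = p ^ e * q * m by ring, ← he, pow_mul,
        pow_orderOf_eq_one, one_pow]
    · obtain ⟨θ, hθ⟩ := Circle.exp_surjective (χ g)
      obtain ⟨y, hy, hyz⟩ := C2_surj χ hχ _ (Subgroup.isClosed_topologicalClosure _) g hgg h
        (Circle.exp (θ / p))
      have hyp : χ y ^ p = χ g := by
        rw [hyz, ← hθ, ← Circle.exp_natCast_mul, mul_div_cancel₀ _ (Nat.cast_ne_zero.2 hp.ne_zero)]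
      have h1 := hmin (g * (y ^ p)⁻¹)
        (Subgroup.mul_mem _ hgg (Subgroup.inv_mem _ (Subgroup.pow_mem _ hy _))) (by
          rw [map_mul, map_inv, map_pow, C2_ker π hπ p hgp hy, inv_one, mul_one, hg])
      refine ⟨0, ?_⟩
      rw [map_pow]
      refine C2_ker χ hχ _ ?_ h1
      rw [map_mul, map_inv, map_pow, hyp, mul_inv_cancel, one_pow]
  refine ⟨p, g, hp, fun h => hx1 (by rw [← hg, h, map_one]), fun V hV => ?_⟩
  have hanti : Antitone fun k : ℕ =>
      ((Subgroup.zpowers (g ^ p ^ k)).topologicalClosure : Set K) := by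
    refine antitone_nat_of_succ_le fun k => ?_
    refine Subgroup.topologicalClosure_mono (Subgroup.zpowers_le.2 ?_)
    rw [pow_succ, pow_mul]
    exact Subgroup.pow_mem _ (Subgroup.mem_zpowers _) _
  obtain ⟨k, hk⟩ := exists_subset_nhds_of_isCompact hanti.directed_ge
    (fun k => (Subgroup.isClosed_topologicalClosure _).isCompact) (U := V) fun d hd => by
      obtain rfl : d = 1 := by
        by_contra hd1
        obtain ⟨χ, hχ, hχd⟩ := exists_char_ne_one K d hd1
        obtain ⟨k, hk⟩ := key χ hχ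
        have := C2_ker χ hχ 1 (by rw [hk, one_pow]) (Set.mem_iInter.1 hd k)
        exact hχd (by rwa [pow_one] at this)
      exact hV
  refine ⟨k, fun a => hk (Subgroup.le_topologicalClosure _ ?_)⟩
  rw [pow_mul]
  exact Subgroup.pow_mem _ (Subgroup.mem_zpowers _) _

theorem exists_proP_of_not_nss (G : Type*) [Group G] [TopologicalSpace G] [IsTopologicalGroup G]
    [T2Space G] [SecondCountableTopology G] [LocallyCompactSpace G] (h : ¬ NSS G)
    (U : Set G) (hU : U ∈ 𝓝 (1 : G)) :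
    ∃ (p : ℕ) (g : G) (K : Subgroup G), p.Prime ∧ g ≠ 1 ∧ g ∈ K ∧ IsCompact (K : Set G) ∧
      (K : Set G) ⊆ U ∧ ∀ V ∈ 𝓝 (1 : G), ∃ k : ℕ, ∀ a : ℕ, g ^ (p ^ k * a) ∈ V := by
  obtain ⟨W, hW, hWU, hWc⟩ := local_compact_nhds hU
  unfold NSS at h
  push Not at h
  obtain ⟨H, hHW, hH⟩ := h W hW
  obtain ⟨⟨x, hxH⟩, hx⟩ := (Subgroup.ne_bot_iff_exists_ne_one).1 hH
  have hx1 : x ≠ 1 := fun h1 => hx (Subtype.ext h1)
  let K := (Subgroup.zpowers x).topologicalClosure
  have hKW : (K : Set G) ⊆ W :=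
    closure_minimal (fun y hy => hHW (Subgroup.zpowers_le.2 hxH hy)) hWc.isClosed
  have hKc : IsCompact (K : Set G) :=
    hWc.of_isClosed_subset (Subgroup.isClosed_topologicalClosure _) hKW
  have _ : CompactSpace K := isCompact_iff_compactSpace.1 hKc
  have _ : Nontrivial K :=
    ⟨⟨x, Subgroup.le_topologicalClosure _ (Subgroup.mem_zpowers x)⟩, 1,
      fun h1 => hx1 (congrArg Subtype.val h1)⟩
  have _ : SecondCountableTopology K := TopologicalSpace.Subtype.secondCountableTopology (K : Set G)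
  let _ : CommGroup K := (Subgroup.zpowers x).commGroupTopologicalClosure (by
    rintro ⟨_, m, rfl⟩ ⟨_, n, rfl⟩
    exact Subtype.ext (zpow_mul_comm x m n))
  obtain ⟨p, g, hp, hg, hV⟩ := exists_proP_of_compact K
  refine ⟨p, g, K, hp, fun h1 => hg (Subtype.ext h1), g.2, hKc, hKW.trans hWU, fun V hV' => ?_⟩
  obtain ⟨k, hk⟩ := hV (Subtype.val ⁻¹' V) (continuous_subtype_val.continuousAt.preimage_mem_nhds hV')
  exact ⟨k, fun a => hk a⟩

end Crest.Agent.R217
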