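import Crest.Agent.R217.PartC2

/-! # Row 217, part C3a: transport of `ThmS n` along embeddings; fixed neighbourhoods. -/

set_option autoImplicit false
open Filter Topology Set

namespace Crest.Agent.R217

section
variable {n : ℕ} {M : Type*} [TopologicalSpace M] [T2Space M]
  {G : Type*} [Group G] [TopologicalSpace G] [MulAction G M] [ContinuousSMul G M]

omit [T2Space M] in
lemma c3a_continuousOn_inv [Nonempty M] {X : Set M} (hX : IsCompact X) {e : M → (Fin n → ℝ)}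
    (he : ContinuousOn e X) (hi : InjOn e X) :
    ContinuousOn (Function.invFunOn e X) (e '' X) := by
  refine continuousOn_iff_isClosed.2 fun t ht =>
    ⟨e '' (X ∩ t), ((hX.inter_right ht).image_of_continuousOn
      (he.mono inter_subset_left)).isClosed, ?_⟩
  ext w
  constructor
  · rintro ⟨h1, x, hx, rfl⟩
    rw [mem_preimage, hi.leftInvOn_invFunOn hx] at h1
    exact ⟨⟨x, ⟨hx, h1⟩, rfl⟩, x, hx, rfl⟩
  · rintro ⟨⟨x, hx, rfl⟩, h2⟩
    refine ⟨?_, h2⟩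
    rw [mem_preimage, hi.leftInvOn_invFunOn hx.1]
    exact hx.2

/-- the normalised case `c = 0`, `s = 1` -/
lemma c3a_core (hS : ThmS n) : ∃ ε : ℝ, 0 < ε ∧
    ∀ (p : ℕ) (K : Subgroup G) (g : G), (p.Prime ∧ g ∈ K ∧ IsCompact (K : Set G) ∧
      ∀ V ∈ 𝓝 (1 : G), ∃ k : ℕ, ∀ a : ℕ, g ^ (p ^ k * a) ∈ V) →
    ∀ (X : Set M), IsCompact X → (∀ x ∈ X, g • x ∈ X) →
    ∀ (e : M → (Fin n → ℝ)), ContinuousOn e X → InjOn e X →
    Metric.closedBall 0 2 ⊆ e '' X →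
    (∀ a : ℕ, ∀ x ∈ X, ‖e (g ^ a • x) - e x‖ ≤ ε) →
    ∀ x ∈ X, e x = 0 → g • x = x := by
  obtain ⟨ε, hε, hS⟩ := hS
  refine ⟨ε, hε, ?_⟩
  rintro p K g ⟨hp, hgK, hK, hlim⟩ X hX hgX e he hi hball hsmall x₀ hx₀ hex₀
  have : Nonempty M := ⟨x₀⟩
  set ι := Function.invFunOn e X with hι
  have hιe : ∀ x ∈ X, ι (e x) = x := fun x hx => hi.leftInvOn_invFunOn hx
  have hιc : ContinuousOn ι (e '' X) := c3a_continuousOn_inv hX he hi
  have hW : IsCompact (e '' X) := hX.image_of_continuousOn he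
  set K₀ : Set G := (K : Set G) ∩ ⋂ x ∈ X, (fun k : G => k • x) ⁻¹' X with hK₀
  have hK₀c : IsCompact K₀ :=
    hK.inter_right (isClosed_biInter fun x _ =>
      hX.isClosed.preimage (continuous_id.smul continuous_const))
  have hpowX : ∀ a : ℕ, ∀ x ∈ X, g ^ a • x ∈ X := by
    intro a
    induction a with
    | zero => intro x hx; simpa using hx
    | succ a ih => intro x hx; rw [pow_succ', mul_smul]; exact hgX _ (ih x hx)
  have hpow : ∀ a : ℕ, g ^ a ∈ K₀ := fun a =>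
    ⟨K.pow_mem hgK a, mem_iInter₂.2 fun x hx => hpowX a x hx⟩
  set F : G → (Fin n → ℝ) → (Fin n → ℝ) := fun k w => e (k • ι w) with hF
  have hFc : ContinuousOn (Function.uncurry F) (K₀ ×ˢ (e '' X)) := by
    refine he.comp (f := fun q : G × (Fin n → ℝ) => q.1 • ι q.2)
      (continuousOn_fst.smul (hιc.comp continuousOn_snd fun q hq => hq.2)) ?_
    rintro ⟨k, _⟩ ⟨hk, x, hx, rfl⟩
    simp only [hιe x hx]
    exact mem_iInter₂.1 hk.2 x hx
  have hit : ∀ a : ℕ, ∀ w ∈ e '' X, (F g)^[a] w = F (g ^ a) w := by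
    rintro a _ ⟨x, hx, rfl⟩
    induction a with
    | zero => simp [hF, hιe x hx]
    | succ a ih =>
      rw [Function.iterate_succ_apply', ih]
      simp only [hF, hιe x hx, hιe _ (hpowX a x hx), pow_succ', mul_smul]
  have key : F g 0 = 0 := by
    refine hS p hp (e '' X) hW hball (F g) ?_ ?_ ?_ ?_
    · rintro _ ⟨x, hx, rfl⟩
      exact ⟨g • x, hgX x hx, by simp only [hF, hιe x hx]⟩
    · rintro a _ ⟨x, hx, rfl⟩
      rw [hit a _ ⟨x, hx, rfl⟩]
      simp only [hF, hιe x hx]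
      exact hsmall a x hx
    · intro η hη
      have hc : ContinuousOn
          (fun q : G × (Fin n → ℝ) × (Fin n → ℝ) => ‖F q.1 q.2.1 - F q.1 q.2.2‖)
          (K₀ ×ˢ (e '' X) ×ˢ (e '' X)) :=
        ((hFc.comp (f := fun q : G × (Fin n → ℝ) × (Fin n → ℝ) => (q.1, q.2.1)) (by fun_prop)
          fun q hq => ⟨hq.1, hq.2.1⟩).sub
          (hFc.comp (f := fun q : G × (Fin n → ℝ) × (Fin n → ℝ) => (q.1, q.2.2)) (by fun_prop)
          fun q hq => ⟨hq.1, hq.2.2⟩)).norm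
      obtain ⟨u, hu, hu'⟩ := continuousOn_iff_isClosed.1 hc (Ici η) isClosed_Ici
      have hT := (hK₀c.prod (hW.prod hW)).inter_left hu
      rw [← hu'] at hT
      obtain ⟨δ, hδ, hδ'⟩ := hT.exists_forall_le'
        (f := fun q : G × (Fin n → ℝ) × (Fin n → ℝ) => ‖q.2.1 - q.2.2‖) (a := 0) (by fun_prop)
        (by
          rintro ⟨k, x, y⟩ ⟨h1, -⟩
          refine norm_pos_iff.2 (sub_ne_zero.2 ?_)
          rintro (rfl : x = y)
          simp only [mem_preimage, sub_self, norm_zero, mem_Ici] at h1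
          linarith)
      refine ⟨δ / 2, half_pos hδ, fun a x hx y hy hxy => ?_⟩
      rw [hit a x hx, hit a y hy]
      by_contra hcon
      have := hδ' (g ^ a, x, y) ⟨(not_le.1 hcon).le, hpow a, hx, hy⟩
      simp only at this
      linarith
    · intro η hη
      obtain ⟨v, hv, hv'⟩ := hW.mem_uniformity_of_prod hFc (by simpa using hpow 0 : (1 : G) ∈ K₀)
        (Metric.dist_mem_uniformity hη)
      obtain ⟨V, hV, hVv⟩ := mem_nhdsWithin_iff_exists_mem_nhds_inter.1 hv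
      obtain ⟨k, hk⟩ := hlim V hV
      refine ⟨k, fun a w hw => ?_⟩
      have h1 : dist (F (g ^ (p ^ k * a)) w) (F 1 w) < η := hv' _ (hVv ⟨hk a, hpow _⟩) w hw
      have h2 := hit 0 w hw
      rw [pow_zero, Function.iterate_zero_apply] at h2
      rw [hit _ w hw, ← dist_eq_norm]
      rw [← h2] at h1
      exact h1.le
  rw [← hex₀] at key
  simp only [hF, hιe x₀ hx₀] at key
  exact hi (hgX x₀ hx₀) hx₀ key

theorem fix_of_thmS' (hS : ThmS n) : ∃ ε : ℝ, 0 < ε ∧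
    ∀ (p : ℕ) (K : Subgroup G) (g : G), (p.Prime ∧ g ∈ K ∧ IsCompact (K : Set G) ∧
      ∀ V ∈ 𝓝 (1 : G), ∃ k : ℕ, ∀ a : ℕ, g ^ (p ^ k * a) ∈ V) →
    ∀ (X : Set M), IsCompact X → (∀ x ∈ X, g • x ∈ X) →
    ∀ (e : M → (Fin n → ℝ)), ContinuousOn e X → InjOn e X →
    ∀ (c : Fin n → ℝ) (s : ℝ), 0 < s → Metric.closedBall c (2 * s) ⊆ e '' X →
    (∀ a : ℕ, ∀ x ∈ X, ‖e (g ^ a • x) - e x‖ ≤ ε * s) →
    ∀ x ∈ X, e x = c → g • x = x := by
  obtain ⟨ε, hε, h⟩ := c3a_core (M := M) (G := G) hS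
  refine ⟨ε, hε, fun p K g hP X hX hgX e he hi c s hs hball hsmall x hx hex => ?_⟩
  refine h p K g hP X hX hgX (fun y => s⁻¹ • (e y - c))
    ((he.sub continuousOn_const).const_smul s⁻¹) (fun y hy z hz hyz => hi hy hz ?_)
    (fun w hw => ?_) (fun a y hy => ?_) x hx (by simp [hex])
  · exact sub_left_injective (smul_right_injective _ (inv_ne_zero hs.ne') hyz)
  · obtain ⟨y, hy, hy'⟩ := hball (show c + s • w ∈ Metric.closedBall c (2 * s) by
      rw [mem_closedBall_zero_iff] at hw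
      rw [mem_closedBall_iff_norm, add_sub_cancel_left, norm_smul, Real.norm_of_nonneg hs.le]
      nlinarith)
    exact ⟨y, hy, by simp [hy', smul_smul, hs.ne']⟩
  · rw [← smul_sub, sub_sub_sub_cancel_right, norm_smul, norm_inv, Real.norm_of_nonneg hs.le,
      inv_mul_le_iff₀ hs, mul_comm]
    exact hsmall a y hy

theorem exists_nhds_fixed' [ChartedSpace (EuclideanSpace ℝ (Fin n)) M] (hS : ThmS n) (x₀ : M) :
    ∃ U ∈ 𝓝 (1 : G), ∃ O ∈ 𝓝 x₀,
    ∀ (p : ℕ) (K : Subgroup G) (g : G), (p.Prime ∧ g ∈ K ∧ IsCompact (K : Set G) ∧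
      ∀ V ∈ 𝓝 (1 : G), ∃ k : ℕ, ∀ a : ℕ, g ^ (p ^ k * a) ∈ V) →
      (K : Set G) ⊆ U → ∀ x ∈ O, g • x = x := by
  obtain ⟨ε, hε, h⟩ := fix_of_thmS' (M := M) (G := G) hS
  obtain ⟨ψ, hψ⟩ : ∃ ψ : OpenPartialHomeomorph M (Fin n → ℝ), x₀ ∈ ψ.source :=
    ⟨(chartAt (EuclideanSpace ℝ (Fin n)) x₀).transHomeomorph
      (EuclideanSpace.equiv (Fin n) ℝ).toHomeomorph, by simp⟩
  obtain ⟨r, hr, hrt⟩ := Metric.nhds_basis_closedBall.mem_iff.1
    (ψ.open_target.mem_nhds (ψ.map_source hψ))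
  set s := r / 3 with hs
  have hs0 : 0 < s := by positivity
  set B := ψ.symm '' Metric.closedBall (ψ x₀) r with hB
  have hBc : IsCompact B :=
    (isCompact_closedBall _ _).image_of_continuousOn (ψ.continuousOn_symm.mono hrt)
  have hBs : B ⊆ ψ.source := by
    rintro _ ⟨w, hw, rfl⟩
    exact ψ.map_target (hrt hw)
  have hU : ∀ᶠ k in 𝓝 (1 : G), ∀ x ∈ B, k • x ∈ ψ.source ∧ ‖ψ (k • x) - ψ x‖ < ε * s / 2 := by
    refine hBc.eventually_forall_of_forall_eventually fun y hy => ?_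
    have h1 : ContinuousAt (fun q : G × M => q.1 • q.2) (1, y) := continuous_smul.continuousAt
    have h2 : ContinuousAt ψ y := ψ.continuousAt (hBs hy)
    have h3 : ContinuousAt (fun q : G × M => ‖ψ (q.1 • q.2) - ψ q.2‖) (1, y) :=
      ((ContinuousAt.comp_of_eq h2 h1 (by simp)).sub
        (ContinuousAt.comp_of_eq h2 continuousAt_snd rfl)).norm
    refine (h1.eventually ?_).and (h3.eventually (gt_mem_nhds ?_))
    · simpa using ψ.open_source.mem_nhds (hBs hy)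
    · simp only [one_smul, sub_self, norm_zero]
      positivity
  refine ⟨_, hU, ψ.source ∩ ψ ⁻¹' Metric.closedBall (ψ x₀) s,
    inter_mem (ψ.open_source.mem_nhds hψ)
      (ψ.continuousAt hψ (Metric.closedBall_mem_nhds _ hs0)), ?_⟩
  intro p K g hP hKU x hx
  have hgK := hP.2.1
  set X := (fun q : G × M => q.1 • q.2) '' ((K : Set G) ×ˢ B) with hX
  have hXs : X ⊆ ψ.source := by
    rintro _ ⟨⟨k, b⟩, ⟨hk, hb⟩, rfl⟩
    exact (hKU hk b hb).1
  have hBX : B ⊆ X := fun b hb => ⟨(1, b), ⟨K.one_mem, hb⟩, one_smul _ _⟩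
  refine h p K g hP X ((hP.2.2.1.prod hBc).image continuous_smul) ?_ ψ
    (ψ.continuousOn.mono hXs) (ψ.injOn.mono hXs) (ψ x) s hs0 (fun w hw => ?_) ?_ x (hBX ?_) rfl
  · rintro _ ⟨⟨k, b⟩, ⟨hk, hb⟩, rfl⟩
    exact ⟨(g * k, b), ⟨K.mul_mem hgK hk, hb⟩, mul_smul _ _ _⟩
  · have hw' : w ∈ Metric.closedBall (ψ x₀) r := by
      have h1 : dist (ψ x) (ψ x₀) ≤ s := hx.2
      have h2 : dist w (ψ x) ≤ 2 * s := hw
      have h3 := dist_triangle w (ψ x) (ψ x₀)
      rw [Metric.mem_closedBall]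
      linarith
    exact ⟨ψ.symm w, hBX ⟨w, hw', rfl⟩, ψ.right_inv (hrt hw')⟩
  · rintro a _ ⟨⟨k, b⟩, ⟨hk, hb⟩, rfl⟩
    have h1 := (hKU (K.mul_mem (K.pow_mem hgK a) hk) b hb).2
    have h2 := (hKU hk b hb).2
    rw [mul_smul] at h1
    have h3 := norm_sub_le (ψ (g ^ a • k • b) - ψ b) (ψ (k • b) - ψ b)
    rw [sub_sub_sub_cancel_right] at h3
    linarith
  · exact ⟨ψ x, Metric.closedBall_subset_closedBall (by linarith) hx.2, ψ.left_inv hx.1⟩

end

end Crest.Agent.R217
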