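import Crest.Agent.R217.PartC2
import Crest.Agent.R217.PartC3a
import Crest.Agent.R217.C3b

/-! # Row 217, part C3: from the local theorem `ThmS n` to NSS. -/

set_option autoImplicit false
open Filter Topology Set

namespace Crest.Agent.R217

section
variable {n : ℕ} {M : Type*} [TopologicalSpace M] [T2Space M]
  [ChartedSpace (EuclideanSpace ℝ (Fin n)) M]
  {G : Type*} [Group G] [TopologicalSpace G] [IsTopologicalGroup G]
  [MulAction G M] [ContinuousSMul G M]

/-- `g` lies in the compact subgroup `K` and `g ^ (p ^ k * a) → 1` uniformly in `a`. -/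
def ProP (p : ℕ) (K : Subgroup G) (g : G) : Prop :=
  p.Prime ∧ g ∈ K ∧ IsCompact (K : Set G) ∧ ∀ V ∈ 𝓝 (1 : G), ∃ k : ℕ, ∀ a : ℕ, g ^ (p ^ k * a) ∈ V

/-- `ThmS` transported along an embedding `e` of a compact `g`-invariant set `X ⊆ M`
(`e` continuous and injective on `X`, centre `c`, scale `s`). -/
theorem fix_of_thmS (hS : ThmS n) : ∃ ε : ℝ, 0 < ε ∧
    ∀ (p : ℕ) (K : Subgroup G) (g : G), ProP p K g →
    ∀ (X : Set M), IsCompact X → (∀ x ∈ X, g • x ∈ X) →
    ∀ (e : M → (Fin n → ℝ)), ContinuousOn e X → InjOn e X →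
    ∀ (c : Fin n → ℝ) (s : ℝ), 0 < s → Metric.closedBall c (2 * s) ⊆ e '' X →
    (∀ a : ℕ, ∀ x ∈ X, ‖e (g ^ a • x) - e x‖ ≤ ε * s) →
    ∀ x ∈ X, e x = c → g • x = x :=
  fix_of_thmS' hS

/-- Small pro-`p` elements fix a neighbourhood of `x₀` pointwise. -/
theorem exists_nhds_fixed (hS : ThmS n) (x₀ : M) : ∃ U ∈ 𝓝 (1 : G), ∃ O ∈ 𝓝 x₀,
    ∀ (p : ℕ) (K : Subgroup G) (g : G), ProP p K g → (K : Set G) ⊆ U → ∀ x ∈ O, g • x = x :=
  exists_nhds_fixed' hS x₀

/-- Unique continuation: the interior of the fixed set of a pro-`p` element is closed. -/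
theorem isClosed_interior_fixed (hS : ThmS n) (p : ℕ) (K : Subgroup G) (g : G) (hg : ProP p K g) :
    IsClosed (interior {x : M | g • x = x}) := by
  obtain ⟨ε, hε, h⟩ := fix_of_thmS (M := M) (G := G) hS
  exact C3b_main (Z := Fin n → ℝ) (fun x => ⟨(chartAt (EuclideanSpace ℝ (Fin n)) x).transHomeomorph
    (EuclideanSpace.equiv (Fin n) ℝ).toHomeomorph, mem_chart_source _ x⟩) hg.2.2.1 hg.2.1 hε
    (h p K g hg)

end

theorem nss_of_thmS (n : ℕ) (hS : ThmS n)
    (M : Type*) [TopologicalSpace M] [T2Space M] [ConnectedSpace M]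
    [ChartedSpace (EuclideanSpace ℝ (Fin n)) M]
    (G : Type*) [Group G] [TopologicalSpace G] [IsTopologicalGroup G] [T2Space G]
    [SecondCountableTopology G] [LocallyCompactSpace G]
    [MulAction G M] [ContinuousSMul G M] [FaithfulSMul G M] : NSS G := by
  by_contra h
  obtain ⟨x₀⟩ : Nonempty M := inferInstance
  obtain ⟨U, hU, O, hO, hfix⟩ := exists_nhds_fixed (G := G) hS x₀
  obtain ⟨p, g, K, hp, hg1, hgK, hK, hKU, hlim⟩ := exists_proP_of_not_nss G h U hU
  have hP : ProP p K g := ⟨hp, hgK, hK, hlim⟩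
  have hcl : IsClopen (interior {x : M | g • x = x}) :=
    ⟨isClosed_interior_fixed hS p K g hP, isOpen_interior⟩
  have hne : (interior {x : M | g • x = x}).Nonempty :=
    ⟨x₀, mem_interior_iff_mem_nhds.2 (Filter.mem_of_superset hO (hfix p K g hP hKU))⟩
  have huniv := hcl.eq_univ hne
  apply hg1
  apply (FaithfulSMul.eq_of_smul_eq_smul (α := M))
  intro x
  have : x ∈ interior {x : M | g • x = x} := huniv ▸ mem_univ x
  simpa using interior_subset this

end Crest.Agent.R217
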